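import Mathlib

/-! K9a: the chain argument for a sequence of families of convex functions. -/

set_option autoImplicit false

namespace Crest.Agent.Kac

section Chain

variable {E : Type*} [AddCommGroup E] [Module ℝ E] {ι : Type*}

/-- Data of the chain argument. -/
structure ChainData (f : ℕ → ι → E → ℝ) (D Ω : Set E) (C : ℝ) (M ε e : ℕ → ℝ) : Prop where
  sub : Ω ⊆ D
  convex : ∀ k i, ConvexOn ℝ D (f k i)
  Cpos : 0 < C
  bound : ∀ k i, ∀ z ∈ Ω, |f k i z| ≤ C
  up : ∀ k i, ∀ z ∈ Ω, ∃ Y, f (k + 1) i z ≤ max (f k i z) (f k Y z - M (k + 1)) + ε (k + 1)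
  lo : ∀ k i, ∀ z ∈ Ω, f k i z - ε (k + 1) ≤ f (k + 1) i z
  εnn : ∀ k, 0 ≤ ε k
  enn : ∀ k, 0 ≤ e k
  estep : ∀ k, e (k + 1) + ε (k + 1) ≤ e k
  eM : ∀ k, 8 * e k ≤ M (k + 1)
  Mpos : ∀ k, 0 < M (k + 1)

variable {f : ℕ → ι → E → ℝ} {D Ω : Set E} {C : ℝ} {M ε e : ℕ → ℝ}

theorem ChainData.le_of_max (h : ChainData f D Ω C M ε e) {K : ℕ} {z : E} (hz : z ∈ Ω) {P : ℝ}
    (hP : ∀ Y, f K Y z ≤ P) : ∀ n k, k + n = K → ∀ Y, f k Y z ≤ P + (e k - e K) := by
  intro n
  induction n with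
  | zero => intro k hk Y; have : k = K := by omega
            subst this; simpa using hP Y
  | succ n ih =>
    intro k hk Y
    have h1 := ih (k + 1) (by omega) Y
    have h2 := h.lo k Y z hz
    have h3 := h.estep k
    linarith

theorem ChainData.ge_of_max (h : ChainData f D Ω C M ε e) {K : ℕ} {z : E} (hz : z ∈ Ω) {P : ℝ}
    (hP : ∀ Y, f K Y z ≤ P) {X : ι} (hX : f K X z = P) :
    ∀ n k, k + n = K → P - (e k - e K) ≤ f k X z := by
  intro n
  induction n with
  | zero => intro k hk; have : k = K := by omega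
            subst this; linarith
  | succ n ih =>
    intro k hk
    have h1 := ih (k + 1) (by omega)
    obtain ⟨Y, hY⟩ := h.up k X z hz
    have h3 := h.estep k
    have h4 := h.le_of_max hz hP (n + 1) k hk Y
    have h5 := h.eM k
    have h6 := h.Mpos k
    have h7 := h.enn K
    have h8 := h.enn (k + 1)
    have h9 := h.εnn (k + 1)
    rcases le_total (f k Y z - M (k + 1)) (f k X z) with h10 | h10
    · rw [max_eq_left h10] at hY
      linarith
    · rw [max_eq_right h10] at hY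
      exfalso
      linarith

/-- Convexity bound on one side. -/
theorem ConvexOn.le_add_mul {g : E → ℝ} (hg : ConvexOn ℝ D g) {z d : E} (hz : z ∈ D)
    (hzd : z + d ∈ D) {δ : ℝ} (h0 : 0 ≤ δ) (h1 : δ ≤ 1) :
    g (z + δ • d) ≤ g z + δ * (g (z + d) - g z) := by
  have := hg.2 hz hzd (by linarith : (0 : ℝ) ≤ 1 - δ) h0 (by ring)
  have e1 : (1 - δ) • z + δ • (z + d) = z + δ • d := by
    rw [smul_add, sub_smul, one_smul]; abel
  rw [e1] at this
  simp only [smul_eq_mul] at this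
  linarith

theorem ConvexOn.ge_sub_mul {g : E → ℝ} (hg : ConvexOn ℝ D g) {z d : E}
    (hzd : z + d ∈ D) (hzd' : z - d ∈ D) (hz : z ∈ D) {δ : ℝ} (h0 : 0 ≤ δ) (h1 : δ ≤ 1) :
    g z - δ * (g (z - d) - g z) ≤ g (z + δ • d) := by
  have hmem : z + δ • d ∈ D := by
    have := hg.1 hz hzd (by linarith : (0 : ℝ) ≤ 1 - δ) h0 (by ring)
    have e1 : (1 - δ) • z + δ • (z + d) = z + δ • d := by
      rw [smul_add, sub_smul, one_smul]; abel
    rwa [e1] at this
  have hpos : 0 < 1 + δ := by linarith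
  have := hg.2 hmem hzd' (by positivity : (0 : ℝ) ≤ 1 / (1 + δ)) (by positivity : (0 : ℝ) ≤ δ / (1 + δ))
    (by field_simp)
  have e1 : (1 / (1 + δ)) • (z + δ • d) + (δ / (1 + δ)) • (z - d) = z := by
    have e2 : (1 / (1 + δ)) • (z + δ • d) + (δ / (1 + δ)) • (z - d)
        = (1 / (1 + δ) + δ / (1 + δ)) • z + (1 / (1 + δ) * δ - δ / (1 + δ)) • d := by
      rw [smul_add, smul_sub, add_smul, sub_smul, smul_smul]; abel
    rw [e2]
    have e3 : 1 / (1 + δ) + δ / (1 + δ) = 1 := by field_simp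
    have e4 : 1 / (1 + δ) * δ - δ / (1 + δ) = 0 := by field_simp; ring
    rw [e3, e4]; simp
  rw [e1] at this
  simp only [smul_eq_mul] at this
  have h3 : (1 + δ) * g z ≤ g (z + δ • d) + δ * g (z - d) := by
    have := mul_le_mul_of_nonneg_left this hpos.le
    have e5 : (1 + δ) * (1 / (1 + δ) * g (z + δ • d) + δ / (1 + δ) * g (z - d))
        = g (z + δ • d) + δ * g (z - d) := by field_simp
    linarith
  linarith

/-- Secant slopes of convex functions increase. -/
theorem ConvexOn.secant_le {g : E → ℝ} (hg : ConvexOn ℝ D g) {z d : E} (hz : z ∈ D)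
    (hzd : z + d ∈ D) {δ δ' : ℝ} (h0 : 0 < δ) (h1 : δ ≤ δ') (h2 : δ' ≤ 1) :
    (g (z + δ • d) - g z) / δ ≤ (g (z + δ' • d) - g z) / δ' := by
  have hmem : z + δ' • d ∈ D := by
    have := hg.1 hz hzd (by linarith : (0 : ℝ) ≤ 1 - δ') (by linarith) (by ring)
    have e1 : (1 - δ') • z + δ' • (z + d) = z + δ' • d := by
      rw [smul_add, sub_smul, one_smul]; abel
    rwa [e1] at this
  have hδ' : 0 < δ' := by linarith
  have h3 := ConvexOn.le_add_mul hg (d := δ' • d) hz hmem (δ := δ / δ') (by positivity)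
    (by rw [div_le_one hδ']; exact h1)
  have e1 : (δ / δ') • δ' • d = δ • d := by
    rw [smul_smul]; congr 1; field_simp
  rw [e1] at h3
  rw [div_le_div_iff₀ h0 hδ']
  have h4 : δ / δ' * (g (z + δ' • d) - g z) * δ' = (g (z + δ' • d) - g z) * δ := by
    field_simp
  nlinarith [mul_le_mul_of_nonneg_right h3 hδ'.le]

/-- Main chain estimate. -/
theorem ChainData.slope (h : ChainData f D Ω C M ε e) {K : ℕ} {z d : E} (hz : z ∈ Ω)
    (hzd : z + d ∈ Ω) (hzd' : z - d ∈ Ω) {P : ℝ}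
    (hP : ∀ Y, f K Y z ≤ P) {X : ι} (hX : f K X z = P) {δ hh : ℕ → ℝ} (hδ0 : δ 0 = 1)
    (hδpos : ∀ k, 0 < δ k) (hδmono : ∀ k, δ (k + 1) ≤ δ k)
    (hδM : ∀ k, δ (k + 1) ≤ M (k + 1) / (16 * C)) (hh0 : hh 0 = 0)
    (hhs : ∀ k, hh (k + 1) = hh k + 2 * ε (k + 1) / δ (k + 1))
    (hΩ : ∀ δ : ℝ, 0 ≤ δ → δ ≤ 1 → z + δ • d ∈ Ω) :
    ∀ k, k ≤ K → (f k X (z + δ k • d) - f k X z) / δ k ≤ f 0 X (z + d) - f 0 X z + hh k := by
  intro k
  induction k with
  | zero => intro _; rw [hδ0, hh0]; simp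
  | succ k ih =>
    intro hk
    have ih := ih (by omega)
    have hδle1 : ∀ k, δ k ≤ 1 := by
      intro k; induction k with
      | zero => rw [hδ0]
      | succ k ih => exact (hδmono k).trans ih
    have hmem : z + δ (k + 1) • d ∈ Ω := hΩ _ (hδpos _).le (hδle1 _)
    obtain ⟨Y, hY⟩ := h.up k X _ hmem
    -- the maximum is attained by X up to error
    have a1 := h.le_of_max hz hP (K - k) k (by omega) Y
    have a2 := h.ge_of_max hz hP hX (K - k) k (by omega)
    have b1 := ConvexOn.le_add_mul (h.convex k Y) (h.sub hz) (h.sub hzd) (hδpos (k+1)).le (hδle1 (k+1))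
    have b2 := ConvexOn.ge_sub_mul (h.convex k X) (h.sub hzd) (h.sub hzd') (h.sub hz)
      (hδpos (k+1)).le (hδle1 (k+1))
    have c1 := abs_le.1 (h.bound k Y _ hzd)
    have c2 := abs_le.1 (h.bound k Y _ hz)
    have c3 := abs_le.1 (h.bound k X _ hzd')
    have c4 := abs_le.1 (h.bound k X _ hz)
    have hC := h.Cpos
    have d1 : δ (k+1) * (f k Y (z + d) - f k Y z) ≤ δ (k+1) * (2 * C) :=
      mul_le_mul_of_nonneg_left (by linarith) (hδpos _).le
    have d2 : δ (k+1) * (f k X (z - d) - f k X z) ≤ δ (k+1) * (2 * C) :=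
      mul_le_mul_of_nonneg_left (by linarith) (hδpos _).le
    have d3 : δ (k+1) * (16 * C) ≤ M (k+1) := by
      have := hδM k
      rwa [le_div_iff₀ (by positivity)] at this
    have e1 := h.eM k
    have e2 := h.enn K
    have e3 := h.enn k
    have hle : f k Y (z + δ (k+1) • d) - M (k+1) ≤ f k X (z + δ (k+1) • d) := by
      have hM := h.Mpos k
      nlinarith
    rw [max_eq_left hle] at hY
    have hlo := h.lo k X z hz
    have hsec := ConvexOn.secant_le (h.convex k X) (h.sub hz) (h.sub hzd) (hδpos (k+1)) (hδmono k)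
      (hδle1 k)
    rw [hhs]
    have hnum : f (k+1) X (z + δ (k+1) • d) - f (k+1) X z ≤
        (f k X (z + δ (k+1) • d) - f k X z) + 2 * ε (k+1) := by linarith
    calc (f (k+1) X (z + δ (k+1) • d) - f (k+1) X z) / δ (k+1)
        ≤ ((f k X (z + δ (k+1) • d) - f k X z) + 2 * ε (k+1)) / δ (k+1) :=
          div_le_div_of_nonneg_right hnum (hδpos _).le
      _ = (f k X (z + δ (k+1) • d) - f k X z) / δ (k+1) + 2 * ε (k+1) / δ (k+1) := by
          rw [add_div]
      _ ≤ f 0 X (z + d) - f 0 X z + (hh k + 2 * ε (k+1) / δ (k+1)) := by linarith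

end Chain

end Crest.Agent.Kac
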