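import Mathlib
import Crest.Agent.Kac.Chain

/-! K9b: the three families of intervals, the sup functions, and the chain data. -/

set_option autoImplicit false
open Set Filter Topology

namespace Crest.Agent.Kac

inductive Ph | A | M | B
  deriving DecidableEq

theorem Ph.exists_max (g : Ph → ℝ) : ∃ X, ∀ Y, g Y ≤ g X := by
  rcases le_total (g .A) (g .M) with h1 | h1
  · rcases le_total (g .M) (g .B) with h2 | h2
    · exact ⟨.B, fun Y => by cases Y <;> linarith⟩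
    · exact ⟨.M, fun Y => by cases Y <;> linarith⟩
  · rcases le_total (g .A) (g .B) with h2 | h2
    · exact ⟨.B, fun Y => by cases Y <;> linarith⟩
    · exact ⟨.A, fun Y => by cases Y <;> linarith⟩

/-- Numerical parameters. -/
structure Par where
  (blo bhi μb ρm u u' v v' C0 X : ℝ)
  (τ ε e x xs m : ℕ → ℝ)

def Par.lo (p : Par) : Ph → ℕ → ℝ
  | .A, _ => 0
  | .M, k => p.u' - p.xs k
  | .B, k => p.v' - p.xs k

def Par.hi (p : Par) : Ph → ℕ → ℝ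
  | .A, k => p.u + p.xs k
  | .M, k => p.v + p.xs k
  | .B, _ => p.ρm

def Par.I (p : Par) (Y : Ph) (k : ℕ) : Set ℝ := Icc (p.lo Y k) (p.hi Y k)

def Par.Ω (p : Par) : Set (ℝ × ℝ) := Ioo p.blo p.bhi ×ˢ Ioo (-p.μb) p.μb

/-- The grand canonical functional `V_k(z;ρ)`. -/
noncomputable def VV (P : ℕ → ℝ → ℝ → ℝ) (τ : ℕ → ℝ) (k : ℕ) (z : ℝ × ℝ) (ρ : ℝ) : ℝ :=
  z.2 * ρ + P k z.1 ρ + z.1 * τ k * ρ ^ 2 / 2

/-- The sup of `V_k(z;·)` over the interval `I Y k`. -/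
noncomputable def ff (p : Par) (P : ℕ → ℝ → ℝ → ℝ) (k : ℕ) (Y : Ph) (z : ℝ × ℝ) : ℝ :=
  sSup (VV P p.τ k z '' p.I Y k)

structure KacAbs (p : Par) (P : ℕ → ℝ → ℝ → ℝ) : Prop where
  blo_pos : 0 < p.blo
  X_pos : 0 < p.X
  u_nn : 0 ≤ p.u
  uu' : p.u + 3 * p.X ≤ p.u'
  u'v : p.u' ≤ p.v
  vv' : p.v + 3 * p.X ≤ p.v'
  v'ρm : p.v' ≤ p.ρm
  C0_nn : 0 ≤ p.C0
  τpos : ∀ k, 0 < p.τ k
  xpos : ∀ k, 0 < p.x (k + 1)
  xs0 : p.xs 0 = 0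
  xs_succ : ∀ k, p.xs (k + 1) = p.xs k + p.x (k + 1)
  xs_le : ∀ k, p.xs k ≤ p.X
  ε_nn : ∀ k, 0 ≤ p.ε k
  e_nn : ∀ k, 0 ≤ p.e k
  estep : ∀ k, p.e (k + 1) + p.ε (k + 1) ≤ p.e k
  m_pos : ∀ k, 0 < p.m k
  m_step : ∀ k, p.m (k + 1) + 2 * p.ε (k + 1) ≤ p.m k
  m_le : ∀ k, p.m (k + 1) + 2 * p.ε (k + 1) ≤ p.blo * p.τ (k + 1) * p.x (k + 1) ^ 2 / 2
  e_m : ∀ k, 8 * p.e k ≤ p.m (k + 1)
  convP : ∀ k, ∀ ρ ∈ Icc 0 p.ρm, ConvexOn ℝ (Ioo p.blo p.bhi) (fun β => P k β ρ)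
  T1 : ∀ k, ∀ β ∈ Ioo p.blo p.bhi, ∀ ρ ∈ Icc 0 p.ρm,
    P k β ρ + β * (p.τ k - p.τ (k + 1)) * ρ ^ 2 / 2 - p.ε (k + 1) ≤ P (k + 1) β ρ
  T2 : ∀ k, ∀ z ∈ p.Ω, ∀ ρ ∈ Icc 0 p.ρm, ∃ ρ' ∈ Icc 0 p.ρm,
    VV P p.τ (k + 1) z ρ ≤ VV P p.τ k z ρ' - z.1 * p.τ (k + 1) * (ρ' - ρ) ^ 2 / 2 + p.ε (k + 1)
  gap0 : ∀ z ∈ p.Ω, ∀ ρ, (p.u < ρ ∧ ρ < p.u') ∨ (p.v < ρ ∧ ρ < p.v') →
    ∃ Y, ∃ ρ' ∈ p.I Y 0, VV P p.τ 0 z ρ + p.m 0 ≤ VV P p.τ 0 z ρ'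
  ub0 : ∀ z ∈ p.Ω, ∀ ρ ∈ Icc 0 p.ρm, VV P p.τ 0 z ρ ≤ p.C0
  lb0 : ∀ Y, ∀ z ∈ p.Ω, ∃ ρ ∈ p.I Y 0, -p.C0 ≤ VV P p.τ 0 z ρ

namespace KacAbs

variable {p : Par} {P : ℕ → ℝ → ℝ → ℝ}

theorem xs_nn (h : KacAbs p P) (k : ℕ) : 0 ≤ p.xs k := by
  induction k with
  | zero => rw [h.xs0]
  | succ k ih => rw [h.xs_succ]; linarith [h.xpos k]

theorem x_le (h : KacAbs p P) (k : ℕ) : p.x (k + 1) ≤ p.X := by
  have h1 := h.xs_le (k + 1)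
  have h2 := h.xs_nn k
  rw [h.xs_succ] at h1
  linarith

theorem I_nonempty (h : KacAbs p P) (Y : Ph) (k : ℕ) : (p.I Y k).Nonempty := by
  rw [Par.I, nonempty_Icc]
  have := h.xs_nn k
  have := h.xs_le k
  have := h.X_pos
  cases Y <;> simp only [Par.lo, Par.hi]
  · linarith [h.u_nn]
  · linarith [h.u'v]
  · linarith [h.v'ρm]

theorem I_sub (h : KacAbs p P) (Y : Ph) (k : ℕ) : p.I Y k ⊆ Icc 0 p.ρm := by
  intro ρ hρ
  have h1 := h.xs_nn k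
  have h2 := h.xs_le k
  have h3 := h.X_pos
  have h4 := h.u_nn
  have h5 := h.uu'
  have h6 := h.u'v
  have h7 := h.vv'
  have h8 := h.v'ρm
  rw [Par.I, mem_Icc] at hρ
  rw [mem_Icc]
  cases Y <;> simp only [Par.lo, Par.hi] at hρ <;> constructor <;> linarith [hρ.1, hρ.2]

theorem I_mono (h : KacAbs p P) (Y : Ph) (k : ℕ) : p.I Y k ⊆ p.I Y (k + 1) := by
  intro ρ hρ
  have h1 := h.xs_succ k
  have h2 := h.xpos k
  rw [Par.I, mem_Icc] at hρ ⊢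
  cases Y <;> simp only [Par.lo, Par.hi] at hρ ⊢ <;> constructor <;> linarith [hρ.1, hρ.2]

theorem lo_V (h : KacAbs p P) (k : ℕ) {z : ℝ × ℝ} (hz : z ∈ p.Ω) {ρ : ℝ} (hρ : ρ ∈ Icc 0 p.ρm) :
    VV P p.τ k z ρ - p.ε (k + 1) ≤ VV P p.τ (k + 1) z ρ := by
  have := h.T1 k z.1 hz.1 ρ hρ
  unfold VV
  nlinarith

theorem ub_V (h : KacAbs p P) (k : ℕ) {z : ℝ × ℝ} (hz : z ∈ p.Ω) :
    ∀ ρ ∈ Icc 0 p.ρm, VV P p.τ k z ρ ≤ p.C0 + (p.e 0 - p.e k) := by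
  induction k with
  | zero => intro ρ hρ; simpa using h.ub0 z hz ρ hρ
  | succ k ih =>
    intro ρ hρ
    obtain ⟨ρ', hρ', h1⟩ := h.T2 k z hz ρ hρ
    have h2 := ih ρ' hρ'
    have h3 : 0 ≤ z.1 * p.τ (k + 1) * (ρ' - ρ) ^ 2 / 2 := by
      have := h.τpos (k + 1)
      have hz1 : 0 < z.1 := h.blo_pos.trans hz.1.1
      positivity
    have h4 := h.estep k
    linarith

theorem ub_V' (h : KacAbs p P) (k : ℕ) {z : ℝ × ℝ} (hz : z ∈ p.Ω) {ρ : ℝ} (hρ : ρ ∈ Icc 0 p.ρm) :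
    VV P p.τ k z ρ ≤ p.C0 + p.e 0 := by
  have := h.ub_V k hz ρ hρ
  linarith [h.e_nn k]

theorem bdd (h : KacAbs p P) (k : ℕ) (Y : Ph) {z : ℝ × ℝ} (hz : z ∈ p.Ω) :
    BddAbove (VV P p.τ k z '' p.I Y k) := by
  refine ⟨p.C0 + p.e 0, ?_⟩
  rintro _ ⟨ρ, hρ, rfl⟩
  exact h.ub_V' k hz (h.I_sub Y k hρ)

theorem le_f (h : KacAbs p P) {k : ℕ} {Y : Ph} {z : ℝ × ℝ} (hz : z ∈ p.Ω) {ρ : ℝ}
    (hρ : ρ ∈ p.I Y k) : VV P p.τ k z ρ ≤ ff p P k Y z :=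
  le_csSup (h.bdd k Y hz) ⟨ρ, hρ, rfl⟩

theorem f_le (h : KacAbs p P) {k : ℕ} {Y : Ph} {z : ℝ × ℝ} {c : ℝ}
    (hc : ∀ ρ ∈ p.I Y k, VV P p.τ k z ρ ≤ c) : ff p P k Y z ≤ c := by
  apply csSup_le
  · exact (h.I_nonempty Y k).image _
  · rintro _ ⟨ρ, hρ, rfl⟩
    exact hc ρ hρ

theorem f_lo (h : KacAbs p P) (k : ℕ) (Y : Ph) {z : ℝ × ℝ} (hz : z ∈ p.Ω) :
    ff p P k Y z - p.ε (k + 1) ≤ ff p P (k + 1) Y z := by
  have : ff p P k Y z ≤ ff p P (k + 1) Y z + p.ε (k + 1) := by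
    apply h.f_le
    intro ρ hρ
    have h1 := h.lo_V k hz (h.I_sub Y k hρ)
    have h2 := h.le_f (k := k + 1) hz (h.I_mono Y k hρ)
    linarith
  linarith

theorem sq_ge_of {x a : ℝ} (hx : 0 < x) (h : x ≤ a ∨ x ≤ -a) : x ^ 2 ≤ a ^ 2 := by
  rcases h with h | h <;> nlinarith

/-- separation: a point outside `I Y (k+1)` is at distance at least `x (k+1)` from `I Y k`. -/
theorem sep_out (h : KacAbs p P) {k : ℕ} {Y : Ph} {ρ ρ' : ℝ} (hρ0 : ρ ∈ Icc 0 p.ρm)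
    (hρ : ρ ∉ p.I Y (k + 1)) (hρ' : ρ' ∈ p.I Y k) : p.x (k + 1) ^ 2 ≤ (ρ' - ρ) ^ 2 := by
  have h1 := h.xs_succ k
  have h2 := h.xpos k
  rw [Par.I, mem_Icc] at hρ hρ'
  rw [not_and_or, not_le, not_le] at hρ
  rw [mem_Icc] at hρ0
  apply sq_ge_of h2
  cases Y <;> simp only [Par.lo, Par.hi] at hρ hρ'
  · rcases hρ with hρ | hρ
    · linarith [hρ0.1]
    · right; linarith [hρ'.2]
  · rcases hρ with hρ | hρ
    · left; linarith [hρ'.1]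
    · right; linarith [hρ'.2]
  · rcases hρ with hρ | hρ
    · left; linarith [hρ'.1]
    · linarith [hρ0.2]

/-- separation of different phases. -/
theorem sep_diff (h : KacAbs p P) {k : ℕ} {Y Y' : Ph} (hY : Y ≠ Y') {ρ ρ' : ℝ}
    (hρ : ρ ∈ p.I Y (k + 1)) (hρ' : ρ' ∈ p.I Y' k) : p.x (k + 1) ^ 2 ≤ (ρ' - ρ) ^ 2 := by
  have h2 := h.xpos k
  have h3 := h.x_le k
  have h4 := h.xs_le k
  have h5 := h.xs_le (k + 1)
  have h6 := h.uu'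
  have h7 := h.u'v
  have h8 := h.vv'
  have h9 := h.X_pos
  rw [Par.I, mem_Icc] at hρ hρ'
  apply sq_ge_of h2
  cases Y <;> cases Y' <;> simp only [Par.lo, Par.hi] at hρ hρ' <;>
    first
      | exact absurd rfl hY
      | (left; linarith [hρ.1, hρ.2, hρ'.1, hρ'.2])
      | (right; linarith [hρ.1, hρ.2, hρ'.1, hρ'.2])

theorem quad_ge (h : KacAbs p P) (k : ℕ) {z : ℝ × ℝ} (hz : z ∈ p.Ω) {ρ ρ' : ℝ}
    (hx : p.x (k + 1) ^ 2 ≤ (ρ' - ρ) ^ 2) :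
    p.m (k + 1) + 2 * p.ε (k + 1) ≤ z.1 * p.τ (k + 1) * (ρ' - ρ) ^ 2 / 2 := by
  have h1 := h.m_le k
  have h2 := h.τpos (k + 1)
  have h3 : p.blo < z.1 := hz.1.1
  have h4 := h.blo_pos
  have h5 : p.blo * p.τ (k + 1) * p.x (k + 1) ^ 2 ≤ z.1 * p.τ (k + 1) * (ρ' - ρ) ^ 2 := by
    have : p.blo * p.τ (k + 1) ≤ z.1 * p.τ (k + 1) := by nlinarith
    apply mul_le_mul this hx (by positivity)
    have : 0 < z.1 := h4.trans h3
    positivity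
  linarith

theorem gap (h : KacAbs p P) : ∀ k, ∀ z ∈ p.Ω, ∀ ρ ∈ Icc 0 p.ρm, (∀ Y, ρ ∉ p.I Y k) →
    ∃ Y, VV P p.τ k z ρ + p.m k ≤ ff p P k Y z := by
  intro k
  induction k with
  | zero =>
    intro z hz ρ hρ hn
    have hA := hn .A
    have hM := hn .M
    have hB := hn .B
    rw [Par.I, mem_Icc, not_and_or, not_le, not_le] at hA hM hB
    simp only [Par.lo, Par.hi, h.xs0, add_zero, sub_zero] at hA hM hB
    have h0 : p.u < ρ := by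
      rcases hA with hA | hA
      · linarith [hρ.1]
      · exact hA
    have h1 : ρ < p.v' := by
      rcases hB with hB | hB
      · exact hB
      · linarith [hρ.2]
    obtain ⟨Y, ρ', hρ', hle⟩ := h.gap0 z hz ρ (by
      rcases hM with hM | hM
      · left; exact ⟨h0, hM⟩
      · right; exact ⟨hM, h1⟩)
    exact ⟨Y, hle.trans (h.le_f hz hρ')⟩
  | succ k ih =>
    intro z hz ρ hρ hn
    obtain ⟨ρ', hρ', hT⟩ := h.T2 k z hz ρ hρ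
    have he := h.ε_nn (k + 1)
    by_cases hc : ∃ Y, ρ' ∈ p.I Y k
    · obtain ⟨Y, hY⟩ := hc
      refine ⟨Y, ?_⟩
      have h1 := h.quad_ge k hz (h.sep_out hρ (hn Y) hY)
      have h2 := h.le_f hz hY
      have h3 := h.f_lo k Y hz
      linarith
    · push Not at hc
      obtain ⟨Y, hY⟩ := ih z hz ρ' hρ' hc
      refine ⟨Y, ?_⟩
      have h3 := h.f_lo k Y hz
      have h4 := h.m_step k
      have h5 : 0 ≤ z.1 * p.τ (k + 1) * (ρ' - ρ) ^ 2 / 2 := by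
        have := h.τpos (k + 1)
        have hz1 : 0 < z.1 := h.blo_pos.trans hz.1.1
        positivity
      linarith

theorem V_le_max (h : KacAbs p P) (k : ℕ) {z : ℝ × ℝ} (hz : z ∈ p.Ω) {ρ : ℝ}
    (hρ : ρ ∈ Icc 0 p.ρm) : ∃ Y, VV P p.τ k z ρ ≤ ff p P k Y z := by
  by_cases hc : ∃ Y, ρ ∈ p.I Y k
  · obtain ⟨Y, hY⟩ := hc
    exact ⟨Y, h.le_f hz hY⟩
  · push Not at hc
    obtain ⟨Y, hY⟩ := h.gap k z hz ρ hρ hc
    exact ⟨Y, by linarith [h.m_pos k]⟩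

theorem f_up (h : KacAbs p P) (k : ℕ) (X : Ph) {z : ℝ × ℝ} (hz : z ∈ p.Ω) :
    ∃ Y, ff p P (k + 1) X z ≤ max (ff p P k X z) (ff p P k Y z - p.m (k + 1)) + p.ε (k + 1) := by
  obtain ⟨Y, hY⟩ := Ph.exists_max (fun Y => ff p P k Y z)
  refine ⟨Y, ?_⟩
  apply h.f_le
  intro ρ hρ
  obtain ⟨ρ', hρ', hT⟩ := h.T2 k z hz ρ (h.I_sub X (k + 1) hρ)
  have he := h.ε_nn (k + 1)
  have h5 : 0 ≤ z.1 * p.τ (k + 1) * (ρ' - ρ) ^ 2 / 2 := by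
    have := h.τpos (k + 1)
    have hz1 : 0 < z.1 := h.blo_pos.trans hz.1.1
    positivity
  have hm1 := le_max_left (ff p P k X z) (ff p P k Y z - p.m (k + 1))
  have hm2 := le_max_right (ff p P k X z) (ff p P k Y z - p.m (k + 1))
  by_cases hc : ∃ Y', ρ' ∈ p.I Y' k
  · obtain ⟨Y', hY'⟩ := hc
    have h2 := h.le_f hz hY'
    by_cases hXY : X = Y'
    · subst hXY
      linarith
    · have h1 := h.quad_ge k hz (h.sep_diff hXY hρ hY')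
      have h3 := hY Y'
      linarith
  · push Not at hc
    obtain ⟨Y', hY'⟩ := h.gap k z hz ρ' hρ' hc
    have h3 := hY Y'
    have h4 := h.m_step k
    linarith

theorem VV_combo (h : KacAbs p P) (k : ℕ) {ρ : ℝ} (hρ : ρ ∈ Icc 0 p.ρm) :
    ConvexOn ℝ p.Ω (fun z => VV P p.τ k z ρ) := by
  refine ⟨(convex_Ioo _ _).prod (convex_Ioo _ _), ?_⟩
  intro z hz z' hz' a b ha hb hab
  have := (h.convP k ρ hρ).2 hz.1 hz'.1 ha hb hab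
  simp only [VV, Prod.fst_add, Prod.snd_add, Prod.smul_fst, Prod.smul_snd, smul_eq_mul] at this ⊢
  nlinarith

theorem f_convex (h : KacAbs p P) (k : ℕ) (X : Ph) : ConvexOn ℝ p.Ω (ff p P k X) := by
  refine ⟨(convex_Ioo _ _).prod (convex_Ioo _ _), ?_⟩
  intro z hz z' hz' a b ha hb hab
  apply h.f_le
  intro ρ hρ
  have h1 := (h.VV_combo k (h.I_sub X k hρ)).2 hz hz' ha hb hab
  have h2 := h.le_f hz hρ
  have h3 := h.le_f hz' hρ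
  simp only [smul_eq_mul] at h1 ⊢
  have h4 := mul_le_mul_of_nonneg_left h2 ha
  have h5 := mul_le_mul_of_nonneg_left h3 hb
  linarith

theorem f_lb (h : KacAbs p P) (k : ℕ) (X : Ph) {z : ℝ × ℝ} (hz : z ∈ p.Ω) :
    -p.C0 - (p.e 0 - p.e k) ≤ ff p P k X z := by
  induction k with
  | zero =>
    obtain ⟨ρ, hρ, h1⟩ := h.lb0 X z hz
    have := h.le_f hz hρ
    linarith
  | succ k ih =>
    have h1 := h.f_lo k X hz
    have h2 := h.estep k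
    linarith

theorem chain (h : KacAbs p P) :
    ChainData (ff p P) p.Ω p.Ω (p.C0 + p.e 0 + 1) p.m p.ε p.e where
  sub := Subset.rfl
  convex := h.f_convex
  Cpos := by linarith [h.C0_nn, h.e_nn 0]
  bound := by
    intro k X z hz
    rw [abs_le]
    constructor
    · have := h.f_lb k X hz
      linarith [h.e_nn k]
    · apply h.f_le
      intro ρ hρ
      have := h.ub_V' k hz (h.I_sub X k hρ)
      linarith
  up := fun k X z hz => h.f_up k X hz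
  lo := fun k X z hz => h.f_lo k X hz
  εnn := h.ε_nn
  enn := h.e_nn
  estep := h.estep
  eM := h.e_m
  Mpos := fun k => h.m_pos (k + 1)

/-- slopes in the chemical potential -/
theorem f_slope_le (h : KacAbs p P) (k : ℕ) (X : Ph) {β μ s : ℝ} (hs : 0 ≤ s)
    (hz : (β, μ) ∈ p.Ω) : ff p P k X (β, μ + s) ≤ ff p P k X (β, μ) + s * p.hi X k := by
  apply h.f_le
  intro ρ hρ
  have h1 := h.le_f hz hρ
  have h2 : ρ ≤ p.hi X k := hρ.2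
  have h3 := mul_le_mul_of_nonneg_left h2 hs
  simp only [VV] at h1 ⊢
  linarith

theorem f_slope_ge (h : KacAbs p P) (k : ℕ) (X : Ph) {β μ s : ℝ} (hs : 0 ≤ s)
    (hz' : (β, μ + s) ∈ p.Ω) : ff p P k X (β, μ) + s * p.lo X k ≤ ff p P k X (β, μ + s) := by
  have : ff p P k X (β, μ) ≤ ff p P k X (β, μ + s) - s * p.lo X k := by
    apply h.f_le
    intro ρ hρ
    have h1 := h.le_f hz' hρ
    have h2 : p.lo X k ≤ ρ := hρ.1
    have h3 := mul_le_mul_of_nonneg_left h2 hs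
    simp only [VV] at h1 ⊢
    linarith
  linarith

theorem f_cont (h : KacAbs p P) (k : ℕ) (X : Ph) {z : ℝ × ℝ} (hz : z ∈ p.Ω) :
    ContinuousAt (ff p P k X) z := by
  have ho : IsOpen p.Ω := isOpen_Ioo.prod isOpen_Ioo
  exact ((h.f_convex k X).continuousOn ho).continuousAt (ho.mem_nhds hz)

end KacAbs

end Crest.Agent.Kac
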