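import Mathlib

/-! K9c: existence of a triple point. -/

set_option autoImplicit false
open Set Filter Topology

namespace Crest.Agent.Kac

theorem triple_point {fA fM fB : ℝ × ℝ → ℝ} {β1 β2 μ' a m0 m1 b : ℝ} (hβ : β1 ≤ β2)
    (hμ : 0 < μ') (ha : a < m0) (hb : m1 < b)
    (cA : ∀ z ∈ Icc β1 β2 ×ˢ Icc (-μ') μ', ContinuousAt fA z)
    (cM : ∀ z ∈ Icc β1 β2 ×ˢ Icc (-μ') μ', ContinuousAt fM z)
    (cB : ∀ z ∈ Icc β1 β2 ×ˢ Icc (-μ') μ', ContinuousAt fB z)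
    (sA : ∀ β ∈ Icc β1 β2, ∀ μ ∈ Icc (-μ') μ', ∀ s : ℝ, 0 ≤ s → μ + s ∈ Icc (-μ') μ' →
      fA (β, μ + s) ≤ fA (β, μ) + s * a)
    (sM0 : ∀ β ∈ Icc β1 β2, ∀ μ ∈ Icc (-μ') μ', ∀ s : ℝ, 0 ≤ s → μ + s ∈ Icc (-μ') μ' →
      fM (β, μ) + s * m0 ≤ fM (β, μ + s))
    (sM1 : ∀ β ∈ Icc β1 β2, ∀ μ ∈ Icc (-μ') μ', ∀ s : ℝ, 0 ≤ s → μ + s ∈ Icc (-μ') μ' →
      fM (β, μ + s) ≤ fM (β, μ) + s * m1)
    (sB : ∀ β ∈ Icc β1 β2, ∀ μ ∈ Icc (-μ') μ', ∀ s : ℝ, 0 ≤ s → μ + s ∈ Icc (-μ') μ' →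
      fB (β, μ) + s * b ≤ fB (β, μ + s))
    (h1 : ∀ μ ∈ Icc (-μ') μ', fA (β1, μ) = fB (β1, μ) → fA (β1, μ) ≤ fM (β1, μ))
    (h2 : ∀ μ ∈ Icc (-μ') μ', ¬ (fA (β2, μ) ≤ fM (β2, μ) ∧ fB (β2, μ) ≤ fM (β2, μ)))
    (hL : ∀ β ∈ Icc β1 β2, fM (β, -μ') < fA (β, -μ') ∧ fB (β, -μ') < fA (β, -μ'))
    (hR : ∀ β ∈ Icc β1 β2, fM (β, μ') < fB (β, μ') ∧ fA (β, μ') < fB (β, μ')) :
    ∃ z ∈ Icc β1 β2 ×ˢ Icc (-μ') μ', fA z = fM z ∧ fB z = fM z := by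
  set R : Set (ℝ × ℝ) := Icc β1 β2 ×ˢ Icc (-μ') μ' with hR'
  have hμI : -μ' ∈ Icc (-μ') μ' := ⟨le_rfl, by linarith⟩
  have hμI' : μ' ∈ Icc (-μ') μ' := ⟨by linarith, le_rfl⟩
  have hβ1 : β1 ∈ Icc β1 β2 := ⟨le_rfl, hβ⟩
  have hβ2 : β2 ∈ Icc β1 β2 := ⟨hβ, le_rfl⟩
  have hRc : IsCompact R := isCompact_Icc.prod isCompact_Icc
  have cA' : ContinuousOn fA R := fun z hz => (cA z hz).continuousWithinAt
  have cM' : ContinuousOn fM R := fun z hz => (cM z hz).continuousWithinAt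
  have cB' : ContinuousOn fB R := fun z hz => (cB z hz).continuousWithinAt
  -- the coexistence set
  let S : Set (ℝ × ℝ) := {z | z ∈ R ∧ (fA z ≤ fM z ∧ fB z ≤ fM z)}
  have hSeq : S = R ∩ {z | fA z ≤ fM z} ∩ (R ∩ {z | fB z ≤ fM z}) := by
    ext z; simp only [S, Set.mem_ofPred_eq, mem_inter_iff]; tauto
  have hSc : IsCompact S := by
    rw [hSeq]
    have hcl := hRc.isClosed
    have e1 : IsClosed (R ∩ {z | fA z ≤ fM z}) := hcl.isClosed_le cA' cM'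
    have e2 : IsClosed (R ∩ {z | fB z ≤ fM z}) := hcl.isClosed_le cB' cM'
    exact (hRc.of_isClosed_subset e1 inter_subset_left).inter_right e2
  have hSn : S.Nonempty := by
    -- intermediate value at β1
    have hc : ContinuousOn (fun μ => fA (β1, μ) - fB (β1, μ)) (Icc (-μ') μ') := by
      have hm : ContinuousOn (fun μ : ℝ => (β1, μ)) (Icc (-μ') μ') := by fun_prop
      have hmaps : MapsTo (fun μ : ℝ => (β1, μ)) (Icc (-μ') μ') R := fun μ hμ => ⟨hβ1, hμ⟩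
      exact (cA'.comp hm hmaps).sub (cB'.comp hm hmaps)
    have hiv := intermediate_value_Icc' (by linarith : -μ' ≤ μ') hc
    have h0 : (0 : ℝ) ∈ Icc (fA (β1, μ') - fB (β1, μ')) (fA (β1, -μ') - fB (β1, -μ')) := by
      constructor
      · linarith [(hR β1 hβ1).2]
      · linarith [(hL β1 hβ1).2]
    obtain ⟨μ, hμm, hμe⟩ := hiv h0
    simp only at hμe
    have he : fA (β1, μ) = fB (β1, μ) := by linarith
    have := h1 μ hμm he
    exact ⟨(β1, μ), ⟨hβ1, hμm⟩, this, by rw [← he]; exact this⟩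
  obtain ⟨z, hzS, hzmax⟩ := hSc.exists_isMaxOn hSn continuous_fst.continuousOn
  obtain ⟨⟨hz1, hz2⟩, hzA, hzB⟩ := hzS
  obtain ⟨βc, μc⟩ := z
  simp only at hz1 hz2
  have hβlt : βc < β2 := by
    rcases lt_or_eq_of_le hz1.2 with h | h
    · exact h
    · exfalso; subst h; exact h2 μc hz2 ⟨hzA, hzB⟩
  -- no point with strict inequalities at βc
  have key : ∀ μ ∈ Icc (-μ') μ', ¬ (fA (βc, μ) < fM (βc, μ) ∧ fB (βc, μ) < fM (βc, μ)) := by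
    intro μ hμm hcon
    have hzR : (βc, μ) ∈ R := ⟨hz1, hμm⟩
    have e1 : ∀ᶠ w in 𝓝 (βc, μ), fA w < fM w := (cA _ hzR).eventually_lt (cM _ hzR) hcon.1
    have e2 : ∀ᶠ w in 𝓝 (βc, μ), fB w < fM w := (cB _ hzR).eventually_lt (cM _ hzR) hcon.2
    have hcurve : Tendsto (fun β : ℝ => (β, μ)) (𝓝[>] βc) (𝓝 (βc, μ)) := by
      have : Continuous (fun β : ℝ => (β, μ)) := by fun_prop
      exact this.continuousAt.tendsto.mono_left nhdsWithin_le_nhds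
    have e3 : ∀ᶠ β in 𝓝[>] βc, β ∈ Ioo βc β2 := Ioo_mem_nhdsGT hβlt
    obtain ⟨β, ⟨hb1, hb2⟩, hb3⟩ :=
      (((hcurve.eventually e1).and (hcurve.eventually e2)).and e3).exists
    have hmem : (β, μ) ∈ S := ⟨⟨⟨hz1.1.trans hb3.1.le, hb3.2.le⟩, hμm⟩, hb1.le, hb2.le⟩
    have := hzmax hmem
    simp only [Set.mem_ofPred_eq] at this
    linarith [hb3.1]
  have hzR : (βc, μc) ∈ R := ⟨hz1, hz2⟩
  refine ⟨(βc, μc), hzR, ?_⟩
  have hA : fA (βc, μc) = fM (βc, μc) := by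
    by_contra hne
    have hlt : fA (βc, μc) < fM (βc, μc) := lt_of_le_of_ne hzA hne
    have hμlt : -μ' < μc := by
      rcases lt_or_eq_of_le hz2.1 with h | h
      · exact h
      · exfalso; rw [← h] at hlt; linarith [(hL βc hz1).1]
    -- move slightly to the left
    have hcurve : Tendsto (fun μ : ℝ => (βc, μ)) (𝓝[<] μc) (𝓝 (βc, μc)) := by
      have : Continuous (fun μ : ℝ => (βc, μ)) := by fun_prop
      exact this.continuousAt.tendsto.mono_left nhdsWithin_le_nhds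
    have e1 : ∀ᶠ w in 𝓝 (βc, μc), fA w < fM w := (cA _ hzR).eventually_lt (cM _ hzR) hlt
    have e3 : ∀ᶠ μ in 𝓝[<] μc, μ ∈ Ioo (-μ') μc := Ioo_mem_nhdsLT hμlt
    obtain ⟨μ, hm1, hm2⟩ := ((hcurve.eventually e1).and e3).exists
    have hμm : μ ∈ Icc (-μ') μ' := ⟨hm2.1.le, hm2.2.le.trans hz2.2⟩
    refine key μ hμm ⟨hm1, ?_⟩
    have hs : 0 < μc - μ := by linarith [hm2.2]
    have t1 := sM1 βc hz1 μ hμm (μc - μ) hs.le (by simpa using hz2)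
    have t2 := sB βc hz1 μ hμm (μc - μ) hs.le (by simpa using hz2)
    rw [show μ + (μc - μ) = μc by ring] at t1 t2
    nlinarith
  have hB : fB (βc, μc) = fM (βc, μc) := by
    by_contra hne
    have hlt : fB (βc, μc) < fM (βc, μc) := lt_of_le_of_ne hzB hne
    have hμlt : μc < μ' := by
      rcases lt_or_eq_of_le hz2.2 with h | h
      · exact h
      · exfalso; rw [h] at hlt; linarith [(hR βc hz1).1]
    have hcurve : Tendsto (fun μ : ℝ => (βc, μ)) (𝓝[>] μc) (𝓝 (βc, μc)) := by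
      have : Continuous (fun μ : ℝ => (βc, μ)) := by fun_prop
      exact this.continuousAt.tendsto.mono_left nhdsWithin_le_nhds
    have e1 : ∀ᶠ w in 𝓝 (βc, μc), fB w < fM w := (cB _ hzR).eventually_lt (cM _ hzR) hlt
    have e3 : ∀ᶠ μ in 𝓝[>] μc, μ ∈ Ioo μc μ' := Ioo_mem_nhdsGT hμlt
    obtain ⟨μ, hm1, hm2⟩ := ((hcurve.eventually e1).and e3).exists
    have hμm : μ ∈ Icc (-μ') μ' := ⟨hz2.1.trans hm2.1.le, hm2.2.le⟩
    refine key μ hμm ⟨?_, hm1⟩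
    have hs : 0 < μ - μc := by linarith [hm2.1]
    have t1 := sM0 βc hz1 μc hz2 (μ - μc) hs.le (by simpa using hμm)
    have t2 := sA βc hz1 μc hz2 (μ - μc) hs.le (by simpa using hμm)
    rw [show μc + (μ - μc) = μ by ring] at t1 t2
    nlinarith
  exact ⟨hA, hB⟩

end Crest.Agent.Kac
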