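import Mathlib
import Crest.Agent.Kac.Abs1
import Crest.Agent.Kac.Triple

/-! K9d: triple points at every level and supporting planes. -/

set_option autoImplicit false
open Set Filter Topology

namespace Crest.Agent.Kac

/-- the constant bounding all `|f_k^X|` -/
def Par.C (p : Par) : ℝ := p.C0 + p.e 0 + 1

noncomputable def Par.δ (p : Par) : ℕ → ℝ
  | 0 => 1
  | (k + 1) => min 1 (p.m (k + 1) / (16 * p.C))

noncomputable def Par.hh (p : Par) (k : ℕ) : ℝ :=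
  ∑ i ∈ Finset.range k, 2 * p.ε (i + 1) / p.δ (i + 1)

structure BaseHyp (p : Par) (P : ℕ → ℝ → ℝ → ℝ) (β1 β2 μ' μ'' D t κ₂ κ₁ η : ℝ) : Prop where
  abs : KacAbs p P
  hβ : β1 ≤ β2
  hμ' : 0 < μ'
  t_pos : 0 < t
  ht1 : p.blo < β1 - t
  ht2 : β2 + t < p.bhi
  ht3 : μ' + t * (p.τ 0 * (p.v + p.X)) < p.μb
  hz1 : 2 * β2 - β1 < p.bhi
  hz2 : 2 * μ' + |μ''| < p.μb
  hD : 2 * p.e 0 < D
  h1 : ∀ μ ∈ Icc (-μ') μ', ff p P 0 .A (β1, μ) + D ≤ ff p P 0 .M (β1, μ) ∨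
    ff p P 0 .B (β1, μ) + D ≤ ff p P 0 .M (β1, μ)
  h2 : ∀ μ ∈ Icc (-μ') μ', ff p P 0 .M (β2, μ) + D ≤ ff p P 0 .A (β2, μ) ∨
    ff p P 0 .M (β2, μ) + D ≤ ff p P 0 .B (β2, μ)
  hL : ∀ β ∈ Icc β1 β2, ff p P 0 .M (β, -μ') + D ≤ ff p P 0 .A (β, -μ') ∧
    ff p P 0 .B (β, -μ') + D ≤ ff p P 0 .A (β, -μ')
  hR : ∀ β ∈ Icc β1 β2, ff p P 0 .M (β, μ') + D ≤ ff p P 0 .B (β, μ') ∧
    ff p P 0 .A (β, μ') + D ≤ ff p P 0 .B (β, μ')
  anti : ∀ ρ ∈ Icc 0 p.ρm, ∀ β β' : ℝ, p.blo < β → β ≤ β' → β' < p.bhi → P 0 β' ρ ≤ P 0 β ρ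
  nd : ∀ z ∈ Icc β1 β2 ×ˢ Icc (-μ') μ', ∀ ρM ∈ Icc (p.u' - p.X) (p.v + p.X), ∀ Y, Y ≠ Ph.M →
    (p.τ 0 * ρM ^ 2 / 2 + p.τ 0 * (p.v - p.u' + p.X) ^ 2 / 2 + κ₂) * (z.1 - β1) + κ₁ ≤
      ρM * (μ'' - z.2) + ff p P 0 .M z - ff p P 0 Y (β1, μ'')
  hη : ∀ K, ∑ k ∈ Finset.range K, 2 * p.ε (k + 1) * (1 + 16 * p.C / p.m (k + 1)) ≤ η
  η_pos : 0 < η
  κ₂_pos : 0 < κ₂
  hκ₁ : 2 * p.e 0 + 2 * η < κ₁
  hκ₂ : 2 * η ≤ t * κ₂ / 2

namespace BaseHyp

variable {p : Par} {P : ℕ → ℝ → ℝ → ℝ} {β1 β2 μ' μ'' D t κ₂ κ₁ η : ℝ}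

theorem R_sub (h : BaseHyp p P β1 β2 μ' μ'' D t κ₂ κ₁ η) :
    Icc β1 β2 ×ˢ Icc (-μ') μ' ⊆ p.Ω := by
  rintro ⟨β, μ⟩ ⟨h1, h2⟩
  simp only [mem_Icc] at h1 h2
  have := h.ht1
  have := h.ht2
  have := h.ht3
  have := h.t_pos
  have h3 : 0 ≤ t * (p.τ 0 * (p.v + p.X)) := by
    have h4 := h.abs.τpos 0
    have h5 : 0 ≤ p.v + p.X := by
      have := h.abs.v'ρm
      have := h.abs.vv'
      have := h.abs.u'v
      have := h.abs.uu'
      have := h.abs.u_nn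
      have := h.abs.X_pos
      linarith
    positivity
  refine ⟨⟨?_, ?_⟩, ⟨?_, ?_⟩⟩ <;> simp only <;> linarith [h1.1, h1.2, h2.1, h2.2]

/-- at a level-`K` maximiser the base value is nearly maximal. -/
theorem base_ge (h : BaseHyp p P β1 β2 μ' μ'' D t κ₂ κ₁ η) {K : ℕ} {z : ℝ × ℝ} (hz : z ∈ p.Ω)
    {X : Ph} (hX : ∀ Y, ff p P K Y z ≤ ff p P K X z) (Y : Ph) :
    ff p P 0 Y z ≤ ff p P 0 X z + 2 * p.e 0 := by
  have h1 := h.abs.chain.le_of_max hz hX K 0 (by omega) Y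
  have h2 := h.abs.chain.ge_of_max hz hX rfl K 0 (by omega)
  have := h.abs.e_nn K
  linarith

theorem tripleK (h : BaseHyp p P β1 β2 μ' μ'' D t κ₂ κ₁ η) (K : ℕ) :
    ∃ z ∈ Icc β1 β2 ×ˢ Icc (-μ') μ', ∀ Y, ff p P K Y z = ff p P K .M z := by
  have hsub := h.R_sub
  have hμI : -μ' ∈ Icc (-μ') μ' := ⟨le_rfl, by linarith [h.hμ']⟩
  have hμI' : μ' ∈ Icc (-μ') μ' := ⟨by linarith [h.hμ'], le_rfl⟩
  have hβ1 : β1 ∈ Icc β1 β2 := ⟨le_rfl, h.hβ⟩
  have hβ2 : β2 ∈ Icc β1 β2 := ⟨h.hβ, le_rfl⟩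
  have hX := h.abs.X_pos
  have hxs := h.abs.xs_le K
  have hxs0 := h.abs.xs_nn K
  have hu := h.abs.uu'
  have hv := h.abs.vv'
  have hD := h.hD
  have he := h.abs.e_nn 0
  obtain ⟨z, hz, hA, hB⟩ := triple_point (fA := ff p P K .A) (fM := ff p P K .M)
    (fB := ff p P K .B) (a := p.hi .A K) (m0 := p.lo .M K) (m1 := p.hi .M K) (b := p.lo .B K)
    h.hβ h.hμ' (by simp only [Par.lo, Par.hi]; linarith)
    (by simp only [Par.lo, Par.hi]; linarith)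
    (fun z hz => h.abs.f_cont K .A (hsub hz)) (fun z hz => h.abs.f_cont K .M (hsub hz))
    (fun z hz => h.abs.f_cont K .B (hsub hz))
    (fun β hβ μ hμ s hs hμs => h.abs.f_slope_le K .A hs (hsub ⟨hβ, hμ⟩))
    (fun β hβ μ hμ s hs hμs => h.abs.f_slope_ge K .M hs (hsub ⟨hβ, hμs⟩))
    (fun β hβ μ hμ s hs hμs => h.abs.f_slope_le K .M hs (hsub ⟨hβ, hμ⟩))
    (fun β hβ μ hμ s hs hμs => h.abs.f_slope_ge K .B hs (hsub ⟨hβ, hμs⟩))
    (by
      intro μ hμ heq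
      by_contra hcon
      push Not at hcon
      have hmaxA : ∀ Y, ff p P K Y (β1, μ) ≤ ff p P K .A (β1, μ) := by
        intro Y; cases Y
        · exact le_rfl
        · exact hcon.le
        · exact heq.ge
      have hmaxB : ∀ Y, ff p P K Y (β1, μ) ≤ ff p P K .B (β1, μ) := by
        intro Y; rw [← heq]; exact hmaxA Y
      have e1 := h.base_ge (hsub ⟨hβ1, hμ⟩) hmaxA .M
      have e2 := h.base_ge (hsub ⟨hβ1, hμ⟩) hmaxB .M
      rcases h.h1 μ hμ with h3 | h3 <;> linarith)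
    (by
      rintro μ hμ ⟨c1, c2⟩
      have hmax : ∀ Y, ff p P K Y (β2, μ) ≤ ff p P K .M (β2, μ) := by
        intro Y; cases Y
        · exact c1
        · exact le_rfl
        · exact c2
      have e1 := h.base_ge (hsub ⟨hβ2, hμ⟩) hmax .A
      have e2 := h.base_ge (hsub ⟨hβ2, hμ⟩) hmax .B
      rcases h.h2 μ hμ with h3 | h3 <;> linarith)
    (by
      intro β hβ
      obtain ⟨X, hXm⟩ := Ph.exists_max (fun Y => ff p P K Y (β, -μ'))
      obtain ⟨b1, b2⟩ := h.hL β hβ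
      have e1 := h.base_ge (hsub ⟨hβ, hμI⟩) hXm .A
      constructor <;> by_contra hcon <;> push Not at hcon
      · have e2 : ∀ Y, ff p P K Y (β, -μ') ≤ ff p P K X (β, -μ') := hXm
        cases X
        · have hmax : ∀ Y, ff p P K Y (β, -μ') ≤ ff p P K .M (β, -μ') :=
            fun Y => (hXm Y).trans hcon
          have e3 := h.base_ge (hsub ⟨hβ, hμI⟩) hmax .A
          linarith
        · linarith
        · linarith
      · cases X
        · have hmax : ∀ Y, ff p P K Y (β, -μ') ≤ ff p P K .B (β, -μ') :=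
            fun Y => (hXm Y).trans hcon
          have e3 := h.base_ge (hsub ⟨hβ, hμI⟩) hmax .A
          linarith
        · linarith
        · linarith)
    (by
      intro β hβ
      obtain ⟨X, hXm⟩ := Ph.exists_max (fun Y => ff p P K Y (β, μ'))
      obtain ⟨b1, b2⟩ := h.hR β hβ
      have e1 := h.base_ge (hsub ⟨hβ, hμI'⟩) hXm .B
      constructor <;> by_contra hcon <;> push Not at hcon
      · cases X
        · linarith
        · linarith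
        · have hmax : ∀ Y, ff p P K Y (β, μ') ≤ ff p P K .M (β, μ') :=
            fun Y => (hXm Y).trans hcon
          have e3 := h.base_ge (hsub ⟨hβ, hμI'⟩) hmax .B
          linarith
      · cases X
        · linarith
        · linarith
        · have hmax : ∀ Y, ff p P K Y (β, μ') ≤ ff p P K .A (β, μ') :=
            fun Y => (hXm Y).trans hcon
          have e3 := h.base_ge (hsub ⟨hβ, hμI'⟩) hmax .B
          linarith)
  refine ⟨z, hz, fun Y => ?_⟩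
  cases Y
  · exact hA
  · rfl
  · exact hB

end BaseHyp

/-- supporting line of a convex function in one variable -/
theorem exists_support {g : ℝ → ℝ} {lo hi x : ℝ} (hg : ConvexOn ℝ (Ioo lo hi) g)
    (hx : x ∈ Ioo lo hi) : ∃ e : ℝ, ∀ y ∈ Ioo lo hi, g x + e * (y - x) ≤ g y := by
  have hint : x ∈ interior (Ioo lo hi) := by rwa [interior_Ioo]
  refine ⟨derivWithin g (Ioi x) x, ?_⟩
  intro y hy
  rcases lt_trichotomy x y with h | h | h
  · have h1 := hg.rightDeriv_le_slope_of_mem_interior hint hy h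
    rw [slope_def_field, le_div_iff₀ (by linarith)] at h1
    linarith
  · subst h; simp
  · have h1 := hg.slope_le_leftDeriv_of_mem_interior hy hint h
    have h2 := hg.leftDeriv_le_rightDeriv_of_mem_interior hint
    have h3 := h1.trans h2
    rw [slope_def_field, div_le_iff₀ (by linarith)] at h3
    linarith

namespace KacAbs

variable {p : Par} {P : ℕ → ℝ → ℝ → ℝ}

/-- supporting planes at near maximisers. -/
theorem support (h : KacAbs p P) (K : ℕ) (Y : Ph) {z : ℝ × ℝ} (hz : z ∈ p.Ω) {s : ℝ}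
    (hs : 0 < s) : ∃ ρ ∈ p.I Y K, ∃ e : ℝ, ∀ w ∈ p.Ω,
      ff p P K Y z - s + e * (w.1 - z.1) + ρ * (w.2 - z.2) ≤ VV P p.τ K w ρ := by
  obtain ⟨_, ⟨ρ, hρ, rfl⟩, hlt⟩ := exists_lt_of_lt_csSup ((h.I_nonempty Y K).image (VV P p.τ K z))
    (show ff p P K Y z - s < sSup (VV P p.τ K z '' p.I Y K) by unfold ff; linarith)
  refine ⟨ρ, hρ, ?_⟩
  obtain ⟨e, he⟩ := exists_support (h.convP K ρ (h.I_sub Y K hρ)) hz.1
  refine ⟨e + p.τ K * ρ ^ 2 / 2, ?_⟩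
  intro w hw
  have h1 := he w.1 hw.1
  simp only [VV] at hlt ⊢
  linarith

theorem C_pos (h : KacAbs p P) : 0 < p.C := by
  unfold Par.C; linarith [h.C0_nn, h.e_nn 0]

theorem m_anti (h : KacAbs p P) (k : ℕ) : p.m (k + 1) ≤ p.m k := by
  linarith [h.m_step k, h.ε_nn (k + 1)]

theorem δ_pos (h : KacAbs p P) (k : ℕ) : 0 < p.δ k := by
  cases k with
  | zero => simp [Par.δ]
  | succ k =>
    simp only [Par.δ]
    have := h.m_pos (k + 1)
    have := h.C_pos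
    positivity

theorem δ_mono (h : KacAbs p P) (k : ℕ) : p.δ (k + 1) ≤ p.δ k := by
  cases k with
  | zero => simp [Par.δ]
  | succ k =>
    simp only [Par.δ]
    have := h.C_pos
    have := h.m_anti (k + 1)
    gcongr

theorem δ_le (h : KacAbs p P) (k : ℕ) : p.δ (k + 1) ≤ p.m (k + 1) / (16 * p.C) := by
  simp only [Par.δ]
  exact min_le_right _ _

theorem δ_le_one (h : KacAbs p P) (k : ℕ) : p.δ k ≤ 1 := by
  cases k with
  | zero => simp [Par.δ]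
  | succ k => simp only [Par.δ]; exact min_le_left _ _

theorem hh_le (h : KacAbs p P) (K : ℕ) :
    p.hh K ≤ ∑ k ∈ Finset.range K, 2 * p.ε (k + 1) * (1 + 16 * p.C / p.m (k + 1)) := by
  unfold Par.hh
  apply Finset.sum_le_sum
  intro k _
  have h1 := h.m_pos (k + 1)
  have h2 := h.C_pos
  have h3 := h.ε_nn (k + 1)
  rw [div_eq_mul_inv]
  apply mul_le_mul_of_nonneg_left _ (by linarith)
  simp only [Par.δ]
  rcases le_total 1 (p.m (k + 1) / (16 * p.C)) with h4 | h4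
  · rw [min_eq_left h4, inv_one]
    have : 0 ≤ 16 * p.C / p.m (k + 1) := by positivity
    linarith
  · rw [min_eq_right h4, inv_div]
    linarith

/-- slope bounds for supporting planes at points where all level-`K` functions agree. -/
theorem slopeK (h : KacAbs p P) (K : ℕ) {z : ℝ × ℝ} (hz : z ∈ p.Ω) {η : ℝ}
    (hη : ∀ K, ∑ k ∈ Finset.range K, 2 * p.ε (k + 1) * (1 + 16 * p.C / p.m (k + 1)) ≤ η)
    (hall : ∀ Y, ff p P K Y z = ff p P K .M z) (X : Ph) {s : ℝ} (hs : s ≤ p.δ K * η)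
    {ρ e : ℝ} (hρ : ρ ∈ p.I X K)
    (he : ∀ w ∈ p.Ω, ff p P K X z - s + e * (w.1 - z.1) + ρ * (w.2 - z.2) ≤ VV P p.τ K w ρ)
    {d : ℝ × ℝ} (hd : z + d ∈ p.Ω) (hd' : z - d ∈ p.Ω) :
    e * d.1 + ρ * d.2 ≤ ff p P 0 X (z + d) - ff p P 0 X z + 2 * η := by
  have hconv : Convex ℝ p.Ω := (convex_Ioo _ _).prod (convex_Ioo _ _)
  have hseg : ∀ δ : ℝ, 0 ≤ δ → δ ≤ 1 → z + δ • d ∈ p.Ω := by
    intro δ h0 h1
    have := hconv hz hd (by linarith : (0 : ℝ) ≤ 1 - δ) h0 (by ring)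
    have e1 : (1 - δ) • z + δ • (z + d) = z + δ • d := by
      rw [smul_add, sub_smul, one_smul]; abel
    rwa [e1] at this
  have h1 := h.chain.slope (δ := p.δ) (hh := p.hh) (X := X) (P := ff p P K X z) hz hd hd'
    (fun Y => by rw [hall Y, hall X]) rfl (by simp [Par.δ]) h.δ_pos h.δ_mono h.δ_le
    (by simp [Par.hh]) (fun k => by simp [Par.hh, Finset.sum_range_succ]) hseg K le_rfl
  have hδ := h.δ_pos K
  have h2 := he (z + p.δ K • d) (hseg _ hδ.le (h.δ_le_one K))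
  have h3 := h.le_f (hseg _ hδ.le (h.δ_le_one K)) hρ
  simp only [Prod.fst_add, Prod.snd_add, Prod.smul_fst, Prod.smul_snd, smul_eq_mul] at h2
  have h4 : p.δ K * (e * d.1 + ρ * d.2) ≤
      (ff p P K X (z + p.δ K • d) - ff p P K X z) + s := by nlinarith
  have h5 : (e * d.1 + ρ * d.2) ≤
      ((ff p P K X (z + p.δ K • d) - ff p P K X z) + s) / p.δ K := by
    rw [le_div_iff₀ hδ]; linarith
  rw [add_div] at h5
  have h6 : s / p.δ K ≤ η := by rw [div_le_iff₀ hδ]; linarith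
  have h7 := (h.hh_le K).trans (hη K)
  linarith

end KacAbs

namespace BaseHyp

variable {p : Par} {P : ℕ → ℝ → ℝ → ℝ} {β1 β2 μ' μ'' D t κ₂ κ₁ η : ℝ}

/-- Upper bound for the energy slope of the middle phase. -/
theorem eM_le (h : BaseHyp p P β1 β2 μ' μ'' D t κ₂ κ₁ η) {K : ℕ} {z : ℝ × ℝ}
    (hz : z ∈ Icc β1 β2 ×ˢ Icc (-μ') μ') (hall : ∀ Y, ff p P K Y z = ff p P K .M z) {s : ℝ}
    (hs : s ≤ p.δ K * η) {ρ e : ℝ} (hρ : ρ ∈ p.I .M K)
    (he : ∀ w ∈ p.Ω, ff p P K .M z - s + e * (w.1 - z.1) + ρ * (w.2 - z.2) ≤ VV P p.τ K w ρ) :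
    e ≤ p.τ 0 * ρ ^ 2 / 2 + p.τ 0 * (p.v - p.u' + p.X) ^ 2 / 2 + 2 * η / t := by
  have hzΩ := h.R_sub hz
  have hτ := h.abs.τpos 0
  have hρI := h.abs.I_sub .M K hρ
  have ht := h.t_pos
  obtain ⟨⟨hz1, hz2⟩, ⟨hz3, hz4⟩⟩ := hz
  have htm : t * (p.τ 0 * ρ) ≤ t * (p.τ 0 * (p.v + p.X)) := by
    have h1 := hρ.2
    have h2 := h.abs.xs_le K
    simp only [Par.hi] at h1
    have : ρ ≤ p.v + p.X := by linarith
    gcongr
  have htm0 : 0 ≤ t * (p.τ 0 * ρ) := by have := hρI.1; positivity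
  have g1 := h.ht1
  have g2 := h.ht2
  have g3 := h.ht3
  have hd : z + (t, -(t * (p.τ 0 * ρ))) ∈ p.Ω := by
    refine ⟨⟨?_, ?_⟩, ⟨?_, ?_⟩⟩ <;> simp only [Prod.fst_add, Prod.snd_add] <;> linarith
  have hd' : z - (t, -(t * (p.τ 0 * ρ))) ∈ p.Ω := by
    refine ⟨⟨?_, ?_⟩, ⟨?_, ?_⟩⟩ <;> simp only [Prod.fst_sub, Prod.snd_sub] <;> linarith
  have h1 := h.abs.slopeK K hzΩ h.hη hall .M hs hρ he hd hd'
  have h2 : ff p P 0 .M (z + (t, -(t * (p.τ 0 * ρ)))) ≤ ff p P 0 .M z +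
      t * (p.τ 0 * (p.v - p.u' + p.X) ^ 2 / 2 - p.τ 0 * ρ ^ 2 / 2) := by
    apply h.abs.f_le
    intro ρ' hρ'
    have h3 := h.abs.le_f hzΩ hρ'
    have hρ'I := h.abs.I_sub .M 0 hρ'
    have h4 := h.anti ρ' hρ'I z.1 (z.1 + t) hzΩ.1.1 (by linarith) (by linarith)
    have h5 : (ρ' - ρ) ^ 2 ≤ (p.v - p.u' + p.X) ^ 2 := by
      have hX := h.abs.X_pos
      have hxs := h.abs.xs_le K
      have hxs0 := h.abs.xs_nn K
      have huv := h.abs.u'v
      have h00 := h.abs.xs0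
      simp only [Par.I, Par.lo, Par.hi, mem_Icc, h00] at hρ hρ'
      apply sq_le_sq' <;> linarith [hρ.1, hρ.2, hρ'.1, hρ'.2]
    simp only [VV, Prod.fst_add, Prod.snd_add] at h3 ⊢
    have h6 : t * p.τ 0 * (ρ' - ρ) ^ 2 ≤ t * p.τ 0 * (p.v - p.u' + p.X) ^ 2 := by gcongr
    nlinarith
  simp only at h1
  have h3 : e * t ≤ t * (p.τ 0 * ρ ^ 2 / 2 + p.τ 0 * (p.v - p.u' + p.X) ^ 2 / 2) + 2 * η := by
    nlinarith
  have h4 : e ≤ (t * (p.τ 0 * ρ ^ 2 / 2 + p.τ 0 * (p.v - p.u' + p.X) ^ 2 / 2) + 2 * η) / t := by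
    rw [le_div_iff₀ ht]; exact h3
  have h5 : (t * (p.τ 0 * ρ ^ 2 / 2 + p.τ 0 * (p.v - p.u' + p.X) ^ 2 / 2) + 2 * η) / t =
      p.τ 0 * ρ ^ 2 / 2 + p.τ 0 * (p.v - p.u' + p.X) ^ 2 / 2 + 2 * η / t := by
    field_simp
  linarith

/-- Lower bound for the energy slopes of the outer phases. -/
theorem eAB_ge (h : BaseHyp p P β1 β2 μ' μ'' D t κ₂ κ₁ η) {K : ℕ} {z : ℝ × ℝ}
    (hz : z ∈ Icc β1 β2 ×ˢ Icc (-μ') μ') (hall : ∀ Y, ff p P K Y z = ff p P K .M z) {s : ℝ}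
    (hs : s ≤ p.δ K * η) {Y : Ph} (hY : Y ≠ .M) {ρ e ρM : ℝ} (hρ : ρ ∈ p.I Y K)
    (hρM : ρM ∈ p.I .M K)
    (he : ∀ w ∈ p.Ω, ff p P K Y z - s + e * (w.1 - z.1) + ρ * (w.2 - z.2) ≤ VV P p.τ K w ρ) :
    (ρ - ρM) * (μ'' - z.2) + (p.τ 0 * ρM ^ 2 / 2 + p.τ 0 * (p.v - p.u' + p.X) ^ 2 / 2 + κ₂) *
      (z.1 - β1) + (κ₁ - 2 * p.e 0 - 2 * η) ≤ e * (z.1 - β1) := by
  have hzΩ := h.R_sub hz
  have g1 := h.hz1
  have g2 := h.hz2
  have hblo : p.blo < β1 := by linarith [h.ht1, h.t_pos]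
  have hzR := hz
  obtain ⟨⟨hz1, hz2⟩, ⟨hz3, hz4⟩⟩ := hz
  have a1 := abs_le.1 (le_refl |μ''|)
  have hm := h.hμ'
  have hd : z + (β1 - z.1, μ'' - z.2) ∈ p.Ω := by
    refine ⟨⟨?_, ?_⟩, ⟨?_, ?_⟩⟩ <;> simp only [Prod.fst_add, Prod.snd_add] <;> linarith [h.ht2, h.t_pos, h.hβ]
  have hd' : z - (β1 - z.1, μ'' - z.2) ∈ p.Ω := by
    refine ⟨⟨?_, ?_⟩, ⟨?_, ?_⟩⟩ <;> simp only [Prod.fst_sub, Prod.snd_sub] <;> linarith
  have h1 := h.abs.slopeK K hzΩ h.hη hall Y hs hρ he hd hd'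
  have e1 : z + (β1 - z.1, μ'' - z.2) = (β1, μ'') := by
    ext <;> simp
  rw [e1] at h1
  simp only at h1
  have h2 := h.nd z hzR ρM (by
    have hxs := h.abs.xs_le K
    simp only [Par.I, Par.lo, Par.hi, mem_Icc] at hρM
    constructor <;> linarith [hρM.1, hρM.2]) Y hY
  -- Y is a maximiser at level K
  have h3 := h.base_ge hzΩ (X := Y) (fun Y' => by rw [hall Y', hall Y]) .M
  nlinarith

/-- The output at level `K`. -/
theorem levelK (h : BaseHyp p P β1 β2 μ' μ'' D t κ₂ κ₁ η) (K : ℕ) {s : ℝ} (hs0 : 0 < s)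
    (hs : s ≤ p.δ K * η) {ρ1 ρ2 : ℝ} (hρ1 : p.u + p.X < ρ1) (hρ2 : ρ2 < p.u' - p.X) :
    ∃ z ∈ Icc β1 β2 ×ˢ Icc (-μ') μ', ∃ PK : ℝ, (∀ Y, ff p P K Y z = PK) ∧
      ∀ r : ℝ, ρ1 ≤ r → r ≤ ρ2 → ∃ e1 e2 : ℝ, (ρ1 - p.u - p.X) / p.ρm * (κ₂ / 2) ≤ e2 - e1 ∧
        ∀ w ∈ p.Ω, ∀ T : ℝ, (∀ ρ ∈ Icc 0 p.ρm, VV P p.τ K w ρ ≤ T) →
          PK - s + e1 * (w.1 - z.1) + r * (w.2 - z.2) ≤ T ∧
          PK - s + e2 * (w.1 - z.1) + r * (w.2 - z.2) ≤ T := by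
  obtain ⟨z, hz, hall⟩ := h.tripleK K
  refine ⟨z, hz, ff p P K .M z, hall, ?_⟩
  have hzΩ := h.R_sub hz
  obtain ⟨ρA, hρA, eA, hA⟩ := h.abs.support K .A hzΩ hs0
  obtain ⟨ρM, hρM, eM, hM⟩ := h.abs.support K .M hzΩ hs0
  obtain ⟨ρB, hρB, eB, hB⟩ := h.abs.support K .B hzΩ hs0
  have bM := h.eM_le hz hall hs hρM hM
  have bA := h.eAB_ge hz hall hs (by decide) hρA hρM hA
  have bB := h.eAB_ge hz hall hs (by decide) hρB hρM hB
  rw [hall .A] at hA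
  rw [hall .B] at hB
  have hX := h.abs.X_pos
  have hxs := h.abs.xs_le K
  have hxs0 := h.abs.xs_nn K
  have hu := h.abs.uu'
  have hv := h.abs.vv'
  have hu0 := h.abs.u_nn
  have hAI := h.abs.I_sub .A K hρA
  have hMI := h.abs.I_sub .M K hρM
  have hBI := h.abs.I_sub .B K hρB
  have lA : ρA ≤ p.u + p.X := by
    have := hρA.2; simp only [Par.hi] at this; linarith
  have lM : p.u' - p.X ≤ ρM := by
    have := hρM.1; simp only [Par.lo] at this; linarith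
  have lM' : ρM ≤ p.v + p.X := by
    have := hρM.2; simp only [Par.hi] at this; linarith
  have lB : p.v' - p.X ≤ ρB := by
    have := hρB.1; simp only [Par.lo] at this; linarith
  have hAM : ρA < ρM := by linarith
  have hMB : ρM < ρB := by linarith
  -- mixture of A and B at density ρM
  set l : ℝ := (ρB - ρM) / (ρB - ρA) with hl
  have hBA : 0 < ρB - ρA := by linarith
  have hl0 : 0 ≤ l := by rw [hl]; apply div_nonneg <;> linarith
  have hl1 : l ≤ 1 := by rw [hl, div_le_one hBA]; linarith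
  have hlρ : l * ρA + (1 - l) * ρB = ρM := by
    rw [hl]; field_simp; ring
  have hz1 : 0 ≤ z.1 - β1 := by linarith [hz.1.1]
  have hκ := h.hκ₁
  set G : ℝ := p.τ 0 * ρM ^ 2 / 2 + p.τ 0 * (p.v - p.u' + p.X) ^ 2 / 2 + κ₂ with hG
  have hmix : G * (z.1 - β1) + (κ₁ - 2 * p.e 0 - 2 * η) ≤ (l * eA + (1 - l) * eB) * (z.1 - β1) := by
    have c1 := mul_le_mul_of_nonneg_left bA hl0
    have c2 := mul_le_mul_of_nonneg_left bB (by linarith : 0 ≤ 1 - l)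
    have c3 : l * ((ρA - ρM) * (μ'' - z.2)) + (1 - l) * ((ρB - ρM) * (μ'' - z.2)) = 0 := by
      have : l * ((ρA - ρM) * (μ'' - z.2)) + (1 - l) * ((ρB - ρM) * (μ'' - z.2)) =
        ((l * ρA + (1 - l) * ρB) - ρM) * (μ'' - z.2) := by ring
      rw [this, hlρ]; ring
    nlinarith
  have hzpos : 0 < z.1 - β1 := by
    rcases lt_or_eq_of_le hz1 with h1 | h1
    · exact h1
    · exfalso
      rw [← h1] at hmix
      linarith
  have hAB : G ≤ l * eA + (1 - l) * eB := by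
    have : G * (z.1 - β1) ≤ (l * eA + (1 - l) * eB) * (z.1 - β1) := by linarith
    exact le_of_mul_le_mul_right this hzpos
  have ht := h.t_pos
  have hgap : κ₂ / 2 ≤ (l * eA + (1 - l) * eB) - eM := by
    have h1 : 2 * η / t ≤ κ₂ / 2 := by
      rw [div_le_iff₀ ht]; linarith [h.hκ₂]
    linarith
  intro r hr1 hr2
  set q : ℝ := (r - ρA) / (ρM - ρA) with hq
  have hMA : 0 < ρM - ρA := by linarith
  have hq0 : 0 ≤ q := by rw [hq]; apply div_nonneg <;> linarith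
  have hq1 : q ≤ 1 := by rw [hq, div_le_one hMA]; linarith
  have hqρ : (1 - q) * ρA + q * ρM = r := by
    rw [hq]; field_simp; ring
  have hqge : (ρ1 - p.u - p.X) / p.ρm ≤ q := by
    rw [hq]
    have hρmpos : 0 < p.ρm := by linarith [hBI.2, hAI.1]
    have : ρM - ρA ≤ p.ρm := by linarith [hMI.2, hAI.1]
    exact div_le_div₀ (by linarith) (by linarith) hMA this
  refine ⟨(1 - q) * eA + q * eM, (1 - q) * eA + q * (l * eA + (1 - l) * eB), ?_, ?_⟩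
  · have h1 : (1 - q) * eA + q * (l * eA + (1 - l) * eB) - ((1 - q) * eA + q * eM) =
      q * ((l * eA + (1 - l) * eB) - eM) := by ring
    rw [h1]
    have := h.κ₂_pos
    exact mul_le_mul hqge hgap (by positivity) hq0
  · intro w hw T hT
    have tA := (hA w hw).trans (hT ρA hAI)
    have tM := (hM w hw).trans (hT ρM hMI)
    have tB := (hB w hw).trans (hT ρB hBI)
    set PK := ff p P K .M z
    have tAB : PK - s + (l * eA + (1 - l) * eB) * (w.1 - z.1) + ρM * (w.2 - z.2) ≤ T := by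
      have c1 := mul_le_mul_of_nonneg_left tA hl0
      have c2 := mul_le_mul_of_nonneg_left tB (by linarith : 0 ≤ 1 - l)
      have c3 : l * (PK - s + eA * (w.1 - z.1) + ρA * (w.2 - z.2)) +
          (1 - l) * (PK - s + eB * (w.1 - z.1) + ρB * (w.2 - z.2)) =
          PK - s + (l * eA + (1 - l) * eB) * (w.1 - z.1) +
            (l * ρA + (1 - l) * ρB) * (w.2 - z.2) := by ring
      rw [← hlρ]
      linarith
    constructor
    · have c1 := mul_le_mul_of_nonneg_left tA (by linarith : 0 ≤ 1 - q)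
      have c2 := mul_le_mul_of_nonneg_left tM hq0
      have c3 : (1 - q) * (PK - s + eA * (w.1 - z.1) + ρA * (w.2 - z.2)) +
          q * (PK - s + eM * (w.1 - z.1) + ρM * (w.2 - z.2)) =
          PK - s + ((1 - q) * eA + q * eM) * (w.1 - z.1) +
            ((1 - q) * ρA + q * ρM) * (w.2 - z.2) := by ring
      rw [← hqρ]
      linarith
    · have c1 := mul_le_mul_of_nonneg_left tA (by linarith : 0 ≤ 1 - q)
      have c2 := mul_le_mul_of_nonneg_left tAB hq0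
      have c3 : (1 - q) * (PK - s + eA * (w.1 - z.1) + ρA * (w.2 - z.2)) +
          q * (PK - s + (l * eA + (1 - l) * eB) * (w.1 - z.1) + ρM * (w.2 - z.2)) =
          PK - s + ((1 - q) * eA + q * (l * eA + (1 - l) * eB)) * (w.1 - z.1) +
            ((1 - q) * ρA + q * ρM) * (w.2 - z.2) := by ring
      rw [← hqρ]
      linarith

end BaseHyp

end Crest.Agent.Kac
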