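import Mathlib
import Crest.Agent.Kac.Abs2

/-! K9e: the limit `K → ∞` and the kink. -/

set_option autoImplicit false
open Set Filter Topology

namespace Crest.Agent.Kac

namespace KacAbs

variable {p : Par} {P : ℕ → ℝ → ℝ → ℝ}

theorem lo_V_iter (h : KacAbs p P) {z : ℝ × ℝ} (hz : z ∈ p.Ω) {ρ : ℝ} (hρ : ρ ∈ Icc 0 p.ρm)
    (K n : ℕ) : VV P p.τ K z ρ - (p.e K - p.e (K + n)) ≤ VV P p.τ (K + n) z ρ := by
  induction n with
  | zero => simp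
  | succ n ih =>
    have h1 := h.lo_V (K + n) hz hρ
    have h2 := h.estep (K + n)
    rw [← add_assoc]
    linarith

theorem f_up_iter (h : KacAbs p P) {z : ℝ × ℝ} (hz : z ∈ p.Ω) {K : ℕ} {PK : ℝ}
    (hP : ∀ Y, ff p P K Y z ≤ PK) (n : ℕ) :
    ∀ Y, ff p P (K + n) Y z ≤ PK + (p.e K - p.e (K + n)) := by
  induction n with
  | zero => intro Y; simpa using hP Y
  | succ n ih =>
    intro Y
    obtain ⟨Y', h1⟩ := h.f_up (K + n) Y hz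
    have h2 := h.estep (K + n)
    have h3 := ih Y
    have h4 := ih Y'
    have h5 := h.m_pos (K + n + 1)
    have h6 : max (ff p P (K + n) Y z) (ff p P (K + n) Y' z - p.m (K + n + 1)) ≤
        PK + (p.e K - p.e (K + n)) := max_le h3 (by linarith)
    rw [← add_assoc]
    linarith

theorem tendsto_VV (h : KacAbs p P) {Pi : ℝ → ℝ → ℝ}
    (tend : ∀ β ∈ Ioo p.blo p.bhi, ∀ ρ ∈ Icc 0 p.ρm,
      Tendsto (fun k => P k β ρ) atTop (𝓝 (Pi β ρ)))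
    (hτ : Tendsto p.τ atTop (𝓝 0)) {z : ℝ × ℝ} (hz : z ∈ p.Ω) {ρ : ℝ} (hρ : ρ ∈ Icc 0 p.ρm)
    (K : ℕ) : Tendsto (fun n => VV P p.τ (K + n) z ρ) atTop (𝓝 (z.2 * ρ + Pi z.1 ρ)) := by
  have h1 : Tendsto (fun k => VV P p.τ k z ρ) atTop (𝓝 (z.2 * ρ + Pi z.1 ρ)) := by
    have e1 := tend z.1 hz.1 ρ hρ
    have e2 : Tendsto (fun k => z.1 * p.τ k * ρ ^ 2 / 2) atTop (𝓝 0) := by
      have : Tendsto (fun k => z.1 * p.τ k * ρ ^ 2 / 2) atTop (𝓝 (z.1 * 0 * ρ ^ 2 / 2)) :=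
        ((hτ.const_mul z.1).mul_const _).div_const _
      simpa using this
    have e3 := (e1.const_add (z.2 * ρ)).add e2
    simpa [VV] using e3
  have h2 : Tendsto (fun n => K + n) atTop atTop :=
    tendsto_atTop_mono (fun n => Nat.le_add_left n K) tendsto_id
  exact h1.comp h2

theorem V_le_inf (h : KacAbs p P) {Pi : ℝ → ℝ → ℝ}
    (tend : ∀ β ∈ Ioo p.blo p.bhi, ∀ ρ ∈ Icc 0 p.ρm,
      Tendsto (fun k => P k β ρ) atTop (𝓝 (Pi β ρ)))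
    (hτ : Tendsto p.τ atTop (𝓝 0)) {z : ℝ × ℝ} (hz : z ∈ p.Ω) {ρ : ℝ} (hρ : ρ ∈ Icc 0 p.ρm)
    (K : ℕ) : VV P p.τ K z ρ - p.e K ≤ z.2 * ρ + Pi z.1 ρ := by
  apply ge_of_tendsto' (h.tendsto_VV tend hτ hz hρ K)
  intro n
  have := h.lo_V_iter hz hρ K n
  have := h.e_nn (K + n)
  linarith

theorem inf_le (h : KacAbs p P) {Pi : ℝ → ℝ → ℝ}
    (tend : ∀ β ∈ Ioo p.blo p.bhi, ∀ ρ ∈ Icc 0 p.ρm,
      Tendsto (fun k => P k β ρ) atTop (𝓝 (Pi β ρ)))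
    (hτ : Tendsto p.τ atTop (𝓝 0)) {z : ℝ × ℝ} (hz : z ∈ p.Ω) {ρ : ℝ} (hρ : ρ ∈ Icc 0 p.ρm)
    {K : ℕ} {PK : ℝ} (hP : ∀ Y, ff p P K Y z ≤ PK) : z.2 * ρ + Pi z.1 ρ ≤ PK + p.e K := by
  apply le_of_tendsto' (h.tendsto_VV tend hτ hz hρ K)
  intro n
  obtain ⟨Y, hY⟩ := h.V_le_max (K + n) hz hρ
  have h1 := h.f_up_iter hz hP n Y
  have h2 := h.e_nn (K + n)
  linarith

end KacAbs

theorem kink_abstract {p : Par} {P : ℕ → ℝ → ℝ → ℝ} {β1 β2 μ' μ'' D t κ₂ κ₁ η : ℝ}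
    (h : BaseHyp p P β1 β2 μ' μ'' D t κ₂ κ₁ η) {Pi : ℝ → ℝ → ℝ}
    (tend : ∀ β ∈ Ioo p.blo p.bhi, ∀ ρ ∈ Icc 0 p.ρm,
      Tendsto (fun k => P k β ρ) atTop (𝓝 (Pi β ρ)))
    (hτ : Tendsto p.τ atTop (𝓝 0)) (he : Tendsto p.e atTop (𝓝 0)) {ρ1 ρ2 : ℝ}
    (hρ1 : p.u + p.X < ρ1) (hρ2 : ρ2 < p.u' - p.X)
    (supg : ∀ β ∈ Ioo p.blo p.bhi, ∀ r, ρ1 ≤ r → r ≤ ρ2 → ∃ μ : ℝ, |μ| < p.μb ∧
      ∀ ρ ∈ Icc 0 p.ρm, Pi β ρ + μ * ρ ≤ Pi β r + μ * r)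
    (convPi : ∀ r, ρ1 ≤ r → r ≤ ρ2 → ConvexOn ℝ (Ioo p.blo p.bhi) (fun β => Pi β r)) :
    ∃ βc ∈ Icc β1 β2, ∀ r, ρ1 ≤ r → r ≤ ρ2 → ∃ e1 e2 : ℝ, e1 < e2 ∧
      ∀ β ∈ Ioo p.blo p.bhi, Pi βc r + e1 * (β - βc) ≤ Pi β r ∧
        Pi βc r + e2 * (β - βc) ≤ Pi β r := by
  have hη := h.η_pos
  -- errors
  let sK : ℕ → ℝ := fun K => min (p.δ K * η) (1 / ((K : ℝ) + 1))
  have hsK0 : ∀ K, 0 < sK K := fun K => lt_min (mul_pos (h.abs.δ_pos K) hη) (by positivity)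
  have hsK1 : ∀ K, sK K ≤ p.δ K * η := fun K => min_le_left _ _
  have hsK2 : Tendsto sK atTop (𝓝 0) := by
    apply squeeze_zero (fun K => (hsK0 K).le) (fun K => min_le_right _ _)
    exact tendsto_one_div_add_atTop_nhds_zero_nat
  let err : ℕ → ℝ := fun K => 2 * p.e K + sK K
  have herr : Tendsto err atTop (𝓝 0) := by
    have := (he.const_mul 2).add hsK2
    simpa using this
  have hρmpos : 0 < p.ρm := by
    have := h.abs.v'ρm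
    have := h.abs.vv'
    have := h.abs.u'v
    have := h.abs.uu'
    have := h.abs.u_nn
    have := h.abs.X_pos
    linarith
  set κ3 : ℝ := (ρ1 - p.u - p.X) / p.ρm * (κ₂ / 2) with hκ3
  have hκ3pos : 0 < κ3 := by
    have := h.κ₂_pos
    have : 0 < ρ1 - p.u - p.X := by linarith
    positivity
  -- level K output in one-dimensional form
  have step : ∀ K : ℕ, ∃ βK ∈ Icc β1 β2, ∀ r : ℝ, ρ1 ≤ r → r ≤ ρ2 → ∃ e1 e2 : ℝ,
      κ3 ≤ e2 - e1 ∧ ∀ β ∈ Ioo p.blo p.bhi, Pi βK r + e1 * (β - βK) ≤ Pi β r + err K ∧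
        Pi βK r + e2 * (β - βK) ≤ Pi β r + err K := by
    intro K
    obtain ⟨z, hz, PK, hall, hres⟩ := h.levelK K (hsK0 K) (hsK1 K) hρ1 hρ2
    refine ⟨z.1, hz.1, ?_⟩
    intro r hr1 hr2
    obtain ⟨e1, e2, hd, hsup⟩ := hres r hr1 hr2
    refine ⟨e1, e2, hd, ?_⟩
    intro β hβ
    obtain ⟨μ, hμ, hμs⟩ := supg β hβ r hr1 hr2
    have hw : (β, μ) ∈ p.Ω := ⟨hβ, abs_lt.1 hμ⟩
    have hzΩ := h.R_sub hz
    have hrI : r ∈ Icc 0 p.ρm := by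
      have := h.abs.v'ρm
      have := h.abs.vv'
      have := h.abs.u'v
      have := h.abs.uu'
      have := h.abs.u_nn
      have := h.abs.X_pos
      constructor <;> linarith
    have hT := hsup (β, μ) hw (Pi β r + μ * r + p.e K) (by
      intro ρ hρ
      have h1 := h.abs.V_le_inf tend hτ hw hρ K
      have h2 := hμs ρ hρ
      simp only at h1
      linarith)
    have hPK := h.abs.inf_le tend hτ hzΩ hrI (K := K) (PK := PK) (fun Y => (hall Y).le)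
    simp only at hT
    simp only [err]
    constructor <;> nlinarith [hT.1, hT.2]
  choose βs hβs hstep using step
  obtain ⟨βc, hβc, φ, hφ, hlim⟩ := isCompact_Icc.tendsto_subseq hβs
  refine ⟨βc, hβc, ?_⟩
  intro r hr1 hr2
  have hst : ∀ K, ∃ e1 e2 : ℝ,
      κ3 ≤ e2 - e1 ∧ ∀ β ∈ Ioo p.blo p.bhi, Pi (βs K) r + e1 * (β - βs K) ≤ Pi β r + err K ∧
        Pi (βs K) r + e2 * (β - βs K) ≤ Pi β r + err K := fun K => hstep K r hr1 hr2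
  choose E1 E2 hE hEs using hst
  have ht := h.t_pos
  have g1 := h.ht1
  have g2 := h.ht2
  -- continuity and boundedness
  have hcont : ContinuousOn (fun β => Pi β r) (Ioo p.blo p.bhi) :=
    (convPi r hr1 hr2).continuousOn isOpen_Ioo
  have hsubI : Icc (β1 - t) (β2 + t) ⊆ Ioo p.blo p.bhi := by
    intro β hβ
    exact ⟨by linarith [hβ.1], by linarith [hβ.2]⟩
  obtain ⟨Mb, hMb⟩ := isCompact_Icc.exists_bound_of_continuousOn (hcont.mono hsubI)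
  have hMb' : ∀ β ∈ Icc (β1 - t) (β2 + t), -Mb ≤ Pi β r ∧ Pi β r ≤ Mb := by
    intro β hβ
    have := hMb β hβ
    rw [Real.norm_eq_abs] at this
    exact abs_le.1 this
  -- errors are bounded
  obtain ⟨Me, hMe⟩ : ∃ Me : ℝ, ∀ K, err K ≤ Me := by
    obtain ⟨Me, hMe⟩ := herr.bddAbove_range
    exact ⟨Me, fun K => hMe ⟨K, rfl⟩⟩
  have hbound : ∀ K, ∀ e : ℝ, (∀ β ∈ Ioo p.blo p.bhi,
      Pi (βs K) r + e * (β - βs K) ≤ Pi β r + err K) →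
      e ∈ Icc (-((2 * Mb + Me) / t)) ((2 * Mb + Me) / t) := by
    intro K e hh
    have hb := hβs K
    have hbI : βs K ∈ Icc (β1 - t) (β2 + t) := ⟨by linarith [hb.1], by linarith [hb.2]⟩
    have hbp : βs K + t ∈ Icc (β1 - t) (β2 + t) := ⟨by linarith [hb.1], by linarith [hb.2]⟩
    have hbm : βs K - t ∈ Icc (β1 - t) (β2 + t) := ⟨by linarith [hb.1], by linarith [hb.2]⟩
    have q1 := hh _ (hsubI hbp)
    have q2 := hh _ (hsubI hbm)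
    have q3 := hMb' _ hbI
    have q4 := hMb' _ hbp
    have q5 := hMb' _ hbm
    have q6 := hMe K
    constructor
    · rw [neg_le, ← sub_nonneg]
      have : -e * t ≤ 2 * Mb + Me := by nlinarith [q3.1, q5.2]
      have := (le_div_iff₀ ht).2 this
      linarith
    · rw [le_div_iff₀ ht]
      nlinarith [q3.1, q4.2]
  have hpair : ∀ n, (E1 (φ n), E2 (φ n)) ∈
      Icc (-((2 * Mb + Me) / t)) ((2 * Mb + Me) / t) ×ˢ
        Icc (-((2 * Mb + Me) / t)) ((2 * Mb + Me) / t) := fun n =>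
    ⟨hbound (φ n) _ (fun β hβ => (hEs (φ n) β hβ).1), hbound (φ n) _ (fun β hβ => (hEs (φ n) β hβ).2)⟩
  obtain ⟨⟨e1, e2⟩, -, ψ, hψ, hlim2⟩ :=
    (isCompact_Icc.prod isCompact_Icc).tendsto_subseq hpair
  have hl1 : Tendsto (fun n => E1 (φ (ψ n))) atTop (𝓝 e1) :=
    (continuous_fst.tendsto _).comp hlim2
  have hl2 : Tendsto (fun n => E2 (φ (ψ n))) atTop (𝓝 e2) :=
    (continuous_snd.tendsto _).comp hlim2
  have hlβ : Tendsto (fun n => βs (φ (ψ n))) atTop (𝓝 βc) := hlim.comp hψ.tendsto_atTop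
  have hle : Tendsto (fun n => err (φ (ψ n))) atTop (𝓝 0) :=
    herr.comp (hφ.tendsto_atTop.comp hψ.tendsto_atTop)
  have hβcI : βc ∈ Ioo p.blo p.bhi := hsubI ⟨by linarith [hβc.1], by linarith [hβc.2]⟩
  have hlP : Tendsto (fun n => Pi (βs (φ (ψ n))) r) atTop (𝓝 (Pi βc r)) :=
    ((hcont.continuousAt (isOpen_Ioo.mem_nhds hβcI)).tendsto).comp hlβ
  refine ⟨e1, e2, ?_, ?_⟩
  · have : κ3 ≤ e2 - e1 := ge_of_tendsto' (hl2.sub hl1) (fun n => hE _)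
    linarith
  · intro β hβ
    constructor
    · have a1 : Tendsto (fun n => Pi (βs (φ (ψ n))) r + E1 (φ (ψ n)) * (β - βs (φ (ψ n)))) atTop
          (𝓝 (Pi βc r + e1 * (β - βc))) := hlP.add (hl1.mul (hlβ.const_sub β))
      have a2 : Tendsto (fun n => Pi β r + err (φ (ψ n))) atTop (𝓝 (Pi β r + 0)) :=
        hle.const_add _
      have := le_of_tendsto_of_tendsto' a1 a2 (fun n => (hEs _ β hβ).1)
      linarith
    · have a1 : Tendsto (fun n => Pi (βs (φ (ψ n))) r + E2 (φ (ψ n)) * (β - βs (φ (ψ n)))) atTop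
          (𝓝 (Pi βc r + e2 * (β - βc))) := hlP.add (hl2.mul (hlβ.const_sub β))
      have a2 : Tendsto (fun n => Pi β r + err (φ (ψ n))) atTop (𝓝 (Pi β r + 0)) :=
        hle.const_add _
      have := le_of_tendsto_of_tendsto' a1 a2 (fun n => (hEs _ β hβ).2)
      linarith

end Crest.Agent.Kac
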