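import Crest.Agent.Kac.Thermo
import Crest.Prelude.Def_PairPotential

/-! K14: from the kink of the pressure to the final form of the statements (scaling of length by
`a`, of energy by `b`; one-sided derivatives of the free energy). -/

set_option autoImplicit false
open MeasureTheory Filter Topology
open scoped ENNReal

namespace Crest.Agent.Kac

/-- Supporting line from one-sided derivatives: a convex function on an open interval with two
distinct supporting slopes at `x` has one-sided derivatives there, left `<` right. -/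
theorem oneSided_of_supports {g : ℝ → ℝ} {lo hi x e1 e2 : ℝ} (hlo : lo < x) (hhi : x < hi)
    (hg : ConvexOn ℝ (Set.Ioo lo hi) g) (he : e1 < e2)
    (h1 : ∀ y ∈ Set.Ioo lo hi, g x + e1 * (y - x) ≤ g y)
    (h2 : ∀ y ∈ Set.Ioo lo hi, g x + e2 * (y - x) ≤ g y) :
    ∃ Dl Dr : ℝ, HasDerivWithinAt g Dl (Set.Iio x) x ∧ HasDerivWithinAt g Dr (Set.Ioi x) x ∧
      Dl < Dr := by
  have hx : x ∈ interior (Set.Ioo lo hi) := by
    rw [interior_Ioo]; exact ⟨hlo, hhi⟩
  have hl := hg.hasDerivWithinAt_leftDeriv_of_mem_interior hx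
  have hr := hg.hasDerivWithinAt_rightDeriv_of_mem_interior hx
  refine ⟨_, _, hl, hr, ?_⟩
  have hle1 : derivWithin g (Set.Iio x) x ≤ e1 := by
    have h := (hasDerivWithinAt_iff_tendsto_slope' (s := Set.Iio x) (by simp)).1 hl
    refine le_of_tendsto h ?_
    have h2 : ∀ᶠ y in nhdsWithin x (Set.Iio x), lo < y :=
      (lt_mem_nhds hlo).filter_mono nhdsWithin_le_nhds
    filter_upwards [h2, self_mem_nhdsWithin] with y hy hyx
    have hyx' : y < x := hyx
    have h3 := h1 y ⟨hy, hyx'.trans hhi⟩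
    rw [slope_def_field]
    rw [div_le_iff_of_neg (by linarith)]
    linarith
  have hle2 : e2 ≤ derivWithin g (Set.Ioi x) x := by
    have h := (hasDerivWithinAt_iff_tendsto_slope' (s := Set.Ioi x) (by simp)).1 hr
    refine ge_of_tendsto h ?_
    have h3 : ∀ᶠ y in nhdsWithin x (Set.Ioi x), y < hi :=
      (gt_mem_nhds hhi).filter_mono nhdsWithin_le_nhds
    filter_upwards [h3, self_mem_nhdsWithin] with y hy hyx
    have hyx' : x < y := hyx
    have h4 := h2 y ⟨hlo.trans hyx', hy⟩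
    rw [slope_def_field]
    rw [le_div_iff₀ (by linarith)]
    linarith
  linarith

/-- The pressure of the rescaled potential. -/
theorem Pr_tendsto_scale {v : ℝ → ℝ} {R0 : ℝ} (hR0 : 0 < R0) (hv : Adm v R0) {a ρ : ℝ}
    (ha : 0 < a) (hρ : 0 ≤ ρ) :
    Tendsto (fun L : ℝ => (1 / L ^ 3) * Real.log (ZL (fun r => v (r / a)) L ⌊ρ * L ^ 3⌋₊)) atTop
      (𝓝 (ρ * Real.log (a ^ 3) + Pr v (a ^ 3 * ρ) / a ^ 3)) := by
  have h1 : Tendsto (fun L : ℝ => L / a) atTop atTop := tendsto_id.atTop_div_const ha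
  have h2 := (Pr_tendsto hR0 hv (ρ := a ^ 3 * ρ) (by positivity)).comp h1
  have h3 : Tendsto (fun L : ℝ => L ^ 3) atTop atTop := tendsto_pow_atTop (by norm_num)
  have h4 := (tendsto_nat_floor_mul_div_atTop hρ).comp h3
  have h5 := (h4.mul_const (Real.log (a ^ 3))).add (h2.div_const (a ^ 3))
  refine h5.congr' ?_
  filter_upwards [eventually_gt_atTop 0] with L hL
  have hL' : 0 < L / a := by positivity
  obtain ⟨B, hB⟩ := hv.stab
  have e1 : ZL (fun r => v (r / a)) L ⌊ρ * L ^ 3⌋₊ =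
      (a ^ 3) ^ ⌊ρ * L ^ 3⌋₊ * ZL v (L / a) ⌊ρ * L ^ 3⌋₊ := by
    have := ZL_scale v ha (L / a) ⌊ρ * L ^ 3⌋₊
    rw [mul_div_cancel₀ L ha.ne'] at this
    exact this
  have e2 : a ^ 3 * ρ * (L / a) ^ 3 = ρ * L ^ 3 := by field_simp
  have e3 := ZL_pos hv.meas hB hL' ⌊ρ * L ^ 3⌋₊
  simp only [Function.comp_apply]
  have e4 : Real.log ((a ^ 3) ^ ⌊ρ * L ^ 3⌋₊) = (⌊ρ * L ^ 3⌋₊ : ℝ) * Real.log (a ^ 3) :=
    Real.log_pow _ _
  rw [e1, e2, Real.log_mul (by positivity) e3.ne', e4]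
  generalize Real.log (a ^ 3) = lg
  field_simp

/-- Final assembly. `ψ r = b * φ (r / a)`. -/
theorem assembly {φ : ℝ → ℝ} {R0 : ℝ} (hR0 : 0 < R0) (hm : Measurable φ)
    (hadm : ∀ β : ℝ, 0 < β → Adm (fun r => β * φ r) R0) {blo βc bhi ρ1 ρ2 a b : ℝ}
    (hblo : 0 < blo) (hb1 : blo < βc) (hb2 : βc < bhi) (hρ1 : 0 ≤ ρ1) (ha : 0 < a) (hb : 0 < b)
    (hconv : ∀ ρ : ℝ, 0 ≤ ρ → ConvexOn ℝ (Set.Ioi 0) (fun β => Pr (fun r => β * φ r) ρ))
    (kink : ∀ ρ : ℝ, ρ1 ≤ ρ → ρ ≤ ρ2 → ∃ e1 e2 : ℝ, e1 < e2 ∧ ∀ β : ℝ, blo < β → β < bhi →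
      Pr (fun r => βc * φ r) ρ + e1 * (β - βc) ≤ Pr (fun r => β * φ r) ρ ∧
      Pr (fun r => βc * φ r) ρ + e2 * (β - βc) ≤ Pr (fun r => β * φ r) ρ) :
    ∃ f : ℝ → ℝ → ℝ,
      (∀ ρ : ℝ, 0 ≤ ρ → ∀ β : ℝ, 0 < β →
        Tendsto (fun L : ℝ => -(1 / (β * L ^ 3)) *
            Real.log (Crest.ProbabilityR.Continuum.partitionFn (fun r => b * φ (r / a)) L
              ⌊ρ * L ^ 3⌋₊ β)) atTop (𝓝 (f β ρ))) ∧
      (∀ ρ : ℝ, ρ1 ≤ a ^ 3 * ρ → a ^ 3 * ρ ≤ ρ2 → ∃ Dl Dr : ℝ,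
        HasDerivWithinAt (fun β => f β ρ) Dl (Set.Iio (βc / b)) (βc / b) ∧
        HasDerivWithinAt (fun β => f β ρ) Dr (Set.Ioi (βc / b)) (βc / b) ∧ Dr < Dl) := by
  have hbφ : ∀ β : ℝ, 0 < β → ∀ L : ℝ, ∀ N : ℕ,
      Crest.ProbabilityR.Continuum.partitionFn (fun r => b * φ (r / a)) L N β =
        ZL (fun r => (fun s => (β * b) * φ s) (r / a)) L N := by
    intro β _ L N
    rw [partitionFn_eq (φ := fun r => b * φ (r / a)) (by fun_prop)]
    congr 1
    ext r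
    ring
  refine ⟨fun β ρ => -(1 / β) * (ρ * Real.log (a ^ 3) +
    Pr (fun s => (β * b) * φ s) (a ^ 3 * ρ) / a ^ 3), ?_, ?_⟩
  · intro ρ hρ β hβ
    have h1 := Pr_tendsto_scale hR0 (hadm (β * b) (by positivity)) ha hρ
    have h2 := h1.const_mul (-(1 / β))
    refine h2.congr (fun L => ?_)
    rw [hbφ β hβ]
    rw [← mul_assoc]
    congr 1
    rw [neg_mul, one_div_mul_one_div]
  · intro ρ h1 h2
    set ρ' : ℝ := a ^ 3 * ρ with hρ'
    have hρ'0 : 0 ≤ ρ' := hρ1.trans h1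
    obtain ⟨e1, e2, he, hk⟩ := kink ρ' h1 h2
    set g : ℝ → ℝ := fun β => Pr (fun r => β * φ r) ρ' with hg
    have hgc : ConvexOn ℝ (Set.Ioo blo bhi) g :=
      (hconv ρ' hρ'0).subset (fun x hx => hblo.trans hx.1) (convex_Ioo _ _)
    obtain ⟨gl, gr, hgl, hgr, hlt⟩ := oneSided_of_supports (g := g) hb1 hb2 hgc he
      (fun y hy => (hk y hy.1 hy.2).1) (fun y hy => (hk y hy.1 hy.2).2)
    set x : ℝ := βc / b with hx
    have hβc : 0 < βc := hblo.trans hb1
    have hxpos : 0 < x := by positivity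
    have hxb : x * b = βc := by rw [hx]; field_simp
    -- derivative of `β ↦ g (β b)`
    have key : ∀ (s s' : Set ℝ) (D : ℝ), HasDerivWithinAt g D s βc → Set.MapsTo (fun β => β * b) s' s →
        HasDerivWithinAt (fun β => -(1 / β) * (ρ * Real.log (a ^ 3) + g (β * b) / a ^ 3))
          ((x ^ 2)⁻¹ * (ρ * Real.log (a ^ 3) + g βc / a ^ 3) - (1 / x) * (D * b / a ^ 3)) s' x := by
      intro s s' D hD hm'
      have d1 : HasDerivWithinAt (fun β : ℝ => β * b) b s' x := by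
        simpa using ((hasDerivAt_id x).mul_const b).hasDerivWithinAt (s := s')
      have d2 : HasDerivWithinAt (fun β : ℝ => g (β * b)) (D * b) s' x := by
        have hD' : HasDerivWithinAt g D s (x * b) := by rw [hxb]; exact hD
        exact hD'.comp x d1 hm'
      have d3 : HasDerivWithinAt (fun β : ℝ => ρ * Real.log (a ^ 3) + g (β * b) / a ^ 3)
          (D * b / a ^ 3) s' x := (d2.div_const _).const_add _
      have d4 : HasDerivWithinAt (fun β : ℝ => -(1 / β)) ((x ^ 2)⁻¹) s' x := by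
        have h0 := ((hasDerivAt_inv hxpos.ne').fun_neg).hasDerivWithinAt (s := s')
        simp only [one_div]
        exact h0.congr_deriv (by ring)
      have d5 := d4.fun_mul d3
      refine d5.congr_deriv ?_
      rw [hxb]
      ring
    refine ⟨_, _, key _ (Set.Iio x) gl hgl ?_, key _ (Set.Ioi x) gr hgr ?_, ?_⟩
    · intro y hy
      show y * b < βc
      rw [← hxb]
      exact mul_lt_mul_of_pos_right hy hb
    · intro y hy
      show βc < y * b
      rw [← hxb]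
      exact mul_lt_mul_of_pos_right hy hb
    · have h3 : gl * b / a ^ 3 < gr * b / a ^ 3 := by gcongr
      have h4 : (1 / x) * (gl * b / a ^ 3) < (1 / x) * (gr * b / a ^ 3) :=
        mul_lt_mul_of_pos_left h3 (by positivity)
      linarith

end Crest.Agent.Kac
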