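import Mathlib

/-! K16: real-variable consequences of the bounds on the base pressure `P0`
(`P0 β ρ = Pr (β φ0) ρ`). `τ = 19/(20 p)`. -/

set_option autoImplicit false
open Set

namespace Crest.Agent.Kac

/-- level-0 functional -/
noncomputable def V0 (P0 : ℝ → ℝ → ℝ) (p : ℝ) (z : ℝ × ℝ) (ρ : ℝ) : ℝ :=
  z.2 * ρ + P0 z.1 ρ + z.1 * (19 / (20 * p)) * ρ ^ 2 / 2

structure BF (P0 : ℝ → ℝ → ℝ) (p ϵ K0 B Bw C2 Cκ m0 b0 β1 : ℝ) : Prop where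
  p1 : 1 ≤ p
  p8 : p ≤ 8
  K0_ge : 100 ≤ K0
  Bw_nn : 0 ≤ Bw
  B_eq : B = 200 * (Bw + 1)
  ϵ_pos : 0 < ϵ
  ϵ_le : ϵ * (K0 * B) ≤ 1 / 100000
  C2_nn : 0 ≤ C2
  Cκ_nn : 0 ≤ Cκ
  β1_ge : 100 * (Cκ + C2 + 3) ≤ β1 * ϵ
  m0_lo : p - ϵ / 1000 ≤ m0
  m0_hi : m0 ≤ p
  b0_lo : p * (198 / 100) ≤ b0
  b0_hi : b0 ≤ 2 * p
  zero : ∀ β, 0 ≤ β → P0 β 0 = 0
  le_one : ∀ β, 0 ≤ β → ∀ ρ, 0 ≤ ρ → P0 β ρ ≤ 1
  linear : ∀ β, 0 ≤ β → ∀ ρ, 0 ≤ ρ → P0 β ρ ≤ 1 - β * (9 / 10) * (ρ - p)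
  super : ∀ β, 0 ≤ β → ∀ ρ, 0 ≤ ρ → P0 β ρ ≤ 1 + β * (K0 / 2 * ρ - 16 * ρ ^ 2)
  L3 : ∀ ρ, 0 ≤ ρ → P0 β1 ρ ≤ 2 - β1 / 2 * ((1 - 1 / 200) * ρ ^ 2 / p - ρ)
  U1 : ∀ β, 0 ≤ β → -Cκ ≤ P0 β m0
  U2 : ∀ β, 0 ≤ β → -(β * b0 / 2) - C2 ≤ P0 β b0
  U3 : ∀ β, 0 ≤ β → -(β * (91 / 100) * b0 / 2) - C2 - 3 * (b0 / 2) * (Bw * β1) ≤ P0 β b0
  anti : ∀ β β', 0 ≤ β → β ≤ β' → ∀ ρ, 0 ≤ ρ → P0 β' ρ ≤ P0 β ρ

namespace BF

variable {P0 : ℝ → ℝ → ℝ} {p ϵ K0 B Bw C2 Cκ m0 b0 β1 : ℝ}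

/-- crude size information. -/
theorem sizes (h : BF P0 p ϵ K0 B Bw C2 Cκ m0 b0 β1) :
    200 ≤ B ∧ ϵ ≤ 1 / 1000000000 ∧ 100000000 * (Cκ + C2 + 3) ≤ β1 ∧ 0 < β1 := by
  have hB : 200 ≤ B := by
    rw [h.B_eq]
    linarith [h.Bw_nn]
  have hKB : 20000 ≤ K0 * B := by
    have := mul_le_mul h.K0_ge hB (by norm_num) (by linarith [h.K0_ge])
    linarith
  have hϵ : ϵ ≤ 1 / 1000000000 := by
    have h1 := mul_le_mul_of_nonneg_left hKB h.ϵ_pos.le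
    have h2 := h.ϵ_le
    linarith
  have hC : 0 < Cκ + C2 + 3 := by linarith [h.C2_nn, h.Cκ_nn]
  have hβ : 0 < β1 := by
    by_contra hcon
    have h1 : β1 * ϵ ≤ 0 := mul_nonpos_of_nonpos_of_nonneg (not_lt.mp hcon) h.ϵ_pos.le
    linarith [h.β1_ge]
  refine ⟨hB, hϵ, ?_, hβ⟩
  have h1 : β1 * ϵ ≤ β1 * (1 / 1000000000) := mul_le_mul_of_nonneg_left hϵ hβ.le
  have h2 := h.β1_ge
  linarith

lemma chord_le_max {X Y s a : ℝ} (h0 : 0 ≤ s) (h1 : s ≤ 1) (h : a ≤ (1 - s) * X + s * Y) :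
    a ≤ max X Y := by
  have hX : X ≤ max X Y := le_max_left _ _
  have hY : Y ≤ max X Y := le_max_right _ _
  nlinarith [mul_le_mul_of_nonneg_left hX (by linarith : 0 ≤ 1 - s),
    mul_le_mul_of_nonneg_left hY h0]

/-- gap 1. -/
theorem gap1 (h : BF P0 p ϵ K0 B Bw C2 Cκ m0 b0 β1) {z : ℝ × ℝ} (hz : β1 / 2 < z.1) {ρ : ℝ}
    (h1 : ϵ < ρ) (h2 : ρ < p - ϵ) :
    V0 P0 p z ρ + 1 ≤ max (V0 P0 p z 0) (V0 P0 p z m0) := by
  obtain ⟨hB, hϵ, hβ1, hβ1pos⟩ := h.sizes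
  have hp0 : 0 < p := by linarith [h.p1]
  have hϵ0 := h.ϵ_pos
  have hm0lo := h.m0_lo
  have hm0 : 0 < m0 := by linarith [h.p1]
  have hρm : ρ < m0 := by linarith
  set β := z.1 with hβdef
  set μ := z.2 with hμdef
  have hβ0 : 0 < β := by linarith
  have hρ0 : 0 < ρ := by linarith
  set l : ℝ := ρ / m0 with hl
  have hl0 : 0 ≤ l := by positivity
  have hl1 : l ≤ 1 := by rw [hl, div_le_one hm0]; exact hρm.le
  have hlm : l * m0 = ρ := by rw [hl]; field_simp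
  apply chord_le_max hl0 hl1
  have e0 : V0 P0 p z 0 = 0 := by
    unfold V0
    rw [h.zero β hβ0.le]
    ring
  rw [e0]
  unfold V0
  have hP1 := h.le_one β hβ0.le ρ (by linarith)
  have hP2 := h.U1 β hβ0.le
  -- product estimate
  have hprod : ϵ * p / 4 ≤ ρ * (m0 - ρ) := by
    rcases le_total ρ (p / 2) with hc | hc
    · have a1 : p / 4 ≤ m0 - ρ := by linarith [h.p1]
      have a2 := mul_le_mul h1.le a1 (by positivity) (by linarith)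
      linarith
    · have a1 : ϵ / 2 ≤ m0 - ρ := by linarith
      have a2 := mul_le_mul hc a1 (by positivity) (by linarith)
      nlinarith
  have hτ : (0 : ℝ) < 19 / (20 * p) := by positivity
  have hmain : β1 * ϵ * (19 / 320) ≤ β * (19 / (20 * p)) * (ρ * (m0 - ρ)) / 2 := by
    have b1 : (β1 / 2) * (19 / (20 * p)) ≤ β * (19 / (20 * p)) :=
      mul_le_mul_of_nonneg_right hz.le hτ.le
    have b2 := mul_le_mul b1 hprod (by positivity) (by positivity)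
    have b3 : β1 / 2 * (19 / (20 * p)) * (ϵ * p / 4) = β1 * ϵ * (19 / 160) := by
      field_simp
      ring
    rw [b3] at b2
    linarith
  have hge := h.β1_ge
  have hlP : -Cκ ≤ l * P0 β m0 := by
    have c1 : l * (-Cκ) ≤ l * P0 β m0 := mul_le_mul_of_nonneg_left hP2 hl0
    have c2 : l * Cκ ≤ 1 * Cκ := mul_le_mul_of_nonneg_right hl1 h.Cκ_nn
    linarith
  have hexp : l * (μ * m0 + P0 β m0 + β * (19 / (20 * p)) * m0 ^ 2 / 2) =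
      μ * ρ + l * P0 β m0 + β * (19 / (20 * p)) * (ρ * m0) / 2 := by
    rw [← hlm]
    ring
  have hC2 := h.C2_nn
  have hCκ := h.Cκ_nn
  have hring : β * (19 / (20 * p)) * (ρ * (m0 - ρ)) / 2 =
      β * (19 / (20 * p)) * (ρ * m0) / 2 - β * (19 / (20 * p)) * ρ ^ 2 / 2 := by ring
  rw [hring] at hmain
  show μ * ρ + P0 β ρ + β * (19 / (20 * p)) * ρ ^ 2 / 2 + 1 ≤
    (1 - l) * 0 + l * (μ * m0 + P0 β m0 + β * (19 / (20 * p)) * m0 ^ 2 / 2)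
  rw [hexp]
  linarith

/-- gap 2. -/
theorem gap2 (h : BF P0 p ϵ K0 B Bw C2 Cκ m0 b0 β1) {z : ℝ × ℝ} (hz : β1 / 2 < z.1) {ρ : ℝ}
    (h1 : p + ϵ < ρ) (h2 : ρ < 3 * p / 2) :
    V0 P0 p z ρ + 1 ≤ max (V0 P0 p z m0) (V0 P0 p z b0) := by
  obtain ⟨hB, hϵ, hβ1, hβ1pos⟩ := h.sizes
  have hp0 : 0 < p := by linarith [h.p1]
  have hϵ0 := h.ϵ_pos
  have hm0lo := h.m0_lo
  have hm0hi := h.m0_hi
  have hb0lo := h.b0_lo
  have hm0 : 0 < m0 := by linarith [h.p1]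
  have hb0 : 0 < b0 := by linarith
  have hbm : 0 < b0 - m0 := by linarith
  set β := z.1 with hβdef
  set μ := z.2 with hμdef
  have hβ0 : 0 < β := by linarith
  set s : ℝ := (ρ - m0) / (b0 - m0) with hs
  have hd0 : 0 < ρ - m0 := by linarith
  have hs0 : 0 ≤ s := by positivity
  have hs1 : s ≤ 1 := by rw [hs, div_le_one hbm]; linarith
  have hsm : s * (b0 - m0) = ρ - m0 := by rw [hs]; field_simp
  apply chord_le_max hs0 hs1
  have hP1 := h.linear β hβ0.le ρ (by linarith)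
  have hP2 := h.U1 β hβ0.le
  have hP3 := h.U2 β hβ0.le
  have hC2 := h.C2_nn
  have hCκ := h.Cκ_nn
  have hge := h.β1_ge
  have hτ : (0 : ℝ) < 19 / (20 * p) := by positivity
  -- `s * b0 / 2 ≤ (99/98) d`
  have hsb : s * b0 ≤ 198 / 98 * (ρ - m0) := by
    have a1 : b0 ≤ 198 / 98 * (b0 - m0) := by linarith
    have a2 := mul_le_mul_of_nonneg_left a1 hs0
    have a3 : s * (198 / 98 * (b0 - m0)) = 198 / 98 * (s * (b0 - m0)) := by ring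
    rw [a3, hsm] at a2
    exact a2
  have hτb : 228 / 1000 ≤ 19 / (20 * p) * (b0 - ρ) / 2 := by
    have a1 : 48 / 100 * p ≤ b0 - ρ := by linarith
    have a2 := mul_le_mul_of_nonneg_left a1 hτ.le
    have a3 : 19 / (20 * p) * (48 / 100 * p) = 456 / 1000 := by
      field_simp
      norm_num
    rw [a3] at a2
    linarith
  have hbr : ϵ / 10 ≤ 9 / 10 * (ρ - p) - s * b0 / 2 +
      19 / (20 * p) * ((ρ - m0) * (b0 - ρ)) / 2 := by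
    have a1 := mul_le_mul_of_nonneg_left hτb hd0.le
    have a2 : (ρ - m0) * (19 / (20 * p) * (b0 - ρ) / 2) =
        19 / (20 * p) * ((ρ - m0) * (b0 - ρ)) / 2 := by ring
    rw [a2] at a1
    linarith
  have hmain : β1 * ϵ / 20 ≤ β * (9 / 10 * (ρ - p) - s * b0 / 2 +
      19 / (20 * p) * ((ρ - m0) * (b0 - ρ)) / 2) := by
    have a1 := mul_le_mul hz.le hbr (by positivity) hβ0.le
    linarith
  have hsP : -Cκ - C2 - β * (s * b0 / 2) ≤ (1 - s) * P0 β m0 + s * P0 β b0 := by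
    have c1 : (1 - s) * (-Cκ) ≤ (1 - s) * P0 β m0 :=
      mul_le_mul_of_nonneg_left hP2 (by linarith)
    have c2 : s * (-(β * b0 / 2) - C2) ≤ s * P0 β b0 := mul_le_mul_of_nonneg_left hP3 hs0
    have c3 : (1 - s) * Cκ ≤ Cκ := by nlinarith
    have c4 : s * C2 ≤ C2 := by nlinarith
    have c5 : s * (-(β * b0 / 2) - C2) = -(β * (s * b0 / 2)) - s * C2 := by ring
    rw [c5] at c2
    linarith
  have hexp : (1 - s) * (μ * m0 + P0 β m0 + β * (19 / (20 * p)) * m0 ^ 2 / 2) +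
      s * (μ * b0 + P0 β b0 + β * (19 / (20 * p)) * b0 ^ 2 / 2) =
      μ * ρ + ((1 - s) * P0 β m0 + s * P0 β b0) +
        β * (19 / (20 * p)) * ρ ^ 2 / 2 + β * (19 / (20 * p) * ((ρ - m0) * (b0 - ρ)) / 2) := by
    have hρ : ρ = m0 + s * (b0 - m0) := by linarith
    rw [hρ]
    ring
  show μ * ρ + P0 β ρ + β * (19 / (20 * p)) * ρ ^ 2 / 2 + 1 ≤ _
  unfold V0
  show _ ≤ (1 - s) * (μ * m0 + P0 β m0 + β * (19 / (20 * p)) * m0 ^ 2 / 2) +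
      s * (μ * b0 + P0 β b0 + β * (19 / (20 * p)) * b0 ^ 2 / 2)
  rw [hexp]
  have hm2 : β * (9 / 10 * (ρ - p) - s * b0 / 2 +
      19 / (20 * p) * ((ρ - m0) * (b0 - ρ)) / 2) =
      β * (9 / 10) * (ρ - p) - β * (s * b0 / 2) +
        β * (19 / (20 * p) * ((ρ - m0) * (b0 - ρ)) / 2) := by ring
  rw [hm2] at hmain
  linarith

theorem h1 (h : BF P0 p ϵ K0 B Bw C2 Cκ m0 b0 β1) (μ : ℝ) :
    (∀ ρ, 0 ≤ ρ → ρ ≤ ϵ → V0 P0 p (β1, μ) ρ + 1 ≤ V0 P0 p (β1, μ) m0) ∨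
    (∀ ρ, 3 * p / 2 ≤ ρ → V0 P0 p (β1, μ) ρ + 1 ≤ V0 P0 p (β1, μ) m0) := by
  obtain ⟨hB, hϵ, hβ1', hβ1pos⟩ := h.sizes
  have hp := h.p1
  have hp8 := h.p8
  have hp0 : 0 < p := by linarith
  have hϵ0 := h.ϵ_pos
  have hm1 := h.m0_lo
  have hm2 := h.m0_hi
  have hCκ := h.Cκ_nn
  have hC2 := h.C2_nn
  have hU := h.U1 β1 hβ1pos.le
  have hm0 : 9 / 10 ≤ m0 := by linarith
  have hτ0 : 0 < 19 / (20 * p) := by positivity
  have hτ1 : 19 / (20 * p) ≤ 1 := by rw [div_le_one (by positivity)]; linarith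
  have hτm : 949 / 1000 ≤ 19 / (20 * p) * m0 := by
    have a1 : 19 / (20 * p) * (p - ϵ / 1000) ≤ 19 / (20 * p) * m0 :=
      mul_le_mul_of_nonneg_left hm1 hτ0.le
    have a2 : 19 / (20 * p) * p = 19 / 20 := by field_simp
    have a3 : 19 / (20 * p) * (ϵ / 1000) ≤ 1 * (ϵ / 1000) :=
      mul_le_mul_of_nonneg_right hτ1 (by positivity)
    linarith
  rcases le_total (-(47 / 100) * β1) μ with hμ | hμ
  · left
    intro ρ hρ0 hρ
    have hP := h.le_one β1 hβ1pos.le ρ hρ0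
    simp only [V0]
    have e1 : -(47 / 100) * β1 * (m0 - ρ) ≤ μ * (m0 - ρ) :=
      mul_le_mul_of_nonneg_right hμ (by linarith)
    have e2 : β1 * (m0 - ρ) * (949 / 2000) ≤ β1 * (m0 - ρ) * (19 / (20 * p) * (m0 + ρ) / 2) := by
      apply mul_le_mul_of_nonneg_left
      · have : 0 ≤ 19 / (20 * p) * ρ := by positivity
        linarith
      · have : 0 ≤ m0 - ρ := by linarith
        positivity
    have e3 : β1 * (m0 - ρ) * (19 / (20 * p) * (m0 + ρ) / 2) =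
        β1 * (19 / (20 * p)) * m0 ^ 2 / 2 - β1 * (19 / (20 * p)) * ρ ^ 2 / 2 := by ring
    have e4 : β1 * (8 / 10) ≤ β1 * (m0 - ρ) := mul_le_mul_of_nonneg_left (by linarith) hβ1pos.le
    rw [e3] at e2
    linarith
  · right
    intro ρ hρ
    have hρ0 : 0 < ρ := by linarith
    have hP := h.L3 ρ hρ0.le
    simp only [V0]
    have e1 : -(-(47 / 100) * β1) * (ρ - m0) ≤ -μ * (ρ - m0) :=
      mul_le_mul_of_nonneg_right (by linarith) (by linarith)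
    have e2 : 0 ≤ β1 * m0 * (19 / (20 * p) * m0 / 2 - 47 / 100) := by
      apply mul_nonneg (by positivity); linarith
    have e3 : β1 * (3 / 2) * (3 / 1000) ≤ β1 * (ρ / p) * (9 / 400 * ρ - 3 / 100 * p) := by
      apply mul_le_mul
      · apply mul_le_mul_of_nonneg_left _ hβ1pos.le
        rw [le_div_iff₀ hp0]; linarith
      · linarith
      · norm_num
      · positivity
    have e4 : β1 * (ρ / p) * (9 / 400 * ρ - 3 / 100 * p) =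
        β1 / 2 * ((1 - 1 / 200) * ρ ^ 2 / p - ρ) - β1 * (19 / (20 * p)) * ρ ^ 2 / 2 +
        47 / 100 * β1 * ρ := by
      field_simp; ring
    rw [e4] at e3
    linarith

theorem h2 (h : BF P0 p ϵ K0 B Bw C2 Cκ m0 b0 β1) (μ : ℝ) :
    (∀ ρ, p - ϵ ≤ ρ → ρ ≤ p + ϵ → V0 P0 p (B * β1, μ) ρ + 1 ≤ V0 P0 p (B * β1, μ) 0) ∨
    (∀ ρ, p - ϵ ≤ ρ → ρ ≤ p + ϵ → V0 P0 p (B * β1, μ) ρ + 1 ≤ V0 P0 p (B * β1, μ) b0) := by
  obtain ⟨hB, hϵ, hβ1', hβ1pos⟩ := h.sizes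
  have hp := h.p1
  have hp8 := h.p8
  have hp0 : 0 < p := by linarith
  have hϵ0 := h.ϵ_pos
  have hb1 := h.b0_lo
  have hb2 := h.b0_hi
  have hCκ := h.Cκ_nn
  have hC2 := h.C2_nn
  have hBβ : 0 < B * β1 := by positivity
  have hBw := h.Bw_nn
  have hU := h.U3 (B * β1) hBβ.le
  have hb0 : 0 < b0 := by linarith
  have hτ0 : 0 < 19 / (20 * p) := by positivity
  have hτ1 : 19 / (20 * p) ≤ 1 := by rw [div_le_one (by positivity)]; linarith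
  have hV0 : V0 P0 p (B * β1, μ) 0 = 0 := by
    simp only [V0]
    rw [h.zero _ hBβ.le]; ring
  have key : ∀ ρ, p - ϵ ≤ ρ → ρ ≤ p + ϵ →
      V0 P0 p (B * β1, μ) ρ + 1 ≤ (ρ / b0) * V0 P0 p (B * β1, μ) b0 := by
    intro ρ hρ1 hρ2
    have hρ0 : 0 < ρ := by linarith
    have hP := h.le_one (B * β1) hBβ.le ρ hρ0.le
    simp only [V0]
    set l : ℝ := ρ / b0 with hl
    have hl0 : 0 ≤ l := by positivity
    have hl1 : l ≤ 1 := by rw [hl, div_le_one hb0]; linarith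
    have hlb : l * b0 = ρ := by rw [hl]; field_simp
    have e1 : l * (μ * b0 + P0 (B * β1) b0 + B * β1 * (19 / (20 * p)) * b0 ^ 2 / 2) =
        μ * (l * b0) + l * P0 (B * β1) b0 + B * β1 * (19 / (20 * p)) * (l * b0) * b0 / 2 := by ring
    rw [e1, hlb]
    have e2 : l * (-(B * β1 * (91 / 100) * b0 / 2) - C2 - 3 * (b0 / 2) * (Bw * β1)) ≤
        l * P0 (B * β1) b0 := mul_le_mul_of_nonneg_left hU hl0
    have e3 : l * (-(B * β1 * (91 / 100) * b0 / 2) - C2 - 3 * (b0 / 2) * (Bw * β1)) =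
        -(B * β1 * (91 / 200) * (l * b0)) - l * C2 - 3 / 2 * (l * b0) * (Bw * β1) := by ring
    rw [e3, hlb] at e2
    have e4 : l * C2 ≤ C2 := by nlinarith
    -- the coefficient
    have e5 : 4654 / 10000 ≤ 19 / (20 * p) * (b0 - ρ) / 2 := by
      have a1 : 19 / (20 * p) * (98 / 100 * p - ϵ) ≤ 19 / (20 * p) * (b0 - ρ) :=
        mul_le_mul_of_nonneg_left (by linarith) hτ0.le
      have a2 : 19 / (20 * p) * (98 / 100 * p) = 931 / 1000 := by field_simp; norm_num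
      have a3 : 19 / (20 * p) * ϵ ≤ 1 * ϵ := mul_le_mul_of_nonneg_right hτ1 hϵ0.le
      linarith
    have e6 : (B * β1 * ρ) * (4654 / 10000) ≤ (B * β1 * ρ) * (19 / (20 * p) * (b0 - ρ) / 2) :=
      mul_le_mul_of_nonneg_left e5 (by positivity)
    have e7 : (B * β1 * ρ) * (19 / (20 * p) * (b0 - ρ) / 2) =
        B * β1 * (19 / (20 * p)) * ρ * b0 / 2 - B * β1 * (19 / (20 * p)) * ρ ^ 2 / 2 := by ring
    rw [e7] at e6
    have e8 : B * β1 * ρ * (104 / 10000) - 3 / 2 * ρ * (Bw * β1) ≥ 2 * (β1 * ρ) := by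
      rw [h.B_eq]
      have : 0 ≤ Bw * (β1 * ρ) := by positivity
      have : 0 ≤ β1 * ρ := by positivity
      nlinarith
    have e9 : β1 * (1 / 2) ≤ β1 * ρ := mul_le_mul_of_nonneg_left (by linarith) hβ1pos.le
    nlinarith
  rcases le_total (V0 P0 p (B * β1, μ) b0) 0 with hs | hs
  · left
    intro ρ h1 h2
    have hρ0 : 0 < ρ := by linarith
    have := key ρ h1 h2
    have h3 : (ρ / b0) * V0 P0 p (B * β1, μ) b0 ≤ 0 :=
      mul_nonpos_of_nonneg_of_nonpos (by positivity) hs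
    rw [hV0]
    linarith
  · right
    intro ρ h1 h2
    have hρ0 : 0 < ρ := by linarith
    have := key ρ h1 h2
    have h4 : ρ / b0 ≤ 1 := by rw [div_le_one hb0]; linarith
    have h3 : (ρ / b0) * V0 P0 p (B * β1, μ) b0 ≤ 1 * V0 P0 p (B * β1, μ) b0 :=
      mul_le_mul_of_nonneg_right h4 hs
    linarith

theorem at_μ'' (h : BF P0 p ϵ K0 B Bw C2 Cκ m0 b0 β1) {ρ : ℝ} (hρ0 : 0 ≤ ρ)
    (hρ : ρ ≤ ϵ ∨ 3 * p / 2 ≤ ρ) : V0 P0 p (β1, -(47 / 100) * β1) ρ ≤ 2 := by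
  obtain ⟨hB, hϵ, hβ1, hβ1pos⟩ := h.sizes
  have hp := h.p1
  have hp0 : 0 < p := by linarith
  simp only [V0]
  rcases hρ with hρ | hρ
  · have h1 := h.le_one β1 hβ1pos.le ρ hρ0
    have h2 : β1 * (19 / (20 * p)) * ρ ^ 2 / 2 ≤ (47 / 100) * β1 * ρ := by
      have e1 : 19 / (20 * p) ≤ 19 / 20 := by
        apply div_le_div_of_nonneg_left (by norm_num) (by norm_num); linarith
      have e2 : (19 / (20 * p)) * ρ ≤ 19 / 20 * 1 := by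
        apply mul_le_mul e1 (by linarith) hρ0 (by norm_num)
      have e3 : 0 < 19 / (20 * p) := by positivity
      have e4 : (19 / (20 * p)) * ρ ≤ 19 / 20 * (1 / 1000000000) := by
        apply mul_le_mul e1 (by linarith) hρ0 (by norm_num)
      have e5 : (β1 * ρ) * ((19 / (20 * p)) * ρ) ≤ (β1 * ρ) * (94 / 100) := by
        apply mul_le_mul_of_nonneg_left (by linarith) (by positivity)
      nlinarith
    linarith
  · have h1 := h.L3 ρ hρ0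
    have h2 : -(47 / 100) * β1 * ρ + (-(β1 / 2 * ((1 - 1 / 200) * ρ ^ 2 / p - ρ))) +
        β1 * (19 / (20 * p)) * ρ ^ 2 / 2 ≤ 0 := by
      have e1 : -(47 / 100) * β1 * ρ + (-(β1 / 2 * ((1 - 1 / 200) * ρ ^ 2 / p - ρ))) +
        β1 * (19 / (20 * p)) * ρ ^ 2 / 2 = β1 * (ρ / p) * (3 / 100 * p - 9 / 400 * ρ) := by
        field_simp; ring
      rw [e1]
      apply mul_nonpos_of_nonneg_of_nonpos (by positivity)
      linarith
    linarith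

theorem hL (h : BF P0 p ϵ K0 B Bw C2 Cκ m0 b0 β1) {β : ℝ} (hβ1 : β1 ≤ β) (hβ2 : β ≤ B * β1)
    {ρ : ℝ} (hρ : p - ϵ ≤ ρ) :
    V0 P0 p (β, -(B * β1 * K0 / 2 + 4)) ρ + 1 ≤ V0 P0 p (β, -(B * β1 * K0 / 2 + 4)) 0 := by
  obtain ⟨hB, hϵ, hβ1', hβ1pos⟩ := h.sizes
  have hp := h.p1
  have hp0 : 0 < p := by linarith
  have hβ0 : 0 < β := by linarith
  have hρ0 : 0 ≤ ρ := by linarith
  have hρh : 1 / 2 ≤ ρ := by linarith
  have hK := h.K0_ge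
  have h1 := h.super β hβ0.le ρ hρ0
  simp only [V0]
  rw [h.zero β hβ0.le]
  have e0 : 19 / (20 * p) ≤ 1 := by rw [div_le_one (by positivity)]; linarith
  have e1 : β * (19 / (20 * p)) * ρ ^ 2 / 2 ≤ β * (16 * ρ ^ 2) := by
    have : (19 / (20 * p)) * (β * ρ ^ 2) ≤ 1 * (β * ρ ^ 2) :=
      mul_le_mul_of_nonneg_right e0 (by positivity)
    nlinarith [mul_nonneg hβ0.le (sq_nonneg ρ)]
  have e2 : β * (K0 / 2 * ρ) ≤ B * β1 * K0 / 2 * ρ := by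
    have : β * (K0 / 2 * ρ) ≤ B * β1 * (K0 / 2 * ρ) :=
      mul_le_mul_of_nonneg_right hβ2 (by positivity)
    linarith
  have e3 : β * (K0 / 2 * ρ - 16 * ρ ^ 2) = β * (K0 / 2 * ρ) - β * (16 * ρ ^ 2) := by ring
  rw [e3] at h1
  have e4 : -(B * β1 * K0 / 2 + 4) * ρ = -(B * β1 * K0 / 2 * ρ) - 4 * ρ := by ring
  rw [e4]
  simp
  linarith

theorem hR (h : BF P0 p ϵ K0 B Bw C2 Cκ m0 b0 β1) {β : ℝ} (hβ1 : β1 ≤ β) (hβ2 : β ≤ B * β1)
    {ρ : ℝ} (hρ0 : 0 ≤ ρ) (hρ : ρ ≤ p + ϵ) :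
    V0 P0 p (β, B * β1 * K0 / 2 + 4) ρ + 1 ≤ V0 P0 p (β, B * β1 * K0 / 2 + 4) b0 := by
  obtain ⟨hB, hϵ, hβ1', hβ1pos⟩ := h.sizes
  have hp := h.p1
  have hp8 := h.p8
  have hp0 : 0 < p := by linarith
  have hβ0 : 0 < β := by linarith
  have hK := h.K0_ge
  have hb1 := h.b0_lo
  have hb2 := h.b0_hi
  have h1 := h.le_one β hβ0.le ρ hρ0
  have h2 := h.U2 β hβ0.le
  simp only [V0]
  have hτ : 0 < 19 / (20 * p) := by positivity
  have e1 : β * (19 / (20 * p)) * ρ ^ 2 / 2 ≤ β * (19 / (20 * p)) * b0 ^ 2 / 2 := by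
    have : ρ ^ 2 ≤ b0 ^ 2 := pow_le_pow_left₀ hρ0 (by linarith) 2
    have : β * (19 / (20 * p)) * ρ ^ 2 ≤ β * (19 / (20 * p)) * b0 ^ 2 :=
      mul_le_mul_of_nonneg_left this (by positivity)
    linarith
  have hBβ : 0 < B * β1 := by positivity
  have e2 : β * b0 / 2 ≤ B * β1 * 8 := by
    have : β * b0 ≤ (B * β1) * 16 := mul_le_mul hβ2 (by linarith) (by linarith) hBβ.le
    linarith
  have e3 : (B * β1 * K0 / 2 + 4) * (9 / 10) ≤ (B * β1 * K0 / 2 + 4) * (b0 - ρ) := by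
    apply mul_le_mul_of_nonneg_left (by linarith) (by positivity)
  have e4 : B * β1 * 100 ≤ B * β1 * K0 := mul_le_mul_of_nonneg_left hK hBβ.le
  have e5 : β1 ≤ B * β1 := by nlinarith
  have hCκ := h.Cκ_nn
  have hC2 := h.C2_nn
  nlinarith

set_option maxHeartbeats 1600000 in
theorem nd (h : BF P0 p ϵ K0 B Bw C2 Cκ m0 b0 β1) {β μ ρM : ℝ} (hβ1 : β1 ≤ β)
    (hβ2 : β ≤ B * β1) (hμ1 : -(B * β1 * K0 / 2 + 4) ≤ μ) (hμ2 : μ ≤ B * β1 * K0 / 2 + 4)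
    (hρ1 : p - 2 * ϵ ≤ ρM) (hρ2 : ρM ≤ p + 2 * ϵ) :
    (19 / (20 * p) * ρM ^ 2 / 2 + 19 / (20 * p) * (3 * ϵ) ^ 2 / 2 + 1 / (1000 * B)) * (β - β1) + 1 ≤
      ρM * (-(47 / 100) * β1 - μ) + V0 P0 p (β, μ) m0 - 2 := by
  obtain ⟨hB, hϵ, hβ1', hβ1pos⟩ := h.sizes
  have hp := h.p1
  have hp8 := h.p8
  have hp0 : 0 < p := by linarith
  have hβ0 : 0 < β := by linarith
  have hK := h.K0_ge
  have hϵ0 := h.ϵ_pos
  have hm1 := h.m0_lo
  have hm2 := h.m0_hi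
  have hCκ := h.Cκ_nn
  have hC2 := h.C2_nn
  have hBβ : 0 < B * β1 := by positivity
  have hU := h.U1 β hβ0.le
  simp only [V0]
  set τ : ℝ := 19 / (20 * p) with hτ
  have hτ0 : 0 < τ := by positivity
  have hτp : τ * p = 19 / 20 := by rw [hτ]; field_simp
  have hτ1 : τ ≤ 1 := by rw [hτ, div_le_one (by positivity)]; linarith
  -- the small quantity ϵ B β1 K0
  have hs : ϵ * (B * β1 * K0) ≤ β1 / 100000 := by
    have := mul_le_mul_of_nonneg_right h.ϵ_le hβ1pos.le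
    nlinarith
  have hs2 : ϵ * (B * β1) ≤ β1 / 10000000 := by
    have : ϵ * (B * β1) * 100 ≤ ϵ * (B * β1) * K0 := mul_le_mul_of_nonneg_left hK (by positivity)
    nlinarith
  -- error 1 : (m0 - ρM) μ
  have hd1 : m0 - ρM ≤ 3 * ϵ := by linarith
  have hd2 : -(3 * ϵ) ≤ m0 - ρM := by linarith
  have herr1 : -(3 * ϵ * (B * β1 * K0 / 2 + 4)) ≤ (m0 - ρM) * μ := by
    have a1 : |m0 - ρM| ≤ 3 * ϵ := abs_le.2 ⟨hd2, hd1⟩
    have a2 : |μ| ≤ B * β1 * K0 / 2 + 4 := abs_le.2 ⟨hμ1, hμ2⟩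
    have a3 : |(m0 - ρM) * μ| ≤ 3 * ϵ * (B * β1 * K0 / 2 + 4) := by
      rw [abs_mul]
      exact mul_le_mul a1 a2 (abs_nonneg _) (by positivity)
    exact (abs_le.1 a3).1
  -- error 2 : τ β (m0² - ρM²)/2
  have herr2 : -(τ * β * (ϵ * 60)) ≤ τ * β * (m0 ^ 2 - ρM ^ 2) := by
    have a1 : -(ϵ * 60) ≤ m0 ^ 2 - ρM ^ 2 := by
      have : m0 ^ 2 - ρM ^ 2 = (m0 - ρM) * (m0 + ρM) := by ring
      rw [this]
      have b1 : 0 < m0 + ρM := by linarith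
      have b2 : m0 + ρM ≤ 20 := by linarith
      nlinarith
    have a2 : 0 ≤ τ * β := by positivity
    nlinarith
  have herr2' : τ * β * (ϵ * 60) ≤ β1 / 100000 := by
    have b1 : τ * β ≤ 1 * (B * β1) := mul_le_mul hτ1 hβ2 hβ0.le (by norm_num)
    have b2 : τ * β * (ϵ * 60) ≤ 1 * (B * β1) * (ϵ * 60) :=
      mul_le_mul_of_nonneg_right b1 (by positivity)
    linarith
  -- error 3
  have herr3 : (τ * (3 * ϵ) ^ 2 / 2 + 1 / (1000 * B)) * (β - β1) ≤ β1 / 900 := by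
    have b0' : 0 ≤ β - β1 := by linarith
    have b1 : τ * (3 * ϵ) ^ 2 / 2 ≤ 5 * ϵ := by
      have c1 : τ * (3 * ϵ) ^ 2 ≤ 1 * (3 * ϵ) ^ 2 := mul_le_mul_of_nonneg_right hτ1 (by positivity)
      nlinarith
    have b2 : β - β1 ≤ B * β1 := by linarith
    have b3 : (τ * (3 * ϵ) ^ 2 / 2 + 1 / (1000 * B)) * (β - β1) ≤
        (5 * ϵ + 1 / (1000 * B)) * (B * β1) :=
      mul_le_mul (by linarith) b2 b0' (by positivity)
    have b4 : (5 * ϵ + 1 / (1000 * B)) * (B * β1) = 5 * (ϵ * (B * β1)) + β1 / 1000 := by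
      field_simp
    linarith
  -- main term
  have hmain : β1 * (3 / 1000) ≤ β1 * ρM * (τ * ρM / 2 - 47 / 100) := by
    have c1 : τ * ρM ≥ 19 / 20 - 2 * ϵ := by
      have : τ * (p - 2 * ϵ) ≤ τ * ρM := mul_le_mul_of_nonneg_left hρ1 hτ0.le
      nlinarith
    have c2 : 4 / 1000 ≤ τ * ρM / 2 - 47 / 100 := by linarith
    have c3 : 3 / 4 ≤ ρM := by linarith
    have c4 : β1 * (3 / 4) * (4 / 1000) ≤ β1 * ρM * (τ * ρM / 2 - 47 / 100) := by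
      apply mul_le_mul _ c2 (by norm_num) (by positivity)
      exact mul_le_mul_of_nonneg_left c3 hβ1pos.le
    linarith
  have hexp : ρM * (-(47 / 100) * β1 - μ) + (μ * m0 + P0 β m0 + β * τ * m0 ^ 2 / 2) -
      (τ * ρM ^ 2 / 2) * (β - β1) = β1 * ρM * (τ * ρM / 2 - 47 / 100) + (m0 - ρM) * μ +
        τ * β * (m0 ^ 2 - ρM ^ 2) / 2 + P0 β m0 := by ring
  have hexp2 : (τ * ρM ^ 2 / 2 + τ * (3 * ϵ) ^ 2 / 2 + 1 / (1000 * B)) * (β - β1) =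
      (τ * ρM ^ 2 / 2) * (β - β1) + (τ * (3 * ϵ) ^ 2 / 2 + 1 / (1000 * B)) * (β - β1) := by ring
  rw [hexp2]
  nlinarith

end BF

end Crest.Agent.Kac
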