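import Crest.Agent.Kac.Defs

/-! K5: the packing density and Turán-type lower bounds for the number of pairs at distance `< 1`. -/

set_option autoImplicit false
open MeasureTheory Filter Topology
open scoped ENNReal
open Crest.ProbabilityR.Continuum (packingNumber packingSet)

namespace Crest.Agent.Kac

theorem pk_coord_le (x y : Pt) (a : Fin 3) : |x a - y a| ≤ dist x y := by
  rw [dist_eq_norm]
  have h := PiLp.norm_apply_le (p := 2) (x - y) a
  simpa using h

theorem pk_isCompact_cube (L : ℝ) : IsCompact (cube L) := by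
  have h1 : cube L = (WithLp.toLp 2 : (Fin 3 → ℝ) → Pt) '' (Set.pi Set.univ (fun _ => Set.Icc 0 L)) := by
    ext x
    simp only [cube, Crest.ProbabilityR.Continuum.cube, Set.mem_ofPred_eq, Set.mem_image,
      Set.mem_pi, Set.mem_univ, true_implies, Set.mem_Icc]
    constructor
    · intro h
      exact ⟨x.ofLp, h, rfl⟩
    · rintro ⟨y, hy, rfl⟩
      exact hy
  rw [h1]
  exact (isCompact_univ_pi (fun _ => isCompact_Icc)).image (PiLp.continuous_toLp 2 _)

theorem pk_bdd (L : ℝ) : BddAbove (packingSet L) := by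
  classical
  have hc := (pk_isCompact_cube L).totallyBounded
  rw [Metric.totallyBounded_iff] at hc
  obtain ⟨t, ht, hcov⟩ := hc (1/2) (by norm_num)
  refine ⟨ht.toFinset.card, ?_⟩
  rintro n ⟨X, rfl, hX, hd⟩
  have hf : ∀ x ∈ X, ∃ y ∈ t, dist x y < 1/2 := by
    intro x hx
    have := hcov (hX x hx)
    simp only [Set.mem_iUnion, Metric.mem_ball, exists_prop] at this
    exact this
  choose! f hf1 hf2 using hf
  apply Finset.card_le_card_of_injOn f
  · intro x hx
    simpa using hf1 x hx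
  · intro x hx y hy hxy
    by_contra hne
    have h1 := hd x hx y hy hne
    have h2 := hf2 x hx
    have h3 := hf2 y hy
    rw [← hxy] at h3
    have := dist_triangle_right x y (f x)
    linarith

theorem le_packingNumber {L : ℝ} (X : Finset Pt) (hX : ∀ x ∈ X, x ∈ cube L)
    (hd : ∀ x ∈ X, ∀ y ∈ X, x ≠ y → 1 ≤ dist x y) : X.card ≤ packingNumber L :=
  le_csSup (pk_bdd L) ⟨X, rfl, hX, hd⟩

theorem exists_packing (L : ℝ) : ∃ X : Finset Pt, X.card = packingNumber L ∧
    (∀ x ∈ X, x ∈ cube L) ∧ ∀ x ∈ X, ∀ y ∈ X, x ≠ y → 1 ≤ dist x y := by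
  have hne : (packingSet L).Nonempty := ⟨0, ∅, by simp, by simp, by simp⟩
  exact Nat.sSup_mem hne (pk_bdd L)

theorem packingNumber_pos {L : ℝ} (hL : 0 ≤ L) : 0 < packingNumber L := by
  have := le_packingNumber (L := L) {0} (by
    intro x hx
    rw [Finset.mem_singleton] at hx
    subst hx
    intro k
    simp [hL]) (by simp)
  rw [Finset.card_singleton] at this
  exact this

/-- cubes with corridors -/
theorem pk_super {ℓ L : ℝ} (hℓ : 0 ≤ ℓ) (m : ℕ) (hm : (m : ℝ) * (ℓ + 1) ≤ L) :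
    m ^ 3 * packingNumber ℓ ≤ packingNumber L := by
  classical
  obtain ⟨X, hXc, hX, hXd⟩ := exists_packing ℓ
  let g : (Fin 3 → Fin m) × Pt → Pt := fun p => p.2 + WithLp.toLp 2 (fun a => (ℓ + 1) * ((p.1 a : ℕ) : ℝ))
  have hg : ∀ p a, (g p) a = p.2 a + (ℓ + 1) * ((p.1 a : ℕ) : ℝ) := fun p a => rfl
  have hdist : ∀ p ∈ (Finset.univ : Finset (Fin 3 → Fin m)) ×ˢ X,
      ∀ q ∈ (Finset.univ : Finset (Fin 3 → Fin m)) ×ˢ X, p ≠ q → 1 ≤ dist (g p) (g q) := by
    rintro ⟨k, x⟩ hp ⟨k', x'⟩ hq hne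
    simp only [Finset.mem_product, Finset.mem_univ, true_and] at hp hq
    by_cases hk : k = k'
    · subst hk
      have hx : x ≠ x' := fun h => hne (by rw [h])
      have : dist (g (k, x)) (g (k, x')) = dist x x' := by
        simp only [g, dist_add_right]
      rw [this]
      exact hXd x hp x' hq hx
    · have : ∃ a, k a ≠ k' a := Function.ne_iff.mp hk
      obtain ⟨a, ha⟩ := this
      refine le_trans ?_ (pk_coord_le (g (k, x)) (g (k', x')) a)
      rw [hg, hg]
      simp only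
      have hx1 := (hX x hp a).1
      have hx2 := (hX x hp a).2
      have hy1 := (hX x' hq a).1
      have hy2 := (hX x' hq a).2
      have ha' : (k a : ℕ) ≠ (k' a : ℕ) := fun h => ha (Fin.ext h)
      rcases lt_or_gt_of_ne ha' with h | h
      · have h1 : ((k a : ℕ) : ℝ) + 1 ≤ ((k' a : ℕ) : ℝ) := by exact_mod_cast h
        rw [abs_sub_comm]
        refine le_trans ?_ (le_abs_self _)
        nlinarith
      · have h1 : ((k' a : ℕ) : ℝ) + 1 ≤ ((k a : ℕ) : ℝ) := by exact_mod_cast h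
        refine le_trans ?_ (le_abs_self _)
        nlinarith
  have hinj : Set.InjOn g ((Finset.univ : Finset (Fin 3 → Fin m)) ×ˢ X : Finset _) := by
    intro p hp q hq hpq
    by_contra hne
    have := hdist p hp q hq hne
    rw [hpq, dist_self] at this
    linarith
  have hcard : (((Finset.univ : Finset (Fin 3 → Fin m)) ×ˢ X).image g).card = m ^ 3 * packingNumber ℓ := by
    rw [Finset.card_image_of_injOn hinj, Finset.card_product, hXc]
    simp
  rw [← hcard]
  apply le_packingNumber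
  · intro z hz
    obtain ⟨⟨k, x⟩, hp, rfl⟩ := Finset.mem_image.mp hz
    simp only [Finset.mem_product, Finset.mem_univ, true_and] at hp
    intro a
    rw [hg]
    have hx1 := (hX x hp a).1
    have hx2 := (hX x hp a).2
    have h1 : ((k a : ℕ) : ℝ) + 1 ≤ m := by exact_mod_cast (k a).2
    have h0 : (0:ℝ) ≤ ((k a : ℕ) : ℝ) := Nat.cast_nonneg _
    constructor
    · simp only; positivity
    · simp only
      nlinarith
  · intro z hz w hw hne
    obtain ⟨p, hp, rfl⟩ := Finset.mem_image.mp hz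
    obtain ⟨q, hq, rfl⟩ := Finset.mem_image.mp hw
    exact hdist p hp q hq (fun h => hne (by rw [h]))

/-- covering by cubes -/
theorem pk_sub {ℓ L : ℝ} (hℓ : 0 < ℓ) (m : ℕ) (hm0 : 0 < m) (hm : L ≤ (m : ℝ) * ℓ) :
    packingNumber L ≤ m ^ 3 * packingNumber ℓ := by
  classical
  obtain ⟨X, hXc, hX, hXd⟩ := exists_packing L
  let c : Pt → (Fin 3 → Fin m) := fun x a => ⟨min ⌊x a / ℓ⌋₊ (m - 1), by omega⟩
  have hfib : ∀ k : Fin 3 → Fin m, (X.filter (fun x => c x = k)).card ≤ packingNumber ℓ := by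
    intro k
    let g : Pt → Pt := fun x => x - WithLp.toLp 2 (fun a => ℓ * ((k a : ℕ) : ℝ))
    have hg : ∀ x a, (g x) a = x a - ℓ * ((k a : ℕ) : ℝ) := fun p a => rfl
    have hinj : Function.Injective g := fun x y h => by simpa [g] using h
    rw [← Finset.card_image_of_injective _ hinj]
    apply le_packingNumber
    · intro z hz
      obtain ⟨x, hx, rfl⟩ := Finset.mem_image.mp hz
      rw [Finset.mem_filter] at hx
      intro a
      rw [hg]
      have hx1 := (hX x hx.1 a).1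
      have hx2 := (hX x hx.1 a).2
      have hk : (k a : ℕ) = min ⌊x a / ℓ⌋₊ (m - 1) := by rw [← hx.2]
      have hq0 : 0 ≤ x a / ℓ := by positivity
      have hfl := Nat.floor_le hq0
      have hlt := Nat.lt_floor_add_one (x a / ℓ)
      have e : x a = ℓ * (x a / ℓ) := by field_simp
      rw [hk]
      rcases le_total ⌊x a / ℓ⌋₊ (m - 1) with h | h
      · rw [min_eq_left h]
        constructor
        · nlinarith
        · nlinarith
      · rw [min_eq_right h]
        have h1 : ((m - 1 : ℕ) : ℝ) ≤ (⌊x a / ℓ⌋₊ : ℝ) := by exact_mod_cast h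
        have h2 : ((m - 1 : ℕ) : ℝ) = (m : ℝ) - 1 := by
          rw [Nat.cast_sub hm0]; simp
        constructor
        · nlinarith
        · rw [h2]; nlinarith
    · intro z hz w hw hne
      obtain ⟨x, hx, rfl⟩ := Finset.mem_image.mp hz
      obtain ⟨y, hy, rfl⟩ := Finset.mem_image.mp hw
      rw [Finset.mem_filter] at hx hy
      have : dist (g x) (g y) = dist x y := by simp only [g, dist_sub_right]
      rw [this]
      exact hXd x hx.1 y hy.1 (fun h => hne (by rw [h]))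
  rw [← hXc, Finset.card_eq_sum_card_fiberwise (f := c) (t := Finset.univ) (fun x _ => by simp)]
  calc _ ≤ ∑ _k : Fin 3 → Fin m, packingNumber ℓ := Finset.sum_le_sum (fun k _ => hfib k)
    _ = m ^ 3 * packingNumber ℓ := by simp

theorem pk_compare {ℓ ℓ' : ℝ} (hℓ : 0 ≤ ℓ) (hℓ' : 0 < ℓ') :
    (packingNumber ℓ : ℝ) / (ℓ + 1) ^ 3 ≤ (packingNumber ℓ' : ℝ) / ℓ' ^ 3 := by
  have h1 : Tendsto (fun L : ℝ => ((⌊(ℓ + 1)⁻¹ * L⌋₊ : ℝ) / L) ^ 3 * packingNumber ℓ) atTop
      (𝓝 (((ℓ + 1)⁻¹) ^ 3 * packingNumber ℓ)) :=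
    ((tendsto_nat_floor_mul_div_atTop (by positivity)).pow 3).mul_const _
  have h2 : Tendsto (fun L : ℝ => ((⌈ℓ'⁻¹ * L⌉₊ : ℝ) / L) ^ 3 * packingNumber ℓ') atTop
      (𝓝 ((ℓ'⁻¹) ^ 3 * packingNumber ℓ')) :=
    ((tendsto_nat_ceil_mul_div_atTop (by positivity)).pow 3).mul_const _
  have h3 := le_of_tendsto_of_tendsto h1 h2 (by
    filter_upwards [eventually_gt_atTop (0:ℝ)] with L hL
    have a1 := pk_super hℓ ⌊(ℓ + 1)⁻¹ * L⌋₊ (L := L) (by
      have := Nat.floor_le (show 0 ≤ (ℓ + 1)⁻¹ * L by positivity)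
      calc (⌊(ℓ + 1)⁻¹ * L⌋₊ : ℝ) * (ℓ + 1) ≤ ((ℓ + 1)⁻¹ * L) * (ℓ + 1) := by gcongr
        _ = L := by field_simp)
    have a2 := pk_sub hℓ' ⌈ℓ'⁻¹ * L⌉₊ (L := L) (Nat.ceil_pos.mpr (by positivity)) (by
      have := Nat.le_ceil (ℓ'⁻¹ * L)
      calc L = (ℓ'⁻¹ * L) * ℓ' := by field_simp
        _ ≤ _ := by gcongr)
    have a3 := a1.trans a2
    have a4 : ((⌊(ℓ + 1)⁻¹ * L⌋₊ : ℝ)) ^ 3 * packingNumber ℓ ≤ ((⌈ℓ'⁻¹ * L⌉₊ : ℝ)) ^ 3 * packingNumber ℓ' := by
      exact_mod_cast a3
    rw [div_pow, div_pow, div_mul_eq_mul_div, div_mul_eq_mul_div]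
    gcongr)
  rw [inv_pow, inv_pow] at h3
  rw [div_eq_inv_mul, div_eq_inv_mul]
  exact h3

theorem pk_half : packingNumber (1/2) ≤ 1 := by
  obtain ⟨X, hXc, hX, hXd⟩ := exists_packing (1/2)
  rw [← hXc, Finset.card_le_one]
  intro x hx y hy
  by_contra hne
  have h1 := hXd x hx y hy hne
  have h2 : dist x y ^ 2 ≤ 3/4 := by
    rw [EuclideanSpace.dist_eq, Real.sq_sqrt (Finset.sum_nonneg (fun i _ => sq_nonneg _))]
    have : ∀ a : Fin 3, dist (x a) (y a) ^ 2 ≤ 1/4 := by
      intro a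
      rw [Real.dist_eq, sq_abs]
      have hx1 := (hX x hx a).1
      have hx2 := (hX x hx a).2
      have hy1 := (hX y hy a).1
      have hy2 := (hX y hy a).2
      nlinarith
    calc ∑ a, dist (x a) (y a) ^ 2 ≤ ∑ _a : Fin 3, (1/4 : ℝ) := Finset.sum_le_sum (fun a _ => this a)
      _ = 3/4 := by simp; norm_num
  nlinarith

theorem exists_density : ∃ p : ℝ, 1 ≤ p ∧ p ≤ 8 ∧
    Tendsto (fun L : ℝ => (packingNumber L : ℝ) / L ^ 3) atTop (𝓝 p) ∧
    (∀ ℓ : ℝ, 0 < ℓ → (packingNumber ℓ : ℝ) ≤ p * (ℓ + 1) ^ 3) ∧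
    (∀ ℓ : ℝ, 0 < ℓ → p * ℓ ^ 3 ≤ (packingNumber ℓ : ℝ)) := by
  let S : Set ℝ := (fun ℓ : ℝ => (packingNumber ℓ : ℝ) / ℓ ^ 3) '' Set.Ioi 0
  have hSne : S.Nonempty := ⟨_, 1, by norm_num, rfl⟩
  have hSb : BddBelow S := ⟨0, by
    rintro _ ⟨ℓ, hℓ, rfl⟩
    have : (0:ℝ) < ℓ := hℓ
    simp only
    positivity⟩
  set p := sInf S with hp
  have hup : ∀ ℓ : ℝ, 0 ≤ ℓ → (packingNumber ℓ : ℝ) ≤ p * (ℓ + 1) ^ 3 := by
    intro ℓ hℓ
    rw [← div_le_iff₀ (by positivity)]
    apply le_csInf hSne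
    rintro _ ⟨ℓ', hℓ', rfl⟩
    exact pk_compare hℓ hℓ'
  have hlo : ∀ ℓ : ℝ, 0 < ℓ → p * ℓ ^ 3 ≤ (packingNumber ℓ : ℝ) := by
    intro ℓ hℓ
    rw [← le_div_iff₀ (by positivity)]
    exact csInf_le hSb ⟨ℓ, hℓ, rfl⟩
  have hlim1 : Tendsto (fun L : ℝ => (L + 1) / L) atTop (𝓝 1) := by
    have : Tendsto (fun L : ℝ => 1 + L⁻¹) atTop (𝓝 (1 + 0)) := tendsto_inv_atTop_zero.const_add 1
    rw [add_zero] at this
    refine this.congr' ?_
    filter_upwards [eventually_gt_atTop (0:ℝ)] with L hL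
    field_simp
  have hlim : Tendsto (fun L : ℝ => (packingNumber L : ℝ) / L ^ 3) atTop (𝓝 p) := by
    have h1 : Tendsto (fun L : ℝ => p * ((L + 1) / L) ^ 3) atTop (𝓝 (p * 1 ^ 3)) :=
      (hlim1.pow 3).const_mul p
    rw [one_pow, mul_one] at h1
    refine tendsto_of_tendsto_of_tendsto_of_le_of_le' tendsto_const_nhds h1 ?_ ?_
    · filter_upwards [eventually_gt_atTop (0:ℝ)] with L hL
      rw [le_div_iff₀ (by positivity)]
      exact hlo L hL
    · filter_upwards [eventually_gt_atTop (0:ℝ)] with L hL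
      rw [div_pow, ← mul_div_assoc]
      gcongr
      exact hup L hL.le
  refine ⟨p, ?_, ?_, hlim, fun ℓ hℓ => hup ℓ hℓ.le, hlo⟩
  · have h1 : Tendsto (fun L : ℝ => ((⌊L⌋₊ : ℝ) / L) ^ 3) atTop (𝓝 (1 ^ 3)) :=
      (tendsto_nat_floor_div_atTop).pow 3
    rw [one_pow] at h1
    apply le_of_tendsto_of_tendsto h1 hlim
    filter_upwards [eventually_gt_atTop (0:ℝ)] with L hL
    rw [div_pow]
    gcongr
    have := pk_super le_rfl ⌊L⌋₊ (L := L) (by simpa using Nat.floor_le hL.le)
    have h2 := packingNumber_pos (le_refl (0:ℝ))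
    have h3 : ⌊L⌋₊ ^ 3 ≤ packingNumber L := by
      refine le_trans ?_ this
      nlinarith [Nat.zero_le (⌊L⌋₊ ^ 3)]
    exact_mod_cast h3
  · have h1 := hlo (1/2) (by norm_num)
    have h2 : (packingNumber (1/2) : ℝ) ≤ 1 := by exact_mod_cast pk_half
    have h3 : p * (1/2)^3 ≤ 1 := h1.trans h2
    norm_num at h3
    linarith

/-- A set of indices with no close pair has at most `packingNumber` elements. -/
theorem pk_card_le {L : ℝ} {N : ℕ} (x : Fin N → Pt) (hx : ∀ i, x i ∈ cube L) (S : Finset (Fin N))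
    (hS : ∀ i ∈ S, ∀ j ∈ S, i ≠ j → 1 ≤ dist (x i) (x j)) : S.card ≤ packingNumber L := by
  classical
  have hinj : Set.InjOn x S := by
    intro i hi j hj hij
    by_contra hne
    have := hS i hi j hj hne
    rw [hij, dist_self] at this
    linarith
  rw [← Finset.card_image_of_injOn hinj]
  apply le_packingNumber
  · intro z hz
    obtain ⟨i, _, rfl⟩ := Finset.mem_image.mp hz
    exact hx i
  · intro z hz w hw hne
    obtain ⟨i, hi, rfl⟩ := Finset.mem_image.mp hz
    obtain ⟨j, hj, rfl⟩ := Finset.mem_image.mp hw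
    exact hS i hi j hj (fun h => hne (by rw [h]))

theorem pk_Eu_eq {N : ℕ} (u : Pt → Pt → ℝ) (x : Fin N → Pt) :
    Eu u x = (1 / 2) * ∑ i, ∑ j, if i = j then 0 else u (x i) (x j) := by
  unfold Eu
  congr!

/-- Number of pairs at distance `< 1` : linear bound. -/
theorem turan_linear {L : ℝ} (hL : 0 ≤ L) (N : ℕ) (x : Fin N → Pt) (hx : ∀ i, x i ∈ cube L) :
    (N : ℝ) - packingNumber L ≤ Eu (rad (chi 1)) x := by
  classical
  let c : Fin N → Fin N → ℝ := fun i j => if i = j then 0 else rad (chi 1) (x i) (x j)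
  have hc0 : ∀ i j, 0 ≤ c i j := by
    intro i j
    simp only [c, rad, chi]
    split_ifs <;> norm_num
  have hcs : ∀ i j, c i j = c j i := by
    intro i j
    simp only [c, rad, dist_comm (x i) (x j), eq_comm (a := i) (b := j)]
  have hcd : ∀ i, c i i = 0 := fun i => by simp [c]
  have key : ∀ n : ℕ, ∀ S : Finset (Fin N), S.card = n →
      (n : ℝ) - packingNumber L ≤ (1 / 2) * ∑ i ∈ S, ∑ j ∈ S, c i j := by
    intro n
    induction n with
    | zero =>
      intro S hS
      have : 0 ≤ (1 / 2) * ∑ i ∈ S, ∑ j ∈ S, c i j :=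
        mul_nonneg (by norm_num) (Finset.sum_nonneg (fun i _ => Finset.sum_nonneg (fun j _ => hc0 i j)))
      have h2 : (0:ℝ) ≤ packingNumber L := Nat.cast_nonneg _
      push_cast
      linarith
    | succ n ih =>
      intro S hS
      by_cases hfar : ∀ i ∈ S, ∀ j ∈ S, i ≠ j → 1 ≤ dist (x i) (x j)
      · have h1 := pk_card_le x hx S hfar
        have h3 : ((n + 1 : ℕ) : ℝ) ≤ packingNumber L := by
          rw [← hS]; exact_mod_cast h1
        have : 0 ≤ (1 / 2) * ∑ i ∈ S, ∑ j ∈ S, c i j :=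
          mul_nonneg (by norm_num) (Finset.sum_nonneg (fun i _ => Finset.sum_nonneg (fun j _ => hc0 i j)))
        linarith
      · push Not at hfar
        obtain ⟨i, hi, j, hj, hij, hlt⟩ := hfar
        have hcard : (S.erase i).card = n := by rw [Finset.card_erase_of_mem hi, hS]; simp
        have ih' := ih (S.erase i) hcard
        have hsum : ∑ a ∈ S, ∑ b ∈ S, c a b =
            (∑ a ∈ S.erase i, ∑ b ∈ S.erase i, c a b) + 2 * ∑ b ∈ S.erase i, c i b := by
          rw [← Finset.add_sum_erase _ _ hi]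
          have h1 : ∀ a, ∑ b ∈ S, c a b = c a i + ∑ b ∈ S.erase i, c a b := fun a =>
            (Finset.add_sum_erase _ _ hi).symm
          simp only [h1, Finset.sum_add_distrib, hcd]
          have h2 : ∑ a ∈ S.erase i, c a i = ∑ b ∈ S.erase i, c i b :=
            Finset.sum_congr rfl (fun a _ => hcs a i)
          rw [h2]
          ring
        have hone : 1 ≤ ∑ b ∈ S.erase i, c i b := by
          have h1 : c i j ≤ ∑ b ∈ S.erase i, c i b :=
            Finset.single_le_sum (f := fun b => c i b) (fun b _ => hc0 i b)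
              (Finset.mem_erase.mpr ⟨hij.symm, hj⟩)
          have h2 : c i j = 1 := by simp [c, rad, chi, hij, hlt]
          linarith
        rw [hsum]
        push_cast
        linarith
  have := key N Finset.univ (by simp)
  rw [pk_Eu_eq]
  exact this

/-- Number of pairs at distance `< 1` : quadratic (Turán / Caro–Wei) bound. -/
theorem turan_quadratic {L : ℝ} (hL : 0 ≤ L) (N : ℕ) (x : Fin N → Pt)
    (hx : ∀ i, x i ∈ cube L) :
    ((N : ℝ) ^ 2 / packingNumber L - N) / 2 ≤ Eu (rad (chi 1)) x := by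
  classical
  set α := packingNumber L with hα
  have hαpos : 0 < α := packingNumber_pos hL
  let G : SimpleGraph (Fin N) :=
    { Adj := fun i j => i ≠ j ∧ 1 ≤ dist (x i) (x j)
      symm := ⟨fun i j h => ⟨h.1.symm, by rw [dist_comm]; exact h.2⟩⟩
      loopless := ⟨fun i h => h.1 rfl⟩ }
  have hcf : G.CliqueFree (α + 1) := by
    intro S hS
    have h1 := pk_card_le x hx S (fun i hi j hj hij => (hS.isClique hi hj hij).2)
    rw [hS.card_eq] at h1
    omega
  obtain ⟨H, hHd, maxH⟩ := SimpleGraph.exists_isTuranMaximal (V := Fin N) hαpos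
  have h1 : G.edgeFinset.card ≤ H.edgeFinset.card := by
    have := maxH.2 hcf
    convert this
  have h2 := ((SimpleGraph.isTuranMaximal_iff_nonempty_iso_turanGraph hαpos).mp maxH).some.card_edgeFinset_eq
  have h3 := SimpleGraph.mul_card_edgeFinset_turanGraph_le (n := Fintype.card (Fin N)) (r := α)
  have hE : 2 * α * G.edgeFinset.card ≤ (α - 1) * N ^ 2 := by
    rw [← h2, Fintype.card_fin N] at h3
    refine le_trans ?_ h3
    exact Nat.mul_le_mul_left _ h1
  have hER : 2 * (α : ℝ) * G.edgeFinset.card ≤ (α - 1) * (N : ℝ) ^ 2 := by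
    have : ((2 * α * G.edgeFinset.card : ℕ) : ℝ) ≤ (((α - 1) * N ^ 2 : ℕ) : ℝ) := by exact_mod_cast hE
    rw [Nat.cast_mul (α - 1), Nat.cast_sub (by omega : 1 ≤ α)] at this
    push_cast at this
    exact this
  -- the energy in terms of the edges
  have hdeg : ∀ i, (G.degree i : ℝ) = ∑ j, if G.Adj i j then (1:ℝ) else 0 := by
    intro i
    rw [← SimpleGraph.card_neighborFinset_eq_degree, SimpleGraph.neighborFinset_eq_filter]
    rw [Finset.sum_boole]
  have hsumdeg : ∑ i, (G.degree i : ℝ) = 2 * G.edgeFinset.card := by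
    have := G.sum_degrees_eq_twice_card_edges
    exact_mod_cast this
  have hEu : Eu (rad (chi 1)) x = (1 / 2) * ((N : ℝ) ^ 2 - N - 2 * G.edgeFinset.card) := by
    rw [pk_Eu_eq]
    congr 1
    rw [← hsumdeg]
    have h5 : ∀ i : Fin N, ∑ j, (if i = j then (0:ℝ) else rad (chi 1) (x i) (x j)) =
        (N : ℝ) - 1 - G.degree i := by
      intro i
      rw [hdeg i]
      have h6 : ∀ j, (if i = j then (0:ℝ) else rad (chi 1) (x i) (x j)) =
          1 - (if i = j then (1:ℝ) else 0) - (if G.Adj i j then (1:ℝ) else 0) := by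
        intro j
        by_cases hij : i = j
        · subst hij
          simp
        · simp only [hij, if_false, rad, chi, G, ne_eq, not_false_eq_true, true_and]
          by_cases hd : dist (x i) (x j) < 1
          · simp [hd, not_le.mpr hd]
          · simp [hd, not_lt.mp hd]
      simp only [h6, Finset.sum_sub_distrib]
      simp
    simp only [h5, Finset.sum_sub_distrib]
    simp
    ring
  rw [hEu]
  have hα0 : (0:ℝ) < α := by exact_mod_cast hαpos
  have h7 : (N : ℝ) ^ 2 / α ≤ (N:ℝ) ^ 2 - 2 * G.edgeFinset.card := by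
    rw [div_le_iff₀ hα0]
    nlinarith
  linarith

end Crest.Agent.Kac
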