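import Crest.Agent.Kac.Defs

/-! K2: basic properties of `Eu`, `Z`, `Xi`, `ZL`. -/

set_option autoImplicit false
open MeasureTheory Filter Topology
open scoped ENNReal

namespace Crest.Agent.Kac

theorem Eu_eq {ι : Type} [Fintype ι] [DecidableEq ι] (u : Pt → Pt → ℝ) (x : ι → Pt) :
    Eu u x = (1 / 2) * ∑ i, ∑ j, if i = j then 0 else u (x i) (x j) := by
  unfold Eu
  congr!

theorem Eu_congr {ι : Type} [Fintype ι] {u u' : Pt → Pt → ℝ} {x x' : ι → Pt}
    (h : ∀ i j, i ≠ j → u (x i) (x j) = u' (x' i) (x' j)) : Eu u x = Eu u' x' := by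
  classical
  rw [Eu_eq, Eu_eq]
  congr 1
  apply Finset.sum_congr rfl
  intro i _
  apply Finset.sum_congr rfl
  intro j _
  by_cases hij : i = j
  · simp [hij]
  · simp [hij, h i j hij]

theorem goodPair_rad {v : ℝ → ℝ} (hv : Measurable v) : GoodPair (rad v) where
  symm := fun x y => by simp [rad, dist_comm]
  meas := by
    have : Function.uncurry (rad v) = fun p : Pt × Pt => v (dist p.1 p.2) := rfl
    rw [this]
    exact hv.comp (measurable_fst.dist measurable_snd)

theorem measurable_Eu {n : ℕ} {u : Pt → Pt → ℝ} (hu : GoodPair u) :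
    Measurable (fun x : Fin n → Pt => Eu u x) := by
  unfold Eu
  apply Measurable.const_mul
  apply Finset.measurable_sum
  intro i _
  apply Finset.measurable_sum
  intro j _
  by_cases h : i = j
  · simp [h]
  · simp only [h, if_false]
    have hp : Measurable (fun x : Fin n → Pt => (x i, x j)) :=
      (measurable_pi_apply i).prodMk (measurable_pi_apply j)
    exact hu.meas.comp hp

theorem measurable_bw {n : ℕ} {u : Pt → Pt → ℝ} (hu : GoodPair u) :
    Measurable (fun x : Fin n → Pt => bw u x) := by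
  unfold bw
  exact (Real.measurable_exp.comp (measurable_Eu hu).neg).ennreal_ofReal

/-- `Eu` is invariant under permutations / reindexing. -/
theorem Eu_comp_equiv {ι κ : Type} [Fintype ι] [Fintype κ] (e : ι ≃ κ) (u : Pt → Pt → ℝ)
    (x : κ → Pt) : Eu u (x ∘ e) = Eu u x := by
  classical
  unfold Eu
  congr 1
  rw [← Equiv.sum_comp e]
  apply Finset.sum_congr rfl
  intro i _
  rw [← Equiv.sum_comp e]
  apply Finset.sum_congr rfl
  intro j _
  by_cases h : i = j
  · simp [h]
  · have : e i ≠ e j := fun h' => h (e.injective h')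
    simp [h]

theorem Eu_add {ι : Type} [Fintype ι] (u u' : Pt → Pt → ℝ) (x : ι → Pt) :
    Eu (fun a b => u a b + u' a b) x = Eu u x + Eu u' x := by
  classical
  unfold Eu
  rw [← mul_add, ← Finset.sum_add_distrib]
  congr 1
  apply Finset.sum_congr rfl
  intro i _
  rw [← Finset.sum_add_distrib]
  apply Finset.sum_congr rfl
  intro j _
  by_cases h : i = j <;> simp [h]

theorem Eu_smul {ι : Type} [Fintype ι] (c : ℝ) (u : Pt → Pt → ℝ) (x : ι → Pt) :
    Eu (fun a b => c * u a b) x = c * Eu u x := by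
  classical
  unfold Eu
  rw [mul_left_comm c]
  congr 1
  rw [Finset.mul_sum]
  apply Finset.sum_congr rfl
  intro i _
  rw [Finset.mul_sum]
  apply Finset.sum_congr rfl
  intro j _
  by_cases h : i = j <;> simp [h]

theorem Eu_mono {ι : Type} [Fintype ι] {u u' : Pt → Pt → ℝ} (x : ι → Pt)
    (h : ∀ i j, i ≠ j → u (x i) (x j) ≤ u' (x i) (x j)) : Eu u x ≤ Eu u' x := by
  classical
  unfold Eu
  apply mul_le_mul_of_nonneg_left _ (by norm_num)
  apply Finset.sum_le_sum
  intro i _
  apply Finset.sum_le_sum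
  intro j _
  by_cases hij : i = j
  · simp [hij]
  · simpa [hij] using h i j hij

/-- The energy of the prelude is `Eu (rad φ)`. -/
theorem energy_eq {N : ℕ} (φ : ℝ → ℝ) (x : Fin N → Pt) :
    Crest.ProbabilityR.Continuum.energy φ x = Eu (rad φ) x := by
  rw [Eu_eq]
  unfold Crest.ProbabilityR.Continuum.energy rad
  have h1 : ∑ p : {p : Fin N × Fin N // p.1 < p.2}, φ (dist (x p.1.1) (x p.1.2)) =
      ∑ i, ∑ j, if i < j then φ (dist (x i) (x j)) else 0 := by
    rw [← Finset.sum_product', Finset.univ_product_univ, ← Finset.sum_filter]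
    exact (Finset.sum_subtype (Finset.univ.filter (fun p : Fin N × Fin N => p.1 < p.2))
      (by intro p; simp) (fun p => φ (dist (x p.1) (x p.2)))).symm
  have h2 : ∑ i, ∑ j, (if i = j then 0 else φ (dist (x i) (x j))) =
      (∑ i, ∑ j, if i < j then φ (dist (x i) (x j)) else 0) +
      ∑ i, ∑ j, if j < i then φ (dist (x i) (x j)) else 0 := by
    rw [← Finset.sum_add_distrib]
    apply Finset.sum_congr rfl
    intro i _
    rw [← Finset.sum_add_distrib]
    apply Finset.sum_congr rfl
    intro j _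
    rcases lt_trichotomy i j with h | h | h
    · simp [h, h.ne, h.not_gt]
    · simp [h]
    · simp [h, h.ne', h.not_gt]
  have h3 : ∑ i, ∑ j, (if j < i then φ (dist (x i) (x j)) else 0) =
      ∑ i, ∑ j, if i < j then φ (dist (x i) (x j)) else 0 := by
    rw [Finset.sum_comm]
    apply Finset.sum_congr rfl
    intro i _
    apply Finset.sum_congr rfl
    intro j _
    rw [dist_comm]
  rw [h1, h2, h3]
  ring

theorem Z_zero (u : Pt → Pt → ℝ) (Λ : Set Pt) : Z u Λ 0 = 1 := by
  unfold Z
  have h1 : (box Λ : Set (Fin 0 → Pt)) = Set.univ := by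
    ext x; simp [box]
  have h2 : ∀ x : Fin 0 → Pt, bw u x = 1 := by
    intro x; simp [bw, Eu]
  have h3 : volume (Set.univ : Set (Fin 0 → Pt)) = 1 := by
    rw [← Set.pi_univ Set.univ, volume_pi_pi]
    simp
  rw [h1]
  simp only [h2]
  simp [h3]

theorem Z_mono_set {u : Pt → Pt → ℝ} {Λ Λ' : Set Pt} (h : Λ ⊆ Λ') (n : ℕ) :
    Z u Λ n ≤ Z u Λ' n := by
  unfold Z
  gcongr
  exact Set.pi_mono (fun _ _ => h)

theorem measurableSet_box {ι : Type} [Countable ι] {Λ : Set Pt} (hΛ : MeasurableSet Λ) :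
    MeasurableSet (box Λ : Set (ι → Pt)) :=
  MeasurableSet.pi Set.countable_univ (fun _ _ => hΛ)

/-- Comparison of partition functions from a comparison of energies. -/
theorem Z_le_of_energy {u u' : Pt → Pt → ℝ} {Λ : Set Pt} (hΛ : MeasurableSet Λ) {n : ℕ} {c : ℝ}
    (h : ∀ x : Fin n → Pt, (∀ i, x i ∈ Λ) → -(Eu u x) ≤ -(Eu u' x) + c) :
    Z u Λ n ≤ ENNReal.ofReal (Real.exp c) * Z u' Λ n := by
  unfold Z
  rw [mul_left_comm]
  gcongr
  rw [← lintegral_const_mul' _ _ ENNReal.ofReal_ne_top]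
  apply setLIntegral_mono' (measurableSet_box hΛ)
  intro x hx
  unfold bw
  rw [← ENNReal.ofReal_mul (Real.exp_pos _).le, ← Real.exp_add]
  apply ENNReal.ofReal_le_ofReal
  apply Real.exp_le_exp.mpr
  have := h x (fun i => hx i (Set.mem_univ i))
  linarith

theorem volume_box (Λ : Set Pt) (n : ℕ) : volume (box Λ : Set (Fin n → Pt)) = (volume Λ) ^ n := by
  rw [box, volume_pi_pi]
  simp

/-- `Z` of the zero interaction. -/
theorem Z_free (Λ : Set Pt) (n : ℕ) :
    Z (fun _ _ => 0) Λ n = (n.factorial : ℝ≥0∞)⁻¹ * (volume Λ) ^ n := by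
  unfold Z
  have h2 : ∀ x : Fin n → Pt, bw (fun _ _ => 0) x = 1 := by
    intro x; simp [bw, Eu]
  simp only [h2]
  rw [setLIntegral_const, volume_box, one_mul]

theorem Z_pos {u : Pt → Pt → ℝ} (hu : GoodPair u) {Λ : Set Pt} (hΛ : MeasurableSet Λ)
    (h0 : volume Λ ≠ 0) (n : ℕ) : 0 < Z u Λ n := by
  unfold Z
  apply ENNReal.mul_pos
  · simp
  · rw [ne_eq, setLIntegral_eq_zero_iff (measurableSet_box hΛ) (measurable_bw hu)]
    intro h
    have h1 : volume (box Λ : Set (Fin n → Pt)) = 0 := by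
      apply measure_mono_null _ h
      intro x hx
      simp only [Set.mem_compl_iff, Set.mem_ofPred_eq]
      intro hx2
      have h3 := hx2 hx
      simp only [bw, ENNReal.ofReal_eq_zero] at h3
      exact absurd h3 (not_le.mpr (Real.exp_pos _))
    rw [volume_box] at h1
    rcases Nat.eq_zero_or_pos n with hn | hn
    · subst hn; simp at h1
    · exact h0 ((pow_eq_zero_iff hn.ne').mp h1)

theorem Z_lt_top {u : Pt → Pt → ℝ} {B : ℝ} (hs : Stable u B) {Λ : Set Pt}
    (hΛ : MeasurableSet Λ) (h1 : volume Λ < ∞) (n : ℕ) : Z u Λ n < ∞ := by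
  have h2 : Z u Λ n ≤ ENNReal.ofReal (Real.exp (B * n)) * Z (fun _ _ => 0) Λ n := by
    apply Z_le_of_energy hΛ
    intro x _
    have := hs n x
    have h0 : Eu (fun _ _ => 0) x = 0 := by simp [Eu]
    rw [h0]
    linarith
  refine h2.trans_lt ?_
  rw [Z_free]
  apply ENNReal.mul_lt_top ENNReal.ofReal_lt_top
  apply ENNReal.mul_lt_top
  · rw [ENNReal.inv_lt_top]
    exact_mod_cast n.factorial_pos
  · exact ENNReal.pow_lt_top h1

theorem measurableSet_cube (L : ℝ) : MeasurableSet (cube L) := by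
  have : cube L = ⋂ k : Fin 3, {x : Pt | 0 ≤ x k ∧ x k ≤ L} := by
    ext x; simp [cube, Crest.ProbabilityR.Continuum.cube]
  rw [this]
  apply MeasurableSet.iInter
  intro k
  have hk : Continuous (fun x : Pt => x k) := by fun_prop
  exact (measurableSet_le measurable_const hk.measurable).inter
    (measurableSet_le hk.measurable measurable_const)

theorem volume_cube {L : ℝ} (hL : 0 ≤ L) : volume (cube L) = ENNReal.ofReal (L ^ 3) := by
  have h1 : cube L = (WithLp.ofLp : Pt → Fin 3 → ℝ) ⁻¹' (Set.pi Set.univ (fun _ => Set.Icc 0 L)) := by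
    ext x
    simp only [cube, Crest.ProbabilityR.Continuum.cube, Set.mem_ofPred_eq, Set.mem_preimage,
      Set.mem_pi, Set.mem_univ, true_implies, Set.mem_Icc]
  rw [h1, (PiLp.volume_preserving_ofLp (Fin 3)).measure_preimage
    (MeasurableSet.univ_pi (fun _ => measurableSet_Icc)).nullMeasurableSet, volume_pi_pi]
  simp [ENNReal.ofReal_pow hL]

theorem cube_mono {L L' : ℝ} (h : L ≤ L') : cube L ⊆ cube L' := by
  intro x hx k
  exact ⟨(hx k).1, (hx k).2.trans h⟩

/-- Translation invariance. -/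
theorem Z_translate (v : ℝ → ℝ) (t : Pt) (Λ : Set Pt) (n : ℕ) :
    Z (rad v) ((fun x => t + x) '' Λ) n = Z (rad v) Λ n := by
  unfold Z
  congr 1
  let g : (Fin n → Pt) ≃ᵐ (Fin n → Pt) := MeasurableEquiv.addLeft (fun _ => t)
  have hg : MeasurePreserving g volume volume := measurePreserving_add_left volume _
  have hbox : (box ((fun x => t + x) '' Λ) : Set (Fin n → Pt)) = g '' (box Λ) := by
    ext x
    simp only [Set.mem_pi, Set.mem_univ, true_implies, Set.mem_image]
    constructor
    · intro h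
      choose y hy using h
      exact ⟨y, fun i => (hy i).1, funext (fun i => (hy i).2)⟩
    · rintro ⟨y, hy, rfl⟩ i
      exact ⟨y i, hy i, rfl⟩
  rw [hbox, ← hg.setLIntegral_comp_emb g.measurableEmbedding]
  apply lintegral_congr
  intro x
  unfold bw
  rw [Eu_congr (u := rad v) (u' := rad v) (x := g x) (x' := x)]
  intro i j _
  unfold rad
  congr 1
  show dist (t + x i) (t + x j) = _
  simp

/-- Scaling of lengths. -/
theorem ZL_scale (v : ℝ → ℝ) {a : ℝ} (ha : 0 < a) (L : ℝ) (N : ℕ) :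
    ZL (fun r => v (r / a)) (a * L) N = (a ^ 3) ^ N * ZL v L N := by
  unfold ZL Z
  let g : (Fin N → Pt) ≃ᵐ (Fin N → Pt) := MeasurableEquiv.smul₀ a ha.ne'
  have hmap : Measure.map g volume = ENNReal.ofReal (((a ^ 3) ^ N)⁻¹) • (volume : Measure (Fin N → Pt)) := by
    have := Measure.map_addHaar_smul (volume : Measure (Fin N → Pt)) ha.ne'
    rw [show (g : (Fin N → Pt) → (Fin N → Pt)) = fun x => a • x from rfl, this]
    congr 2
    rw [abs_of_pos (by positivity)]
    congr 1
    rw [Module.finrank_pi_fintype]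
    simp [← pow_mul, mul_comm]
  have hint : ∫⁻ x in (box (cube (a * L)) : Set (Fin N → Pt)), bw (rad (fun r => v (r / a))) x =
      ENNReal.ofReal ((a ^ 3) ^ N) * ∫⁻ x in (box (cube L) : Set (Fin N → Pt)), bw (rad v) x := by
    have h1 : (volume : Measure (Fin N → Pt)) = ENNReal.ofReal ((a ^ 3) ^ N) • Measure.map g volume := by
      rw [hmap, smul_smul, ← ENNReal.ofReal_mul (by positivity), mul_inv_cancel₀ (by positivity)]
      simp
    conv_lhs => rw [h1]
    rw [Measure.restrict_smul, lintegral_smul_measure, g.restrict_map, lintegral_map_equiv]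
    have hpre : g ⁻¹' (box (cube (a * L)) : Set (Fin N → Pt)) = box (cube L) := by
      ext x
      simp only [Set.mem_preimage, Set.mem_pi, Set.mem_univ, true_implies]
      apply forall_congr'
      intro i
      simp only [cube, Crest.ProbabilityR.Continuum.cube, Set.mem_ofPred_eq]
      apply forall_congr'
      intro k
      have : (g x i) k = a * x i k := rfl
      rw [this]
      constructor
      · rintro ⟨h1, h2⟩
        exact ⟨by nlinarith [mul_pos ha ha], le_of_mul_le_mul_left h2 ha⟩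
      · rintro ⟨h1, h2⟩
        exact ⟨by positivity, mul_le_mul_of_nonneg_left h2 ha.le⟩
    rw [hpre, smul_eq_mul]
    congr 1
    apply lintegral_congr
    intro x
    unfold bw
    have : ∀ i j, dist ((g x) i) ((g x) j) / a = dist (x i) (x j) := by
      intro i j
      have : dist ((g x) i) ((g x) j) = a * dist (x i) (x j) := by
        show dist (a • x i) (a • x j) = _
        rw [dist_smul₀, Real.norm_of_nonneg ha.le]
      rw [this]; field_simp
    rw [Eu_congr (u := rad (fun r => v (r / a))) (u' := rad v) (x := g x) (x' := x)]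
    intro i j _
    simp only [rad, this]
  rw [hint, ENNReal.toReal_mul, ENNReal.toReal_mul, ENNReal.toReal_mul,
    ENNReal.toReal_ofReal (by positivity)]
  ring

/-- Hölder for weights. -/
theorem bw_combo {ι : Type} [Fintype ι] (u u' : Pt → Pt → ℝ) (t : ℝ) (x : ι → Pt) :
    bw (fun x y => (1 - t) * u x y + t * u' x y) x = (bw u x) ^ (1 - t) * (bw u' x) ^ t := by
  unfold bw
  rw [Eu_add, Eu_smul, Eu_smul, ENNReal.ofReal_rpow_of_pos (Real.exp_pos _),
    ENNReal.ofReal_rpow_of_pos (Real.exp_pos _), ← ENNReal.ofReal_mul (by positivity),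
    ← Real.exp_mul, ← Real.exp_mul, ← Real.exp_add]
  congr 2
  ring

theorem lintegral_holder {α : Type*} [MeasurableSpace α] (μ : Measure α) {f g : α → ℝ≥0∞}
    (hf : AEMeasurable f μ) (hg : AEMeasurable g μ) {t : ℝ} (h0 : 0 < t) (h1 : t < 1) :
    ∫⁻ a, (f a) ^ (1 - t) * (g a) ^ t ∂μ ≤ (∫⁻ a, f a ∂μ) ^ (1 - t) * (∫⁻ a, g a ∂μ) ^ t := by
  have hpq : (1 / (1 - t)).HolderConjugate (1 / t) := by
    rw [Real.holderConjugate_iff]
    constructor
    · rw [one_lt_div (by linarith)]; linarith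
    · simp
  have := ENNReal.lintegral_mul_le_Lp_mul_Lq μ hpq (hf.pow_const (1 - t)) (hg.pow_const t)
  simp only [Pi.mul_apply, ← ENNReal.rpow_mul, one_div, inv_inv] at this
  rw [mul_inv_cancel₀ (by linarith), mul_inv_cancel₀ h0.ne'] at this
  simpa using this

/-- Log-convexity in the pair function (Hölder). -/
theorem Z_holder {u u' : Pt → Pt → ℝ} (hu : GoodPair u) (hu' : GoodPair u') (Λ : Set Pt) (n : ℕ)
    {t : ℝ} (h0 : 0 < t) (h1 : t < 1) :
    Z (fun x y => (1 - t) * u x y + t * u' x y) Λ n ≤ (Z u Λ n) ^ (1 - t) * (Z u' Λ n) ^ t := by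
  unfold Z
  simp only [bw_combo]
  have h := lintegral_holder (volume.restrict (box Λ : Set (Fin n → Pt)))
    (measurable_bw hu).aemeasurable (measurable_bw hu').aemeasurable h0 h1
  rw [ENNReal.mul_rpow_of_nonneg _ _ (by linarith), ENNReal.mul_rpow_of_nonneg _ _ h0.le]
  have hf : ((n.factorial : ℝ≥0∞)⁻¹) ^ (1 - t) * ((n.factorial : ℝ≥0∞)⁻¹) ^ t =
      (n.factorial : ℝ≥0∞)⁻¹ := by
    rw [← ENNReal.rpow_add_of_nonneg _ _ (by linarith) h0.le]
    simp
  calc (n.factorial : ℝ≥0∞)⁻¹ * _ ≤ (n.factorial : ℝ≥0∞)⁻¹ * _ := mul_le_mul_right h _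
    _ = _ := by
      conv_lhs => rw [← hf]
      ring

theorem Xi_holder {u u' : Pt → Pt → ℝ} (hu : GoodPair u) (hu' : GoodPair u') (Λ : Set Pt)
    (ν ν' : ℝ) {t : ℝ} (h0 : 0 < t) (h1 : t < 1) :
    Xi (fun x y => (1 - t) * u x y + t * u' x y) ((1 - t) * ν + t * ν') Λ ≤
      (Xi u ν Λ) ^ (1 - t) * (Xi u' ν' Λ) ^ t := by
  unfold Xi
  have hstep : ∀ n : ℕ, ENNReal.ofReal (Real.exp (((1 - t) * ν + t * ν') * n)) *
      Z (fun x y => (1 - t) * u x y + t * u' x y) Λ n ≤
      (ENNReal.ofReal (Real.exp (ν * n)) * Z u Λ n) ^ (1 - t) *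
      (ENNReal.ofReal (Real.exp (ν' * n)) * Z u' Λ n) ^ t := by
    intro n
    have hz := Z_holder hu hu' Λ n h0 h1
    rw [ENNReal.mul_rpow_of_nonneg _ _ (by linarith), ENNReal.mul_rpow_of_nonneg _ _ h0.le,
      ENNReal.ofReal_rpow_of_pos (Real.exp_pos _), ENNReal.ofReal_rpow_of_pos (Real.exp_pos _),
      ← Real.exp_mul, ← Real.exp_mul]
    have he : ENNReal.ofReal (Real.exp (((1 - t) * ν + t * ν') * n)) =
        ENNReal.ofReal (Real.exp (ν * n * (1 - t))) * ENNReal.ofReal (Real.exp (ν' * n * t)) := by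
      rw [← ENNReal.ofReal_mul (Real.exp_pos _).le, ← Real.exp_add]
      congr 2
      ring
    rw [he]
    calc _ ≤ ENNReal.ofReal (Real.exp (ν * n * (1 - t))) * ENNReal.ofReal (Real.exp (ν' * n * t)) *
          ((Z u Λ n) ^ (1 - t) * (Z u' Λ n) ^ t) := mul_le_mul_right hz _
      _ = _ := by ring
  refine (ENNReal.tsum_le_tsum hstep).trans ?_
  have h := lintegral_holder (Measure.count : Measure ℕ)
    (f := fun n : ℕ => ENNReal.ofReal (Real.exp (ν * n)) * Z u Λ n)
    (g := fun n : ℕ => ENNReal.ofReal (Real.exp (ν' * n)) * Z u' Λ n)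
    (measurable_of_countable _).aemeasurable (measurable_of_countable _).aemeasurable h0 h1
  rw [lintegral_count, lintegral_count, lintegral_count] at h
  exact h

/-- The partition function of the prelude. -/
theorem partitionFn_eq {φ : ℝ → ℝ} (hφ : Measurable φ) (L : ℝ) (N : ℕ) (β : ℝ) :
    Crest.ProbabilityR.Continuum.partitionFn φ L N β = ZL (fun r => β * φ r) L N := by
  unfold Crest.ProbabilityR.Continuum.partitionFn ZL Z
  have hm : Measurable (fun x : Fin N → Pt => Real.exp (-β * Crest.ProbabilityR.Continuum.energy φ x)) := by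
    have := measurable_Eu (n := N) (goodPair_rad hφ)
    simp only [energy_eq]
    exact Real.measurable_exp.comp (this.const_mul _)
  rw [integral_eq_lintegral_of_nonneg_ae (Eventually.of_forall (fun x => (Real.exp_pos _).le))
    hm.aestronglyMeasurable, ENNReal.toReal_mul, ENNReal.toReal_inv, ENNReal.toReal_natCast, one_div]
  congr 2
  apply lintegral_congr
  intro x
  unfold bw
  rw [energy_eq, show rad (fun r => β * φ r) = fun a b => β * rad φ a b from rfl, Eu_smul]
  congr 2
  ring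

/-- Upper bound for stable interactions. -/
theorem ZL_le {v : ℝ → ℝ} {B : ℝ} (hs : Stable (rad v) B) {L : ℝ} (hL : 0 ≤ L) (N : ℕ) :
    ZL v L N ≤ (L ^ 3) ^ N / N.factorial * Real.exp (B * N) := by
  have h2 : Z (rad v) (cube L) N ≤ ENNReal.ofReal (Real.exp (B * N)) * Z (fun _ _ => 0) (cube L) N := by
    apply Z_le_of_energy (measurableSet_cube L)
    intro x _
    have := hs N x
    have h0 : Eu (fun _ _ => 0) x = 0 := by simp [Eu]
    rw [h0]
    linarith
  rw [Z_free, volume_cube hL] at h2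
  have h3 : ENNReal.ofReal (Real.exp (B * N)) * ((N.factorial : ℝ≥0∞)⁻¹ * ENNReal.ofReal (L ^ 3) ^ N) =
      ENNReal.ofReal ((L ^ 3) ^ N / N.factorial * Real.exp (B * N)) := by
    rw [← ENNReal.ofReal_pow (by positivity), mul_comm, div_eq_mul_inv,
      ENNReal.ofReal_mul (by positivity), ENNReal.ofReal_mul (by positivity)]
    congr 1
    rw [mul_comm]
    congr 1
    rw [ENNReal.ofReal_inv_of_pos (by positivity), ENNReal.ofReal_natCast]
  rw [h3] at h2
  unfold ZL
  exact ENNReal.toReal_le_of_le_ofReal (by positivity) h2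

theorem ZL_pos {v : ℝ → ℝ} (hv : Measurable v) {B : ℝ} (hs : Stable (rad v) B) {L : ℝ}
    (hL : 0 < L) (N : ℕ) : 0 < ZL v L N := by
  unfold ZL
  have hvol := volume_cube hL.le
  apply ENNReal.toReal_pos
  · apply ne_of_gt
    apply Z_pos (goodPair_rad hv) (measurableSet_cube L)
    rw [hvol]
    simp [hL]
  · apply ne_of_lt
    apply Z_lt_top hs (measurableSet_cube L)
    rw [hvol]
    exact ENNReal.ofReal_lt_top

end Crest.Agent.Kac
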