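import Crest.Agent.Kac.Split
import Crest.Agent.Kac.Basic

/-! Auxiliary for K6: lower bounds on partition functions by placing clusters at separated
sites. -/

set_option autoImplicit false
open MeasureTheory Filter Topology
open scoped ENNReal

namespace Crest.Agent.Kac

theorem dist_le_of_mem_cube {s : ℝ} (hs : 0 ≤ s) {a b : Pt} (ha : a ∈ cube s) (hb : b ∈ cube s) :
    dist a b ≤ 7 / 4 * s := by
  rw [EuclideanSpace.dist_eq]
  have h1 : ∀ k : Fin 3, dist (a k) (b k) ^ 2 ≤ s ^ 2 := by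
    intro k
    rw [Real.dist_eq]
    apply pow_le_pow_left₀ (abs_nonneg _)
    rw [abs_le]
    have := ha k; have := hb k
    constructor <;> linarith
  have h4 : ∑ k : Fin 3, dist (a k) (b k) ^ 2 ≤ (7 / 4 * s) ^ 2 := by
    rw [Fin.sum_univ_three]
    have := h1 0; have := h1 1; have := h1 2
    nlinarith
  exact Real.sqrt_le_iff.mpr ⟨by positivity, h4⟩

/-- Clusters of `k` particles at separated sites. -/
theorem Z_sites {v : ℝ → ℝ} (hv : Measurable v) {s ℓ ℓ' σ : ℝ} (hs : 0 ≤ s) (hσ : 1 ≤ σ)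
    (hℓ' : σ * ℓ + s ≤ ℓ') (hsσ : 7 / 4 * s < σ)
    (hvs : ∀ r, σ - 7 / 4 * s ≤ r → v r ≤ 0)
    (X : Finset Pt) (hX : ∀ x ∈ X, x ∈ cube ℓ) (hd : ∀ x ∈ X, ∀ y ∈ X, x ≠ y → 1 ≤ dist x y)
    (k : ℕ) : (Z (rad v) (cube s) k) ^ X.card ≤ Z (rad v) (cube ℓ') (X.card * k) := by
  have hdist : ∀ x ∈ X, ∀ y ∈ X, x ≠ y → ∀ a ∈ (fun z => σ • x + z) '' cube s,
      ∀ b ∈ (fun z => σ • y + z) '' cube s, σ - 7 / 4 * s ≤ dist a b := by
    rintro x hx y hy hxy _ ⟨a, ha, rfl⟩ _ ⟨b, hb, rfl⟩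
    have h1 : dist (σ • x) (σ • y) = σ * dist x y := by
      rw [dist_smul₀, Real.norm_of_nonneg (by linarith)]
    have h2 := hd x hx y hy hxy
    have h3 : dist (σ • x) (σ • y) ≤ dist (σ • x + a) (σ • y + b) + dist a b := by
      have h4 : dist (σ • x) (σ • y) = ‖(σ • x + a - (σ • y + b)) - (a - b)‖ := by
        rw [dist_eq_norm]; congr 1; abel
      have h5 := norm_sub_le (σ • x + a - (σ • y + b)) (a - b)
      rw [h4, dist_eq_norm, dist_eq_norm]
      exact h5
    have h7 := dist_le_of_mem_cube hs ha hb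
    have h8 : σ ≤ dist (σ • x) (σ • y) := by
      rw [h1]; nlinarith
    simp only
    linarith
  have h1 := Z_biUnion_ge (goodPair_rad hv) X (fun x => (fun z => σ • x + z) '' cube s)
    (fun x _ => (MeasurableEquiv.addLeft (σ • x)).measurableSet_image.mpr (measurableSet_cube s))
    ?_ ?_ (fun _ => k)
  · simp only [Z_translate, Finset.prod_const, Finset.sum_const, smul_eq_mul] at h1
    refine h1.trans (Z_mono_set ?_ _)
    intro z hz
    simp only [Set.mem_iUnion] at hz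
    obtain ⟨x, hx, a, ha, rfl⟩ := hz
    have hx' := hX x hx
    intro j
    have h2 := hx' j
    have h3 := ha j
    have h4 : (σ • x + a) j = σ * x j + a j := rfl
    simp only
    rw [h4]
    constructor
    · have : 0 ≤ σ * x j := mul_nonneg (by linarith) h2.1
      linarith [h3.1]
    · have : σ * x j ≤ σ * ℓ := mul_le_mul_of_nonneg_left h2.2 (by linarith)
      linarith [h3.2]
  · intro x hx y hy hxy
    rw [Set.disjoint_left]
    intro z hz1 hz2
    have := hdist x hx y hy hxy z hz1 z hz2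
    rw [dist_self] at this
    linarith
  · intro x hx y hy hxy a ha b hb
    exact hvs _ (hdist x hx y hy hxy a ha b hb)

theorem Z_one (u : Pt → Pt → ℝ) (Λ : Set Pt) : Z u Λ 1 = volume Λ := by
  unfold Z
  have h2 : ∀ x : Fin 1 → Pt, bw u x = 1 := by
    intro x; simp [bw, Eu]
  simp only [h2]
  rw [setLIntegral_const, volume_box]
  simp

theorem Eu_two (v : ℝ → ℝ) (x : Fin 2 → Pt) : Eu (rad v) x = v (dist (x 0) (x 1)) := by
  rw [Eu_eq]
  simp only [Fin.sum_univ_two]
  simp [rad, dist_comm (x 1) (x 0)]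
  ring

/-- Lower bound for a pair. -/
theorem Z_two_ge {v : ℝ → ℝ} {s1 η s e : ℝ} (hs1 : 0 < s1) (hη : 0 < η) {r0 : ℝ} (hr0 : 0 < r0)
    (hs : s1 + r0 + η ≤ s) (hv : ∀ r, r0 ≤ r → r ≤ r0 + 2 * η → v r ≤ e) :
    ENNReal.ofReal (1 / 2 * (s1 ^ 3 * η ^ 3) * Real.exp (-e)) ≤ Z (rad v) (cube s) 2 := by
  set c : Pt := EuclideanSpace.single 0 r0 with hc
  set T : Set (Pt × Pt) := {p | p.1 ∈ cube s1 ∧ p.2 - p.1 - c ∈ cube η} with hT
  have hTm : MeasurableSet T := by
    apply MeasurableSet.inter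
    · exact measurable_fst (measurableSet_cube s1)
    · have : Measurable (fun p : Pt × Pt => p.2 - p.1 - c) := by fun_prop
      exact this (measurableSet_cube η)
  have hTvol : volume T = ENNReal.ofReal (s1 ^ 3) * ENNReal.ofReal (η ^ 3) := by
    have h1 := measurePreserving_prod_add (volume : Measure Pt) (volume : Measure Pt)
    rw [Measure.volume_eq_prod, ← h1.measure_preimage hTm.nullMeasurableSet]
    have h2 : (fun z : Pt × Pt => (z.1, z.1 + z.2)) ⁻¹' T =
        (cube s1) ×ˢ ((fun z => z - c) ⁻¹' cube η) := by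
      ext z
      simp [hT, Set.mem_prod]
    have h3 : (fun z : Pt => z - c) = fun z => z + (-c) := by
      ext z; simp [sub_eq_add_neg]
    rw [h2, Measure.prod_prod, h3, measure_preimage_add_right, volume_cube hs1.le,
      volume_cube hη.le]
  set S : Set (Fin 2 → Pt) := MeasurableEquiv.finTwoArrow ⁻¹' T with hS
  have hSvol : volume S = ENNReal.ofReal (s1 ^ 3) * ENNReal.ofReal (η ^ 3) := by
    rw [hS, (volume_preserving_finTwoArrow Pt).measure_preimage hTm.nullMeasurableSet, hTvol]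
  have hSm : MeasurableSet S := MeasurableEquiv.finTwoArrow.measurable hTm
  have hprop : ∀ x ∈ S, (x 0 ∈ cube s1 ∧ x 1 - x 0 - c ∈ cube η) := fun x hx => hx
  have hcoord : ∀ x ∈ S, ∀ j : Fin 3, 0 ≤ x 0 j ∧ x 0 j ≤ s1 ∧ c j ≤ x 1 j - x 0 j ∧
      x 1 j - x 0 j ≤ c j + η := by
    intro x hx j
    obtain ⟨h1, h2⟩ := hprop x hx
    have h3 := h1 j
    have h4 := h2 j
    have h5 : (x 1 - x 0 - c) j = x 1 j - x 0 j - c j := rfl
    rw [h5] at h4
    refine ⟨h3.1, h3.2, ?_, ?_⟩ <;> linarith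
  have hc0 : c 0 = r0 := by simp [hc]
  have hc1 : c 1 = 0 := by simp [hc]
  have hc2 : c 2 = 0 := by simp [hc]
  have hcj : ∀ j, 0 ≤ c j ∧ c j ≤ r0 := by
    intro j
    fin_cases j
    · exact ⟨by show 0 ≤ c 0; rw [hc0]; exact hr0.le, by show c 0 ≤ r0; rw [hc0]⟩
    · exact ⟨by show 0 ≤ c 1; rw [hc1], by show c 1 ≤ r0; rw [hc1]; exact hr0.le⟩
    · exact ⟨by show 0 ≤ c 2; rw [hc2], by show c 2 ≤ r0; rw [hc2]; exact hr0.le⟩
  have hsub : S ⊆ (box (cube s) : Set (Fin 2 → Pt)) := by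
    intro x hx i _
    have h1 := hcoord x hx
    intro j
    obtain ⟨h2, h3, h4, h5⟩ := h1 j
    obtain ⟨h6, h7⟩ := hcj j
    fin_cases i
    · show 0 ≤ x 0 j ∧ x 0 j ≤ s
      constructor <;> linarith
    · show 0 ≤ x 1 j ∧ x 1 j ≤ s
      constructor <;> linarith
  have hdist : ∀ x ∈ S, r0 ≤ dist (x 0) (x 1) ∧ dist (x 0) (x 1) ≤ r0 + 2 * η := by
    intro x hx
    have h0 := hcoord x hx 0
    have h1 := hcoord x hx 1
    have h2 := hcoord x hx 2
    rw [hc0] at h0
    rw [hc1] at h1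
    rw [hc2] at h2
    rw [dist_comm, EuclideanSpace.dist_eq, Fin.sum_univ_three]
    simp only [Real.dist_eq, sq_abs]
    constructor
    · apply Real.le_sqrt_of_sq_le
      nlinarith [sq_nonneg (x 1 1 - x 0 1), sq_nonneg (x 1 2 - x 0 2)]
    · apply Real.sqrt_le_iff.mpr
      refine ⟨by positivity, ?_⟩
      have e0 : (x 1 0 - x 0 0) ^ 2 ≤ (r0 + η) ^ 2 :=
        pow_le_pow_left₀ (by linarith) (by linarith) 2
      have e1 : (x 1 1 - x 0 1) ^ 2 ≤ η ^ 2 :=
        pow_le_pow_left₀ (by linarith) (by linarith) 2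
      have e2 : (x 1 2 - x 0 2) ^ 2 ≤ η ^ 2 :=
        pow_le_pow_left₀ (by linarith) (by linarith) 2
      nlinarith [mul_pos hr0 hη]
  unfold Z
  have h1 : ENNReal.ofReal (Real.exp (-e)) * volume S ≤
      ∫⁻ x in (box (cube s) : Set (Fin 2 → Pt)), bw (rad v) x := by
    calc ENNReal.ofReal (Real.exp (-e)) * volume S
        = ∫⁻ x in S, ENNReal.ofReal (Real.exp (-e)) := by rw [setLIntegral_const]
      _ ≤ ∫⁻ x in S, bw (rad v) x := by
          apply setLIntegral_mono' hSm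
          intro x hx
          unfold bw
          apply ENNReal.ofReal_le_ofReal
          apply Real.exp_le_exp.mpr
          rw [Eu_two]
          have := hv _ (hdist x hx).1 (hdist x hx).2
          linarith
      _ ≤ _ := lintegral_mono_set hsub
  rw [hSvol] at h1
  have h2 : ((Nat.factorial 2 : ℕ) : ℝ≥0∞)⁻¹ = ENNReal.ofReal (1 / 2) := by
    rw [one_div, ENNReal.ofReal_inv_of_pos (by norm_num)]
    simp
  rw [h2]
  calc ENNReal.ofReal (1 / 2 * (s1 ^ 3 * η ^ 3) * Real.exp (-e))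
      = ENNReal.ofReal (1 / 2) * (ENNReal.ofReal (Real.exp (-e)) *
          (ENNReal.ofReal (s1 ^ 3) * ENNReal.ofReal (η ^ 3))) := by
        rw [← ENNReal.ofReal_mul (by positivity), ← ENNReal.ofReal_mul (by positivity),
          ← ENNReal.ofReal_mul (by positivity)]
        congr 1
        ring
    _ ≤ _ := by gcongr

end Crest.Agent.Kac
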