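import Crest.Agent.Kac.Basic

/-! Auxiliary for K6: a very narrow well contributes nothing to the pressure. -/

set_option autoImplicit false
open MeasureTheory Filter Topology
open scoped ENNReal

namespace Crest.Agent.Kac

/-- Core of height `a`, well of depth `b`. -/
noncomputable def uw (a b w : ℝ) : ℝ → ℝ := fun r =>
  if r ≤ 1 / 10000 then a else if |r - 3 / 10000| < w then -b else 0

theorem dist_le_of_same_cell {x y : Pt} (h : cell 0 (1 / 20000) x = cell 0 (1 / 20000) y) :
    dist x y ≤ 1 / 10000 := by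
  rw [EuclideanSpace.dist_eq]
  have h1 : ∀ a : Fin 3, dist (x a) (y a) ^ 2 ≤ (1 / 20000) ^ 2 := by
    intro a
    have h2 := congrFun h a
    simp only [cell, sub_zero] at h2
    have h3 := Int.abs_sub_lt_one_of_floor_eq_floor h2
    rw [← sub_div, abs_div, abs_of_pos (by norm_num : (0:ℝ) < 1 / 20000),
      div_lt_one (by norm_num)] at h3
    rw [Real.dist_eq]
    exact pow_le_pow_left₀ (abs_nonneg _) h3.le 2
  have h4 : ∑ a : Fin 3, dist (x a) (y a) ^ 2 ≤ (1 / 10000) ^ 2 := by
    rw [Fin.sum_univ_three]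
    have := h1 0; have := h1 1; have := h1 2
    norm_num at *
    linarith
  exact Real.sqrt_le_iff.mpr ⟨by norm_num, h4⟩

theorem abs_coord_le_dist (x y : Pt) (a : Fin 3) : |x a - y a| ≤ dist x y := by
  rw [EuclideanSpace.dist_eq]
  apply Real.le_sqrt_of_sq_le
  rw [sq_abs, ← sq_abs, ← Real.dist_eq]
  exact Finset.single_le_sum (f := fun a => dist (x a) (y a) ^ 2)
    (fun i _ => by positivity) (Finset.mem_univ a)

theorem near_of_dist {x y : Pt} (h : dist x y ≤ 7 / 20000) (a : Fin 3) :
    |cell 0 (1 / 20000) x a - cell 0 (1 / 20000) y a| ≤ 7 := by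
  have h1 := (abs_coord_le_dist x y a).trans h
  rw [abs_le] at h1 ⊢
  simp only [cell, sub_zero]
  constructor
  · have : ⌊y a / (1 / 20000)⌋ ≤ ⌊x a / (1 / 20000)⌋ + 7 := by
      have : y a / (1 / 20000) ≤ x a / (1 / 20000) + ((7 : ℤ) : ℝ) := by
        push_cast; linarith [h1.1]
      have h2 := Int.floor_le_floor this
      rwa [Int.floor_add_intCast] at h2
    linarith
  · have : ⌊x a / (1 / 20000)⌋ ≤ ⌊y a / (1 / 20000)⌋ + 7 := by
      have : x a / (1 / 20000) ≤ y a / (1 / 20000) + ((7 : ℤ) : ℝ) := by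
        push_cast; linarith [h1.2]
      have h2 := Int.floor_le_floor this
      rwa [Int.floor_add_intCast] at h2
    linarith

/-- Combinatorial lemma: most particles are in cells that are not much lighter than their
neighbourhood. -/
theorem card_bad_le {n : ℕ} (c : Fin n → (Fin 3 → ℤ)) :
    4 * (Finset.univ.filter (fun i => 13500 * (Finset.univ.filter (fun j => c j = c i)).card <
      (Finset.univ.filter (fun j => ∀ a, |c j a - c i a| ≤ 7)).card)).card ≤ n := by
  classical
  set A : Fin n → ℕ := fun i => (Finset.univ.filter (fun j => c j = c i)).card with hA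
  set B : Fin n → ℕ := fun i => (Finset.univ.filter (fun j => ∀ a, |c j a - c i a| ≤ 7)).card with hB
  have hApos : ∀ i, 0 < A i := by
    intro i
    rw [hA]
    exact Finset.card_pos.mpr ⟨i, by simp⟩
  have h1 : (((Finset.univ.filter (fun i => 13500 * A i < B i)).card : ℕ) : ℝ) ≤
      ∑ i : Fin n, (1 / 13500 : ℝ) * (B i / A i) := by
    have h2 : (((Finset.univ.filter (fun i => 13500 * A i < B i)).card : ℕ) : ℝ) =
        ∑ i ∈ Finset.univ.filter (fun i => 13500 * A i < B i), (1 : ℝ) := by simp
    rw [h2]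
    refine (Finset.sum_le_sum (g := fun i => (1 / 13500 : ℝ) * (B i / A i)) ?_).trans ?_
    · intro i hi
      rw [Finset.mem_filter] at hi
      have h3 : (13500 : ℝ) * A i < B i := by exact_mod_cast hi.2
      have h4 : (0 : ℝ) < A i := by exact_mod_cast hApos i
      rw [← div_le_iff₀' (by norm_num), le_div_iff₀ h4]
      norm_num
      exact h3.le
    · apply Finset.sum_le_sum_of_subset_of_nonneg (Finset.filter_subset _ _)
      intro i _ _
      positivity
  have h5 : ∀ i, ((B i : ℕ) : ℝ) = ∑ j : Fin n, if (∀ a, |c j a - c i a| ≤ 7) then (1 : ℝ) else 0 := by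
    intro i
    rw [hB]
    simp
  have h6 : ∑ i : Fin n, (1 / 13500 : ℝ) * (B i / A i) ≤ ∑ j : Fin n, (1 / 13500 : ℝ) * 3375 := by
    calc ∑ i : Fin n, (1 / 13500 : ℝ) * (B i / A i)
        = ∑ i : Fin n, ∑ j : Fin n, (1 / 13500 : ℝ) *
            (if (∀ a, |c j a - c i a| ≤ 7) then (1 : ℝ) / A i else 0) := by
          apply Finset.sum_congr rfl
          intro i _
          rw [h5, ← Finset.mul_sum, Finset.sum_div]
          congr 1
          apply Finset.sum_congr rfl
          intro j _
          split_ifs <;> simp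
      _ = ∑ j : Fin n, ∑ i : Fin n, (1 / 13500 : ℝ) *
            (if (∀ a, |c j a - c i a| ≤ 7) then (1 : ℝ) / A i else 0) := Finset.sum_comm
      _ ≤ _ := by
          apply Finset.sum_le_sum
          intro j _
          rw [← Finset.mul_sum]
          apply mul_le_mul_of_nonneg_left _ (by norm_num)
          rw [← Finset.sum_filter]
          set S : Finset (Fin 3 → ℤ) := Fintype.piFinset (fun a => Finset.Icc (c j a - 7) (c j a + 7))
            with hS
          have hmap : ∀ i ∈ Finset.univ.filter (fun i => ∀ a, |c j a - c i a| ≤ 7), c i ∈ S := by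
            intro i hi
            rw [Finset.mem_filter] at hi
            rw [hS, Fintype.mem_piFinset]
            intro a
            have := abs_le.mp (hi.2 a)
            rw [Finset.mem_Icc]
            constructor <;> linarith
          rw [← Finset.sum_fiberwise_of_maps_to hmap]
          have hcard : (S.card : ℝ) = 3375 := by
            rw [hS, Fintype.card_piFinset]
            have : ∀ a : Fin 3, (Finset.Icc (c j a - 7) (c j a + 7)).card = 15 := by
              intro a
              rw [Int.card_Icc]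
              have : c j a + 7 + 1 - (c j a - 7) = 15 := by ring
              rw [this]
              rfl
            simp [this]
          rw [← hcard]
          have : (S.card : ℝ) = ∑ s ∈ S, (1 : ℝ) := by simp
          rw [this]
          apply Finset.sum_le_sum
          intro s _
          by_cases hne : ∃ k, c k = s
          · obtain ⟨k, hk⟩ := hne
            have h7 : ∀ i ∈ (Finset.univ.filter (fun i => ∀ a, |c j a - c i a| ≤ 7)).filter
                (fun i => c i = s), (1 : ℝ) / A i = 1 / A k := by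
              intro i hi
              rw [Finset.mem_filter] at hi
              have : A i = A k := by
                rw [hA]
                simp only [hi.2, hk]
              rw [this]
            rw [Finset.sum_congr rfl h7, Finset.sum_const, nsmul_eq_mul]
            have h8 : (((Finset.univ.filter (fun i => ∀ a, |c j a - c i a| ≤ 7)).filter
                (fun i => c i = s)).card : ℝ) ≤ A k := by
              have : ((Finset.univ.filter (fun i => ∀ a, |c j a - c i a| ≤ 7)).filter
                (fun i => c i = s)).card ≤ A k := by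
                rw [hA]
                apply Finset.card_le_card
                intro i hi
                rw [Finset.mem_filter] at hi
                simp [hi.2, hk]
              exact_mod_cast this
            have h9 : (0 : ℝ) < A k := by exact_mod_cast hApos k
            rw [mul_one_div, div_le_one h9]
            exact h8
          · have : (Finset.univ.filter (fun i => ∀ a, |c j a - c i a| ≤ 7)).filter
                (fun i => c i = s) = ∅ := by
              rw [Finset.filter_eq_empty_iff]
              intro i _ hi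
              exact hne ⟨i, hi⟩
            rw [this]
            simp
  have h10 : ∑ j : Fin n, (1 / 13500 : ℝ) * 3375 = n / 4 := by
    rw [Finset.sum_const]
    simp
    ring
  have h11 : (((Finset.univ.filter (fun i => 13500 * A i < B i)).card : ℕ) : ℝ) ≤ n / 4 := by
    linarith
  have h12 : (4 : ℝ) * (((Finset.univ.filter (fun i => 13500 * A i < B i)).card : ℕ) : ℝ) ≤ n := by
    linarith
  exact_mod_cast h12

theorem uw_nonneg {a b w r : ℝ} (ha : 0 ≤ a) (h : ¬ |r - 3 / 10000| < w) : 0 ≤ uw a b w r := by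
  unfold uw
  split_ifs <;> simp [ha]

theorem uw_ge {a b w r : ℝ} (ha : 0 ≤ a) (hb : 0 ≤ b) : -b ≤ uw a b w r := by
  unfold uw
  split_ifs <;> linarith

theorem measurable_uw (a b w : ℝ) : Measurable (uw a b w) := by
  unfold uw
  apply Measurable.ite measurableSet_Iic measurable_const
  apply Measurable.ite _ measurable_const measurable_const
  exact measurableSet_lt (by fun_prop) measurable_const

/-- Interaction of particle `i` with the others. -/
noncomputable def Wi {m : ℕ} (u : Pt → Pt → ℝ) (x : Fin (m + 1) → Pt) (i : Fin (m + 1)) : ℝ :=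
  ∑ j : Fin m, u (x i) (x (i.succAbove j))

theorem Eu_remove {m : ℕ} {u : Pt → Pt → ℝ} (hu : ∀ x y, u x y = u y x) (x : Fin (m + 1) → Pt)
    (i : Fin (m + 1)) : Eu u x = Eu u (fun j => x (i.succAbove j)) + Wi u x i := by
  rw [Eu_eq, Eu_eq, Wi, Fin.sum_univ_succAbove _ i]
  rw [Fin.sum_univ_succAbove (fun j => if i = j then 0 else u (x i) (x j)) i]
  have h1 : ∀ k : Fin m, ∑ j, (if i.succAbove k = j then 0 else u (x (i.succAbove k)) (x j)) =
      u (x i) (x (i.succAbove k)) +
        ∑ l : Fin m, if k = l then 0 else u (x (i.succAbove k)) (x (i.succAbove l)) := by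
    intro k
    rw [Fin.sum_univ_succAbove _ i]
    simp [Fin.succAbove_ne, hu (x (i.succAbove k)) (x i)]
  simp only [h1, Finset.sum_add_distrib, if_true]
  have h2 : ∀ j : Fin m, (if i = i.succAbove j then (0 : ℝ) else u (x i) (x (i.succAbove j))) =
      u (x i) (x (i.succAbove j)) := by
    intro j
    rw [if_neg (Fin.succAbove_ne i j).symm]
  simp only [h2]
  ring

/-- Particles in cells that are not much lighter than their neighbourhood have interaction
energy bounded below. -/
theorem Wi_ge {m : ℕ} {a b w : ℝ} (hb : 0 ≤ b) (hab : 13500 * b ≤ a) (hw : w ≤ 1 / 20000)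
    (x : Fin (m + 1) → Pt) (i : Fin (m + 1))
    (hi : ¬ 13500 * (Finset.univ.filter
        (fun j => cell 0 (1 / 20000) (x j) = cell 0 (1 / 20000) (x i))).card <
      (Finset.univ.filter (fun j => ∀ a, |cell 0 (1 / 20000) (x j) a -
        cell 0 (1 / 20000) (x i) a| ≤ 7)).card) :
    -(13500 * b) ≤ Wi (rad (uw a b w)) x i := by
  classical
  set c : Fin (m + 1) → (Fin 3 → ℤ) := fun j => cell 0 (1 / 20000) (x j) with hc
  set A : ℕ := (Finset.univ.filter (fun j => c j = c i)).card with hA
  set B : ℕ := (Finset.univ.filter (fun j => ∀ a, |c j a - c i a| ≤ 7)).card with hB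
  have ha : 0 ≤ a := by linarith
  have hAB : (B : ℝ) ≤ 13500 * A := by
    have : B ≤ 13500 * A := not_lt.mp hi
    exact_mod_cast this
  have hA1 : (1 : ℝ) ≤ A := by
    have : 1 ≤ A := Finset.card_pos.mpr ⟨i, by simp⟩
    exact_mod_cast this
  have hAs : (A : ℝ) = 1 + ∑ j : Fin m, if c (i.succAbove j) = c i then (1 : ℝ) else 0 := by
    have : (A : ℝ) = ∑ j, if c j = c i then (1 : ℝ) else 0 := by simp [hA]
    rw [this, Fin.sum_univ_succAbove _ i]
    simp
  have hBs : ∑ j : Fin m, (if (∀ a, |c (i.succAbove j) a - c i a| ≤ 7) then (1 : ℝ) else 0) ≤ B := by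
    have : (B : ℝ) = ∑ j, if (∀ a, |c j a - c i a| ≤ 7) then (1 : ℝ) else 0 := by simp [hB]
    rw [this, Fin.sum_univ_succAbove _ i]
    simp
  have h1 : ∀ j : Fin m, a * (if c (i.succAbove j) = c i then (1 : ℝ) else 0) -
      b * (if (∀ a, |c (i.succAbove j) a - c i a| ≤ 7) then (1 : ℝ) else 0) ≤
      rad (uw a b w) (x i) (x (i.succAbove j)) := by
    intro j
    simp only [rad]
    by_cases h2 : c (i.succAbove j) = c i
    · have h3 : dist (x i) (x (i.succAbove j)) ≤ 1 / 10000 := dist_le_of_same_cell h2.symm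
      have h4 : uw a b w (dist (x i) (x (i.succAbove j))) = a := by
        unfold uw; rw [if_pos h3]
      rw [h4, if_pos h2]
      split_ifs <;> linarith
    · rw [if_neg h2]
      by_cases h3 : |dist (x i) (x (i.succAbove j)) - 3 / 10000| < w
      · have h4 : dist (x (i.succAbove j)) (x i) ≤ 7 / 20000 := by
          rw [dist_comm]
          have := (abs_lt.mp h3).2
          linarith
        rw [if_pos (fun a => near_of_dist h4 a)]
        have := uw_ge (w := w) (r := dist (x i) (x (i.succAbove j))) ha hb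
        linarith
      · have := uw_nonneg (b := b) ha h3
        split_ifs <;> linarith
  have h5 : a * (A - 1) - b * B ≤ Wi (rad (uw a b w)) x i := by
    unfold Wi
    refine le_trans ?_ (Finset.sum_le_sum (fun j _ => h1 j))
    rw [Finset.sum_sub_distrib, ← Finset.mul_sum, ← Finset.mul_sum, hAs]
    have := mul_le_mul_of_nonneg_left hBs hb
    linarith
  have h6 : b * B ≤ b * (13500 * A) := mul_le_mul_of_nonneg_left hAB hb
  nlinarith

/-- Pointwise removal inequality. -/
theorem exp_remove {m : ℕ} {a b w : ℝ} (hb : 0 ≤ b) (hab : 13500 * b ≤ a) (hw : w ≤ 1 / 20000)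
    (x : Fin (m + 1) → Pt) :
    Real.exp (-(Eu (rad (uw a b w)) x)) ≤ (4 / (3 * (m + 1)) : ℝ) *
      ∑ i : Fin (m + 1), Real.exp (-(Eu (rad (uw a b w)) (fun j => x (i.succAbove j)))) *
        (1 + Real.exp (13500 * b) * ∑ j : Fin m,
          Set.indicator {y : Pt | |dist y (x (i.succAbove j)) - 3 / 10000| < w} (fun _ => (1:ℝ))
            (x i)) := by
  classical
  have ha : 0 ≤ a := by linarith
  have hsymm : ∀ x y, rad (uw a b w) x y = rad (uw a b w) y x := by
    intro x y; simp [rad, dist_comm]
  set c : Fin (m + 1) → (Fin 3 → ℤ) := fun j => cell 0 (1 / 20000) (x j) with hc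
  set P : Fin (m + 1) → Prop := fun i => 13500 * (Finset.univ.filter (fun j => c j = c i)).card <
      (Finset.univ.filter (fun j => ∀ a, |c j a - c i a| ≤ 7)).card with hP
  have hbad := card_bad_le c
  have hcard : (Finset.univ.filter P).card + (Finset.univ.filter (fun i => ¬ P i)).card = m + 1 := by
    rw [Finset.card_filter_add_card_filter_not, Finset.card_univ, Fintype.card_fin]
  have hgood : (3 * (m + 1) / 4 : ℝ) ≤ (Finset.univ.filter (fun i => ¬ P i)).card := by
    have h1 : 4 * (Finset.univ.filter P).card ≤ m + 1 := hbad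
    have h2 : (4 : ℝ) * (Finset.univ.filter P).card ≤ m + 1 := by exact_mod_cast h1
    have h3 : ((Finset.univ.filter P).card : ℝ) + (Finset.univ.filter (fun i => ¬ P i)).card = m + 1 := by
      exact_mod_cast hcard
    linarith
  set T : Fin (m + 1) → ℝ := fun i =>
    Real.exp (-(Eu (rad (uw a b w)) (fun j => x (i.succAbove j)))) *
        (1 + Real.exp (13500 * b) * ∑ j : Fin m,
          Set.indicator {y : Pt | |dist y (x (i.succAbove j)) - 3 / 10000| < w} (fun _ => (1:ℝ))
            (x i)) with hT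
  have hsum0 : ∀ i : Fin (m + 1), 0 ≤ ∑ j : Fin m,
      Set.indicator {y : Pt | |dist y (x (i.succAbove j)) - 3 / 10000| < w} (fun _ => (1:ℝ)) (x i) := by
    intro i
    apply Finset.sum_nonneg
    intro j _
    exact Set.indicator_nonneg (fun _ _ => zero_le_one) _
  have hT0 : ∀ i, 0 ≤ T i := by
    intro i
    have := hsum0 i
    rw [hT]
    positivity
  have hTi : ∀ i, ¬ P i → Real.exp (-(Eu (rad (uw a b w)) x)) ≤ T i := by
    intro i hi
    have hW := Wi_ge hb hab hw x i hi
    rw [Eu_remove hsymm x i, neg_add, Real.exp_add, hT]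
    apply mul_le_mul_of_nonneg_left _ (Real.exp_pos _).le
    by_cases hex : ∃ j : Fin m, |dist (x i) (x (i.succAbove j)) - 3 / 10000| < w
    · obtain ⟨j, hj⟩ := hex
      have h1 : (1 : ℝ) ≤ ∑ j : Fin m,
          Set.indicator {y : Pt | |dist y (x (i.succAbove j)) - 3 / 10000| < w} (fun _ => (1:ℝ))
            (x i) := by
        refine le_trans ?_ (Finset.single_le_sum (f := fun j : Fin m =>
          Set.indicator {y : Pt | |dist y (x (i.succAbove j)) - 3 / 10000| < w} (fun _ => (1:ℝ))
            (x i)) (fun j _ => Set.indicator_nonneg (fun _ _ => zero_le_one) _) (Finset.mem_univ j))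
        have : x i ∈ {y : Pt | |dist y (x (i.succAbove j)) - 3 / 10000| < w} := hj
        simp only [Set.indicator_of_mem this, le_refl]
      have h2 : Real.exp (-(Wi (rad (uw a b w)) x i)) ≤ Real.exp (13500 * b) :=
        Real.exp_le_exp.mpr (by linarith)
      have h3 := mul_le_mul_of_nonneg_left h1 (Real.exp_pos (13500 * b)).le
      linarith
    · push Not at hex
      have h1 : 0 ≤ Wi (rad (uw a b w)) x i := by
        unfold Wi
        apply Finset.sum_nonneg
        intro j _
        exact uw_nonneg ha (not_lt.mpr (hex j))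
      have h2 : Real.exp (-(Wi (rad (uw a b w)) x i)) ≤ 1 := by
        rw [Real.exp_le_one_iff]; linarith
      have h3 := mul_nonneg (Real.exp_pos (13500 * b)).le (hsum0 i)
      linarith
  have h1 : (Finset.univ.filter (fun i => ¬ P i)).card * Real.exp (-(Eu (rad (uw a b w)) x)) ≤
      ∑ i, T i := by
    rw [← nsmul_eq_mul, ← Finset.sum_const]
    refine (Finset.sum_le_sum (g := T) ?_).trans ?_
    · intro i hi
      rw [Finset.mem_filter] at hi
      exact hTi i hi.2
    · exact Finset.sum_le_sum_of_subset_of_nonneg (Finset.filter_subset _ _) (fun i _ _ => hT0 i)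
  have h2 : (3 * (m + 1) / 4 : ℝ) * Real.exp (-(Eu (rad (uw a b w)) x)) ≤ ∑ i, T i :=
    (mul_le_mul_of_nonneg_right hgood (Real.exp_pos _).le).trans h1
  have h3 : (0 : ℝ) < 3 * (m + 1) := by positivity
  calc Real.exp (-(Eu (rad (uw a b w)) x))
      = (4 / (3 * (m + 1)) : ℝ) * ((3 * (m + 1) / 4 : ℝ) * Real.exp (-(Eu (rad (uw a b w)) x))) := by
        field_simp
    _ ≤ _ := mul_le_mul_of_nonneg_left h2 (by positivity)

theorem stable_uw {a b w : ℝ} (hb : 0 ≤ b) (hab : 13500 * b ≤ a) (hw : w ≤ 1 / 20000) :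
    Stable (rad (uw a b w)) (13500 * b) := by
  classical
  intro n
  induction n with
  | zero => intro x; simp [Eu]
  | succ m ih =>
    intro x
    have hsymm : ∀ x y, rad (uw a b w) x y = rad (uw a b w) y x := by
      intro x y; simp [rad, dist_comm]
    have hbad := card_bad_le (fun j => cell 0 (1 / 20000) (x j))
    have : ∃ i, ¬ 13500 * (Finset.univ.filter
        (fun j => cell 0 (1 / 20000) (x j) = cell 0 (1 / 20000) (x i))).card <
      (Finset.univ.filter (fun j => ∀ a, |cell 0 (1 / 20000) (x j) a -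
        cell 0 (1 / 20000) (x i) a| ≤ 7)).card := by
      by_contra hcon
      push Not at hcon
      rw [Finset.filter_true_of_mem (fun i _ => hcon i)] at hbad
      simp at hbad
    obtain ⟨i, hi⟩ := this
    have hW := Wi_ge hb hab hw x i hi
    rw [Eu_remove hsymm x i]
    have := ih (fun j => x (i.succAbove j))
    push_cast
    linarith

theorem lintegral_box_remove {m : ℕ} {Λ : Set Pt} (i : Fin (m + 1))
    {F : Pt → (Fin m → Pt) → ℝ≥0∞} (hF : Measurable (Function.uncurry F)) :
    ∫⁻ x in (box Λ : Set (Fin (m + 1) → Pt)), F (x i) (fun j => x (i.succAbove j)) =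
      ∫⁻ x' in (box Λ : Set (Fin m → Pt)), ∫⁻ y in Λ, F y x' := by
  let e := MeasurableEquiv.piFinSuccAbove (fun _ : Fin (m + 1) => Pt) i
  have he : MeasurePreserving e volume volume := volume_preserving_piFinSuccAbove _ i
  have hbox : (box Λ : Set (Fin (m + 1) → Pt)) = e ⁻¹' (Λ ×ˢ (box Λ : Set (Fin m → Pt))) := by
    ext x
    simp only [Set.mem_pi, Set.mem_univ, true_implies, Set.mem_preimage, Set.mem_prod]
    rw [Fin.forall_iff_succAbove i]
    rfl
  have h1 : ∫⁻ x in (box Λ : Set (Fin (m + 1) → Pt)), F (x i) (fun j => x (i.succAbove j)) =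
      ∫⁻ z in (Λ ×ˢ (box Λ : Set (Fin m → Pt))), Function.uncurry F z := by
    rw [hbox, ← he.setLIntegral_comp_preimage_emb e.measurableEmbedding]
    rfl
  rw [h1, Measure.volume_eq_prod, ← Measure.prod_restrict, lintegral_prod_symm _ hF.aemeasurable]
  rfl

theorem volume_well_le {w : ℝ} (hw0 : 0 ≤ w) (hw : w ≤ 1 / 20000) (y : Pt) :
    volume {z : Pt | |dist z y - 3 / 10000| < w} ≤ ENNReal.ofReal w := by
  have h1 : {z : Pt | |dist z y - 3 / 10000| < w} ⊆
      Metric.ball y (3 / 10000 + w) \ Metric.ball y (3 / 10000 - w) := by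
    intro z hz
    have := abs_lt.mp (show |dist z y - 3 / 10000| < w from hz)
    simp only [Set.mem_sdiff, Metric.mem_ball, not_lt]
    constructor <;> linarith
  refine (measure_mono h1).trans ?_
  have h0 : (0 : ℝ) ≤ 3 / 10000 - w := by linarith
  rw [measure_sdiff (Metric.ball_subset_ball (by linarith)) measurableSet_ball.nullMeasurableSet
    (by exact measure_ball_lt_top.ne), EuclideanSpace.volume_ball_fin_three,
    EuclideanSpace.volume_ball_fin_three]
  rw [← ENNReal.ofReal_pow (by linarith), ← ENNReal.ofReal_pow h0,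
    ← ENNReal.ofReal_mul (by positivity), ← ENNReal.ofReal_mul (by positivity),
    ← ENNReal.ofReal_sub _ (by positivity)]
  apply ENNReal.ofReal_le_ofReal
  have hpi : Real.pi < 4 := Real.pi_lt_four
  have hpi0 : 0 < Real.pi := Real.pi_pos
  have h2 : (3 / 10000 + w) ^ 3 * (Real.pi * 4 / 3) - (3 / 10000 - w) ^ 3 * (Real.pi * 4 / 3) =
      (Real.pi * 4 / 3) * (2 * w ^ 2 + 6 * (3 / 10000) ^ 2) * w := by ring
  rw [h2]
  have h3 : (Real.pi * 4 / 3) * (2 * w ^ 2 + 6 * (3 / 10000) ^ 2) ≤ 1 := by
    have : 2 * w ^ 2 + 6 * (3 / 10000) ^ 2 ≤ 1 / 100 := by nlinarith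
    nlinarith
  nlinarith

/-- Number of particles of `x'` whose well contains `y`. -/
noncomputable def wellCount {m : ℕ} (w : ℝ) (y : Pt) (x' : Fin m → Pt) : ℝ≥0∞ :=
  ∑ j : Fin m, Set.indicator {z : Pt × Pt | |dist z.1 z.2 - 3 / 10000| < w}
    (fun _ => (1:ℝ≥0∞)) (y, x' j)

theorem measurableSet_well (w : ℝ) :
    MeasurableSet {z : Pt × Pt | |dist z.1 z.2 - 3 / 10000| < w} :=
  measurableSet_lt (by fun_prop) measurable_const

theorem measurable_wellCount {m : ℕ} (w : ℝ) :
    Measurable (fun z : Pt × (Fin m → Pt) => wellCount w z.1 z.2) := by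
  unfold wellCount
  apply Finset.measurable_sum
  intro j _
  apply (measurable_const.indicator (measurableSet_well w)).comp
  exact measurable_fst.prodMk ((measurable_pi_apply j).comp measurable_snd)

theorem lintegral_wellCount_le {m : ℕ} {w : ℝ} (hw0 : 0 ≤ w) (hw : w ≤ 1 / 20000) (Λ : Set Pt)
    (x' : Fin m → Pt) : ∫⁻ y in Λ, wellCount w y x' ≤ m * ENNReal.ofReal w := by
  unfold wellCount
  rw [lintegral_finsetSum]
  · calc ∑ j : Fin m, ∫⁻ y in Λ, Set.indicator {z : Pt × Pt | |dist z.1 z.2 - 3 / 10000| < w}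
          (fun _ => (1:ℝ≥0∞)) (y, x' j)
        ≤ ∑ j : Fin m, ENNReal.ofReal w := by
          apply Finset.sum_le_sum
          intro j _
          have hmeas : MeasurableSet {y : Pt | |dist y (x' j) - 3 / 10000| < w} :=
            measurableSet_lt (by fun_prop) measurable_const
          have heq : (fun y => Set.indicator {z : Pt × Pt | |dist z.1 z.2 - 3 / 10000| < w}
              (fun _ => (1:ℝ≥0∞)) (y, x' j)) =
              Set.indicator {y : Pt | |dist y (x' j) - 3 / 10000| < w} (fun _ => (1:ℝ≥0∞)) := by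
            ext y
            by_cases h : |dist y (x' j) - 3 / 10000| < w
            · rw [Set.indicator_of_mem (show (y, x' j) ∈ {z : Pt × Pt | |dist z.1 z.2 - 3 / 10000| < w}
                from h), Set.indicator_of_mem (show y ∈ {y : Pt | |dist y (x' j) - 3 / 10000| < w}
                from h)]
            · rw [Set.indicator_of_notMem (show (y, x' j) ∉ {z : Pt × Pt | |dist z.1 z.2 - 3 / 10000| < w}
                from h), Set.indicator_of_notMem (show y ∉ {y : Pt | |dist y (x' j) - 3 / 10000| < w}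
                from h)]
          rw [heq, lintegral_indicator_const hmeas, one_mul]
          refine (Measure.restrict_apply_le _ _).trans ?_
          exact volume_well_le hw0 hw (x' j)
      _ = m * ENNReal.ofReal w := by simp
  · intro j _
    apply (measurable_const.indicator (measurableSet_well w)).comp
    exact measurable_id.prodMk measurable_const

theorem bw_remove {m : ℕ} {a b w : ℝ} (hb : 0 ≤ b) (hab : 13500 * b ≤ a) (hw : w ≤ 1 / 20000)
    (x : Fin (m + 1) → Pt) :
    bw (rad (uw a b w)) x ≤ ENNReal.ofReal (4 / (3 * (m + 1)) : ℝ) *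
      ∑ i : Fin (m + 1), bw (rad (uw a b w)) (fun j => x (i.succAbove j)) *
        (1 + ENNReal.ofReal (Real.exp (13500 * b)) *
          wellCount w (x i) (fun j => x (i.succAbove j))) := by
  classical
  have h := exp_remove hb hab hw x
  have h2 := ENNReal.ofReal_le_ofReal h
  refine h2.trans (le_of_eq ?_)
  have hind0 : ∀ i : Fin (m + 1), ∀ j : Fin m, 0 ≤
      Set.indicator {y : Pt | |dist y (x (i.succAbove j)) - 3 / 10000| < w} (fun _ => (1:ℝ)) (x i) :=
    fun i j => Set.indicator_nonneg (fun _ _ => zero_le_one) _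
  have hsum0 : ∀ i : Fin (m + 1), 0 ≤ ∑ j : Fin m,
      Set.indicator {y : Pt | |dist y (x (i.succAbove j)) - 3 / 10000| < w} (fun _ => (1:ℝ)) (x i) :=
    fun i => Finset.sum_nonneg (fun j _ => hind0 i j)
  have hcount : ∀ i : Fin (m + 1), ENNReal.ofReal (∑ j : Fin m,
      Set.indicator {y : Pt | |dist y (x (i.succAbove j)) - 3 / 10000| < w} (fun _ => (1:ℝ)) (x i)) =
      wellCount w (x i) (fun j => x (i.succAbove j)) := by
    intro i
    rw [ENNReal.ofReal_sum_of_nonneg (fun j _ => hind0 i j)]
    unfold wellCount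
    apply Finset.sum_congr rfl
    intro j _
    by_cases h : |dist (x i) (x (i.succAbove j)) - 3 / 10000| < w
    · rw [Set.indicator_of_mem (show (x i, x (i.succAbove j)) ∈
          {z : Pt × Pt | |dist z.1 z.2 - 3 / 10000| < w} from h),
        Set.indicator_of_mem (show x i ∈ {y : Pt | |dist y (x (i.succAbove j)) - 3 / 10000| < w}
          from h), ENNReal.ofReal_one]
    · rw [Set.indicator_of_notMem (show (x i, x (i.succAbove j)) ∉
          {z : Pt × Pt | |dist z.1 z.2 - 3 / 10000| < w} from h),
        Set.indicator_of_notMem (show x i ∉ {y : Pt | |dist y (x (i.succAbove j)) - 3 / 10000| < w}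
          from h), ENNReal.ofReal_zero]
  rw [ENNReal.ofReal_mul (by positivity), ENNReal.ofReal_sum_of_nonneg]
  · congr 1
    apply Finset.sum_congr rfl
    intro i _
    rw [ENNReal.ofReal_mul (Real.exp_pos _).le, ENNReal.ofReal_add zero_le_one
      (mul_nonneg (Real.exp_pos _).le (hsum0 i)), ENNReal.ofReal_one,
      ENNReal.ofReal_mul (Real.exp_pos _).le, hcount]
    rfl
  · intro i _
    exact mul_nonneg (Real.exp_pos _).le (add_nonneg zero_le_one
      (mul_nonneg (Real.exp_pos _).le (hsum0 i)))

theorem measurable_integrand {m : ℕ} {u : Pt → Pt → ℝ} (hu : GoodPair u) (D : ℝ≥0∞) (w : ℝ) :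
    Measurable (Function.uncurry (fun (y : Pt) (x' : Fin m → Pt) =>
      bw u x' * (1 + D * wellCount w y x'))) := by
  have h1 : Measurable (fun z : Pt × (Fin m → Pt) => bw u z.2) :=
    (measurable_bw hu).comp measurable_snd
  have h2 : Measurable (fun z : Pt × (Fin m → Pt) => 1 + D * wellCount w z.1 z.2) :=
    ((measurable_wellCount w).const_mul D).const_add 1
  exact h1.mul h2

theorem measurable_wellCount_left {m : ℕ} (w : ℝ) (x' : Fin m → Pt) :
    Measurable (fun y : Pt => wellCount w y x') := by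
  have hpair : Measurable (fun y : Pt => (y, x')) := measurable_id.prodMk measurable_const
  have h := (measurable_wellCount (m := m) w).comp hpair
  exact h

theorem lintegral_aux (f : Pt → ℝ≥0∞) (hf : Measurable f) (Λ : Set Pt) (c D e : ℝ≥0∞)
    (h1 : ∫⁻ y in Λ, f y ≤ e) : ∫⁻ y in Λ, c * (1 + D * f y) ≤ c * (volume Λ + D * e) := by
  have h2 : Measurable (fun y : Pt => 1 + D * f y) := (hf.const_mul D).const_add 1
  rw [lintegral_const_mul c h2, lintegral_add_left measurable_const,
    lintegral_const_mul D hf, setLIntegral_const, one_mul]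
  gcongr

theorem lintegral_integrand_le {m : ℕ} {u : Pt → Pt → ℝ} (D : ℝ≥0∞) {w : ℝ}
    (hw0 : 0 ≤ w) (hw : w ≤ 1 / 20000) (Λ : Set Pt) (x' : Fin m → Pt) :
    ∫⁻ y in Λ, bw u x' * (1 + D * wellCount w y x') ≤
      bw u x' * (volume Λ + D * (m * ENNReal.ofReal w)) := by
  exact lintegral_aux (fun y => wellCount w y x') (measurable_wellCount_left w x') Λ (bw u x') D _
    (lintegral_wellCount_le hw0 hw Λ x')

theorem lintegral_remove_le {m : ℕ} (Λ : Set Pt) (G : (Fin (m + 1) → Pt) → ℝ≥0∞)
    (F : Pt → (Fin m → Pt) → ℝ≥0∞) (H : (Fin m → Pt) → ℝ≥0∞) (c E : ℝ≥0∞)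
    (hF : Measurable (Function.uncurry F)) (hH : Measurable H)
    (hG : ∀ x, G x ≤ c * ∑ i : Fin (m + 1), F (x i) (fun j => x (i.succAbove j)))
    (hFH : ∀ x', ∫⁻ y in Λ, F y x' ≤ H x' * E) :
    ∫⁻ x in (box Λ : Set (Fin (m + 1) → Pt)), G x ≤
      c * ((m + 1 : ℕ) * (E * ∫⁻ x' in (box Λ : Set (Fin m → Pt)), H x')) := by
  have hm : ∀ i : Fin (m + 1), Measurable (fun x : Fin (m + 1) → Pt =>
      F (x i) (fun j => x (i.succAbove j))) := by
    intro i
    have h1 : Measurable (fun x : Fin (m + 1) → Pt => (x i, fun j : Fin m => x (i.succAbove j))) :=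
      (measurable_pi_apply i).prodMk
        (measurable_pi_lambda _ (fun j => measurable_pi_apply (i.succAbove j)))
    exact hF.comp h1
  calc ∫⁻ x in (box Λ : Set (Fin (m + 1) → Pt)), G x
      ≤ ∫⁻ x in (box Λ : Set (Fin (m + 1) → Pt)), c *
          ∑ i : Fin (m + 1), F (x i) (fun j => x (i.succAbove j)) := lintegral_mono hG
    _ = c * ∑ i : Fin (m + 1),
          ∫⁻ x in (box Λ : Set (Fin (m + 1) → Pt)), F (x i) (fun j => x (i.succAbove j)) := by
        rw [lintegral_const_mul _ (Finset.measurable_sum _ (fun i _ => hm i)),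
          lintegral_finsetSum _ (fun i _ => hm i)]
    _ = c * ∑ i : Fin (m + 1),
          ∫⁻ x' in (box Λ : Set (Fin m → Pt)), ∫⁻ y in Λ, F y x' := by
        congr 1
        apply Finset.sum_congr rfl
        intro i _
        exact lintegral_box_remove i hF
    _ ≤ c * ∑ i : Fin (m + 1), (E * ∫⁻ x' in (box Λ : Set (Fin m → Pt)), H x') := by
        gcongr
        rw [← lintegral_const_mul _ hH]
        apply lintegral_mono
        intro x'
        simp only
        rw [mul_comm E]
        exact hFH x'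
    _ = _ := by simp

theorem Z_succ_le {a b w : ℝ} (hb : 0 ≤ b) (hab : 13500 * b ≤ a) (hw0 : 0 ≤ w)
    (hw : w ≤ 1 / 20000) (Λ : Set Pt) (m : ℕ) :
    Z (rad (uw a b w)) Λ (m + 1) ≤ ENNReal.ofReal (4 / (3 * (m + 1)) : ℝ) *
      (volume Λ + ENNReal.ofReal (Real.exp (13500 * b)) * (m * ENNReal.ofReal w)) *
      Z (rad (uw a b w)) Λ m := by
  have hgood : GoodPair (rad (uw a b w)) := goodPair_rad (measurable_uw a b w)
  have hmain := lintegral_remove_le Λ (fun x : Fin (m + 1) → Pt => bw (rad (uw a b w)) x)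
    (fun (y : Pt) (x' : Fin m → Pt) => bw (rad (uw a b w)) x' *
      (1 + ENNReal.ofReal (Real.exp (13500 * b)) * wellCount w y x'))
    (fun x' => bw (rad (uw a b w)) x') (ENNReal.ofReal (4 / (3 * (m + 1)) : ℝ))
    (volume Λ + ENNReal.ofReal (Real.exp (13500 * b)) * (m * ENNReal.ofReal w))
    (measurable_integrand (m := m) hgood _ w) (measurable_bw hgood)
    (fun x => bw_remove hb hab hw x)
    (fun x' => lintegral_integrand_le _ hw0 hw Λ x')
  have hfac : ((m + 1).factorial : ℝ≥0∞)⁻¹ * (m + 1 : ℕ) = (m.factorial : ℝ≥0∞)⁻¹ := by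
    rw [Nat.factorial_succ, Nat.cast_mul, ENNReal.mul_inv (by simp) (by simp)]
    rw [mul_right_comm, ENNReal.inv_mul_cancel (by simp) (by simp), one_mul]
  unfold Z
  rw [← hfac]
  refine (mul_le_mul_right hmain _).trans (le_of_eq ?_)
  ring

theorem ZL_succ_le {a b w : ℝ} (hb : 0 ≤ b) (hab : 13500 * b ≤ a) (hw0 : 0 ≤ w)
    (hw : w ≤ 1 / 20000) {L : ℝ} (hL : 0 ≤ L) (m : ℕ) :
    ZL (uw a b w) L (m + 1) ≤ (4 / (3 * (m + 1)) : ℝ) *
      (L ^ 3 + Real.exp (13500 * b) * (m * w)) * ZL (uw a b w) L m := by
  have hZ : Z (rad (uw a b w)) (cube L) m ≠ ⊤ := by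
    apply ne_of_lt
    apply Z_lt_top (stable_uw hb hab hw) (measurableSet_cube L)
    rw [volume_cube hL]
    exact ENNReal.ofReal_lt_top
  have h := Z_succ_le hb hab hw0 hw (cube L) m
  rw [volume_cube hL] at h
  have h2 : ENNReal.ofReal (4 / (3 * (m + 1)) : ℝ) *
      (ENNReal.ofReal (L ^ 3) + ENNReal.ofReal (Real.exp (13500 * b)) * (m * ENNReal.ofReal w)) *
      Z (rad (uw a b w)) (cube L) m =
      ENNReal.ofReal ((4 / (3 * (m + 1)) : ℝ) *
      (L ^ 3 + Real.exp (13500 * b) * (m * w)) * ZL (uw a b w) L m) := by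
    unfold ZL
    rw [ENNReal.ofReal_mul (by positivity), ENNReal.ofReal_toReal hZ,
      ENNReal.ofReal_mul (by positivity), ENNReal.ofReal_add (by positivity) (by positivity),
      ENNReal.ofReal_mul (Real.exp_pos _).le, ENNReal.ofReal_mul (by positivity),
      ENNReal.ofReal_natCast]
  rw [h2] at h
  have h3 : 0 ≤ ZL (uw a b w) L m := ENNReal.toReal_nonneg
  exact ENNReal.toReal_le_of_le_ofReal (by positivity) h

/-- Elementary recursion estimate. -/
theorem seq_le_exp {z : ℕ → ℝ} {V c : ℝ} (hV : 0 < V) (hc0 : 0 ≤ c) (hc : c ≤ 1 / 10)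
    (hz : ∀ n, 0 ≤ z n) (h0 : z 0 ≤ 1)
    (hrec : ∀ m : ℕ, z (m + 1) ≤ (4 / (3 * (m + 1)) : ℝ) * (V + c * m) * z m) (n : ℕ) :
    z n ≤ Real.exp (2 * V) := by
  -- first bound
  have h1 : ∀ n : ℕ, z n ≤ (4 / 3 * V) ^ n / n.factorial * Real.exp (c * n ^ 2 / (2 * V)) := by
    intro n
    induction n with
    | zero => simpa using h0
    | succ m ih =>
      refine (hrec m).trans ?_
      refine (mul_le_mul_of_nonneg_left ih (by positivity)).trans ?_
      have h2 : V + c * m ≤ V * Real.exp (c * m / V) := by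
        have := Real.add_one_le_exp (c * m / V)
        have h3 := mul_le_mul_of_nonneg_left this hV.le
        have h4 : V * (c * m / V + 1) = V + c * m := by field_simp; ring
        linarith
      have h5 : c * ((m + 1 : ℕ) : ℝ) ^ 2 / (2 * V) = c * m ^ 2 / (2 * V) + c * m / V + c / (2 * V) := by
        push_cast
        field_simp
        ring
      have h6 : Real.exp (c * ((m + 1 : ℕ) : ℝ) ^ 2 / (2 * V)) ≥
          Real.exp (c * m ^ 2 / (2 * V)) * Real.exp (c * m / V) := by
        rw [← Real.exp_add]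
        apply Real.exp_le_exp.mpr
        rw [h5]
        have : 0 ≤ c / (2 * V) := by positivity
        linarith
      calc (4 / (3 * (m + 1)) : ℝ) * (V + c * m) *
            ((4 / 3 * V) ^ m / m.factorial * Real.exp (c * m ^ 2 / (2 * V)))
          ≤ (4 / (3 * (m + 1)) : ℝ) * (V * Real.exp (c * m / V)) *
            ((4 / 3 * V) ^ m / m.factorial * Real.exp (c * m ^ 2 / (2 * V))) := by gcongr
        _ = (4 / 3 * V) ^ (m + 1) / (m + 1).factorial *
            (Real.exp (c * m ^ 2 / (2 * V)) * Real.exp (c * m / V)) := by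
            rw [Nat.factorial_succ]
            push_cast
            field_simp
            ring
        _ ≤ _ := by gcongr
  have h7 : ∀ n : ℕ, (n : ℝ) ≤ 8 / 3 * V → z n ≤ Real.exp (2 * V) := by
    intro n hn
    refine (h1 n).trans ?_
    have h8 : (4 / 3 * V) ^ n / n.factorial ≤ Real.exp (4 / 3 * V) :=
      Real.pow_div_factorial_le_exp _ (by positivity) n
    have h9 : c * n ^ 2 / (2 * V) ≤ 2 / 3 * V := by
      rw [div_le_iff₀ (by positivity)]
      have h10 : (n : ℝ) ^ 2 ≤ (8 / 3 * V) ^ 2 := pow_le_pow_left₀ (by positivity) hn 2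
      have h11 : c * (n : ℝ) ^ 2 ≤ 1 / 10 * (8 / 3 * V) ^ 2 :=
        mul_le_mul hc h10 (by positivity) (by norm_num)
      nlinarith [mul_pos hV hV]
    calc (4 / 3 * V) ^ n / n.factorial * Real.exp (c * n ^ 2 / (2 * V))
        ≤ Real.exp (4 / 3 * V) * Real.exp (2 / 3 * V) := by
          gcongr
      _ = Real.exp (2 * V) := by
          rw [← Real.exp_add]
          congr 1
          ring
  induction n with
  | zero =>
    refine h0.trans ?_
    rw [Real.one_le_exp_iff]
    positivity
  | succ m ih =>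
    by_cases hm : ((m + 1 : ℕ) : ℝ) ≤ 8 / 3 * V
    · exact h7 _ hm
    · push Not at hm
      push_cast at hm
      refine (hrec m).trans ?_
      have h8 : (4 / (3 * (m + 1)) : ℝ) * (V + c * m) ≤ 1 := by
        rw [div_mul_eq_mul_div, div_le_one (by positivity)]
        have h9 : c * m ≤ 1 / 10 * (m + 1) := by nlinarith [(Nat.cast_nonneg m : (0:ℝ) ≤ m)]
        linarith
      calc (4 / (3 * (m + 1)) : ℝ) * (V + c * m) * z m ≤ 1 * z m :=
            mul_le_mul_of_nonneg_right h8 (hz m)
        _ ≤ _ := by rw [one_mul]; exact ih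

/-- A very narrow well: the partition function is at most `exp (2 L³)`. -/
theorem ZL_uw_le {a b w : ℝ} (hb : 0 ≤ b) (hab : 13500 * b ≤ a) (hw0 : 0 ≤ w)
    (hw : w ≤ 1 / 20000) (hwb : Real.exp (13500 * b) * w ≤ 1 / 10) {L : ℝ} (hL : 0 < L) (n : ℕ) :
    ZL (uw a b w) L n ≤ Real.exp (2 * L ^ 3) := by
  apply seq_le_exp (z := fun n => ZL (uw a b w) L n) (V := L ^ 3)
    (c := Real.exp (13500 * b) * w) (by positivity) (by positivity) hwb
  · intro n; exact ENNReal.toReal_nonneg
  · simp [ZL, Z_zero]
  · intro m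
    have := ZL_succ_le hb hab hw0 hw hL.le m
    have h2 : Real.exp (13500 * b) * (m * w) = Real.exp (13500 * b) * w * m := by ring
    rw [h2] at this
    exact this

end Crest.Agent.Kac
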