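import Crest.Agent.Kac.Super
import Crest.Agent.Kac.Packing
import Crest.Agent.Kac.Well
import Crest.Agent.Kac.Sites

/-! K6: bounds on the pressure of the base potential. -/

set_option autoImplicit false
open MeasureTheory Filter Topology
open scoped ENNReal
open Crest.ProbabilityR.Continuum (packingNumber packingSet)

namespace Crest.Agent.Kac

theorem Eu_nonneg_base {ι : Type} [Fintype ι] {u : Pt → Pt → ℝ} (x : ι → Pt)
    (h : ∀ i j, i ≠ j → 0 ≤ u (x i) (x j)) : 0 ≤ Eu u x := by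
  classical
  rw [Eu_eq]
  apply mul_nonneg (by norm_num)
  apply Finset.sum_nonneg
  intro i _
  apply Finset.sum_nonneg
  intro j _
  by_cases hij : i = j
  · simp [hij]
  · simpa [hij] using h i j hij

theorem adm_base {φ0 : ℝ → ℝ} {K0 κ w β : ℝ} (h : BasePot φ0 K0 κ w) (hβ : 0 ≤ β) :
    Adm (fun r => β * φ0 r) 2 where
  meas := h.meas.const_mul β
  tail := by
    intro r hr
    have : φ0 r = 0 := h.zero r (by linarith [h.κ_le])
    simp [this]
  stab := by
    refine ⟨0, fun n x => ?_⟩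
    simp only [neg_zero, zero_mul]
    exact Eu_nonneg_base x (fun i j _ => mul_nonneg hβ (h.nonneg _ dist_nonneg))

theorem base_antitone {φ0 : ℝ → ℝ} {K0 κ w : ℝ} (h : BasePot φ0 K0 κ w) {β β' : ℝ} (hβ : 0 ≤ β)
    (hββ' : β ≤ β') {ρ : ℝ} (hρ : 0 ≤ ρ) :
    Pr (fun r => β' * φ0 r) ρ ≤ Pr (fun r => β * φ0 r) ρ := by
  have := Pr_le_of_energy (v := fun r => β' * φ0 r) (v' := fun r => β * φ0 r) (R0 := 2)
    (by norm_num) (adm_base h (hβ.trans hββ')) (adm_base h hβ) hρ (fun _ _ => 0) 0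
    (by simp) ?_
  · simpa using this
  · intro L _ N x _
    have : Eu (rad fun r => β * φ0 r) x ≤ Eu (rad fun r => β' * φ0 r) x := by
      apply Eu_mono
      intro i j _
      exact mul_le_mul_of_nonneg_right hββ' (h.nonneg _ dist_nonneg)
    linarith

/-- If the partition functions are at most `exp (c L³)` then the pressure is at most `c`. -/
theorem Pr_le_of_ZL_le {v : ℝ → ℝ} (hv : Adm v 2) {ρ c : ℝ} (hρ : 0 ≤ ρ)
    (h : ∀ L : ℝ, 1 ≤ L → ∀ N : ℕ, ZL v L N ≤ Real.exp (c * L ^ 3)) : Pr v ρ ≤ c := by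
  have ht := Pr_tendsto (v := v) (R0 := 2) (by norm_num) hv hρ
  apply le_of_tendsto ht
  filter_upwards [eventually_ge_atTop (1 : ℝ)] with L hL
  obtain ⟨B, hB⟩ := hv.stab
  have hpos := ZL_pos hv.meas hB (lt_of_lt_of_le one_pos hL) ⌊ρ * L ^ 3⌋₊
  have h1 := Real.log_le_log hpos (h L hL ⌊ρ * L ^ 3⌋₊)
  rw [Real.log_exp] at h1
  have hL3 : 0 < L ^ 3 := by positivity
  rw [one_div, inv_mul_le_iff₀ hL3]
  linarith

theorem pow_div_factorial_le_exp (y : ℝ) (hy : 0 ≤ y) (n : ℕ) :
    y ^ n / n.factorial ≤ Real.exp y := Real.pow_div_factorial_le_exp y hy n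

theorem base_le_one {φ0 : ℝ → ℝ} {K0 κ w β ρ : ℝ} (h : BasePot φ0 K0 κ w) (hβ : 0 ≤ β)
    (hρ : 0 ≤ ρ) : Pr (fun r => β * φ0 r) ρ ≤ 1 := by
  apply Pr_le_of_ZL_le (adm_base h hβ) hρ
  intro L hL N
  have hs : Stable (rad fun r => β * φ0 r) 0 := by
    intro n x
    simp only [neg_zero, zero_mul]
    exact Eu_nonneg_base x (fun i j _ => mul_nonneg hβ (h.nonneg _ dist_nonneg))
  have := ZL_le hs (by linarith : (0:ℝ) ≤ L) N
  simp only [zero_mul, Real.exp_zero, mul_one] at this
  refine this.trans ?_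
  rw [one_mul]
  exact Real.pow_div_factorial_le_exp _ (by positivity) N

theorem tendsto_floor_density {ρ : ℝ} (hρ : 0 ≤ ρ) :
    Tendsto (fun L : ℝ => ((⌊ρ * L ^ 3⌋₊ : ℕ) : ℝ) / L ^ 3) atTop (𝓝 ρ) := by
  have h3 : Tendsto (fun L : ℝ => L ^ 3) atTop atTop := tendsto_pow_atTop (by norm_num)
  exact (tendsto_nat_floor_mul_div_atTop hρ).comp h3

/-- (L1) -/
theorem base_linear {φ0 : ℝ → ℝ} {K0 κ w β ρ p : ℝ} (h : BasePot φ0 K0 κ w) (hβ : 0 ≤ β)
    (hρ : 0 ≤ ρ)
    (hp : Tendsto (fun L : ℝ => (packingNumber L : ℝ) / L ^ 3) atTop (𝓝 p)) :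
    Pr (fun r => β * φ0 r) ρ ≤ 1 - β * (9 / 10) * (ρ - p) := by
  have h0 := base_le_one (β := 0) h le_rfl hρ
  have := Pr_le_of_energy (v := fun r => β * φ0 r) (v' := fun r => 0 * φ0 r) (R0 := 2)
    (by norm_num) (adm_base h hβ) (adm_base h le_rfl) hρ
    (fun L N => -(β * (9 / 10) * (N - packingNumber L))) (-(β * (9 / 10) * (ρ - p))) ?_ ?_
  · linarith
  · have h1 := ((tendsto_floor_density hρ).sub hp).const_mul (-(β * (9 / 10)))
    have h2 : -(β * (9 / 10)) * (ρ - p) = -(β * (9 / 10) * (ρ - p)) := by ring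
    rw [h2] at h1
    refine h1.congr' ?_
    filter_upwards [eventually_gt_atTop (0 : ℝ)] with L hL
    field_simp
  · intro L hL N x hx
    have h1 : Eu (rad fun r => 0 * φ0 r) x = 0 := by
      have : rad (fun r => 0 * φ0 r) = fun a b => 0 * rad φ0 a b := rfl
      rw [this, Eu_smul, zero_mul]
    have h2 : (β * (9 / 10)) * Eu (rad (chi 1)) x ≤ Eu (rad fun r => β * φ0 r) x := by
      rw [← Eu_smul]
      apply Eu_mono
      intro i j _
      simp only [rad, chi]
      by_cases hd : dist (x i) (x j) < 1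
      · have := h.ge_well _ dist_nonneg hd
        simp only [hd, if_true]
        nlinarith
      · simp only [hd, if_false, mul_zero]
        exact mul_nonneg hβ (h.nonneg _ dist_nonneg)
    have h3 := turan_linear (by linarith : (0:ℝ) ≤ L) N x hx
    have h4 : (β * (9 / 10)) * ((N : ℝ) - packingNumber L) ≤ (β * (9 / 10)) * Eu (rad (chi 1)) x :=
      mul_le_mul_of_nonneg_left h3 (by positivity)
    linarith

theorem adm_uw {a b w : ℝ} (hb : 0 ≤ b) (hab : 13500 * b ≤ a) (hw : w ≤ 1 / 20000) :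
    Adm (uw a b w) 2 where
  meas := measurable_uw a b w
  tail := by
    intro r hr
    unfold uw
    split_ifs <;> linarith
  stab := ⟨13500 * b, stable_uw hb hab hw⟩

/-- (L3) at the lower temperature end the well is inactive. -/
theorem base_L3 {p : ℝ} (hp1 : 1 ≤ p)
    (hp : Tendsto (fun L : ℝ => (packingNumber L : ℝ) / L ^ 3) atTop (𝓝 p)) {δ : ℝ} (hδ : 0 < δ) :
    ∃ K Bw : ℝ, 1 ≤ K ∧ 0 < Bw ∧ ∀ (φ0 : ℝ → ℝ) (K0 κ w β : ℝ), BasePot φ0 K0 κ w → K ≤ K0 →
      1 ≤ β → w ≤ Real.exp (-(Bw * β)) → ∀ ρ : ℝ, 0 ≤ ρ →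
        Pr (fun r => β * φ0 r) ρ ≤ 2 - β / 2 * ((1 - δ) * ρ ^ 2 / p - ρ) := by
  refine ⟨max 1 (1350 / δ), 1353, le_max_left _ _, by norm_num, ?_⟩
  intro φ0 K0 κ w β h hK hβ hw ρ hρ
  have hβ0 : 0 ≤ β := by linarith
  by_cases hδ1 : 1 ≤ δ
  · have h1 := base_le_one (β := β) h hβ0 hρ
    have h2 : (1 - δ) * ρ ^ 2 / p ≤ 0 := by
      apply div_nonpos_of_nonpos_of_nonneg _ (by linarith)
      nlinarith [sq_nonneg ρ]
    have h3 : β / 2 * ((1 - δ) * ρ ^ 2 / p - ρ) ≤ 0 := by
      apply mul_nonpos_of_nonneg_of_nonpos (by positivity)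
      linarith
    linarith
  · push Not at hδ1
    set a := β * (δ * K0) with ha
    set b := β / 10 with hb
    have hb0 : 0 ≤ b := by positivity
    have hK1 : 1350 ≤ δ * K0 := by
      have h1 : 1350 / δ ≤ K0 := (le_max_right _ _).trans hK
      rw [div_le_iff₀ hδ] at h1
      linarith
    have hab : 13500 * b ≤ a := by
      rw [ha, hb]
      have := mul_le_mul_of_nonneg_left hK1 hβ0
      linarith
    have hwb : Real.exp (13500 * b) * w ≤ 1 / 10 := by
      calc Real.exp (13500 * b) * w ≤ Real.exp (13500 * b) * Real.exp (-(1353 * β)) := by gcongr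
        _ = Real.exp (-(3 * β)) := by
            rw [← Real.exp_add]; congr 1; rw [hb]; ring
        _ ≤ Real.exp (-3) := by
            apply Real.exp_le_exp.mpr; linarith
        _ ≤ 1 / 10 := by
            rw [Real.exp_neg, one_div]
            apply inv_anti₀ (by norm_num)
            have h1 : Real.exp 3 = Real.exp 1 ^ 3 := by rw [← Real.exp_nat_mul]; norm_num
            rw [h1]
            have h2 : (2.7 : ℝ) ≤ Real.exp 1 := by linarith [Real.exp_one_gt_d9]
            calc (10 : ℝ) ≤ 2.7 ^ 3 := by norm_num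
              _ ≤ Real.exp 1 ^ 3 := pow_le_pow_left₀ (by norm_num) h2 3
    have hu : Pr (uw a b w) ρ ≤ 2 := by
      apply Pr_le_of_ZL_le (adm_uw hb0 hab h.w_le) hρ
      intro L hL N
      exact ZL_uw_le hb0 hab h.w_pos.le h.w_le hwb (by linarith) N
    have hcmp := Pr_le_of_energy (v := fun r => β * φ0 r) (v' := uw a b w) (R0 := 2)
      (by norm_num) (adm_base h hβ0) (adm_uw hb0 hab h.w_le) hρ
      (fun L N => -(β / 2 * ((1 - δ) * (N : ℝ) ^ 2 / packingNumber L - N)))
      (-(β / 2 * ((1 - δ) * ρ ^ 2 / p - ρ))) ?_ ?_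
    · linarith
    · have hf := tendsto_floor_density hρ
      have h1 := (((hf.pow 2).const_mul (1 - δ)).div hp (by linarith : p ≠ 0)).sub hf
      have h2 := (h1.const_mul (β / 2)).neg
      refine h2.congr' ?_
      have hpos : ∀ᶠ L : ℝ in atTop, 0 < (packingNumber L : ℝ) / L ^ 3 :=
        hp.eventually (eventually_gt_nhds (by linarith))
      filter_upwards [eventually_gt_atTop (0 : ℝ), hpos] with L hL hpL
      have hL3 : 0 < L ^ 3 := by positivity
      have hpk : (packingNumber L : ℝ) ≠ 0 := by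
        intro h0
        rw [h0] at hpL
        simp at hpL
      simp only [Pi.div_apply]
      field_simp
    · intro L hL N x hx
      have h3 := turan_quadratic (by linarith : (0:ℝ) ≤ L) N x hx
      have h4 : β * (1 - δ) * Eu (rad (chi 1)) x + Eu (rad (uw a b w)) x ≤
          Eu (rad fun r => β * φ0 r) x := by
        rw [← Eu_smul, ← Eu_add]
        apply Eu_mono
        intro i j _
        simp only [rad]
        generalize hr : dist (x i) (x j) = r
        have hr0 : 0 ≤ r := hr ▸ dist_nonneg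
        have hkey : (1 - δ) * chi 1 r + uw (δ * K0) (1 / 10) w r ≤ φ0 r := by
          unfold chi uw
          by_cases h5 : r ≤ 1 / 10000
          · have h6 := h.core r hr0 h5
            have h7 : r < 1 := by linarith
            have h8 := h.K0_ge
            simp only [h5, h7, if_true]
            nlinarith
          · by_cases h6 : |r - 3 / 10000| < w
            · have h7 := abs_lt.mp h6
              have h8 : r < 1 := by linarith [h.w_le]
              have h9 := h.ge_well r hr0 h8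
              simp only [h5, h6, h8, if_true, if_false]
              linarith
            · push Not at h6
              by_cases h8 : r < 1
              · have h9 := h.ge_one r hr0 h8 h6
                simp only [h5, not_lt.mpr h6, h8, if_true, if_false]
                linarith
              · have h9 := h.nonneg r hr0
                simp only [h5, not_lt.mpr h6, h8, if_false]
                linarith
        have hscale : uw a b w r = β * uw (δ * K0) (1 / 10) w r := by
          rw [ha, hb]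
          unfold uw
          split_ifs <;> ring
        rw [hscale]
        have := mul_le_mul_of_nonneg_left hkey hβ0
        linarith
      have h5 : β * (1 - δ) * (((N : ℝ) ^ 2 / packingNumber L - N) / 2) ≤
          β * (1 - δ) * Eu (rad (chi 1)) x :=
        mul_le_mul_of_nonneg_left h3 (mul_nonneg hβ0 (by linarith))
      have h6 : β / 2 * ((1 - δ) * (N : ℝ) ^ 2 / packingNumber L - N) ≤
          β * (1 - δ) * (((N : ℝ) ^ 2 / packingNumber L - N) / 2) := by
        have h7 : (0 : ℝ) ≤ β / 2 * (δ * N) := by positivity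
        have h8 : (1 - δ) * (N : ℝ) ^ 2 / packingNumber L = (1 - δ) * ((N : ℝ) ^ 2 / packingNumber L) := by
          rw [mul_div_assoc]
        rw [h8]
        nlinarith
      linarith

/-- Density of the scaled packing. -/
theorem tendsto_packing_density {p σ s : ℝ} (k : ℝ) (hσ : 0 < σ)
    (hp : Tendsto (fun L : ℝ => (packingNumber L : ℝ) / L ^ 3) atTop (𝓝 p)) :
    Tendsto (fun L : ℝ => k * (packingNumber L : ℝ) / (σ * L + s + 2) ^ 3) atTop
      (𝓝 (k * p / σ ^ 3)) := by
  have h1 : Tendsto (fun L : ℝ => σ + (s + 2) / L) atTop (𝓝 (σ + 0)) := by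
    apply Tendsto.const_add
    exact tendsto_const_nhds.div_atTop tendsto_id
  rw [add_zero] at h1
  have h2 := ((hp.const_mul k).div (h1.pow 3) (by positivity))
  refine h2.congr' ?_
  filter_upwards [eventually_gt_atTop (0 : ℝ), eventually_gt_atTop ((|s| + 2) / σ)] with L hL hL2
  have h3 : σ * L + s + 2 ≠ 0 := by
    rw [div_lt_iff₀ hσ] at hL2
    have := neg_abs_le s
    have : 0 < σ * L + s + 2 := by linarith
    exact this.ne'
  simp only [Pi.div_apply]
  have h4 : σ + (s + 2) / L = (σ * L + s + 2) / L := by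
    field_simp
    ring
  rw [h4]
  field_simp

theorem packing_le_of_tendsto {p : ℝ}
    (hp : Tendsto (fun L : ℝ => (packingNumber L : ℝ) / L ^ 3) atTop (𝓝 p)) {ℓ : ℝ} (hℓ : 0 < ℓ) :
    (packingNumber ℓ : ℝ) ≤ p * (ℓ + 1) ^ 3 := by
  obtain ⟨p', _, _, h3, h4, _⟩ := exists_density
  have : p = p' := tendsto_nhds_unique hp h3
  rw [this]
  exact h4 ℓ hℓ

/-- (U1) close-packed singles. -/
theorem base_U1 {p : ℝ} (hp1 : 1 ≤ p)
    (hp : Tendsto (fun L : ℝ => (packingNumber L : ℝ) / L ^ 3) atTop (𝓝 p)) {κ : ℝ} (hκ : 0 < κ)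
    (hκ1 : κ ≤ 1 / 10000) :
    ∃ m0 : ℝ, p * (1 - 10 * κ) ≤ m0 ∧ m0 ≤ p ∧ ∀ (φ0 : ℝ → ℝ) (K0 w β : ℝ),
      BasePot φ0 K0 κ w → 0 ≤ β → -(3 * p * Real.log (1 / κ)) ≤ Pr (fun r => β * φ0 r) m0 := by
  have hσ : 0 < 1 + 3 * κ := by linarith
  have hlim := tendsto_packing_density (σ := 1 + 3 * κ) (s := κ) 1 hσ hp
  have hlt : p * (1 - 10 * κ) < 1 * p / (1 + 3 * κ) ^ 3 := by
    rw [lt_div_iff₀ (by positivity)]
    have : (1 - 10 * κ) * (1 + 3 * κ) ^ 3 < 1 := by
      have h1 : (1 - 10 * κ) * (1 + 3 * κ) ^ 3 =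
        1 - κ - 63 * κ ^ 2 - 243 * κ ^ 3 - 270 * κ ^ 4 := by ring
      rw [h1]
      have : 0 < κ ^ 2 := by positivity
      have : 0 < κ ^ 3 := by positivity
      have : 0 < κ ^ 4 := by positivity
      linarith
    nlinarith
  have hev := hlim.eventually (eventually_gt_nhds hlt)
  obtain ⟨ℓ, hℓ1, hℓ0⟩ := (hev.and (eventually_gt_atTop (0 : ℝ))).exists
  set n := packingNumber ℓ with hn
  set ℓ' := (1 + 3 * κ) * ℓ + κ with hℓ'
  have hℓ'ℓ : ℓ ≤ ℓ' := by rw [hℓ']; nlinarith
  have hℓ'0 : 0 < ℓ' := lt_of_lt_of_le hℓ0 hℓ'ℓ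
  have hm0 : (n : ℝ) / (ℓ' + 2) ^ 3 ≤ p := by
    rw [div_le_iff₀ (by positivity)]
    refine (packing_le_of_tendsto hp hℓ0).trans ?_
    gcongr
    linarith
  refine ⟨n / (ℓ' + 2) ^ 3, ?_, hm0, ?_⟩
  · rw [one_mul] at hℓ1
    exact hℓ1.le
  · intro φ0 K0 w β h hβ
    obtain ⟨X, hXc, hXm, hXd⟩ := exists_packing ℓ
    have hadm := adm_base h hβ
    have h1 := Z_sites (v := fun r => β * φ0 r) (h.meas.const_mul β) (s := κ) (ℓ := ℓ) (ℓ' := ℓ')
      (σ := 1 + 3 * κ) hκ.le (by linarith) le_rfl (by linarith) (by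
        intro r hr
        have : φ0 r = 0 := h.zero r (by linarith)
        simp [this]) X hXm hXd 1
    rw [Z_one, volume_cube hκ.le, hXc, mul_one] at h1
    have h2 := log_ZL_le (v := fun r => β * φ0 r) (R0 := 2) (by norm_num) hadm hℓ'0 n
    obtain ⟨B, hB⟩ := hadm.stab
    have hfin : Z (rad fun r => β * φ0 r) (cube ℓ') n ≠ ⊤ := by
      apply ne_of_lt
      apply Z_lt_top hB (measurableSet_cube ℓ')
      rw [volume_cube hℓ'0.le]
      exact ENNReal.ofReal_lt_top
    have h3 : (κ ^ 3) ^ n ≤ ZL (fun r => β * φ0 r) ℓ' n := by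
      unfold ZL
      rw [← ENNReal.ofReal_pow (by positivity)] at h1
      have h4 := ENNReal.toReal_mono hfin h1
      rwa [ENNReal.toReal_ofReal (by positivity)] at h4
    have h4 := Real.log_le_log (by positivity) h3
    rw [Real.log_pow, Real.log_pow] at h4
    have h5 : Real.log (1 / κ) = -Real.log κ := by rw [one_div, Real.log_inv]
    have h6 : 0 ≤ Real.log (1 / κ) := by
      apply Real.log_nonneg
      rw [le_div_iff₀ hκ]
      linarith
    have h7 : (0 : ℝ) < (ℓ' + 2) ^ 3 := by positivity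
    have h8 : (n : ℝ) * ((3 : ℕ) * Real.log κ) / (ℓ' + 2) ^ 3 ≤
        Pr (fun r => β * φ0 r) (n / (ℓ' + 2) ^ 3) := by
      rw [div_le_iff₀ h7, mul_comm (Pr _ _)]
      exact h4.trans h2
    refine le_trans ?_ h8
    have h9 : (n : ℝ) * ((3 : ℕ) * Real.log κ) / (ℓ' + 2) ^ 3 =
        -(3 * (n / (ℓ' + 2) ^ 3) * Real.log (1 / κ)) := by
      rw [h5]; push_cast; ring
    rw [h9]
    apply neg_le_neg
    gcongr

/-- (U2), (U3) close-packed doubles, on the plateau and in the well. -/
theorem base_U23 {p : ℝ} (hp1 : 1 ≤ p)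
    (hp : Tendsto (fun L : ℝ => (packingNumber L : ℝ) / L ^ 3) atTop (𝓝 p)) :
    ∃ b0 C : ℝ, p * (198 / 100) ≤ b0 ∧ b0 ≤ 2 * p ∧ 0 < C ∧ ∀ (φ0 : ℝ → ℝ) (K0 κ w β : ℝ),
      BasePot φ0 K0 κ w → 0 ≤ β →
        (-(β * b0 / 2) - C ≤ Pr (fun r => β * φ0 r) b0) ∧
        (-(β * (91 / 100) * b0 / 2) - C - 3 * (b0 / 2) * Real.log (1 / w) ≤
          Pr (fun r => β * φ0 r) b0) := by
  have hlim := tendsto_packing_density (σ := 1001 / 1000) (s := 32 / 100000) 2 (by norm_num) hp
  have hlt : p * (198 / 100) < 2 * p / (1001 / 1000) ^ 3 := by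
    rw [lt_div_iff₀ (by positivity)]
    norm_num
    linarith
  have hev := hlim.eventually (eventually_gt_nhds hlt)
  obtain ⟨ℓ, hℓ1, hℓ0⟩ := (hev.and (eventually_gt_atTop (0 : ℝ))).exists
  set n := packingNumber ℓ with hn
  set ℓ' := 1001 / 1000 * ℓ + 32 / 100000 with hℓ'
  have hℓ'ℓ : ℓ ≤ ℓ' := by rw [hℓ']; linarith
  have hℓ'0 : 0 < ℓ' := lt_of_lt_of_le hℓ0 hℓ'ℓ
  have hV : (0 : ℝ) < (ℓ' + 2) ^ 3 := by positivity
  have hn2 : (n : ℝ) ≤ p * (ℓ' + 2) ^ 3 := by
    refine (packing_le_of_tendsto hp hℓ0).trans ?_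
    gcongr
    linarith
  set b0 : ℝ := 2 * n / (ℓ' + 2) ^ 3 with hb0
  have hb02 : b0 ≤ 2 * p := by
    rw [hb0, div_le_iff₀ hV]
    linarith
  have hb0n : 0 ≤ b0 := by rw [hb0]; positivity
  -- general estimate
  set A : ℝ := Real.log (1 / 2) + 3 * Real.log (1 / 100000) with hA
  have hAneg : A < 0 := by
    rw [hA]
    have h1 : Real.log (1 / 2) < 0 := Real.log_neg (by norm_num) (by norm_num)
    have h2 : Real.log (1 / 100000) < 0 := Real.log_neg (by norm_num) (by norm_num)
    linarith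
  have hgen : ∀ (φ0 : ℝ → ℝ) (K0 κ w β : ℝ), BasePot φ0 K0 κ w → 0 ≤ β →
      ∀ (η e : ℝ), 0 < η → η ≤ 1 / 100000 →
      (∀ r, 3 / 10000 ≤ r → r ≤ 3 / 10000 + 2 * η → φ0 r ≤ e) →
      b0 / 2 * (A + 3 * Real.log η - β * e) ≤ Pr (fun r => β * φ0 r) b0 := by
    intro φ0 K0 κ w β h hβ η e hη hη1 he
    obtain ⟨X, hXc, hXm, hXd⟩ := exists_packing ℓ
    have hadm := adm_base h hβ
    have h0 := Z_two_ge (v := fun r => β * φ0 r) (s1 := 1 / 100000) (η := η) (s := 32 / 100000)
      (e := β * e) (by norm_num) hη (r0 := 3 / 10000) (by norm_num) (by linarith)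
      (fun r hr1 hr2 => mul_le_mul_of_nonneg_left (he r hr1 hr2) hβ)
    have h1 := Z_sites (v := fun r => β * φ0 r) (h.meas.const_mul β) (s := 32 / 100000) (ℓ := ℓ)
      (ℓ' := ℓ') (σ := 1001 / 1000) (by norm_num) (by norm_num) le_rfl (by norm_num) (by
        intro r hr
        have : φ0 r = 0 := h.zero r (by have := h.κ_le; linarith)
        simp [this]) X hXm hXd 2
    rw [hXc] at h1
    have h2 := log_ZL_le (v := fun r => β * φ0 r) (R0 := 2) (by norm_num) hadm hℓ'0 (n * 2)
    obtain ⟨B, hB⟩ := hadm.stab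
    have hfin : Z (rad fun r => β * φ0 r) (cube ℓ') (n * 2) ≠ ⊤ := by
      apply ne_of_lt
      apply Z_lt_top hB (measurableSet_cube ℓ')
      rw [volume_cube hℓ'0.le]
      exact ENNReal.ofReal_lt_top
    set q : ℝ := 1 / 2 * ((1 / 100000) ^ 3 * η ^ 3) * Real.exp (-(β * e)) with hq
    have hq0 : 0 < q := by positivity
    have h3 : q ^ n ≤ ZL (fun r => β * φ0 r) ℓ' (n * 2) := by
      unfold ZL
      have h3 : (ENNReal.ofReal q) ^ n ≤ Z (rad fun r => β * φ0 r) (cube ℓ') (n * 2) :=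
        (pow_le_pow_left' h0 n).trans h1
      rw [← ENNReal.ofReal_pow hq0.le] at h3
      have h4 := ENNReal.toReal_mono hfin h3
      rwa [ENNReal.toReal_ofReal (by positivity)] at h4
    have h4 := Real.log_le_log (by positivity) h3
    rw [Real.log_pow] at h4
    have h5 : Real.log q = A + 3 * Real.log η - β * e := by
      rw [hq, Real.log_mul (by positivity) (by positivity), Real.log_mul (by positivity)
        (by positivity), Real.log_mul (by positivity) (by positivity), Real.log_pow, Real.log_pow,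
        Real.log_exp, hA]
      push_cast
      ring
    rw [h5] at h4
    have h6 : ((n * 2 : ℕ) : ℝ) / (ℓ' + 2) ^ 3 = b0 := by
      rw [hb0]; push_cast; ring
    rw [h6] at h2
    have h7 : b0 / 2 * (A + 3 * Real.log η - β * e) =
        (n * (A + 3 * Real.log η - β * e)) / (ℓ' + 2) ^ 3 := by
      rw [hb0]; ring
    rw [h7, div_le_iff₀ hV]
    linarith
  refine ⟨b0, p * (-A) + p * (-(3 * Real.log (1 / 100000))) + p * (3 * Real.log 20), ?_, hb02, ?_, ?_⟩
  · exact hℓ1.le
  · have h1 : 0 < p * (-A) := mul_pos (by linarith) (by linarith)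
    have h2 : Real.log (1 / 100000) < 0 := Real.log_neg (by norm_num) (by norm_num)
    have h3 : 0 < p * (-(3 * Real.log (1 / 100000))) := mul_pos (by linarith) (by linarith)
    have h4 : 0 < p * (3 * Real.log 20) := mul_pos (by linarith)
      (mul_pos (by norm_num) (Real.log_pos (by norm_num)))
    linarith
  · intro φ0 K0 κ w β h hβ
    have hl1 : Real.log (1 / 100000) < 0 := Real.log_neg (by norm_num) (by norm_num)
    have hl2 : 0 < Real.log 20 := Real.log_pos (by norm_num)
    have hAb : p * A ≤ b0 / 2 * A := by nlinarith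
    have hlb : p * (3 * Real.log (1 / 100000)) ≤ b0 / 2 * (3 * Real.log (1 / 100000)) := by
      nlinarith
    have hl3 : b0 / 2 * (3 * Real.log 20) ≤ p * (3 * Real.log 20) := by nlinarith
    have hp3 : 0 < p * (3 * Real.log 20) := mul_pos (by linarith) (by linarith)
    have hp4 : 0 < p * (-(3 * Real.log (1 / 100000))) := mul_pos (by linarith) (by linarith)
    constructor
    · have h1 := hgen φ0 K0 κ w β h hβ (1 / 100000) 1 (by norm_num) le_rfl (by
        intro r hr1 _
        exact h.le_one r (by linarith))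
      have h2 : b0 / 2 * (A + 3 * Real.log (1 / 100000) - β * 1) =
          b0 / 2 * A + b0 / 2 * (3 * Real.log (1 / 100000)) - β * b0 / 2 := by ring
      rw [h2] at h1
      linarith
    · have hw := h.w_pos
      have h1 := hgen φ0 K0 κ w β h hβ (w / 20) (91 / 100) (by positivity)
        (by linarith [h.w_le]) (by
        intro r hr1 hr2
        apply h.well_le r
        rw [abs_le]
        constructor <;> linarith)
      have h2 : Real.log (w / 20) = -Real.log (1 / w) - Real.log 20 := by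
        rw [Real.log_div hw.ne' (by norm_num), one_div, Real.log_inv]
        ring
      rw [h2] at h1
      have h3 : b0 / 2 * (A + 3 * (-Real.log (1 / w) - Real.log 20) - β * (91 / 100)) =
          b0 / 2 * A - 3 * (b0 / 2) * Real.log (1 / w) - b0 / 2 * (3 * Real.log 20)
            - β * (91 / 100) * b0 / 2 := by ring
      rw [h3] at h1
      linarith

end Crest.Agent.Kac
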