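import Crest.Agent.Kac.Defs

/-! K13: existence of the base potentials (continuous version and version with divergent core).
Constants of `BasePot`: core radius `1/10000`, plateau height `1`, well of depth `1/10` around
`3/10000`, range `1+κ`. -/

set_option autoImplicit false
open MeasureTheory Filter Topology

namespace Crest.Agent.Kac

namespace BaseEx

/-- core -/
noncomputable def c (K0 r : ℝ) : ℝ := (K0 - 1) * max 0 (min 1 (2 - 10000 * r))

/-- well -/
noncomputable def we (w r : ℝ) : ℝ := (1 / 10) * max 0 (1 - |r - 3 / 10000| / w)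

/-- tail -/
noncomputable def ta (κ r : ℝ) : ℝ := max 0 (min 1 ((1 + κ - r) / κ))

noncomputable def p0 (K0 κ w r : ℝ) : ℝ := (1 + c K0 r - we w r) * ta κ r

theorem c_nonneg {K0 : ℝ} (hK0 : 1 ≤ K0) (r : ℝ) : 0 ≤ c K0 r :=
  mul_nonneg (by linarith) (le_max_left _ _)

theorem c_le {K0 : ℝ} (hK0 : 1 ≤ K0) (r : ℝ) : c K0 r ≤ K0 - 1 := by
  unfold c
  apply mul_le_of_le_one_right (by linarith)
  exact max_le zero_le_one (min_le_left _ _)

theorem c_core {K0 r : ℝ} (h : r ≤ 1 / 10000) : c K0 r = K0 - 1 := by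
  unfold c
  rw [min_eq_left (by linarith), max_eq_right zero_le_one, mul_one]

theorem c_zero {K0 r : ℝ} (h : 2 / 10000 ≤ r) : c K0 r = 0 := by
  unfold c
  rw [max_eq_left, mul_zero]
  exact (min_le_right _ _).trans (by linarith)

theorem we_nonneg (w r : ℝ) : 0 ≤ we w r := mul_nonneg (by norm_num) (le_max_left _ _)

theorem we_le {w : ℝ} (hw : 0 < w) (r : ℝ) : we w r ≤ 1 / 10 := by
  unfold we
  apply mul_le_of_le_one_right (by norm_num)
  refine max_le zero_le_one ?_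
  have : 0 ≤ |r - 3 / 10000| / w := by positivity
  linarith

theorem we_zero {w r : ℝ} (hw : 0 < w) (h : w ≤ |r - 3 / 10000|) : we w r = 0 := by
  unfold we
  rw [max_eq_left, mul_zero]
  have : 1 ≤ |r - 3 / 10000| / w := (one_le_div hw).2 h
  linarith

theorem we_ge {w r : ℝ} (hw : 0 < w) (h : |r - 3 / 10000| ≤ w / 10) : 9 / 100 ≤ we w r := by
  unfold we
  have h1 : |r - 3 / 10000| / w ≤ 1 / 10 := by
    rw [div_le_iff₀ hw]; linarith
  have h2 := le_max_right 0 (1 - |r - 3 / 10000| / w)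
  linarith

theorem ta_nonneg (κ r : ℝ) : 0 ≤ ta κ r := le_max_left _ _

theorem ta_le (κ r : ℝ) : ta κ r ≤ 1 := max_le zero_le_one (min_le_left _ _)

theorem ta_one {κ r : ℝ} (hκ : 0 < κ) (h : r ≤ 1) : ta κ r = 1 := by
  unfold ta
  rw [min_eq_left, max_eq_right zero_le_one]
  rw [le_div_iff₀ hκ]; linarith

theorem ta_zero {κ r : ℝ} (hκ : 0 < κ) (h : 1 + κ ≤ r) : ta κ r = 0 := by
  unfold ta
  rw [max_eq_left]
  exact (min_le_right _ _).trans (div_nonpos_of_nonpos_of_nonneg (by linarith) hκ.le)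

theorem p0_cont {K0 κ w : ℝ} : Continuous (p0 K0 κ w) := by
  unfold p0 c we ta
  fun_prop

theorem p0_bdd {K0 κ w : ℝ} (hK0 : 1 ≤ K0) (hw : 0 < w) (r : ℝ) :
    |p0 K0 κ w r| ≤ K0 := by
  unfold p0
  have h1 := c_nonneg hK0 r
  have h2 := c_le hK0 r
  have h3 := we_nonneg w r
  have h4 := we_le hw r
  have h5 := ta_nonneg κ r
  have h6 := ta_le κ r
  rw [abs_of_nonneg (mul_nonneg (by linarith) h5)]
  calc (1 + c K0 r - we w r) * ta κ r ≤ (1 + c K0 r - we w r) * 1 :=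
        mul_le_mul_of_nonneg_left h6 (by linarith)
    _ ≤ K0 := by linarith

theorem p0_base {K0 κ w : ℝ} (hK0 : 1 ≤ K0) (hκ : 0 < κ) (hκ1 : κ ≤ 1 / 10000)
    (hw : 0 < w) (hw1 : w ≤ 1 / 20000) : BasePot (p0 K0 κ w) K0 κ w where
  meas := p0_cont.measurable
  K0_ge := hK0
  κ_pos := hκ
  κ_le := hκ1
  w_pos := hw
  w_le := hw1
  nonneg := by
    intro r _
    have h1 := c_nonneg hK0 r
    have h4 := we_le hw r
    exact mul_nonneg (by linarith) (ta_nonneg κ r)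
  core := by
    intro r hr hr1
    unfold p0
    rw [ta_one hκ (by linarith), c_core hr1, we_zero hw]
    · linarith
    · rw [abs_sub_comm, abs_of_nonneg (by linarith)]
      linarith
  ge_one := by
    intro r hr hr1 hrw
    unfold p0
    have := c_nonneg hK0 r
    rw [ta_one hκ hr1.le, we_zero hw hrw]
    linarith
  ge_well := by
    intro r hr hr1
    unfold p0
    have := c_nonneg hK0 r
    have := we_le hw r
    rw [ta_one hκ hr1.le]
    linarith
  le_one := by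
    intro r hr
    unfold p0
    have h1 := we_nonneg w r
    have h2 := we_le hw r
    have h5 := ta_nonneg κ r
    have h6 := ta_le κ r
    rw [c_zero hr]
    calc (1 + 0 - we w r) * ta κ r ≤ (1 + 0 - we w r) * 1 :=
          mul_le_mul_of_nonneg_left h6 (by linarith)
      _ ≤ 1 := by linarith
  well_le := by
    intro r hr
    have h1 := we_ge hw hr
    rw [abs_le] at hr
    unfold p0
    rw [c_zero (by linarith [hr.1]), ta_one hκ (by linarith [hr.2])]
    linarith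
  zero := by
    intro r hr
    unfold p0
    rw [ta_zero hκ hr, mul_zero]

open Classical in
/-- divergent version -/
noncomputable def p1 (K0 κ w r : ℝ) : ℝ :=
  if 0 < r ∧ r ≤ 1 / 10000 then K0 / (10000 * r) else p0 K0 κ w r

theorem p1_core {K0 κ w r : ℝ} (h0 : 0 < r) (h1 : r ≤ 1 / 10000) :
    p1 K0 κ w r = K0 / (10000 * r) := if_pos ⟨h0, h1⟩

theorem p1_out {K0 κ w r : ℝ} (h : ¬ (0 < r ∧ r ≤ 1 / 10000)) :
    p1 K0 κ w r = p0 K0 κ w r := if_neg h

theorem p1_meas {K0 κ w : ℝ} : Measurable (p1 K0 κ w) := by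
  unfold p1
  apply Measurable.ite
  · exact measurableSet_Ioc
  · fun_prop
  · exact p0_cont.measurable

theorem le_core {K0 r : ℝ} (hK0 : 1 ≤ K0) (h0 : 0 < r) (h1 : r ≤ 1 / 10000) :
    K0 ≤ K0 / (10000 * r) := by
  rw [le_div_iff₀ (by positivity)]
  nlinarith

theorem p1_base {K0 κ w : ℝ} (hK0 : 1 ≤ K0) (hκ : 0 < κ) (hκ1 : κ ≤ 1 / 10000)
    (hw : 0 < w) (hw1 : w ≤ 1 / 20000) : BasePot (p1 K0 κ w) K0 κ w := by
  have hb := p0_base hK0 hκ hκ1 hw hw1
  have hge : ∀ r, (0 < r ∧ r ≤ 1 / 10000) → K0 ≤ p1 K0 κ w r := by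
    intro r hr
    rw [p1_core hr.1 hr.2]
    exact le_core hK0 hr.1 hr.2
  refine ⟨p1_meas, hK0, hκ, hκ1, hw, hw1, ?_, ?_, ?_, ?_, ?_, ?_, ?_⟩
  · intro r hr
    by_cases h : 0 < r ∧ r ≤ 1 / 10000
    · have := hge r h; linarith
    · rw [p1_out h]; exact hb.nonneg r hr
  · intro r hr hr1
    by_cases h : 0 < r ∧ r ≤ 1 / 10000
    · exact hge r h
    · rw [p1_out h]; exact hb.core r hr hr1
  · intro r hr hr1 hr2
    by_cases h : 0 < r ∧ r ≤ 1 / 10000
    · have := hge r h; linarith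
    · rw [p1_out h]; exact hb.ge_one r hr hr1 hr2
  · intro r hr hr1
    by_cases h : 0 < r ∧ r ≤ 1 / 10000
    · have := hge r h; linarith
    · rw [p1_out h]; exact hb.ge_well r hr hr1
  · intro r hr
    rw [p1_out (fun h => by linarith [h.2])]
    exact hb.le_one r hr
  · intro r hr
    rw [p1_out (fun h => by rw [abs_le] at hr; linarith [h.2, hr.1])]
    exact hb.well_le r hr
  · intro r hr
    rw [p1_out (fun h => by linarith [h.2])]
    exact hb.zero r hr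

end BaseEx

open BaseEx

theorem exists_base_cont {K0 κ w : ℝ} (hK0 : 1 ≤ K0) (hκ : 0 < κ) (hκ1 : κ ≤ 1 / 10000)
    (hw : 0 < w) (hw1 : w ≤ 1 / 20000) :
    ∃ φ0 : ℝ → ℝ, Continuous φ0 ∧ (∃ M : ℝ, ∀ r, |φ0 r| ≤ M) ∧ BasePot φ0 K0 κ w :=
  ⟨p0 K0 κ w, p0_cont, ⟨K0, p0_bdd hK0 hw⟩, p0_base hK0 hκ hκ1 hw hw1⟩

/-- On `(0, 1/10000]` take `K0 / (10000 r)`, value `K0` at `0` (and, say, `K0` for negative
arguments). -/
theorem exists_base_div {K0 κ w : ℝ} (hK0 : 1 ≤ K0) (hκ : 0 < κ) (hκ1 : κ ≤ 1 / 10000)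
    (hw : 0 < w) (hw1 : w ≤ 1 / 20000) :
    ∃ φ0 : ℝ → ℝ, Measurable φ0 ∧ Tendsto φ0 (nhdsWithin 0 (Set.Ioi 0)) atTop ∧
      (∀ a b : ℝ, 0 < a → a ≤ b → ∃ M : ℝ, ∀ r : ℝ, a ≤ r → r ≤ b → |φ0 r| ≤ M) ∧
      BasePot φ0 K0 κ w := by
  refine ⟨p1 K0 κ w, p1_meas, ?_, ?_, p1_base hK0 hκ hκ1 hw hw1⟩
  · have h1 : Tendsto (fun r : ℝ => (K0 / 10000) * r⁻¹) (nhdsWithin 0 (Set.Ioi 0)) atTop :=
      tendsto_inv_nhdsGT_zero.const_mul_atTop (by positivity)
    refine h1.congr' ?_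
    have h2 : ∀ᶠ r : ℝ in nhdsWithin 0 (Set.Ioi 0), r < 1 / 10000 :=
      (gt_mem_nhds (by norm_num)).filter_mono nhdsWithin_le_nhds
    filter_upwards [h2, self_mem_nhdsWithin] with r hr hr0
    rw [p1_core hr0 hr.le]
    rw [← div_eq_mul_inv, div_div]
  · intro a b ha _
    refine ⟨max (K0 / (10000 * a)) K0, fun r hr _ => ?_⟩
    by_cases h : 0 < r ∧ r ≤ 1 / 10000
    · rw [p1_core h.1 h.2]
      refine le_trans ?_ (le_max_left _ _)
      have h0 := h.1
      rw [abs_of_pos (by positivity)]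
      gcongr
    · rw [p1_out h]
      exact (p0_bdd hK0 hw r).trans (le_max_right _ _)

end Crest.Agent.Kac
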