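import Crest.Agent.Kac.Thermo

/-! K7: superstability and the lower bound (T1). -/

set_option autoImplicit false
open MeasureTheory Filter Topology
open scoped ENNReal

namespace Crest.Agent.Kac

lemma same_eq (t ℓ : ℝ) (x y : Pt) [Decidable (cell t ℓ x = cell t ℓ y)] :
    same t ℓ x y = if cell t ℓ x = cell t ℓ y then 1 else 0 := by
  unfold same
  congr!

lemma same_nonneg (t ℓ : ℝ) (x y : Pt) : 0 ≤ same t ℓ x y := by
  classical
  rw [same_eq]
  split_ifs <;> norm_num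

lemma same_self (t ℓ : ℝ) (x : Pt) : same t ℓ x x = 1 := by
  classical
  rw [same_eq, if_pos rfl]

/-- Cauchy–Schwarz over the cells meeting the cube. -/
theorem sum_same_ge {t ℓ L : ℝ} (hℓ : 0 < ℓ) (hL : 0 ≤ L) (N : ℕ) (x : Fin N → Pt)
    (hx : ∀ i, x i ∈ cube L) :
    (N : ℝ) ^ 2 / (L / ℓ + 2) ^ 3 ≤ ∑ i, ∑ k, same t ℓ (x i) (x k) := by
  classical
  set a : ℤ := ⌊(0 - t) / ℓ⌋ with ha
  set b : ℤ := ⌊(L - t) / ℓ⌋ with hb
  let T : Finset (Fin 3 → ℤ) := Fintype.piFinset (fun _ => Finset.Icc a b)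
  let g : (Fin 3 → ℤ) → Fin N → ℝ := fun c i => if cell t ℓ (x i) = c then 1 else 0
  have hmem : ∀ i, cell t ℓ (x i) ∈ T := by
    intro i
    rw [Fintype.mem_piFinset]
    intro k
    rw [Finset.mem_Icc]
    have h1 := hx i k
    constructor
    · apply Int.floor_le_floor
      gcongr
      exact h1.1
    · apply Int.floor_le_floor
      gcongr
      exact h1.2
  have h1 : ∑ i, ∑ k, same t ℓ (x i) (x k) = ∑ c ∈ T, (∑ i, g c i) ^ 2 := by
    have h2 : ∀ i k, same t ℓ (x i) (x k) = ∑ c ∈ T, g c i * g c k := by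
      intro i k
      rw [same_eq, Finset.sum_eq_single (cell t ℓ (x i))]
      · simp only [g, if_true, one_mul]
        by_cases h : cell t ℓ (x i) = cell t ℓ (x k)
        · rw [if_pos h, if_pos h.symm]
        · rw [if_neg h, if_neg (fun h' => h h'.symm)]
      · intro c _ hc
        simp only [g]
        rw [if_neg (fun h => hc h.symm), zero_mul]
      · intro h
        exact absurd (hmem i) h
    simp_rw [h2, sq, Finset.sum_mul_sum]
    calc ∑ i, ∑ k, ∑ c ∈ T, g c i * g c k = ∑ i, ∑ c ∈ T, ∑ k, g c i * g c k := by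
          apply Finset.sum_congr rfl
          intro i _
          exact Finset.sum_comm
      _ = ∑ c ∈ T, ∑ i, ∑ k, g c i * g c k := Finset.sum_comm
  have h3 : ∑ c ∈ T, ∑ i, g c i = N := by
    rw [Finset.sum_comm]
    have : ∀ i, ∑ c ∈ T, g c i = 1 := by
      intro i
      simp only [g]
      rw [Finset.sum_ite_eq]
      rw [if_pos (hmem i)]
    simp [this]
  have h4 := sq_sum_le_card_mul_sum_sq (s := T) (f := fun c => ∑ i, g c i)
  rw [h3] at h4
  have hcard : (T.card : ℝ) ≤ (L / ℓ + 2) ^ 3 := by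
    have h5 : T.card = (b + 1 - a).toNat ^ 3 := by
      simp [T, Fintype.card_piFinset]
    rw [h5]
    push_cast
    apply pow_le_pow_left₀ (by positivity)
    have h6 : (b : ℝ) ≤ (L - t) / ℓ := Int.floor_le _
    have h7 : (0 - t) / ℓ - 1 < a := Int.sub_one_lt_floor _
    have h8 : (((b + 1 - a).toNat : ℤ) : ℝ) ≤ L / ℓ + 2 := by
      rw [Int.toNat_eq_max]
      push_cast
      apply max_le
      · have : (L - t) / ℓ - (0 - t) / ℓ = L / ℓ := by ring
        linarith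
      · positivity
    exact_mod_cast h8
  rw [h1, div_le_iff₀ (by positivity)]
  calc (N : ℝ) ^ 2 ≤ T.card * ∑ c ∈ T, (∑ i, g c i) ^ 2 := h4
    _ ≤ (L / ℓ + 2) ^ 3 * ∑ c ∈ T, (∑ i, g c i) ^ 2 := by
        apply mul_le_mul_of_nonneg_right hcard
        exact Finset.sum_nonneg (fun c _ => sq_nonneg _)
    _ = _ := by ring

lemma dist_le_of_cell_eq {ℓ : ℝ} (hℓ : 0 < ℓ) {x y : Pt} (h : cell 0 ℓ x = cell 0 ℓ y) :
    dist x y ≤ 2 * ℓ := by
  have h1 : ∀ a, |x a - y a| ≤ ℓ := by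
    intro a
    have h2 : ⌊(x a - 0) / ℓ⌋ = ⌊(y a - 0) / ℓ⌋ := congrFun h a
    have h3 := Int.abs_sub_lt_one_of_floor_eq_floor h2
    have h4 : (x a - 0) / ℓ - (y a - 0) / ℓ = (x a - y a) / ℓ := by ring
    rw [h4, abs_div, abs_of_pos hℓ, div_lt_one hℓ] at h3
    exact h3.le
  rw [EuclideanSpace.dist_eq]
  rw [Real.sqrt_le_left (by positivity)]
  have h5 : ∀ a, dist (x a) (y a) ^ 2 ≤ ℓ ^ 2 := by
    intro a
    rw [Real.dist_eq]
    exact pow_le_pow_left₀ (abs_nonneg _) (h1 a) 2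
  calc ∑ i, dist (x i) (y i) ^ 2 ≤ ∑ _i : Fin 3, ℓ ^ 2 := Finset.sum_le_sum (fun i _ => h5 i)
    _ = 3 * ℓ ^ 2 := by simp
    _ ≤ (2 * ℓ) ^ 2 := by nlinarith [sq_nonneg ℓ]

/-- off-diagonal sum. -/
lemma sum_offdiag {N : ℕ} (f : Fin N → Fin N → ℝ) :
    ∑ i, ∑ j, (if i = j then 0 else f i j) = (∑ i, ∑ j, f i j) - ∑ i, f i i := by
  rw [← Finset.sum_sub_distrib]
  apply Finset.sum_congr rfl
  intro i _
  have h1 : ∀ j, (if i = j then 0 else f i j) = f i j - (if i = j then f i j else 0) := by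
    intro j
    split_ifs <;> ring
  simp_rw [h1]
  rw [Finset.sum_sub_distrib, Finset.sum_ite_eq]
  simp

/-- Two points in the same cell of side `1/20000` are within the core. -/
theorem core_energy {φ0 : ℝ → ℝ} {K0 κ w : ℝ} (h : BasePot φ0 K0 κ w) (N : ℕ) (x : Fin N → Pt) :
    (K0 / 2) * ((∑ i, ∑ k, same 0 (1 / 20000) (x i) (x k)) - N) ≤ Eu (rad φ0) x := by
  classical
  have h1 : ∀ i k, K0 * same 0 (1 / 20000) (x i) (x k) ≤ rad φ0 (x i) (x k) := by
    intro i k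
    rw [same_eq]
    split_ifs with hc
    · rw [mul_one]
      have h2 := dist_le_of_cell_eq (by norm_num : (0 : ℝ) < 1 / 20000) hc
      exact h.core _ dist_nonneg (by linarith)
    · rw [mul_zero]
      exact h.nonneg _ dist_nonneg
  have h2 : (K0 / 2) * ((∑ i, ∑ k, same 0 (1 / 20000) (x i) (x k)) - N) =
      Eu (fun a b => K0 * same 0 (1 / 20000) a b) x := by
    rw [Eu_eq, sum_offdiag (fun i j => K0 * same 0 (1 / 20000) (x i) (x j))]
    simp only [same_self, mul_one, Finset.sum_const, Finset.card_univ, Fintype.card_fin,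
      nsmul_eq_mul]
    simp_rw [← Finset.mul_sum]
    ring
  rw [h2]
  exact Eu_mono x (fun i j _ => h1 i j)

lemma two_Eu_le {A : ℝ → ℝ} (hA0 : ∀ r, 0 ≤ r → 0 ≤ A r) {N : ℕ} (x : Fin N → Pt) :
    2 * Eu (rad A) x ≤ ∑ i, ∑ k, A (dist (x i) (x k)) := by
  classical
  rw [Eu_eq, sum_offdiag (fun i j => rad A (x i) (x j))]
  have h1 : 0 ≤ ∑ i, rad A (x i) (x i) := Finset.sum_nonneg (fun i _ => hA0 _ dist_nonneg)
  have h2 : ∑ i, ∑ j, rad A (x i) (x j) = ∑ i, ∑ k, A (dist (x i) (x k)) := rfl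
  rw [h2]
  linarith

/-- Superstability with an attractive part `A` controlled by the cell sum. -/
theorem superstable {φ0 A : ℝ → ℝ} {K0 κ w g : ℝ} (h : BasePot φ0 K0 κ w) (hg : 0 ≤ g)
    (hA0 : ∀ r, 0 ≤ r → 0 ≤ A r)
    (hA : ∀ (N : ℕ) (x : Fin N → Pt), ∑ i, ∑ k, A (dist (x i) (x k)) ≤
      g * ∑ i, ∑ k, same 0 (1 / 20000) (x i) (x k))
    (hK : 2 * g ≤ K0) {L : ℝ} (hL : 1 ≤ L) (N : ℕ) (x : Fin N → Pt) (hx : ∀ i, x i ∈ cube L) :
    ((K0 / 2 - g) / 20002 ^ 3) * (N : ℝ) ^ 2 / L ^ 3 - (K0 / 2) * N ≤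
      Eu (rad φ0) x - 2 * Eu (rad A) x := by
  have h1 := core_energy h N x
  have h2 := (two_Eu_le hA0 x).trans (hA N x)
  have h3 := sum_same_ge (t := 0) (ℓ := 1 / 20000) (by norm_num) (by linarith : 0 ≤ L) N x hx
  set X := ∑ i, ∑ k, same 0 (1 / 20000) (x i) (x k) with hX
  have h4 : (N : ℝ) ^ 2 / (20002 ^ 3 * L ^ 3) ≤ (N : ℝ) ^ 2 / (L / (1 / 20000) + 2) ^ 3 := by
    apply div_le_div_of_nonneg_left (by positivity) (by positivity)
    rw [← mul_pow]
    apply pow_le_pow_left₀ (by positivity)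
    linarith
  have h5 : 0 ≤ K0 / 2 - g := by linarith
  have h6 : (K0 / 2 - g) * ((N : ℝ) ^ 2 / (20002 ^ 3 * L ^ 3)) ≤ (K0 / 2 - g) * X :=
    mul_le_mul_of_nonneg_left (h4.trans h3) h5
  have h7 : ((K0 / 2 - g) / 20002 ^ 3) * (N : ℝ) ^ 2 / L ^ 3 =
      (K0 / 2 - g) * ((N : ℝ) ^ 2 / (20002 ^ 3 * L ^ 3)) := by
    field_simp
  rw [h7]
  nlinarith

/-- Stability of `φ0 - A` (and of `β (φ0 - A)`). -/
theorem stable_of_base {φ0 A : ℝ → ℝ} {K0 κ w g : ℝ} (h : BasePot φ0 K0 κ w) (hg : 0 ≤ g)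
    (hA0 : ∀ r, 0 ≤ r → 0 ≤ A r)
    (hA : ∀ (N : ℕ) (x : Fin N → Pt), ∑ i, ∑ k, A (dist (x i) (x k)) ≤
      g * ∑ i, ∑ k, same 0 (1 / 20000) (x i) (x k))
    (hK : 2 * g ≤ K0) : Stable (rad (fun r => φ0 r - 2 * A r)) (K0 / 2) := by
  intro N x
  have h1 := core_energy h N x
  have h2 := (two_Eu_le hA0 x).trans (hA N x)
  set X := ∑ i, ∑ k, same 0 (1 / 20000) (x i) (x k) with hX
  have hX0 : 0 ≤ X := Finset.sum_nonneg (fun i _ => Finset.sum_nonneg (fun k _ => same_nonneg _ _ _ _))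
  have h3 : Eu (rad (fun r => φ0 r - 2 * A r)) x = Eu (rad φ0) x - 2 * Eu (rad A) x := by
    have h4 : rad (fun r => φ0 r - 2 * A r) = fun a b => rad φ0 a b + (-2) * rad A a b := by
      funext a b
      simp only [rad]
      ring
    rw [h4, Eu_add, Eu_smul]
    ring
  rw [h3]
  have h5 : 0 ≤ (K0 / 2 - g) * X := mul_nonneg (by linarith) hX0
  nlinarith

/-- (T1) adding an attraction `c·J_R` raises the pressure by at least `c ρ²/2` (up to the
self-energy). -/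
theorem Pr_add_kernel {v j : ℝ → ℝ} {C R0 R c : ℝ} (hj : IsKernel j C) (hR0 : 0 < R0) (hR : 0 < R)
    (hc : 0 ≤ c) (hv : Adm v R0) (hv' : Adm (fun r => v r - c * JR j R r) R0) {ρ : ℝ}
    (hρ : 0 ≤ ρ) :
    Pr v ρ + c * ρ ^ 2 / 2 - c * JR j R 0 * ρ / 2 ≤ Pr (fun r => v r - c * JR j R r) ρ := by
  have hcube : Tendsto (fun L : ℝ => L ^ 3) atTop atTop := tendsto_pow_atTop (by norm_num)
  have hN : Tendsto (fun L : ℝ => ((⌊ρ * L ^ 3⌋₊ : ℕ) : ℝ) / L ^ 3) atTop (𝓝 ρ) :=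
    (tendsto_nat_floor_mul_div_atTop hρ).comp hcube
  have hratio : Tendsto (fun L : ℝ => L ^ 3 / (L + R) ^ 3) atTop (𝓝 1) := by
    have h1 : Tendsto (fun L : ℝ => L / (L + R)) atTop (𝓝 1) := by
      have h2 : Tendsto (fun L : ℝ => 1 - R / (L + R)) atTop (𝓝 (1 - 0)) := by
        apply tendsto_const_nhds.sub
        exact Tendsto.div_atTop tendsto_const_nhds (tendsto_atTop_add_const_right _ _ tendsto_id)
      rw [sub_zero] at h2
      apply h2.congr'
      filter_upwards [eventually_gt_atTop 0] with L hL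
      have : L + R ≠ 0 := by positivity
      field_simp
      ring
    have h3 := h1.pow 3
    rw [one_pow] at h3
    simpa only [div_pow] using h3
  have key := Pr_le_of_energy hR0 hv hv' hρ
    (fun L N => -(c / 2) * ((N : ℝ) ^ 2 / (L + R) ^ 3 - N * JR j R 0))
    (-(c / 2) * (ρ ^ 2 * 1 - ρ * JR j R 0)) ?_ ?_
  · linarith
  · have h4 : Tendsto (fun L : ℝ => -(c / 2) * ((((⌊ρ * L ^ 3⌋₊ : ℕ) : ℝ) / L ^ 3) ^ 2 * (L ^ 3 / (L + R) ^ 3) -
        (((⌊ρ * L ^ 3⌋₊ : ℕ) : ℝ) / L ^ 3) * JR j R 0)) atTop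
        (𝓝 (-(c / 2) * (ρ ^ 2 * 1 - ρ * JR j R 0))) :=
      (((hN.pow 2).mul hratio).sub (hN.mul_const _)).const_mul _
    apply h4.congr'
    filter_upwards [eventually_gt_atTop 0] with L hL
    have : L + R ≠ 0 := by positivity
    field_simp
  · intro L hL N x hx
    have h5 := hj.lower R hR L (by linarith) N x hx
    have h6 : Eu (rad (fun r => v r - c * JR j R r)) x = Eu (rad v) x - c * Eu (rad (JR j R)) x := by
      have h7 : rad (fun r => v r - c * JR j R r) = fun a b => rad v a b + (-c) * rad (JR j R) a b := by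
        funext a b
        simp only [rad]
        ring
      rw [h7, Eu_add, Eu_smul]
      ring
    have h8 : Eu (rad (JR j R)) x = (1 / 2) * ((∑ i, ∑ k, JR j R (dist (x i) (x k))) - N * JR j R 0) := by
      classical
      rw [Eu_eq, sum_offdiag (fun i j' => rad (JR j R) (x i) (x j'))]
      simp [rad]
    rw [h6, h8]
    nlinarith

end Crest.Agent.Kac
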