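import Crest.Agent.Kac.Thermo
import Crest.Agent.Kac.Super

/-! K8: the block upper bound (T2). -/

set_option autoImplicit false
open MeasureTheory Filter Topology
open scoped ENNReal

namespace Crest.Agent.Kac

/-! ### Counting the diagonal shifts which separate two close points -/

lemma shift_coord_unique {r ℓ : ℝ} {n : ℕ} (hr : 0 < r) (hℓ : (n : ℝ) * r ≤ ℓ) {x y : ℝ}
    (hxy : y - x < r) {a b : ℕ} (ha : a < n) (hb : b < n)
    (h1 : ⌊(x - a * r) / ℓ⌋ < ⌊(y - a * r) / ℓ⌋) (h2 : ⌊(x - b * r) / ℓ⌋ < ⌊(y - b * r) / ℓ⌋) :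
    a = b := by
  have hn : 0 < n := by omega
  have hn' : (1 : ℝ) ≤ n := by exact_mod_cast hn
  have hℓ0 : 0 < ℓ := by nlinarith
  set p := ⌊(y - a * r) / ℓ⌋ with hp
  set q := ⌊(y - b * r) / ℓ⌋ with hq
  have e1 : (x - a * r) / ℓ < p := Int.floor_lt.mp h1
  have e2 : (p : ℝ) ≤ (y - a * r) / ℓ := Int.floor_le _
  have e3 : (x - b * r) / ℓ < q := Int.floor_lt.mp h2
  have e4 : (q : ℝ) ≤ (y - b * r) / ℓ := Int.floor_le _
  rw [div_lt_iff₀ hℓ0] at e1 e3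
  rw [le_div_iff₀ hℓ0] at e2 e4
  have ha' : (a : ℝ) + 1 ≤ n := by exact_mod_cast ha
  have hb' : (b : ℝ) + 1 ≤ n := by exact_mod_cast hb
  have ha0 : (0 : ℝ) ≤ a := Nat.cast_nonneg _
  have hb0 : (0 : ℝ) ≤ b := Nat.cast_nonneg _
  rcases lt_trichotomy p q with h | h | h
  · exfalso
    have h' : (p : ℝ) + 1 ≤ q := by exact_mod_cast h
    nlinarith
  · rw [h] at e1 e2
    by_contra hab
    rcases lt_or_gt_of_ne hab with h3 | h3
    · have h3' : (a : ℝ) + 1 ≤ b := by exact_mod_cast h3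
      nlinarith
    · have h3' : (b : ℝ) + 1 ≤ a := by exact_mod_cast h3
      nlinarith
  · exfalso
    have h' : (q : ℝ) + 1 ≤ p := by exact_mod_cast h
    nlinarith

lemma shift_coord_card {r ℓ : ℝ} {n : ℕ} (hr : 0 < r) (hℓ : (n : ℝ) * r ≤ ℓ) {x y : ℝ}
    (hxy : |x - y| < r) :
    ((Finset.range n).filter (fun a : ℕ => ⌊(x - a * r) / ℓ⌋ ≠ ⌊(y - a * r) / ℓ⌋)).card ≤ 1 := by
  rw [Finset.card_le_one]
  intro a ha b hb
  rw [Finset.mem_filter, Finset.mem_range] at ha hb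
  have hn : (1 : ℝ) ≤ n := by
    have : 0 < n := by omega
    exact_mod_cast this
  have hℓ0 : 0 < ℓ := by nlinarith
  rw [abs_lt] at hxy
  rcases le_total x y with h | h
  · have hm : ∀ c : ℕ, ⌊(x - c * r) / ℓ⌋ ≤ ⌊(y - c * r) / ℓ⌋ := fun c => by
      apply Int.floor_le_floor
      gcongr
    exact shift_coord_unique hr hℓ (by linarith) ha.1 hb.1 (lt_of_le_of_ne (hm a) ha.2)
      (lt_of_le_of_ne (hm b) hb.2)
  · have hm : ∀ c : ℕ, ⌊(y - c * r) / ℓ⌋ ≤ ⌊(x - c * r) / ℓ⌋ := fun c => by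
      apply Int.floor_le_floor
      gcongr
    exact shift_coord_unique hr hℓ (by linarith) ha.1 hb.1 (lt_of_le_of_ne (hm a) ha.2.symm)
      (lt_of_le_of_ne (hm b) hb.2.symm)

lemma blk_coord_le (x y : Pt) (a : Fin 3) : |x a - y a| ≤ dist x y := by
  rw [dist_eq_norm]
  have h := PiLp.norm_apply_le (p := 2) (x - y) a
  simpa using h

lemma same_le_one (t ℓ : ℝ) (x y : Pt) : same t ℓ x y ≤ 1 := by
  classical
  rw [same_eq]
  split_ifs <;> norm_num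

/-- Two points at distance `< r` are in the same cell for all but at most three shifts. -/
lemma shift_sum {r ℓ : ℝ} {n : ℕ} (hr : 0 < r) (hℓ : (n : ℝ) * r ≤ ℓ) {x y : Pt}
    (hxy : dist x y < r) : (n : ℝ) - 3 ≤ ∑ a ∈ Finset.range n, same (a * r) ℓ x y := by
  classical
  have hcoord : ∀ k : Fin 3, |x k - y k| < r := by
    intro k
    refine lt_of_le_of_lt ?_ hxy
    exact blk_coord_le x y k
  have h1 : ∀ a ∈ Finset.range n, (1 : ℝ) - ∑ k : Fin 3,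
      (if ⌊(x k - a * r) / ℓ⌋ ≠ ⌊(y k - a * r) / ℓ⌋ then (1 : ℝ) else 0) ≤ same (a * r) ℓ x y := by
    intro a _
    by_cases h : cell (a * r) ℓ x = cell (a * r) ℓ y
    · rw [same_eq, if_pos h]
      have : 0 ≤ ∑ k : Fin 3,
        (if ⌊(x k - a * r) / ℓ⌋ ≠ ⌊(y k - a * r) / ℓ⌋ then (1 : ℝ) else 0) := by
        apply Finset.sum_nonneg
        intro k _
        split_ifs <;> norm_num
      linarith
    · rw [same_eq, if_neg h]
      have h2 : ∃ k, cell (a * r) ℓ x k ≠ cell (a * r) ℓ y k := Function.ne_iff.mp h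
      obtain ⟨k, hk⟩ := h2
      have h3 : (1 : ℝ) ≤ ∑ k : Fin 3,
        (if ⌊(x k - a * r) / ℓ⌋ ≠ ⌊(y k - a * r) / ℓ⌋ then (1 : ℝ) else 0) := by
        have h4 := Finset.single_le_sum (f := fun k : Fin 3 =>
          (if ⌊(x k - a * r) / ℓ⌋ ≠ ⌊(y k - a * r) / ℓ⌋ then (1 : ℝ) else 0)) (by
            intro k _
            dsimp only
            split_ifs <;> norm_num) (Finset.mem_univ k)
        have h5 : (if ⌊(x k - a * r) / ℓ⌋ ≠ ⌊(y k - a * r) / ℓ⌋ then (1 : ℝ) else 0) = 1 :=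
          if_pos hk
        dsimp only at h4
        linarith
      linarith
  refine le_trans ?_ (Finset.sum_le_sum h1)
  rw [Finset.sum_sub_distrib, Finset.sum_comm]
  have h2 : ∀ k : Fin 3, ∑ a ∈ Finset.range n,
      (if ⌊(x k - a * r) / ℓ⌋ ≠ ⌊(y k - a * r) / ℓ⌋ then (1 : ℝ) else 0) ≤ 1 := by
    intro k
    rw [Finset.sum_boole]
    exact_mod_cast shift_coord_card hr hℓ (hcoord k)
  have h3 := Finset.sum_le_sum (s := Finset.univ) (fun (k : Fin 3) _ => h2 k)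
  simp only [Finset.sum_const, Finset.card_univ, Fintype.card_fin, Finset.card_range,
    nsmul_eq_mul, mul_one] at h3 ⊢
  push_cast at h3
  linarith

/-! ### The pointwise inequality -/

/-- The cell potential for the shift `t`. -/
noncomputable def cellPot (t ℓ : ℝ) (w : ℝ → ℝ) : Pt → Pt → ℝ :=
  fun x y => same t ℓ x y * w (dist x y)

lemma Eu_nonneg_blk {N : ℕ} {u : Pt → Pt → ℝ} (x : Fin N → Pt) (h : ∀ i j, 0 ≤ u (x i) (x j)) :
    0 ≤ Eu u x := by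
  classical
  rw [Eu_eq]
  apply mul_nonneg (by norm_num)
  apply Finset.sum_nonneg
  intro i _
  apply Finset.sum_nonneg
  intro j _
  split_ifs
  · exact le_rfl
  · exact h i j

lemma Eu_cellPot_sum {r ℓ : ℝ} {n : ℕ} (hr : 0 < r) (hℓ : (n : ℝ) * r ≤ ℓ) {A : ℝ → ℝ}
    (hA : ∀ s, 0 ≤ s → 0 ≤ A s) (hAr : ∀ s, r ≤ s → A s = 0) {N : ℕ} (x : Fin N → Pt) :
    ((n : ℝ) - 3) * Eu (rad A) x ≤ ∑ a ∈ Finset.range n, Eu (cellPot (a * r) ℓ A) x := by
  classical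
  have h1 : ((n : ℝ) - 3) * Eu (rad A) x = Eu (fun p q => ((n : ℝ) - 3) * rad A p q) x := by
    rw [Eu_smul]
  have h2 : ∑ a ∈ Finset.range n, Eu (cellPot (a * r) ℓ A) x =
      Eu (fun p q => ∑ a ∈ Finset.range n, cellPot (a * r) ℓ A p q) x := by
    simp only [Eu_eq]
    rw [← Finset.mul_sum]
    congr 1
    rw [Finset.sum_comm]
    apply Finset.sum_congr rfl
    intro i _
    rw [Finset.sum_comm]
    apply Finset.sum_congr rfl
    intro j _
    split_ifs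
    · simp
    · rfl
  rw [h1, h2]
  apply Eu_mono
  intro i j _
  unfold rad cellPot
  rw [← Finset.sum_mul]
  by_cases hd : dist (x i) (x j) < r
  · exact mul_le_mul_of_nonneg_right (shift_sum hr hℓ hd) (hA _ dist_nonneg)
  · rw [hAr _ (not_lt.mp hd)]
    simp

/-- For some shift the cells see almost all of the attraction. -/
lemma exists_shift {r ℓ : ℝ} {n : ℕ} (hn : 4 ≤ n) (hr : 0 < r) (hℓ : (n : ℝ) * r ≤ ℓ) {A : ℝ → ℝ}
    (hA : ∀ s, 0 ≤ s → 0 ≤ A s) (hAr : ∀ s, r ≤ s → A s = 0) {θ : ℝ}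
    (hθ : (n : ℝ) ≤ θ * (n - 3)) {N : ℕ} (x : Fin N → Pt) :
    ∃ a ∈ Finset.range n, Eu (rad A) x ≤ θ * Eu (cellPot (a * r) ℓ A) x := by
  by_contra hcon
  push Not at hcon
  have hn' : (4 : ℝ) ≤ n := by exact_mod_cast hn
  have h1 := Eu_cellPot_sum hr hℓ hA hAr x
  have hne : (Finset.range n).Nonempty := ⟨0, by rw [Finset.mem_range]; omega⟩
  have h2 := Finset.sum_lt_sum_of_nonempty hne hcon
  rw [← Finset.mul_sum] at h2
  simp only [Finset.sum_const, Finset.card_range, nsmul_eq_mul] at h2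
  have h0 : 0 ≤ Eu (rad A) x := Eu_nonneg_blk x (fun i j => hA _ dist_nonneg)
  have hθ0 : 0 < θ := by
    by_contra hc
    have : θ * ((n : ℝ) - 3) ≤ 0 := mul_nonpos_of_nonpos_of_nonneg (not_lt.mp hc) (by linarith)
    linarith
  nlinarith [mul_le_mul_of_nonneg_left h1 hθ0.le, mul_le_mul_of_nonneg_right hθ h0]

lemma Eu_cellPot_const {t ℓ g : ℝ} {N : ℕ} (x : Fin N → Pt) :
    Eu (fun p q => g * same t ℓ p q) x = (g / 2) * ((∑ i, ∑ k, same t ℓ (x i) (x k)) - N) := by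
  classical
  rw [Eu_smul, Eu_eq, sum_offdiag (fun i j => same t ℓ (x i) (x j))]
  simp only [same_self, Finset.sum_const, Finset.card_univ, Fintype.card_fin, nsmul_eq_mul, mul_one]
  ring

/-- The pointwise bound. -/
lemma pointwise_bound {φ0 A J : ℝ → ℝ} (hφ : ∀ s, 0 ≤ s → 0 ≤ φ0 s) (hA : ∀ s, 0 ≤ s → 0 ≤ A s)
    {r ℓ : ℝ} {n : ℕ} (hn : 4 ≤ n) (hr : 0 < r) (hℓ : (n : ℝ) * r ≤ ℓ)
    (hAr : ∀ s, r ≤ s → A s = 0) {θ : ℝ} (hθ : (n : ℝ) ≤ θ * (n - 3)) {g : ℝ} (hJ0 : 0 ≤ J 0)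
    (hJ : ∀ (t : ℝ) (N : ℕ) (x : Fin N → Pt), ∑ i, ∑ k, J (dist (x i) (x k)) ≤
      g * ∑ i, ∑ k, same t ℓ (x i) (x k)) {β : ℝ} (hβ : 0 ≤ β) {N : ℕ} (x : Fin N → Pt) :
    ∃ a ∈ Finset.range n, -(Eu (rad (fun s => β * (φ0 s - A s - J s))) x) ≤
      -(Eu (cellPot (a * r) ℓ (fun s => β * (φ0 s - θ * A s - g))) x) + β * g / 2 * N := by
  classical
  obtain ⟨a, ha, h1⟩ := exists_shift hn hr hℓ hA hAr hθ x
  refine ⟨a, ha, ?_⟩
  have e1 : Eu (rad (fun s => β * (φ0 s - A s - J s))) x =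
      β * (Eu (rad φ0) x - Eu (rad A) x - Eu (rad J) x) := by
    have : rad (fun s => β * (φ0 s - A s - J s)) =
        fun p q => β * ((fun p q => rad φ0 p q + (-1) * ((fun p q => rad A p q + rad J p q) p q)) p q) := by
      funext p q
      simp only [rad]
      ring
    rw [this, Eu_smul, Eu_add, Eu_smul, Eu_add]
    ring
  have e2 : Eu (cellPot (a * r) ℓ (fun s => β * (φ0 s - θ * A s - g))) x =
      β * (Eu (cellPot (a * r) ℓ φ0) x - θ * Eu (cellPot (a * r) ℓ A) x -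
        Eu (fun p q => g * same (a * r) ℓ p q) x) := by
    have : cellPot (a * r) ℓ (fun s => β * (φ0 s - θ * A s - g)) =
        fun p q => β * ((fun p q => cellPot (a * r) ℓ φ0 p q +
          (-1) * ((fun p q => ((fun p q => θ * cellPot (a * r) ℓ A p q) p q) +
            g * same (a * r) ℓ p q) p q)) p q) := by
      funext p q
      simp only [cellPot]
      ring
    rw [this, Eu_smul, Eu_add, Eu_smul, Eu_add, Eu_smul]
    ring
  have e3 : Eu (rad J) x = (1 / 2) * ((∑ i, ∑ k, J (dist (x i) (x k))) - N * J 0) := by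
    rw [Eu_eq, sum_offdiag (fun i j' => rad J (x i) (x j'))]
    simp [rad]
  have h2 : Eu (cellPot (a * r) ℓ φ0) x ≤ Eu (rad φ0) x := by
    apply Eu_mono
    intro i j _
    unfold cellPot rad
    have := same_le_one (a * r) ℓ (x i) (x j)
    nlinarith [hφ (dist (x i) (x j)) dist_nonneg]
  have h3 := hJ (a * r) N x
  rw [e1, e2, e3, Eu_cellPot_const]
  have hN : (0 : ℝ) ≤ N * J 0 := by positivity
  have key : -(Eu (rad φ0) x - Eu (rad A) x -
      (1 / 2) * ((∑ i, ∑ k, J (dist (x i) (x k))) - N * J 0)) ≤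
      -(Eu (cellPot (a * r) ℓ φ0) x - θ * Eu (cellPot (a * r) ℓ A) x -
        (g / 2) * ((∑ i, ∑ k, same (a * r) ℓ (x i) (x k)) - N)) + g / 2 * N := by
    nlinarith
  have := mul_le_mul_of_nonneg_left key hβ
  linarith

/-! ### Grand canonical partition functions: general facts -/

lemma Xi_mono_set {u : Pt → Pt → ℝ} {ν : ℝ} {Λ Λ' : Set Pt} (h : Λ ⊆ Λ') :
    Xi u ν Λ ≤ Xi u ν Λ' := by
  unfold Xi
  apply ENNReal.tsum_le_tsum
  intro n
  exact mul_le_mul_right (Z_mono_set h n) _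

lemma Z_congr_on {u u' : Pt → Pt → ℝ} {Λ : Set Pt} (hΛ : MeasurableSet Λ)
    (h : ∀ x ∈ Λ, ∀ y ∈ Λ, u x y = u' x y) (n : ℕ) : Z u Λ n = Z u' Λ n := by
  unfold Z
  congr 1
  apply setLIntegral_congr_fun (measurableSet_box hΛ)
  intro x hx
  unfold bw
  rw [Eu_congr (u := u) (u' := u') (x := x) (x' := x)]
  intro i j _
  exact h _ (hx i (Set.mem_univ i)) _ (hx j (Set.mem_univ j))

lemma Xi_congr_on {u u' : Pt → Pt → ℝ} {ν : ℝ} {Λ : Set Pt} (hΛ : MeasurableSet Λ)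
    (h : ∀ x ∈ Λ, ∀ y ∈ Λ, u x y = u' x y) : Xi u ν Λ = Xi u' ν Λ := by
  unfold Xi
  apply tsum_congr
  intro n
  rw [Z_congr_on hΛ h]

lemma one_le_Xi (u : Pt → Pt → ℝ) (ν : ℝ) (Λ : Set Pt) : 1 ≤ Xi u ν Λ := by
  unfold Xi
  have h := ENNReal.le_tsum (f := fun n : ℕ => ENNReal.ofReal (Real.exp (ν * n)) * Z u Λ n) 0
  simpa [Z_zero] using h

lemma term_le_Xi (u : Pt → Pt → ℝ) (ν : ℝ) (Λ : Set Pt) (n : ℕ) :
    ENNReal.ofReal (Real.exp (ν * n)) * Z u Λ n ≤ Xi u ν Λ :=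
  ENNReal.le_tsum (f := fun n : ℕ => ENNReal.ofReal (Real.exp (ν * n)) * Z u Λ n) n

lemma Xi_translate (v : ℝ → ℝ) (ν : ℝ) (t : Pt) (Λ : Set Pt) :
    Xi (rad v) ν ((fun x => t + x) '' Λ) = Xi (rad v) ν Λ := by
  unfold Xi
  apply tsum_congr
  intro n
  rw [Z_translate]

/-! ### Cells -/

lemma measurable_cell (t ℓ : ℝ) : Measurable (cell t ℓ) := by
  apply measurable_pi_lambda
  intro a
  have h : Measurable (fun x : Pt => (x a - t) / ℓ) := by
    have h1 : Continuous (fun x : Pt => x a) := by fun_prop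
    exact (h1.measurable.sub_const t).div_const ℓ
  exact Int.measurable_floor.comp h

lemma goodPair_cellPot {w : ℝ → ℝ} (hw : Measurable w) (t ℓ : ℝ) :
    GoodPair (cellPot t ℓ w) where
  symm := by
    classical
    intro x y
    unfold cellPot
    rw [same_eq, same_eq, dist_comm]
    by_cases h : cell t ℓ x = cell t ℓ y
    · rw [if_pos h, if_pos h.symm]
    · rw [if_neg h, if_neg (fun h' => h h'.symm)]
  meas := by
    classical
    have h1 : Measurable (fun p : Pt × Pt => w (dist p.1 p.2)) :=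
      hw.comp (measurable_fst.dist measurable_snd)
    have h2 : Measurable (fun p : Pt × Pt => same t ℓ p.1 p.2) := by
      have h3 : (fun p : Pt × Pt => same t ℓ p.1 p.2) =
          fun p : Pt × Pt => if cell t ℓ p.1 = cell t ℓ p.2 then (1 : ℝ) else 0 := by
        funext p
        rw [same_eq]
      rw [h3]
      apply Measurable.ite _ measurable_const measurable_const
      exact measurableSet_eq_fun ((measurable_cell t ℓ).comp measurable_fst)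
        ((measurable_cell t ℓ).comp measurable_snd)
    exact h2.mul h1

/-- The cell of index `c`. -/
def cellSet (t ℓ : ℝ) (c : Fin 3 → ℤ) : Set Pt := {x | cell t ℓ x = c}

lemma measurableSet_cellSet (t ℓ : ℝ) (c : Fin 3 → ℤ) : MeasurableSet (cellSet t ℓ c) :=
  measurable_cell t ℓ (measurableSet_singleton c)

lemma Xi_cellSet_le {w : ℝ → ℝ} {ν t ℓ : ℝ} (hℓ : 0 < ℓ) (c : Fin 3 → ℤ) :
    Xi (cellPot t ℓ w) ν (cellSet t ℓ c) ≤ Xi (rad w) ν (cube ℓ) := by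
  classical
  have h1 : Xi (cellPot t ℓ w) ν (cellSet t ℓ c) = Xi (rad w) ν (cellSet t ℓ c) := by
    apply Xi_congr_on (measurableSet_cellSet t ℓ c)
    intro x hx y hy
    unfold cellPot rad
    rw [same_eq, if_pos (by rw [show cell t ℓ x = c from hx, show cell t ℓ y = c from hy]), one_mul]
  rw [h1]
  let b : Pt := WithLp.toLp 2 (fun a => t + ℓ * (c a : ℝ))
  rw [← Xi_translate w ν b (cube ℓ)]
  apply Xi_mono_set
  intro x hx
  refine ⟨x - b, ?_, by simp⟩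
  intro k
  have hk : ⌊(x k - t) / ℓ⌋ = c k := congrFun hx k
  have hb : (x - b) k = x k - (t + ℓ * (c k : ℝ)) := rfl
  rw [hb]
  have e1 : (c k : ℝ) ≤ (x k - t) / ℓ := by rw [← hk]; exact Int.floor_le _
  have e2 : (x k - t) / ℓ < (c k : ℝ) + 1 := by rw [← hk]; exact Int.lt_floor_add_one _
  rw [le_div_iff₀ hℓ] at e1
  rw [div_lt_iff₀ hℓ] at e2
  constructor
  · linarith
  · nlinarith

/-- The cells meeting the cube. -/
lemma cells_cover {t ℓ L : ℝ} (hℓ : 0 < ℓ) (hL : 0 ≤ L) :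
    ∃ T : Finset (Fin 3 → ℤ), (∀ x ∈ cube L, cell t ℓ x ∈ T) ∧ (T.card : ℝ) ≤ (L / ℓ + 2) ^ 3 := by
  classical
  set a : ℤ := ⌊(0 - t) / ℓ⌋ with ha
  set b : ℤ := ⌊(L - t) / ℓ⌋ with hb
  let T : Finset (Fin 3 → ℤ) := Fintype.piFinset (fun _ => Finset.Icc a b)
  refine ⟨T, ?_, ?_⟩
  · intro x hx
    rw [Fintype.mem_piFinset]
    intro k
    rw [Finset.mem_Icc]
    have h1 := hx k
    constructor
    · apply Int.floor_le_floor
      gcongr
      exact h1.1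
    · apply Int.floor_le_floor
      gcongr
      exact h1.2
  · have h5 : T.card = (b + 1 - a).toNat ^ 3 := by
      simp [T, Fintype.card_piFinset]
    rw [h5]
    push_cast
    apply pow_le_pow_left₀ (by positivity)
    have h6 : (b : ℝ) ≤ (L - t) / ℓ := Int.floor_le _
    have h7 : (0 - t) / ℓ - 1 < a := Int.sub_one_lt_floor _
    have h8 : (((b + 1 - a).toNat : ℤ) : ℝ) ≤ L / ℓ + 2 := by
      rw [Int.toNat_eq_max]
      push_cast
      apply max_le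
      · have : (L - t) / ℓ - (0 - t) / ℓ = L / ℓ := by ring
        linarith
      · positivity
    exact_mod_cast h8

lemma Xi_cellPot_le {w : ℝ → ℝ} (hw : Measurable w) {ν t ℓ L : ℝ} (hℓ : 0 < ℓ) (hL : 0 ≤ L) :
    ∃ K : ℕ, (K : ℝ) ≤ (L / ℓ + 2) ^ 3 ∧
      Xi (cellPot t ℓ w) ν (cube L) ≤ (Xi (rad w) ν (cube ℓ)) ^ K := by
  classical
  obtain ⟨T, hT, hcard⟩ := cells_cover (t := t) hℓ hL
  refine ⟨T.card, hcard, ?_⟩
  have h1 : cube L ⊆ ⋃ c ∈ T, cellSet t ℓ c := by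
    intro x hx
    rw [Set.mem_iUnion₂]
    exact ⟨cell t ℓ x, hT x hx, rfl⟩
  refine (Xi_mono_set h1).trans ?_
  rw [Xi_biUnion_eq (goodPair_cellPot hw t ℓ) ν T (cellSet t ℓ)
    (fun c _ => measurableSet_cellSet t ℓ c)]
  · rw [← Finset.prod_const]
    apply Finset.prod_le_prod'
    intro c _
    exact Xi_cellSet_le hℓ c
  · intro c _ c' _ hcc
    rw [Set.disjoint_left]
    intro x hx hx'
    exact hcc ((show cell t ℓ x = c from hx).symm.trans hx')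
  · intro c _ c' _ hcc x hx y hy
    unfold cellPot
    rw [same_eq, if_neg, zero_mul]
    rw [show cell t ℓ x = c from hx, show cell t ℓ y = c' from hy]
    exact hcc

/-! ### The block bound -/

lemma Z_cube_lt_top_of_adm {v : ℝ → ℝ} {R0 : ℝ} (hv : Adm v R0) {L : ℝ} (hL : 0 ≤ L) (N : ℕ) :
    Z (rad v) (cube L) N < ∞ := by
  obtain ⟨B, hB⟩ := hv.stab
  apply Z_lt_top hB (measurableSet_cube L)
  rw [volume_cube hL]
  exact ENNReal.ofReal_lt_top

theorem block_finite {φ0 A J : ℝ → ℝ} (hφm : Measurable φ0) (hAm : Measurable A)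
    (hφ : ∀ s, 0 ≤ s → 0 ≤ φ0 s) (hA : ∀ s, 0 ≤ s → 0 ≤ A s)
    {r ℓ : ℝ} {n : ℕ} (hn : 4 ≤ n) (hr : 0 < r) (hℓ : (n : ℝ) * r ≤ ℓ)
    (hAr : ∀ s, r ≤ s → A s = 0) {θ : ℝ} (hθ : (n : ℝ) ≤ θ * (n - 3)) {g : ℝ} (hJ0 : 0 ≤ J 0)
    (hJ : ∀ (t : ℝ) (N : ℕ) (x : Fin N → Pt), ∑ i, ∑ k, J (dist (x i) (x k)) ≤
      g * ∑ i, ∑ k, same t ℓ (x i) (x k)) {β ν : ℝ} (hβ : 0 ≤ β)
    (hXi : Xi (rad (fun s => β * (φ0 s - θ * A s - g))) (ν + β * g / 2) (cube ℓ) < ∞)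
    {L : ℝ} (hL : 0 < L) (N : ℕ) (hpos : 0 < ZL (fun s => β * (φ0 s - A s - J s)) L N) :
    Real.log (ZL (fun s => β * (φ0 s - A s - J s)) L N) ≤ Real.log n - ν * N +
      (L / ℓ + 2) ^ 3 * Real.log
        (Xi (rad (fun s => β * (φ0 s - θ * A s - g))) (ν + β * g / 2) (cube ℓ)).toReal := by
  classical
  set w : ℝ → ℝ := fun s => β * (φ0 s - θ * A s - g) with hw
  set v : ℝ → ℝ := fun s => β * (φ0 s - A s - J s) with hv
  set ν' := ν + β * g / 2 with hν'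
  set X := Xi (rad w) ν' (cube ℓ) with hX
  have hwm : Measurable w := ((hφm.sub (hAm.const_mul θ)).sub_const g).const_mul β
  have hn' : (4 : ℝ) ≤ n := by exact_mod_cast hn
  have hℓ0 : 0 < ℓ := by nlinarith
  have hX1 : 1 ≤ X := one_le_Xi _ _ _
  have hXr : 1 ≤ X.toReal := by
    rw [← ENNReal.toReal_one]
    exact ENNReal.toReal_mono hXi.ne hX1
  -- Step B
  have hB : Z (rad v) (cube L) N ≤ ∑ a ∈ Finset.range n,
      ENNReal.ofReal (Real.exp (β * g / 2 * N)) * Z (cellPot (a * r) ℓ w) (cube L) N := by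
    unfold Z
    have h1 : ∫⁻ x in (box (cube L) : Set (Fin N → Pt)), bw (rad v) x ≤
        ∫⁻ x in (box (cube L) : Set (Fin N → Pt)), ∑ a ∈ Finset.range n,
          ENNReal.ofReal (Real.exp (β * g / 2 * N)) * bw (cellPot (a * r) ℓ w) x := by
      apply lintegral_mono
      intro x
      obtain ⟨a, ha, h2⟩ := pointwise_bound hφ hA hn hr hℓ hAr hθ hJ0 hJ hβ x
      refine le_trans ?_ (Finset.single_le_sum (f := fun a : ℕ =>
        ENNReal.ofReal (Real.exp (β * g / 2 * N)) * bw (cellPot (a * r) ℓ w) x)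
        (fun _ _ => zero_le) ha)
      dsimp only
      unfold bw
      rw [← ENNReal.ofReal_mul (Real.exp_pos _).le, ← Real.exp_add]
      apply ENNReal.ofReal_le_ofReal
      apply Real.exp_le_exp.mpr
      linarith
    refine (mul_le_mul_right h1 _).trans ?_
    have h1' : ∫⁻ x in (box (cube L) : Set (Fin N → Pt)), ∑ a ∈ Finset.range n,
          ENNReal.ofReal (Real.exp (β * g / 2 * N)) * bw (cellPot (a * r) ℓ w) x =
        ∑ a ∈ Finset.range n, ∫⁻ x in (box (cube L) : Set (Fin N → Pt)),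
          ENNReal.ofReal (Real.exp (β * g / 2 * N)) * bw (cellPot (a * r) ℓ w) x :=
      lintegral_finsetSum _ (fun a _ =>
        (measurable_bw (goodPair_cellPot hwm (a * r) ℓ)).const_mul _)
    rw [h1', Finset.mul_sum]
    apply Finset.sum_le_sum
    intro a _
    rw [lintegral_const_mul _ (measurable_bw (goodPair_cellPot hwm (a * r) ℓ))]
    rw [mul_left_comm]
  -- Step C, D
  have hD : ∀ a : ℕ, ∃ K : ℕ, (K : ℝ) ≤ (L / ℓ + 2) ^ 3 ∧
      ENNReal.ofReal (Real.exp (β * g / 2 * N)) * Z (cellPot (a * r) ℓ w) (cube L) N ≤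
      ENNReal.ofReal (Real.exp (-(ν * N))) * X ^ K := by
    intro a
    obtain ⟨K, hK1, hK2⟩ := Xi_cellPot_le hwm (ν := ν') (t := a * r) hℓ0 hL.le
    refine ⟨K, hK1, ?_⟩
    have h3 := (term_le_Xi (cellPot (a * r) ℓ w) ν' (cube L) N).trans hK2
    calc ENNReal.ofReal (Real.exp (β * g / 2 * N)) * Z (cellPot (a * r) ℓ w) (cube L) N
        = ENNReal.ofReal (Real.exp (-(ν * N))) * (ENNReal.ofReal (Real.exp (ν' * N)) *
            Z (cellPot (a * r) ℓ w) (cube L) N) := by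
          rw [← mul_assoc, ← ENNReal.ofReal_mul (Real.exp_pos _).le, ← Real.exp_add]
          congr 3
          rw [hν']
          ring
      _ ≤ _ := mul_le_mul_right h3 _
  -- the real bound
  have hE : ZL v L N ≤ n * (Real.exp (-(ν * N)) *
      Real.exp ((L / ℓ + 2) ^ 3 * Real.log X.toReal)) := by
    have h4 : Z (rad v) (cube L) N ≤ ENNReal.ofReal (n * (Real.exp (-(ν * N)) *
      Real.exp ((L / ℓ + 2) ^ 3 * Real.log X.toReal))) := by
      refine hB.trans ?_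
      have h5 : ∀ a ∈ Finset.range n,
          ENNReal.ofReal (Real.exp (β * g / 2 * N)) * Z (cellPot (a * r) ℓ w) (cube L) N ≤
          ENNReal.ofReal (Real.exp (-(ν * N)) *
            Real.exp ((L / ℓ + 2) ^ 3 * Real.log X.toReal)) := by
        intro a _
        obtain ⟨K, hK1, hK2⟩ := hD a
        refine hK2.trans ?_
        rw [ENNReal.ofReal_mul (Real.exp_pos _).le]
        apply mul_le_mul_right
        rw [← ENNReal.ofReal_toReal (ENNReal.pow_ne_top hXi.ne : X ^ K ≠ ∞)]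
        apply ENNReal.ofReal_le_ofReal
        rw [ENNReal.toReal_pow]
        have h6 : X.toReal ^ K = Real.exp (K * Real.log X.toReal) := by
          rw [mul_comm, Real.exp_mul, Real.exp_log (by linarith), Real.rpow_natCast]
        rw [h6]
        apply Real.exp_le_exp.mpr
        exact mul_le_mul_of_nonneg_right hK1 (Real.log_nonneg hXr)
      refine (Finset.sum_le_sum h5).trans ?_
      rw [Finset.sum_const, Finset.card_range, nsmul_eq_mul,
        ENNReal.ofReal_mul (p := (n : ℝ)) (by positivity), ENNReal.ofReal_natCast]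
    exact ENNReal.toReal_le_of_le_ofReal (by positivity) h4
  have h7 := Real.log_le_log hpos hE
  rw [Real.log_mul (by positivity) (by positivity), Real.log_mul (by positivity) (by positivity),
    Real.log_exp, Real.log_exp] at h7
  linarith

theorem block_bound {φ0 A J : ℝ → ℝ} (hφm : Measurable φ0) (hAm : Measurable A)
    (hφ : ∀ s, 0 ≤ s → 0 ≤ φ0 s) (hA : ∀ s, 0 ≤ s → 0 ≤ A s)
    {r ℓ : ℝ} {n : ℕ} (hn : 4 ≤ n) (hr : 0 < r) (hℓ : (n : ℝ) * r ≤ ℓ)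
    (hAr : ∀ s, r ≤ s → A s = 0) {θ : ℝ} (hθ : (n : ℝ) ≤ θ * (n - 3)) {g : ℝ} (hJ0 : 0 ≤ J 0)
    (hJ : ∀ (t : ℝ) (N : ℕ) (x : Fin N → Pt), ∑ i, ∑ k, J (dist (x i) (x k)) ≤
      g * ∑ i, ∑ k, same t ℓ (x i) (x k)) {β ν : ℝ} (hβ : 0 ≤ β)
    (hXi : Xi (rad (fun s => β * (φ0 s - θ * A s - g))) (ν + β * g / 2) (cube ℓ) < ∞)
    {R0 : ℝ} (hR0 : 0 < R0) (hadm : Adm (fun s => β * (φ0 s - A s - J s)) R0) {ρ : ℝ}
    (hρ : 0 ≤ ρ) :
    ν * ρ + Pr (fun s => β * (φ0 s - A s - J s)) ρ ≤ (1 / ℓ) ^ 3 * Real.log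
        (Xi (rad (fun s => β * (φ0 s - θ * A s - g))) (ν + β * g / 2) (cube ℓ)).toReal := by
  set v : ℝ → ℝ := fun s => β * (φ0 s - A s - J s) with hv
  set Y := Real.log
        (Xi (rad (fun s => β * (φ0 s - θ * A s - g))) (ν + β * g / 2) (cube ℓ)).toReal with hY
  have hcube : Tendsto (fun L : ℝ => L ^ 3) atTop atTop := tendsto_pow_atTop (by norm_num)
  have hN : Tendsto (fun L : ℝ => ((⌊ρ * L ^ 3⌋₊ : ℕ) : ℝ) / L ^ 3) atTop (𝓝 ρ) :=
    (tendsto_nat_floor_mul_div_atTop hρ).comp hcube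
  have h1 : Tendsto (fun L : ℝ => Real.log n * (L ^ 3)⁻¹) atTop (𝓝 (Real.log n * 0)) :=
    (hcube.inv_tendsto_atTop).const_mul _
  have h2 : Tendsto (fun L : ℝ => (1 / ℓ + 2 * L⁻¹) ^ 3) atTop (𝓝 ((1 / ℓ + 2 * 0) ^ 3)) :=
    ((tendsto_inv_atTop_zero.const_mul 2).const_add (1 / ℓ)).pow 3
  have h3 : Tendsto (fun L : ℝ => Real.log n * (L ^ 3)⁻¹ - ν * (((⌊ρ * L ^ 3⌋₊ : ℕ) : ℝ) / L ^ 3) +
      (1 / ℓ + 2 * L⁻¹) ^ 3 * Y) atTop (𝓝 (Real.log n * 0 - ν * ρ + (1 / ℓ + 2 * 0) ^ 3 * Y)) :=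
    (h1.sub (hN.const_mul ν)).add (h2.mul_const Y)
  have h4 := le_of_tendsto_of_tendsto (Pr_tendsto hR0 hadm hρ) h3 (by
    filter_upwards [eventually_gt_atTop (0:ℝ)] with L hL
    obtain ⟨B, hB⟩ := hadm.stab
    have hpos : 0 < ZL v L ⌊ρ * L ^ 3⌋₊ := ZL_pos hadm.meas hB hL _
    have h5 := block_finite hφm hAm hφ hA hn hr hℓ hAr hθ hJ0 hJ hβ hXi hL ⌊ρ * L ^ 3⌋₊ hpos
    have hn' : (4 : ℝ) ≤ n := by exact_mod_cast hn
    have hℓ0 : 0 < ℓ := by nlinarith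
    have h6 := mul_le_mul_of_nonneg_left h5 (by positivity : (0:ℝ) ≤ 1 / L ^ 3)
    refine h6.trans (le_of_eq ?_)
    rw [← hY]
    field_simp)
  rw [mul_zero, mul_zero, add_zero] at h4
  linarith

/-- A cube partition function bounded under a linear lower bound of the energy. -/
lemma Xi_le_exp {u : Pt → Pt → ℝ} {ν b ℓ : ℝ} (hℓ : 0 ≤ ℓ)
    (h : ∀ (m : ℕ) (x : Fin m → Pt), (∀ i, x i ∈ cube ℓ) → -(Eu u x) ≤ b * m) :
    Xi u ν (cube ℓ) ≤ ENNReal.ofReal (Real.exp (ℓ ^ 3 * Real.exp (ν + b))) := by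
  have h1 : ∀ m : ℕ, ENNReal.ofReal (Real.exp (ν * m)) * Z u (cube ℓ) m ≤
      ENNReal.ofReal ((ℓ ^ 3 * Real.exp (ν + b)) ^ m / m.factorial) := by
    intro m
    have h2 : Z u (cube ℓ) m ≤ ENNReal.ofReal (Real.exp (b * m)) * Z (fun _ _ => 0) (cube ℓ) m := by
      apply Z_le_of_energy (measurableSet_cube ℓ)
      intro x hx
      have h0 : Eu (fun _ _ => 0) x = 0 := by simp [Eu]
      rw [h0]
      have := h m x hx
      linarith
    refine (mul_le_mul_right h2 _).trans (le_of_eq ?_)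
    rw [Z_free, volume_cube hℓ, ← ENNReal.ofReal_pow (by positivity),
      ← ENNReal.ofReal_natCast m.factorial, ← ENNReal.ofReal_inv_of_pos (by positivity),
      ← ENNReal.ofReal_mul (by positivity), ← ENNReal.ofReal_mul (by positivity),
      ← ENNReal.ofReal_mul (by positivity)]
    congr 1
    have e1 : Real.exp (ν + b) ^ m = Real.exp (ν * m) * Real.exp (b * m) := by
      rw [← Real.exp_nat_mul, ← Real.exp_add]
      congr 1
      ring
    rw [mul_pow, e1]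
    field_simp
  unfold Xi
  refine (ENNReal.tsum_le_tsum h1).trans ?_
  have h3 := NormedSpace.expSeries_div_hasSum_exp (ℓ ^ 3 * Real.exp (ν + b))
  rw [← ENNReal.ofReal_tsum_of_nonneg (fun m => by positivity) h3.summable, h3.tsum_eq,
    Real.exp_eq_exp_ℝ]

lemma Pr_le_linear {v : ℝ → ℝ} {R0 b ρ : ℝ} (hR0 : 0 < R0) (hv : Adm v R0) (hρ : 0 ≤ ρ)
    (h : ∀ L : ℝ, 1 ≤ L → ∀ (N : ℕ) (x : Fin N → Pt), (∀ i, x i ∈ cube L) →
      -(Eu (rad v) x) ≤ b * N) :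
    Pr v ρ ≤ 1 + b * ρ := by
  have hcube : Tendsto (fun L : ℝ => L ^ 3) atTop atTop := tendsto_pow_atTop (by norm_num)
  have hN : Tendsto (fun L : ℝ => ((⌊ρ * L ^ 3⌋₊ : ℕ) : ℝ) / L ^ 3) atTop (𝓝 ρ) :=
    (tendsto_nat_floor_mul_div_atTop hρ).comp hcube
  have h3 : Tendsto (fun L : ℝ => 1 + b * (((⌊ρ * L ^ 3⌋₊ : ℕ) : ℝ) / L ^ 3)) atTop
      (𝓝 (1 + b * ρ)) := (hN.const_mul b).const_add 1
  refine le_of_tendsto_of_tendsto (Pr_tendsto hR0 hv hρ) h3 ?_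
  filter_upwards [eventually_ge_atTop (1:ℝ)] with L hL
  obtain ⟨B, hB⟩ := hv.stab
  have hL0 : 0 < L := by linarith
  set N := ⌊ρ * L ^ 3⌋₊ with hNdef
  have hpos : 0 < ZL v L N := ZL_pos hv.meas hB hL0 _
  have h2 : Z (rad v) (cube L) N ≤ ENNReal.ofReal (Real.exp (b * N)) *
      Z (fun _ _ => 0) (cube L) N := by
    apply Z_le_of_energy (measurableSet_cube L)
    intro x hx
    have h0 : Eu (fun _ _ => 0) x = 0 := by simp [Eu]
    rw [h0]
    have := h L hL N x hx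
    linarith
  have h4 : ZL v L N ≤ Real.exp (b * N) * Real.exp (L ^ 3) := by
    unfold ZL
    apply ENNReal.toReal_le_of_le_ofReal (by positivity)
    refine h2.trans ?_
    rw [ENNReal.ofReal_mul (by positivity), Z_free, volume_cube hL0.le]
    apply mul_le_mul_right
    rw [← ENNReal.ofReal_pow (by positivity),
      ← ENNReal.ofReal_natCast N.factorial, ← ENNReal.ofReal_inv_of_pos (by positivity),
      ← ENNReal.ofReal_mul (by positivity)]
    apply ENNReal.ofReal_le_ofReal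
    have := Real.pow_div_factorial_le_exp (x := L ^ 3) (by positivity) N
    rw [div_eq_inv_mul] at this
    exact this
  have h5 := Real.log_le_log hpos h4
  rw [← Real.exp_add, Real.log_exp] at h5
  have h6 := mul_le_mul_of_nonneg_left h5 (by positivity : (0:ℝ) ≤ 1 / L ^ 3)
  refine h6.trans (le_of_eq ?_)
  field_simp
  ring

lemma Eu_sub_const {v : ℝ → ℝ} {G : ℝ} {m : ℕ} (x : Fin m → Pt) :
    Eu (rad (fun s => v s - G)) x = Eu (rad v) x - G / 2 * ((m : ℝ) ^ 2 - m) := by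
  classical
  have h1 : rad (fun s => v s - G) = fun p q => rad v p q + (fun _ _ => -G) p q := by
    funext p q
    simp only [rad]
    ring
  rw [h1, Eu_add]
  have h2 : Eu (fun _ _ => -G) x = -G / 2 * ((m : ℝ) ^ 2 - m) := by
    rw [Eu_eq, sum_offdiag (fun _ _ => -G)]
    simp
    ring
  rw [h2]
  ring

lemma Xi_block {v : ℝ → ℝ} {R0 : ℝ} (hR0 : 0 < R0) (hv : Adm v R0) {G ν ℓ ρs b a a' : ℝ}
    (hℓ : 1 ≤ ℓ) (hρs : 1 ≤ ρs)
    (hE : ∀ (m : ℕ) (x : Fin m → Pt), (∀ i, x i ∈ cube ℓ) →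
      -(Eu (rad v) x) ≤ b * m - a * (m : ℝ) ^ 2 / ℓ ^ 3)
    (hG : G * ℓ ^ 3 / 2 + a' ≤ a) (ha' : 0 ≤ a') (hρ : ν + b + 2 ≤ a' * ρs) :
    ∃ m : ℕ, (m : ℝ) ≤ ρs * ℓ ^ 3 ∧
      0 ≤ ν * m + G / 2 * (m : ℝ) ^ 2 + (ℓ + R0) ^ 3 * Pr v (m / (ℓ + R0) ^ 3) ∧
      Xi (rad (fun s => v s - G)) (ν + G / 2) (cube ℓ) ≤ ENNReal.ofReal ((ρs * ℓ ^ 3 + 3) *
        Real.exp (ν * m + G / 2 * (m : ℝ) ^ 2 + (ℓ + R0) ^ 3 * Pr v (m / (ℓ + R0) ^ 3))) := by
  classical
  have hℓ0 : 0 < ℓ := by linarith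
  have hℓ3 : 0 < ℓ ^ 3 := by positivity
  set F : ℕ → ℝ := fun m =>
    ν * m + G / 2 * (m : ℝ) ^ 2 + (ℓ + R0) ^ 3 * Pr v (m / (ℓ + R0) ^ 3) with hF
  set M := ⌊ρs * ℓ ^ 3⌋₊ with hM
  have hMle : (M : ℝ) ≤ ρs * ℓ ^ 3 := Nat.floor_le (by positivity)
  obtain ⟨ms, hms, hmax⟩ := Finset.exists_max_image (Finset.range (M + 1)) F
    ⟨0, by simp⟩
  have hF0 : 0 ≤ F ms := by
    have h1 := hmax 0 (by simp)
    have h2 : F 0 = 0 := by
      simp only [hF]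
      simp [Pr_zero hR0 hv]
    linarith
  refine ⟨ms, ?_, hF0, ?_⟩
  · have h1 : ms ≤ M := by
      rw [Finset.mem_range] at hms
      omega
    have h2 : (ms : ℝ) ≤ M := by exact_mod_cast h1
    linarith
  -- termwise bounds
  have hterm0 : ∀ m : ℕ, ENNReal.ofReal (Real.exp ((ν + G / 2) * m)) *
      Z (rad (fun s => v s - G)) (cube ℓ) m ≤
      ENNReal.ofReal (Real.exp (ν * m + G / 2 * (m : ℝ) ^ 2)) * Z (rad v) (cube ℓ) m := by
    intro m
    have h1 : Z (rad (fun s => v s - G)) (cube ℓ) m ≤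
        ENNReal.ofReal (Real.exp (G / 2 * ((m : ℝ) ^ 2 - m))) * Z (rad v) (cube ℓ) m := by
      apply Z_le_of_energy (measurableSet_cube ℓ)
      intro x _
      rw [Eu_sub_const]
      linarith
    refine (mul_le_mul_right h1 _).trans (le_of_eq ?_)
    rw [← mul_assoc, ← ENNReal.ofReal_mul (Real.exp_pos _).le, ← Real.exp_add]
    congr 3
    ring
  have hterm1 : ∀ m : ℕ, ENNReal.ofReal (Real.exp ((ν + G / 2) * m)) *
      Z (rad (fun s => v s - G)) (cube ℓ) m ≤ ENNReal.ofReal (Real.exp (F m)) := by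
    intro m
    refine (hterm0 m).trans ?_
    obtain ⟨B, hB⟩ := hv.stab
    have h1 : Z (rad v) (cube ℓ) m = ENNReal.ofReal (ZL v ℓ m) :=
      (ENNReal.ofReal_toReal (Z_cube_lt_top_of_adm hv hℓ0.le m).ne).symm
    have h2 : ZL v ℓ m ≤ Real.exp ((ℓ + R0) ^ 3 * Pr v (m / (ℓ + R0) ^ 3)) := by
      rw [← Real.log_le_iff_le_exp (ZL_pos hv.meas hB hℓ0 m)]
      exact log_ZL_le hR0 hv hℓ0 m
    rw [h1, ← ENNReal.ofReal_mul (Real.exp_pos _).le]
    apply ENNReal.ofReal_le_ofReal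
    rw [show F m = (ν * m + G / 2 * (m : ℝ) ^ 2) + (ℓ + R0) ^ 3 * Pr v (m / (ℓ + R0) ^ 3) from rfl,
      Real.exp_add (ν * m + G / 2 * (m : ℝ) ^ 2)]
    exact mul_le_mul_of_nonneg_left h2 (Real.exp_pos _).le
  have hterm2 : ∀ m : ℕ, ρs * ℓ ^ 3 ≤ m → ENNReal.ofReal (Real.exp ((ν + G / 2) * m)) *
      Z (rad (fun s => v s - G)) (cube ℓ) m ≤ (2⁻¹ : ℝ≥0∞) ^ m := by
    intro m hm
    refine (hterm0 m).trans ?_
    have h2 : Z (rad v) (cube ℓ) m ≤ ENNReal.ofReal (Real.exp (b * m - a * (m : ℝ) ^ 2 / ℓ ^ 3)) *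
        Z (fun _ _ => 0) (cube ℓ) m := by
      apply Z_le_of_energy (measurableSet_cube ℓ)
      intro x hx
      have h0 : Eu (fun _ _ => 0) x = 0 := by simp [Eu]
      rw [h0]
      have := hE m x hx
      linarith
    have h3 : Z (fun _ _ => 0) (cube ℓ) m ≤ ENNReal.ofReal (Real.exp m) := by
      rw [Z_free, volume_cube hℓ0.le, ← ENNReal.ofReal_pow (by positivity),
        ← ENNReal.ofReal_natCast m.factorial, ← ENNReal.ofReal_inv_of_pos (by positivity),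
        ← ENNReal.ofReal_mul (by positivity)]
      apply ENNReal.ofReal_le_ofReal
      have h4 := Real.pow_div_factorial_le_exp (x := ℓ ^ 3) (by positivity) m
      rw [div_eq_inv_mul] at h4
      refine h4.trans (Real.exp_le_exp.mpr ?_)
      nlinarith
    have h5 : ENNReal.ofReal (Real.exp (ν * m + G / 2 * (m : ℝ) ^ 2)) * Z (rad v) (cube ℓ) m ≤
        ENNReal.ofReal (Real.exp (-(m : ℝ))) := by
      refine (mul_le_mul_right (h2.trans (mul_le_mul_right h3 _)) _).trans ?_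
      rw [← ENNReal.ofReal_mul (Real.exp_pos _).le, ← ENNReal.ofReal_mul (Real.exp_pos _).le,
        ← Real.exp_add, ← Real.exp_add]
      apply ENNReal.ofReal_le_ofReal
      apply Real.exp_le_exp.mpr
      have hm0 : (0 : ℝ) ≤ m := Nat.cast_nonneg _
      -- (ν + b + 2) m ≤ a' ρs m ≤ a' m²/ℓ³
      have e1 : (ν + b + 2) * m ≤ a' * ρs * m := mul_le_mul_of_nonneg_right hρ hm0
      have e2 : a' * ρs * m ≤ a' * ((m : ℝ) ^ 2 / ℓ ^ 3) := by
        rw [mul_assoc]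
        apply mul_le_mul_of_nonneg_left _ ha'
        rw [le_div_iff₀ hℓ3]
        nlinarith
      have e3 : (G * ℓ ^ 3 / 2 + a') * ((m : ℝ) ^ 2 / ℓ ^ 3) ≤ a * ((m : ℝ) ^ 2 / ℓ ^ 3) :=
        mul_le_mul_of_nonneg_right hG (by positivity)
      have e4 : (G * ℓ ^ 3 / 2) * ((m : ℝ) ^ 2 / ℓ ^ 3) = G / 2 * (m : ℝ) ^ 2 := by
        field_simp
      have e5 : a * (m : ℝ) ^ 2 / ℓ ^ 3 = a * ((m : ℝ) ^ 2 / ℓ ^ 3) := by ring
      rw [e5]
      nlinarith
    refine h5.trans ?_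
    have h6 : Real.exp (-(m : ℝ)) ≤ (1 / 2 : ℝ) ^ m := by
      have h7 : Real.exp (-(m : ℝ)) = (Real.exp (-1)) ^ m := by
        rw [← Real.exp_nat_mul]
        congr 1
        ring
      rw [h7]
      apply pow_le_pow_left₀ (Real.exp_pos _).le
      rw [Real.exp_neg, one_div]
      apply inv_anti₀ (by norm_num)
      have := Real.add_one_le_exp (1:ℝ)
      linarith
    refine (ENNReal.ofReal_le_ofReal h6).trans (le_of_eq ?_)
    rw [ENNReal.ofReal_pow (by norm_num), one_div, ENNReal.ofReal_inv_of_pos (by norm_num)]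
    simp
  -- summation
  have hsum : Xi (rad (fun s => v s - G)) (ν + G / 2) (cube ℓ) ≤
      ∑' m : ℕ, ((if m ∈ Finset.range (M + 1) then ENNReal.ofReal (Real.exp (F ms)) else 0) +
        (2⁻¹ : ℝ≥0∞) ^ m) := by
    unfold Xi
    apply ENNReal.tsum_le_tsum
    intro m
    by_cases hm : m ∈ Finset.range (M + 1)
    · rw [if_pos hm]
      refine (hterm1 m).trans (le_trans ?_ le_self_add)
      exact ENNReal.ofReal_le_ofReal (Real.exp_le_exp.mpr (hmax m hm))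
    · rw [if_neg hm, zero_add]
      apply hterm2
      rw [Finset.mem_range, not_lt] at hm
      have h8 : (M : ℝ) + 1 ≤ m := by exact_mod_cast hm
      have h9 := Nat.lt_floor_add_one (ρs * ℓ ^ 3)
      linarith
  refine hsum.trans ?_
  rw [ENNReal.tsum_add, ENNReal.tsum_geometric, tsum_eq_sum (s := Finset.range (M + 1))
    (by intro m hm; rw [if_neg hm])]
  rw [Finset.sum_ite_of_true (by intro m hm; exact hm), Finset.sum_const, Finset.card_range,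
    nsmul_eq_mul]
  have h10 : ((1 : ℝ≥0∞) - 2⁻¹)⁻¹ = 2 := by
    rw [ENNReal.one_sub_inv_two, inv_inv]
  rw [h10]
  have h11 : ((M + 1 : ℕ) : ℝ≥0∞) * ENNReal.ofReal (Real.exp (F ms)) + 2 =
      ENNReal.ofReal (((M : ℝ) + 1) * Real.exp (F ms) + 2) := by
    rw [ENNReal.ofReal_add (by positivity) (by norm_num), ENNReal.ofReal_mul (by positivity)]
    congr 1
    · congr 1
      rw [← ENNReal.ofReal_natCast]
      congr 1
      push_cast
      ring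
    · simp
  rw [h11]
  apply ENNReal.ofReal_le_ofReal
  have h12 : 1 ≤ Real.exp (F ms) := Real.one_le_exp hF0
  show ((M : ℝ) + 1) * Real.exp (F ms) + 2 ≤ (ρs * ℓ ^ 3 + 3) * Real.exp (F ms)
  nlinarith

lemma same_mono_double {t R : ℝ} (x y : Pt) : same t R x y ≤ same t (2 * R) x y := by
  classical
  rw [same_eq, same_eq]
  by_cases h : cell t R x = cell t R y
  · have h2 : cell t (2 * R) x = cell t (2 * R) y := by
      funext a
      have ha : ⌊(x a - t) / R⌋ = ⌊(y a - t) / R⌋ := congrFun h a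
      have e : ∀ z : ℝ, ⌊z / (2 * R)⌋ = ⌊z / R⌋ / 2 := by
        intro z
        have h3 : z / (2 * R) = z / R / ((2 : ℕ) : ℝ) := by
          rw [div_div]
          congr 1
          push_cast
          ring
        rw [h3, Int.floor_div_natCast]
        rfl
      show ⌊(x a - t) / (2 * R)⌋ = ⌊(y a - t) / (2 * R)⌋
      rw [e, e, ha]
    rw [if_pos h, if_pos h2]
  · rw [if_neg h]
    split_ifs <;> norm_num

/-- Uniform bound for the strongly attractive block. -/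
lemma Xi_strong {φ0 A : ℝ → ℝ} {B D : ℝ} {ℓ : ℝ} (hℓ : 0 < ℓ)
    (hsup : ∀ (N : ℕ) (x : Fin N → Pt), (∀ i, x i ∈ cube ℓ) →
          D * (N : ℝ) ^ 2 / ℓ ^ 3 - B * N ≤ Eu (rad φ0) x - 2 * Eu (rad A) x)
    {β g ν' : ℝ} (hβ : 0 ≤ β) (hg : 0 ≤ g) (hgD : g * ℓ ^ 3 / 2 ≤ D) :
    Xi (rad (fun s => β * (φ0 s - 2 * A s - g))) ν' (cube ℓ) ≤
      ENNReal.ofReal (Real.exp (ℓ ^ 3 * Real.exp (ν' + β * B))) := by
  apply Xi_le_exp hℓ.le
  intro m x hx
  have h1 : rad (fun s => β * (φ0 s - 2 * A s - g)) =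
      rad (fun s => (fun s => β * (φ0 s - 2 * A s)) s - β * g) := by
    funext p q
    simp only [rad]
    ring
  have h2 : Eu (rad (fun s => β * (φ0 s - 2 * A s))) x =
      β * (Eu (rad φ0) x - 2 * Eu (rad A) x) := by
    have : rad (fun s => β * (φ0 s - 2 * A s)) =
        fun p q => β * ((fun p q => rad φ0 p q + (-2) * rad A p q) p q) := by
      funext p q
      simp only [rad]
      ring
    rw [this, Eu_smul, Eu_add, Eu_smul]
    ring
  rw [h1, Eu_sub_const, h2]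
  have h3 := hsup m x hx
  have hm0 : (0 : ℝ) ≤ m := Nat.cast_nonneg _
  have h4 : g / 2 * (m : ℝ) ^ 2 ≤ D * (m : ℝ) ^ 2 / ℓ ^ 3 := by
    rw [le_div_iff₀ (by positivity)]
    nlinarith [mul_le_mul_of_nonneg_right hgD (sq_nonneg (m : ℝ))]
  have h5 : -(Eu (rad φ0) x - 2 * Eu (rad A) x) + g / 2 * ((m : ℝ) ^ 2 - m) ≤ B * m := by
    have : 0 ≤ g / 2 * (m : ℝ) := by positivity
    nlinarith
  have := mul_le_mul_of_nonneg_left h5 hβ
  linarith

lemma log_toReal_le_of_le {X : ℝ≥0∞} {y : ℝ} (h1 : 1 ≤ X) (h : X ≤ ENNReal.ofReal (Real.exp y)) :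
    Real.log X.toReal ≤ y := by
  have hfin : X ≠ ∞ := (h.trans_lt ENNReal.ofReal_lt_top).ne
  have h2 : 0 < X.toReal := ENNReal.toReal_pos (lt_of_lt_of_le one_pos h1).ne' hfin
  have h3 : X.toReal ≤ Real.exp y := ENNReal.toReal_le_of_le_ofReal (Real.exp_pos _).le h
  have h4 := Real.log_le_log h2 h3
  rwa [Real.log_exp] at h4

lemma log_term {ρs ℓ : ℝ} (hℓ : 1 ≤ ℓ) (hρs : 1 ≤ ρs) :
    (1 / ℓ) ^ 3 * Real.log (ρs * ℓ ^ 3 + 3) ≤ (ρs + 5) * (1 / ℓ) := by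
  have hℓ0 : 0 < ℓ := by linarith
  have h1 : ρs * ℓ ^ 3 + 3 ≤ (ρs + 3) * ℓ ^ 3 := by
    have : 1 ≤ ℓ ^ 3 := one_le_pow₀ hℓ
    nlinarith
  have h2 : Real.log (ρs * ℓ ^ 3 + 3) ≤ (ρs + 2) + 3 * ℓ := by
    refine (Real.log_le_log (by positivity) h1).trans ?_
    rw [Real.log_mul (by positivity) (by positivity), Real.log_pow]
    have h3 := Real.log_le_sub_one_of_pos (show 0 < ρs + 3 by linarith)
    have h4 := Real.log_le_sub_one_of_pos hℓ0
    push_cast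
    linarith
  have h5 : (ρs + 2) + 3 * ℓ ≤ (ρs + 5) * ℓ ^ 2 := by
    have h6 : ℓ ≤ ℓ ^ 2 := by nlinarith
    have h7 : 1 ≤ ℓ ^ 2 := one_le_pow₀ hℓ
    nlinarith
  calc (1 / ℓ) ^ 3 * Real.log (ρs * ℓ ^ 3 + 3) ≤ (1 / ℓ) ^ 3 * ((ρs + 5) * ℓ ^ 2) := by
        apply mul_le_mul_of_nonneg_left (h2.trans h5) (by positivity)
    _ = _ := by field_simp

section T2

variable {b1 b2 νb S B D Cj : ℝ} {φ0 A j : ℝ → ℝ} {β ν c : ℝ} {r : ℝ} {n : ℕ} {R : ℝ}

/-- The case of few shifts. -/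
lemma T2_small (hb1 : 0 < b1) (hb : b1 ≤ b2) (hS : 0 ≤ S)
    (hB : 0 ≤ B) (hD : 8 * S * (1 + Cj) + 8 ≤ D) (hCj : 0 < Cj)
    (hφm : Measurable φ0) (hAm : Measurable A) (hφ : ∀ r, 0 ≤ r → 0 ≤ φ0 r)
    (hA : ∀ r, 0 ≤ r → 0 ≤ A r) (hj : IsKernel j Cj)
    (hsup : ∀ L : ℝ, 1 ≤ L → ∀ (N : ℕ) (x : Fin N → Pt), (∀ i, x i ∈ cube L) →
          D * (N : ℝ) ^ 2 / L ^ 3 - B * N ≤ Eu (rad φ0) x - 2 * Eu (rad A) x)
    (hβ1 : b1 ≤ β) (hβ2 : β ≤ b2) (hν : |ν| ≤ νb) (hc0 : 0 ≤ c) (hcS : c ≤ S)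
    (hr : 1 ≤ r) (hn : 4 ≤ n) (hnR : (n : ℝ) * r ≤ R)
    (hAr : ∀ s, r ≤ s → A s = 0)
    (hadm1 : Adm (fun s => β * (φ0 s - A s - c * JR j R s)) 2) {ρ : ℝ} (hρ : 0 ≤ ρ) :
    ν * ρ + Pr (fun s => β * (φ0 s - A s - c * JR j R s)) ρ ≤
      Real.exp (νb + b2 * (S * (1 + Cj)) + b2 * B) := by
  have hb2 : 0 < b2 := by linarith
  have hβ0 : 0 < β := by linarith
  have hr0 : 0 < r := by linarith
  have hn4 : (4 : ℝ) ≤ n := by exact_mod_cast hn
  have hR4 : 4 * r ≤ R := by nlinarith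
  have hR0 : 0 < R := by linarith
  have hν' := abs_le.mp hν
  have hJ0 : 0 ≤ (fun s => c * JR j R s) 0 := by
    simp only [JR]
    have := hj.nonneg (0 / R)
    positivity
  have hβB : β * B ≤ b2 * B := mul_le_mul_of_nonneg_right hβ2 hB
  have h7 : c * (1 + Cj) ≤ S * (1 + Cj) := mul_le_mul_of_nonneg_right hcS (by linarith)
  have h9 : 0 ≤ S * (1 + Cj) := by positivity
  set g : ℝ := c * (1 + Cj) / R ^ 3 with hg
  have hg0 : 0 ≤ g := by positivity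
  have hJ : ∀ (t : ℝ) (N : ℕ) (x : Fin N → Pt),
      ∑ i, ∑ k, (fun s => c * JR j R s) (dist (x i) (x k)) ≤
      g * ∑ i, ∑ k, same t (2 * R) (x i) (x k) := by
    intro t N x
    have h1 := hj.upper R hR0 R hR0 le_rfl t N x
    have h2 : ∑ i, ∑ k, same t R (x i) (x k) ≤ ∑ i, ∑ k, same t (2 * R) (x i) (x k) :=
      Finset.sum_le_sum (fun i _ => Finset.sum_le_sum (fun k _ => same_mono_double _ _))
    have h3 : ∑ i, ∑ k, (fun s => c * JR j R s) (dist (x i) (x k)) =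
        c * ∑ i, ∑ k, JR j R (dist (x i) (x k)) := by
      simp only [Finset.mul_sum]
    rw [h3]
    have h4 : (1 + Cj * R / R) * (R ^ 3)⁻¹ * ∑ i, ∑ k, same t R (x i) (x k) ≤
        (1 + Cj) / R ^ 3 * ∑ i, ∑ k, same t (2 * R) (x i) (x k) := by
      have h5 : (1 + Cj * R / R) * (R ^ 3)⁻¹ = (1 + Cj) / R ^ 3 := by
        field_simp
      rw [h5]
      exact mul_le_mul_of_nonneg_left h2 (by positivity)
    have h6 := mul_le_mul_of_nonneg_left (h1.trans h4) hc0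
    refine h6.trans (le_of_eq ?_)
    rw [hg]
    ring
  have h2R : 1 ≤ 2 * R := by linarith
  have hX : Xi (rad (fun s => β * (φ0 s - 2 * A s - g))) (ν + β * g / 2) (cube (2 * R)) ≤
      ENNReal.ofReal (Real.exp ((2 * R) ^ 3 * Real.exp ((ν + β * g / 2) + β * B))) := by
    apply Xi_strong (by linarith) (fun N x hx => hsup (2 * R) h2R N x hx) hβ0.le hg0
    have : g * (2 * R) ^ 3 / 2 = 4 * (c * (1 + Cj)) := by
      rw [hg]
      field_simp
      ring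
    rw [this]
    linarith
  have hblock := block_bound hφm hAm hφ hA (n := 8) (by norm_num) hr0 (ℓ := 2 * R)
    (by push_cast; linarith) hAr (θ := 2) (by norm_num) hJ0 hJ hβ0.le (ν := ν)
    (hX.trans_lt ENNReal.ofReal_lt_top) (by norm_num : (0:ℝ) < 2) hadm1 hρ
  have hlog := log_toReal_le_of_le (one_le_Xi _ _ _) hX
  have hexp : Real.exp ((ν + β * g / 2) + β * B) ≤
      Real.exp (νb + b2 * (S * (1 + Cj)) + b2 * B) := by
    apply Real.exp_le_exp.mpr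
    have h4 : g ≤ S * (1 + Cj) := by
      rw [hg]
      have hR1 : 1 ≤ R ^ 3 := one_le_pow₀ (by linarith)
      rw [div_le_iff₀ (by positivity)]
      nlinarith
    have h5 : β * g ≤ b2 * (S * (1 + Cj)) := mul_le_mul hβ2 h4 hg0 hb2.le
    have h6 : 0 ≤ b2 * (S * (1 + Cj)) := by positivity
    linarith [hν'.2]
  have h10 : (1 / (2 * R)) ^ 3 * ((2 * R) ^ 3 *
      Real.exp (νb + b2 * (S * (1 + Cj)) + b2 * B)) =
      Real.exp (νb + b2 * (S * (1 + Cj)) + b2 * B) := by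
    field_simp
  refine hblock.trans ?_
  rw [← h10]
  exact mul_le_mul_of_nonneg_left
    (hlog.trans (mul_le_mul_of_nonneg_left hexp (by positivity))) (by positivity)

/-- The main case, grand canonical form. -/
lemma T2_large_Xi (hb1 : 0 < b1) (hb : b1 ≤ b2) (_hνb : 0 ≤ νb) (hS : 0 ≤ S)
    (hB : 0 ≤ B) (hD : 8 * S * (1 + Cj) + 8 ≤ D) (hCj : 0 < Cj)
    (hφm : Measurable φ0) (hAm : Measurable A) (hφ : ∀ r, 0 ≤ r → 0 ≤ φ0 r)
    (hA : ∀ r, 0 ≤ r → 0 ≤ A r) (hj : IsKernel j Cj)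
    (hsup : ∀ L : ℝ, 1 ≤ L → ∀ (N : ℕ) (x : Fin N → Pt), (∀ i, x i ∈ cube L) →
          D * (N : ℝ) ^ 2 / L ^ 3 - B * N ≤ Eu (rad φ0) x - 2 * Eu (rad A) x)
    (hβ1 : b1 ≤ β) (hβ2 : β ≤ b2) (hν : |ν| ≤ νb) (hc0 : 0 ≤ c) (hcS : c ≤ S)
    (hr : 1 ≤ r) (hn : 7 ≤ n) {ℓ : ℝ} (hℓ : ℓ = n * r) (hnR : ℓ ≤ R)
    (hAr : ∀ s, r ≤ s → A s = 0) (hadm0 : Adm (fun s => β * (φ0 s - A s)) 2)
    (hadm1 : Adm (fun s => β * (φ0 s - A s - c * JR j R s)) 2) {ρ : ℝ} (hρ : 0 ≤ ρ)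
    {ρs : ℝ} (hρs1 : 1 ≤ ρs) (hρs : νb + b2 * B + 2 ≤ b1 * 8 * ρs) {g : ℝ}
    (hg : g = c * (1 + Cj * ℓ / R) / ℓ ^ 3) :
    ∃ m : ℕ, (m : ℝ) ≤ ρs * ℓ ^ 3 ∧
      ν * ρ + Pr (fun s => β * (φ0 s - A s - c * JR j R s)) ρ ≤
        (1 / ℓ) ^ 3 * (Real.log (ρs * ℓ ^ 3 + 3) + (ν * m + β * g / 2 * (m : ℝ) ^ 2 +
          (ℓ + 2) ^ 3 * Pr (fun s => β * (φ0 s - A s)) (m / (ℓ + 2) ^ 3))) +
          6 * Real.exp (νb + b2 * (S * (1 + Cj)) + b2 * B) * (1 / n) := by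
  have hb2 : 0 < b2 := by linarith
  have hβ0 : 0 < β := by linarith
  have hr0 : 0 < r := by linarith
  have hn7 : (7 : ℝ) ≤ n := by exact_mod_cast hn
  have hℓ7 : 7 ≤ ℓ := by rw [hℓ]; nlinarith
  have hℓ0 : 0 < ℓ := by linarith
  have hR0 : 0 < R := by linarith
  have hν' := abs_le.mp hν
  have hJ0 : 0 ≤ (fun s => c * JR j R s) 0 := by
    simp only [JR]
    have := hj.nonneg (0 / R)
    positivity
  have hβB : β * B ≤ b2 * B := mul_le_mul_of_nonneg_right hβ2 hB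
  have h7 : c * (1 + Cj) ≤ S * (1 + Cj) := mul_le_mul_of_nonneg_right hcS (by linarith)
  have h9 : 0 ≤ S * (1 + Cj) := by positivity
  have hℓR : ℓ / R ≤ 1 := by rw [div_le_one hR0]; exact hnR
  have hcc : c * (1 + Cj * ℓ / R) ≤ c * (1 + Cj) := by
    apply mul_le_mul_of_nonneg_left _ hc0
    have : Cj * ℓ / R = Cj * (ℓ / R) := by ring
    rw [this]
    nlinarith
  have hcc0 : 0 ≤ c * (1 + Cj * ℓ / R) := by positivity
  have hg0 : 0 ≤ g := by rw [hg]; positivity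
  have hgℓ : g * ℓ ^ 3 = c * (1 + Cj * ℓ / R) := by
    rw [hg]
    field_simp
  have hgS : g ≤ S * (1 + Cj) := by
    have hℓ1 : 1 ≤ ℓ ^ 3 := one_le_pow₀ (by linarith)
    have : g ≤ g * ℓ ^ 3 := by nlinarith
    linarith
  have hJ : ∀ (t : ℝ) (N : ℕ) (x : Fin N → Pt),
      ∑ i, ∑ k, (fun s => c * JR j R s) (dist (x i) (x k)) ≤
      g * ∑ i, ∑ k, same t ℓ (x i) (x k) := by
    intro t N x
    have h1 := hj.upper R hR0 ℓ hℓ0 hnR t N x
    have h3 : ∑ i, ∑ k, (fun s => c * JR j R s) (dist (x i) (x k)) =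
        c * ∑ i, ∑ k, JR j R (dist (x i) (x k)) := by
      simp only [Finset.mul_sum]
    rw [h3]
    have h6 := mul_le_mul_of_nonneg_left h1 hc0
    refine h6.trans (le_of_eq ?_)
    rw [hg]
    ring
  set θ : ℝ := 1 + 6 / n with hθ
  have hθn : (n : ℝ) ≤ θ * (n - 3) := by
    have h1 : θ * ((n : ℝ) - 3) = n + 3 - 18 / n := by
      rw [hθ]
      field_simp
      ring
    rw [h1]
    have h2 : 18 / (n : ℝ) ≤ 3 := by
      rw [div_le_iff₀ (by linarith)]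
      linarith
    linarith
  have ht0 : 0 < 6 / (n : ℝ) := by positivity
  have ht1 : 6 / (n : ℝ) < 1 := by
    rw [div_lt_one (by linarith)]
    linarith
  set C1 : ℝ := Real.exp (νb + b2 * (S * (1 + Cj)) + b2 * B) with hC1
  set ν' : ℝ := ν + β * g / 2 with hν'def
  -- strongly attractive block
  have hX1 : Xi (rad (fun s => β * (φ0 s - 2 * A s - g))) ν' (cube ℓ) ≤
      ENNReal.ofReal (Real.exp (ℓ ^ 3 * C1)) := by
    refine (Xi_strong (B := B) (D := D) hℓ0 (fun N x hx => hsup ℓ (by linarith) N x hx) hβ0.le hg0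
      ?_).trans ?_
    · rw [hgℓ]
      linarith
    · apply ENNReal.ofReal_le_ofReal
      apply Real.exp_le_exp.mpr
      apply mul_le_mul_of_nonneg_left _ (by positivity)
      apply Real.exp_le_exp.mpr
      have h5 : β * g ≤ b2 * (S * (1 + Cj)) := mul_le_mul hβ2 hgS hg0 hb2.le
      have h6 : 0 ≤ b2 * (S * (1 + Cj)) := by positivity
      rw [hν'def]
      linarith [hν'.2]
  -- the block with the exact potential
  have hE : ∀ (m : ℕ) (x : Fin m → Pt), (∀ i, x i ∈ cube ℓ) →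
      -(Eu (rad (fun s => β * (φ0 s - A s))) x) ≤ β * B * m - β * D * (m : ℝ) ^ 2 / ℓ ^ 3 := by
    intro m x hx
    have h1 := hsup ℓ (by linarith) m x hx
    have h2 : Eu (rad (fun s => β * (φ0 s - A s))) x = β * (Eu (rad φ0) x - Eu (rad A) x) := by
      have : rad (fun s => β * (φ0 s - A s)) =
          fun p q => β * ((fun p q => rad φ0 p q + (-1) * rad A p q) p q) := by
        funext p q
        simp only [rad]
        ring
      rw [this, Eu_smul, Eu_add, Eu_smul]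
      ring
    have h3 : 0 ≤ Eu (rad A) x := Eu_nonneg_blk x (fun i k => hA _ dist_nonneg)
    rw [h2]
    have h4 : D * (m : ℝ) ^ 2 / ℓ ^ 3 - B * m ≤ Eu (rad φ0) x - Eu (rad A) x := by linarith
    have h5 := mul_le_mul_of_nonneg_left h4 hβ0.le
    have h6 : β * D * (m : ℝ) ^ 2 / ℓ ^ 3 = β * (D * (m : ℝ) ^ 2 / ℓ ^ 3) := by ring
    rw [h6]
    linarith
  obtain ⟨m, hm1, hm2, hm3⟩ := Xi_block (by norm_num : (0:ℝ) < 2) hadm0 (G := β * g) (ν := ν)
    (ℓ := ℓ) (ρs := ρs) (b := β * B) (a := β * D) (a' := β * 8) (by linarith) hρs1 hE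
    (by
      have h1 : β * g * ℓ ^ 3 / 2 = β * (g * ℓ ^ 3 / 2) := by ring
      rw [h1, hgℓ, ← mul_add]
      apply mul_le_mul_of_nonneg_left _ hβ0.le
      linarith)
    (by positivity)
    (by
      have h1 : b1 * 8 * ρs ≤ β * 8 * ρs := by
        apply mul_le_mul_of_nonneg_right _ (by linarith)
        linarith
      linarith [hν'.2])
  refine ⟨m, hm1, ?_⟩
  set F : ℝ := ν * m + β * g / 2 * (m : ℝ) ^ 2 +
          (ℓ + 2) ^ 3 * Pr (fun s => β * (φ0 s - A s)) (m / (ℓ + 2) ^ 3) with hF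
  set Y0 : ℝ := Real.log (ρs * ℓ ^ 3 + 3) + F with hY0
  have hpos3 : 0 < ρs * ℓ ^ 3 + 3 := by positivity
  have hY0nn : 0 ≤ Y0 := by
    have : 0 ≤ Real.log (ρs * ℓ ^ 3 + 3) := Real.log_nonneg (by
      have : 0 ≤ ρs * ℓ ^ 3 := by positivity
      linarith)
    linarith
  have hX0 : Xi (rad (fun s => β * (φ0 s - A s) - β * g)) ν' (cube ℓ) ≤
      ENNReal.ofReal (Real.exp Y0) := by
    rw [hY0, Real.exp_add, Real.exp_log hpos3]
    exact hm3
  -- interpolation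
  have hcomb : rad (fun s => β * (φ0 s - θ * A s - g)) =
      fun x y => (1 - 6 / (n : ℝ)) * rad (fun s => β * (φ0 s - A s) - β * g) x y +
        6 / (n : ℝ) * rad (fun s => β * (φ0 s - 2 * A s - g)) x y := by
    funext p q
    simp only [rad, hθ]
    ring
  have hm0 : Measurable (fun s => β * (φ0 s - A s) - β * g) :=
    ((hφm.sub hAm).const_mul β).sub_const _
  have hm1' : Measurable (fun s => β * (φ0 s - 2 * A s - g)) :=
    ((hφm.sub (hAm.const_mul 2)).sub_const g).const_mul β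
  have hhol := Xi_holder (goodPair_rad hm0) (goodPair_rad hm1') (cube ℓ) ν' ν' ht0 ht1
  rw [← hcomb, show (1 - 6 / (n : ℝ)) * ν' + 6 / (n : ℝ) * ν' = ν' by ring] at hhol
  have hXle : Xi (rad (fun s => β * (φ0 s - θ * A s - g))) ν' (cube ℓ) ≤
      ENNReal.ofReal (Real.exp (Y0 + 6 / n * (ℓ ^ 3 * C1))) := by
    refine hhol.trans ?_
    have h1 : Xi (rad (fun s => β * (φ0 s - A s) - β * g)) ν' (cube ℓ) ^ (1 - 6 / (n : ℝ)) ≤
        ENNReal.ofReal (Real.exp Y0) := by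
      refine (ENNReal.rpow_le_rpow hX0 (by linarith)).trans ?_
      rw [ENNReal.ofReal_rpow_of_pos (Real.exp_pos _), ← Real.exp_mul]
      apply ENNReal.ofReal_le_ofReal
      apply Real.exp_le_exp.mpr
      exact mul_le_of_le_one_right hY0nn (by linarith)
    have h2 : Xi (rad (fun s => β * (φ0 s - 2 * A s - g))) ν' (cube ℓ) ^ (6 / (n : ℝ)) ≤
        ENNReal.ofReal (Real.exp (6 / n * (ℓ ^ 3 * C1))) := by
      refine (ENNReal.rpow_le_rpow hX1 (by linarith)).trans ?_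
      rw [ENNReal.ofReal_rpow_of_pos (Real.exp_pos _), ← Real.exp_mul]
      apply ENNReal.ofReal_le_ofReal
      apply Real.exp_le_exp.mpr
      rw [mul_comm]
    rw [Real.exp_add, ENNReal.ofReal_mul (Real.exp_pos _).le]
    exact mul_le_mul' h1 h2
  have hblock := block_bound hφm hAm hφ hA (n := n) (by omega) hr0 (ℓ := ℓ)
    hℓ.ge hAr (θ := θ) hθn hJ0 hJ hβ0.le (ν := ν)
    (hXle.trans_lt ENNReal.ofReal_lt_top) (by norm_num : (0:ℝ) < 2) hadm1 hρ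
  have hlog := log_toReal_le_of_le (one_le_Xi _ _ _) hXle
  refine hblock.trans ?_
  refine (mul_le_mul_of_nonneg_left hlog (by positivity)).trans (le_of_eq ?_)
  rw [mul_add]
  congr 1
  field_simp

end T2

/-- Real arithmetic of the main case. -/
lemma T2_arith {ℓ ρs C2 ν P β c Cj R m b2 S g : ℝ} (hℓ : 2 ≤ ℓ) (hR : ℓ ≤ R) (hCj : 0 < Cj)
    (hβ0 : 0 < β) (hβ2 : β ≤ b2) (hc0 : 0 ≤ c) (hcS : c ≤ S) (hm0 : 0 ≤ m)
    (hm : m ≤ ρs * ℓ ^ 3) (hρs : 1 ≤ ρs) (hg : g = c * (1 + Cj * ℓ / R) / ℓ ^ 3)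
    (hC2 : 0 ≤ C2) (hP : ν * (m / (ℓ + 2) ^ 3) + P ≤ C2) :
    (1 / ℓ) ^ 3 * (ν * m + β * g / 2 * m ^ 2 + (ℓ + 2) ^ 3 * P) ≤
      ν * (m / (ℓ + 2) ^ 3) + P + β * c * (m / (ℓ + 2) ^ 3) ^ 2 / 2 +
        (14 * C2 + 63 * (b2 * S * ρs ^ 2)) * (1 / ℓ) + 32 * (b2 * S * ρs ^ 2) * Cj * (ℓ / R) := by
  have hℓ0 : 0 < ℓ := by linarith
  have hR0 : 0 < R := by linarith
  set q : ℝ := m / (ℓ + 2) ^ 3 with hq
  have hmq : m = (ℓ + 2) ^ 3 * q := by
    rw [hq]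
    field_simp
  have hq0 : 0 ≤ q := by positivity
  have hqρ : q ≤ ρs := by
    rw [hq, div_le_iff₀ (by positivity)]
    refine hm.trans ?_
    apply mul_le_mul_of_nonneg_left _ (by linarith)
    exact pow_le_pow_left₀ hℓ0.le (by linarith) 3
  set y : ℝ := 1 / ℓ with hy
  have hy0 : 0 < y := by positivity
  have hy2 : y ≤ 1 / 2 := one_div_le_one_div_of_le (by norm_num) hℓ
  set z : ℝ := ℓ / R with hz
  have hz0 : 0 < z := by positivity
  have hz1 : z ≤ 1 := by rw [hz, div_le_one hR0]; exact hR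
  set p : ℝ := (1 + 2 * y) ^ 3 with hp
  have hpe : (1 / ℓ) ^ 3 * (ℓ + 2) ^ 3 = p := by
    rw [hp, hy]
    field_simp
  have hgz : g = c * (1 + Cj * z) * (1 / ℓ) ^ 3 := by
    rw [hg, hz]
    ring
  have e1 : (1 / ℓ) ^ 3 * (ν * m + β * g / 2 * m ^ 2 + (ℓ + 2) ^ 3 * P) =
      p * (ν * q + P) + β * c / 2 * (1 + Cj * z) * p ^ 2 * q ^ 2 := by
    rw [← hpe, hgz]
    generalize (ℓ + 2) ^ 3 = E at hmq ⊢
    rw [hmq]
    ring
  have hyy : y ^ 2 ≤ y / 2 := by nlinarith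
  have hyyy : y ^ 3 ≤ y / 4 := by
    have : y ^ 3 = y * y ^ 2 := by ring
    rw [this]
    nlinarith
  have hp1 : 1 ≤ p := by
    rw [hp]
    exact one_le_pow₀ (by linarith)
  have hp2 : p ≤ 1 + 14 * y := by
    have : p = 1 + 6 * y + 12 * y ^ 2 + 8 * y ^ 3 := by
      rw [hp]
      ring
    rw [this]
    linarith
  have hpp : p ^ 2 ≤ 1 + 126 * y := by
    have h1 : p ^ 2 ≤ (1 + 14 * y) ^ 2 := pow_le_pow_left₀ (by linarith) hp2 2
    have h2 : (1 + 14 * y) ^ 2 = 1 + 28 * y + 196 * y ^ 2 := by ring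
    rw [h2] at h1
    linarith
  have hpp64 : p ^ 2 ≤ 64 := by linarith
  clear_value p y z q
  have e2 : p * (ν * q + P) ≤ (ν * q + P) + 14 * C2 * y := by
    have h1 : (p - 1) * (ν * q + P) ≤ (p - 1) * C2 :=
      mul_le_mul_of_nonneg_left hP (by linarith)
    have h2 : (p - 1) * C2 ≤ 14 * y * C2 := mul_le_mul_of_nonneg_right (by linarith) hC2
    linarith
  have e3 : (1 + Cj * z) * p ^ 2 ≤ 1 + 126 * y + 64 * Cj * z := by
    have h1 : Cj * z * p ^ 2 ≤ Cj * z * 64 := mul_le_mul_of_nonneg_left hpp64 (by positivity)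
    linarith
  have e4 : q ^ 2 ≤ ρs ^ 2 := pow_le_pow_left₀ hq0 hqρ 2
  have e5 : β * c ≤ b2 * S := mul_le_mul hβ2 hcS hc0 (by linarith)
  have e6 : β * c * q ^ 2 ≤ b2 * S * ρs ^ 2 :=
    mul_le_mul e5 e4 (by positivity) ((mul_nonneg hβ0.le hc0).trans e5)
  have e7 : β * c / 2 * (1 + Cj * z) * p ^ 2 * q ^ 2 ≤
      β * c * q ^ 2 / 2 + (63 * (b2 * S * ρs ^ 2)) * y + 32 * (b2 * S * ρs ^ 2) * Cj * z := by
    have h1 : β * c * q ^ 2 / 2 * ((1 + Cj * z) * p ^ 2) ≤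
        β * c * q ^ 2 / 2 * (1 + 126 * y + 64 * Cj * z) :=
      mul_le_mul_of_nonneg_left e3 (by positivity)
    have h2 : β * c * q ^ 2 / 2 * (126 * y + 64 * Cj * z) ≤
        b2 * S * ρs ^ 2 / 2 * (126 * y + 64 * Cj * z) :=
      mul_le_mul_of_nonneg_right (by linarith) (by positivity)
    calc β * c / 2 * (1 + Cj * z) * p ^ 2 * q ^ 2
        = β * c * q ^ 2 / 2 * ((1 + Cj * z) * p ^ 2) := by ring
      _ ≤ β * c * q ^ 2 / 2 * (1 + 126 * y + 64 * Cj * z) := h1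
      _ = β * c * q ^ 2 / 2 + β * c * q ^ 2 / 2 * (126 * y + 64 * Cj * z) := by ring
      _ ≤ β * c * q ^ 2 / 2 + b2 * S * ρs ^ 2 / 2 * (126 * y + 64 * Cj * z) := by linarith
      _ = _ := by ring
  rw [← hy] at e1
  rw [e1]
  linarith

theorem T2 (b1 b2 νb S B D Cj : ℝ) (hb1 : 0 < b1) (hb : b1 ≤ b2) (hνb : 0 ≤ νb) (hS : 0 ≤ S)
    (hB : 0 ≤ B) (hD : 8 * S * (1 + Cj) + 8 ≤ D) (hCj : 0 < Cj) :
    ∃ C ρm : ℝ, 0 < C ∧ 1 ≤ ρm ∧
      ∀ (φ0 A j : ℝ → ℝ), Measurable φ0 → Measurable A → (∀ r, 0 ≤ r → 0 ≤ φ0 r) →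
        (∀ r, 2 ≤ r → φ0 r = 0) → (∀ r, 0 ≤ r → 0 ≤ A r) → IsKernel j Cj →
        (∀ L : ℝ, 1 ≤ L → ∀ (N : ℕ) (x : Fin N → Pt), (∀ i, x i ∈ cube L) →
          D * (N : ℝ) ^ 2 / L ^ 3 - B * N ≤ Eu (rad φ0) x - 2 * Eu (rad A) x) →
        ∀ β : ℝ, b1 ≤ β → β ≤ b2 → ∀ ν : ℝ, |ν| ≤ νb → ∀ c : ℝ, 0 ≤ c → c ≤ S →
        ∀ (r : ℝ) (n : ℕ) (R : ℝ), 1 ≤ r → 4 ≤ n → (n : ℝ) * r ≤ R →
        (∀ s, r ≤ s → A s = 0) →
        Adm (fun s => β * (φ0 s - A s)) 2 → Adm (fun s => β * (φ0 s - A s - c * JR j R s)) 2 →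
        ∀ ρ : ℝ, 0 ≤ ρ → ∃ ρ' : ℝ, 0 ≤ ρ' ∧ ρ' ≤ ρm ∧
          ν * ρ + Pr (fun s => β * (φ0 s - A s - c * JR j R s)) ρ ≤
            ν * ρ' + Pr (fun s => β * (φ0 s - A s)) ρ' + β * c * ρ' ^ 2 / 2 +
              C * (1 / n + n * r / R + 1 / (n * r)) := by
  have hb2 : 0 < b2 := by linarith
  set ρs : ℝ := 1 + (νb + b2 * B + 2) / (8 * b1) with hρs
  have hρs1 : 1 ≤ ρs := by
    have : 0 ≤ (νb + b2 * B + 2) / (8 * b1) := by positivity
    linarith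
  have hρs0 : 0 < ρs := by linarith
  have hρs2 : νb + b2 * B + 2 ≤ b1 * 8 * ρs := by
    have h1 : b1 * 8 * ρs = b1 * 8 + (νb + b2 * B + 2) := by
      rw [hρs]
      field_simp
    rw [h1]
    linarith
  set C1 : ℝ := Real.exp (νb + b2 * (S * (1 + Cj)) + b2 * B) with hC1
  have hC1pos : 0 < C1 := Real.exp_pos _
  set C2 : ℝ := νb * ρs + (1 + b2 * B * ρs) with hC2
  have hC2pos : 0 < C2 := by positivity
  have hD8 : 0 ≤ D := by
    have : 0 ≤ 8 * S * (1 + Cj) := by positivity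
    linarith
  set C3 : ℝ := 14 * C2 + 63 * (b2 * S * ρs ^ 2) + (ρs + 5) with hC3
  have hC3pos : 0 < C3 := by positivity
  set C4 : ℝ := 32 * (b2 * S * ρs ^ 2) * Cj with hC4
  have hC4nn : 0 ≤ C4 := by positivity
  refine ⟨6 * C1 + C3 + C4, ρs, by positivity, hρs1, ?_⟩
  intro φ0 A j hφm hAm hφ hφ2 hA hj hsup β hβ1 hβ2 ν hν c hc0 hcS r n R hr hn hnR hAr hadm0 hadm1
    ρ hρ
  have hβ0 : 0 < β := by linarith
  have hr0 : 0 < r := by linarith
  have hn4 : (4 : ℝ) ≤ n := by exact_mod_cast hn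
  have hnr : 4 ≤ (n : ℝ) * r := by nlinarith
  have hR0 : 0 < R := by linarith
  have hν' := abs_le.mp hν
  have h12 : 0 < (n : ℝ) * r / R := by positivity
  have h13 : 0 < 1 / ((n : ℝ) * r) := by positivity
  have h14 : 0 < 1 / (n : ℝ) := by positivity
  rcases Nat.lt_or_ge n 7 with hn7 | hn7
  · refine ⟨0, le_rfl, by linarith, ?_⟩
    have h1 := T2_small hb1 hb hS hB hD hCj hφm hAm hφ hA hj hsup hβ1 hβ2 hν hc0 hcS hr hn hnR
      hAr hadm1 hρ
    rw [Pr_zero (by norm_num : (0:ℝ) < 2) hadm0]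
    refine h1.trans ?_
    have h8 : (n : ℝ) ≤ 6 := by
      have : n ≤ 6 := by omega
      exact_mod_cast this
    have h15 : 1 / 6 ≤ 1 / (n : ℝ) := one_div_le_one_div_of_le (by linarith) h8
    have h16 : (6 * C1 + C3 + C4) * (1 / 6) ≤ (6 * C1 + C3 + C4) *
        (1 / n + n * r / R + 1 / (n * r)) := by
      apply mul_le_mul_of_nonneg_left _ (by positivity)
      linarith
    rw [← hC1]
    have h17 : C1 ≤ (6 * C1 + C3 + C4) * (1 / 6) := by linarith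
    have h18 : ν * 0 + 0 + β * c * 0 ^ 2 / 2 = 0 := by ring
    rw [h18]
    linarith
  · obtain ⟨m, hm1, hm2⟩ := T2_large_Xi hb1 hb hνb hS hB hD hCj hφm hAm hφ hA hj hsup hβ1 hβ2 hν
      hc0 hcS hr hn7 (ℓ := n * r) rfl hnR hAr hadm0 hadm1 hρ hρs1 hρs2 rfl
    set ℓ : ℝ := n * r with hℓ
    have hℓ0 : 0 < ℓ := by linarith
    have hm0 : (0 : ℝ) ≤ m := Nat.cast_nonneg _
    have hq0 : 0 ≤ (m : ℝ) / (ℓ + 2) ^ 3 := by positivity
    have hqρ : (m : ℝ) / (ℓ + 2) ^ 3 ≤ ρs := by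
      rw [div_le_iff₀ (by positivity)]
      refine hm1.trans ?_
      apply mul_le_mul_of_nonneg_left _ (by linarith)
      exact pow_le_pow_left₀ hℓ0.le (by linarith) 3
    refine ⟨m / (ℓ + 2) ^ 3, hq0, hqρ, ?_⟩
    have hP : Pr (fun s => β * (φ0 s - A s)) ((m : ℝ) / (ℓ + 2) ^ 3) ≤
        1 + b2 * B * ((m : ℝ) / (ℓ + 2) ^ 3) := by
      apply Pr_le_linear (by norm_num : (0:ℝ) < 2) hadm0 hq0
      intro L hL N x hx
      have h1 := hsup L hL N x hx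
      have h2 : Eu (rad (fun s => β * (φ0 s - A s))) x = β * (Eu (rad φ0) x - Eu (rad A) x) := by
        have : rad (fun s => β * (φ0 s - A s)) =
            fun p q => β * ((fun p q => rad φ0 p q + (-1) * rad A p q) p q) := by
          funext p q
          simp only [rad]
          ring
        rw [this, Eu_smul, Eu_add, Eu_smul]
        ring
      have h3 : 0 ≤ Eu (rad A) x := Eu_nonneg_blk x (fun i k => hA _ dist_nonneg)
      have h5 : 0 ≤ D * (N : ℝ) ^ 2 / L ^ 3 := by positivity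
      have h4 : -(B * N) ≤ Eu (rad φ0) x - Eu (rad A) x := by linarith
      have h6 := mul_le_mul_of_nonneg_left h4 hβ0.le
      have h7 : β * (B * N) ≤ b2 * (B * N) := mul_le_mul_of_nonneg_right hβ2 (by positivity)
      rw [h2]
      linarith
    have hPC : ν * ((m : ℝ) / (ℓ + 2) ^ 3) + Pr (fun s => β * (φ0 s - A s))
        ((m : ℝ) / (ℓ + 2) ^ 3) ≤ C2 := by
      have h1 : ν * ((m : ℝ) / (ℓ + 2) ^ 3) ≤ νb * ρs :=
        (mul_le_mul_of_nonneg_right hν'.2 hq0).trans (mul_le_mul_of_nonneg_left hqρ hνb)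
      have h2 : b2 * B * ((m : ℝ) / (ℓ + 2) ^ 3) ≤ b2 * B * ρs :=
        mul_le_mul_of_nonneg_left hqρ (by positivity)
      linarith
    have har := T2_arith (ℓ := ℓ) (ρs := ρs) (C2 := C2) (ν := ν)
      (P := Pr (fun s => β * (φ0 s - A s)) ((m : ℝ) / (ℓ + 2) ^ 3)) (β := β) (c := c) (Cj := Cj)
      (R := R) (m := m) (b2 := b2) (S := S) (g := c * (1 + Cj * ℓ / R) / ℓ ^ 3) (by linarith)
      hnR hCj hβ0 hβ2 hc0 hcS hm0 hm1 hρs1 rfl hC2pos.le hPC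
    have hlt := log_term (ρs := ρs) (ℓ := ℓ) (by linarith) hρs1
    refine hm2.trans ?_
    rw [mul_add ((1 / ℓ) ^ 3)]
    have h19 : (C3 + C4) * (1 / (n : ℝ)) + (6 * C1 + C3) * (ℓ / R) + (6 * C1 + C4) * (1 / ℓ) ≥ 0 := by
      positivity
    have h20 : (6 * C1 + C3 + C4) * (1 / n + ℓ / R + 1 / ℓ) =
        6 * C1 * (1 / n) + C3 * (1 / ℓ) + C4 * (ℓ / R) +
        ((C3 + C4) * (1 / (n : ℝ)) + (6 * C1 + C3) * (ℓ / R) + (6 * C1 + C4) * (1 / ℓ)) := by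
      ring
    rw [h20]
    have h21 : (14 * C2 + 63 * (b2 * S * ρs ^ 2)) * (1 / ℓ) + (ρs + 5) * (1 / ℓ) = C3 * (1 / ℓ) := by
      rw [hC3]
      ring
    linarith

end Crest.Agent.Kac
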