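import Crest.Agent.Kac.Defs

/-! K4: the mean-field kernel `j = f * f`. -/

set_option autoImplicit false
open MeasureTheory Filter Topology
open scoped ENNReal

namespace Crest.Agent.Kac

namespace Kernel

/-- unnormalised bump -/
noncomputable def b0 (y : Pt) : ℝ := max 0 (1 / 2 - ‖y‖)

theorem b0_cont : Continuous b0 := by
  unfold b0
  fun_prop

theorem b0_nonneg (y : Pt) : 0 ≤ b0 y := le_max_left _ _

theorem b0_zero {y : Pt} (h : 1 / 2 ≤ ‖y‖) : b0 y = 0 := max_eq_left (by linarith)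

theorem b0_le (y : Pt) : b0 y ≤ 1 / 2 := max_le (by norm_num) (by
  have := norm_nonneg y; linarith)

theorem b0_lip (y z : Pt) : |b0 y - b0 z| ≤ ‖y - z‖ := by
  unfold b0
  rw [max_comm 0, max_comm 0]
  refine (abs_max_sub_max_le_abs (1 / 2 - ‖y‖) (1 / 2 - ‖z‖) 0).trans ?_
  have h : (1 / 2 - ‖y‖) - (1 / 2 - ‖z‖) = ‖z‖ - ‖y‖ := by ring
  rw [h, abs_sub_comm]
  exact abs_norm_sub_norm_le y z

theorem b0_supp : HasCompactSupport b0 := by
  apply HasCompactSupport.of_support_subset_isCompact (isCompact_closedBall (0 : Pt) (1 / 2))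
  intro y hy
  rw [Metric.mem_closedBall, dist_zero_right]
  by_contra h
  exact hy (b0_zero (by linarith))

theorem b0_int : Integrable b0 := b0_cont.integrable_of_hasCompactSupport b0_supp

noncomputable def m0 : ℝ := ∫ y, b0 y

theorem m0_pos : 0 < m0 := by
  apply b0_cont.integral_pos_of_hasCompactSupport_nonneg_nonzero b0_supp (fun y => b0_nonneg y)
    (x := 0)
  simp [b0]

/-- normalised bump -/
noncomputable def f (y : Pt) : ℝ := b0 y / m0

theorem f_cont : Continuous f := b0_cont.div_const _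

theorem f_nonneg (y : Pt) : 0 ≤ f y := div_nonneg (b0_nonneg y) m0_pos.le

theorem f_zero {y : Pt} (h : 1 / 2 ≤ ‖y‖) : f y = 0 := by simp [f, b0_zero h]

theorem f_le (y : Pt) : f y ≤ 1 / m0 := by
  unfold f
  have := b0_le y
  have := m0_pos
  gcongr
  linarith

theorem f_lip (y z : Pt) : |f y - f z| ≤ 1 / m0 * ‖y - z‖ := by
  unfold f
  rw [← sub_div, abs_div, abs_of_pos m0_pos, one_div_mul_eq_div]
  have := m0_pos
  have := b0_lip y z
  gcongr

theorem f_supp : HasCompactSupport f := by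
  apply HasCompactSupport.of_support_subset_isCompact (isCompact_closedBall (0 : Pt) (1 / 2))
  intro y hy
  rw [Metric.mem_closedBall, dist_zero_right]
  by_contra h
  exact hy (f_zero (by linarith))

theorem f_int : Integrable f := f_cont.integrable_of_hasCompactSupport f_supp

theorem integral_f : ∫ y, f y = 1 := by
  unfold f
  rw [integral_div]
  exact div_self m0_pos.ne'

theorem f_norm {y z : Pt} (h : ‖y‖ = ‖z‖) : f y = f z := by
  simp [f, b0, h]

noncomputable def e0 : Pt := EuclideanSpace.single 0 1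

theorem norm_e0 : ‖e0‖ = 1 := by simp [e0]

/-- the kernel -/
noncomputable def j (r : ℝ) : ℝ := ∫ y, f y * f (y - r • e0)

theorem j_norm (z : Pt) : j ‖z‖ = ∫ y, f y * f (y - z) := by
  have hz : ‖(‖z‖ • e0)‖ = ‖z‖ := by rw [norm_smul, norm_e0]; simp
  set ρ : Pt ≃ₗᵢ[ℝ] Pt := (ℝ ∙ ((‖z‖ • e0) - z))ᗮ.reflection with hρ
  have h1 : ρ (‖z‖ • e0) = z := Submodule.reflection_sub hz
  have h2 : ∫ y, f y * f (y - z) = ∫ y, f (ρ y) * f (ρ y - z) := by
    exact (ρ.measurePreserving.integral_comp ρ.toMeasurableEquiv.measurableEmbedding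
      (fun y => f y * f (y - z))).symm
  rw [h2]
  unfold j
  congr 1
  ext y
  rw [f_norm (y := ρ y) (z := y) (by simp)]
  congr 1
  nth_rewrite 2 [← h1]
  rw [← map_sub]
  exact f_norm (ρ.norm_map _).symm

theorem mul_int (a b : Pt) : Integrable (fun y => f (y - a) * f (y - b)) := by
  have h1 : Integrable (fun y => f (y - a)) := f_int.comp_sub_right a
  refine h1.mul_bdd (c := 1 / m0) ?_ ?_
  · exact (f_cont.comp (continuous_id.sub continuous_const)).aestronglyMeasurable
  · filter_upwards with y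
    rw [Real.norm_eq_abs, abs_of_nonneg (f_nonneg _)]
    exact f_le _

theorem j_lip (r s : ℝ) : |j r - j s| ≤ 1 / m0 * |r - s| := by
  unfold j
  have h1 : Integrable (fun y => f y * f (y - r • e0)) := by simpa using mul_int 0 (r • e0)
  have h2 : Integrable (fun y => f y * f (y - s • e0)) := by simpa using mul_int 0 (s • e0)
  rw [← integral_sub h1 h2]
  calc |∫ y, (f y * f (y - r • e0) - f y * f (y - s • e0))|
      ≤ ∫ y, |f y * f (y - r • e0) - f y * f (y - s • e0)| := abs_integral_le_integral_abs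
    _ ≤ ∫ y, f y * (1 / m0 * |r - s|) := by
        apply integral_mono (h1.sub h2).abs (f_int.mul_const _)
        intro y
        show |f y * f (y - r • e0) - f y * f (y - s • e0)| ≤ f y * (1 / m0 * |r - s|)
        rw [← mul_sub, abs_mul, abs_of_nonneg (f_nonneg y)]
        apply mul_le_mul_of_nonneg_left _ (f_nonneg y)
        refine (f_lip _ _).trans (le_of_eq ?_)
        congr 1
        have : y - r • e0 - (y - s • e0) = (s - r) • e0 := by rw [sub_smul]; abel
        rw [this, norm_smul, norm_e0, mul_one, Real.norm_eq_abs, abs_sub_comm]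
    _ = 1 / m0 * |r - s| := by
        rw [integral_mul_const, integral_f, one_mul]

theorem j_cont : Continuous j := by
  rw [Metric.continuous_iff]
  intro s ε hε
  have hm := m0_pos
  refine ⟨ε * m0, by positivity, fun r hr => ?_⟩
  rw [Real.dist_eq] at hr ⊢
  calc |j r - j s| ≤ 1 / m0 * |r - s| := j_lip r s
    _ < 1 / m0 * (ε * m0) := by gcongr
    _ = ε := by field_simp

theorem j_nonneg (r : ℝ) : 0 ≤ j r :=
  integral_nonneg (fun _ => mul_nonneg (f_nonneg _) (f_nonneg _))

theorem j_supp (r : ℝ) (hr : 1 ≤ r) : j r = 0 := by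
  unfold j
  rw [← integral_zero Pt ℝ (μ := volume)]
  congr 1
  ext y
  by_cases h1 : 1 / 2 ≤ ‖y‖
  · simp [f_zero h1]
  · rw [f_zero (y := y - r • e0), mul_zero]
    have h2 : r = ‖r • e0‖ := by
      rw [norm_smul, norm_e0, mul_one, Real.norm_eq_abs, abs_of_nonneg (by linarith)]
    have h3 : ‖r • e0‖ ≤ ‖y‖ + ‖y - r • e0‖ := by
      have : r • e0 = y - (y - r • e0) := by abel
      calc ‖r • e0‖ = ‖y - (y - r • e0)‖ := by rw [← this]
        _ ≤ _ := norm_sub_le _ _
    push Not at h1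
    linarith

theorem j_zero : 0 < j 0 := by
  unfold j
  have h : Continuous (fun y => f y * f (y - (0 : ℝ) • e0)) := by
    have := f_cont
    fun_prop
  refine h.integral_pos_of_hasCompactSupport_nonneg_nonzero (f_supp.mul_right)
    (fun _ => mul_nonneg (f_nonneg _) (f_nonneg _)) (x := 0) ?_
  have := m0_pos
  simp [f, b0, this.ne']

theorem j_le (r : ℝ) : j r ≤ 1 / m0 := by
  unfold j
  have h1 : Integrable (fun y => f y * f (y - r • e0)) := by simpa using mul_int 0 (r • e0)
  calc ∫ y, f y * f (y - r • e0) ≤ ∫ y, f y * (1 / m0) := by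
        apply integral_mono h1 (f_int.mul_const _)
        intro y
        exact mul_le_mul_of_nonneg_left (f_le _) (f_nonneg y)
    _ = 1 / m0 := by rw [integral_mul_const, integral_f, one_mul]

/-- total mass one -/
theorem integral_j : ∫ z : Pt, j ‖z‖ = 1 := by
  have h := integral_convolution (μ := (volume : Measure Pt)) (ν := (volume : Measure Pt))
    (ContinuousLinearMap.mul ℝ ℝ) f_int f_int
  rw [integral_f] at h
  simp only [ContinuousLinearMap.mul_apply', mul_one] at h
  rw [← h]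
  congr 1
  ext z
  rw [j_norm, convolution_def]
  congr 1
  ext y
  rw [ContinuousLinearMap.mul_apply', f_norm (norm_sub_rev y z)]

/-! ### scaled bump -/

noncomputable def fR (R : ℝ) (y : Pt) : ℝ := (R ^ 3)⁻¹ * f (R⁻¹ • y)

theorem fR_cont (R : ℝ) : Continuous (fR R) := by
  unfold fR
  have := f_cont
  fun_prop

theorem fR_nonneg {R : ℝ} (hR : 0 < R) (y : Pt) : 0 ≤ fR R y :=
  mul_nonneg (by positivity) (f_nonneg _)

theorem integral_fR {R : ℝ} (hR : 0 < R) : ∫ y, fR R y = 1 := by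
  unfold fR
  rw [integral_const_mul, Measure.integral_comp_smul, integral_f]
  simp only [finrank_euclideanSpace, Fintype.card_fin, inv_pow, inv_inv, smul_eq_mul, mul_one]
  rw [abs_of_pos (by positivity)]
  field_simp

theorem fR_zero {R : ℝ} (hR : 0 < R) {y : Pt} (h : R / 2 ≤ ‖y‖) : fR R y = 0 := by
  unfold fR
  rw [f_zero, mul_zero]
  rw [norm_smul, norm_inv, Real.norm_eq_abs, abs_of_pos hR]
  rw [← div_eq_inv_mul, div_le_div_iff₀ (by norm_num) hR]
  linarith

theorem fR_int {R : ℝ} (hR : 0 < R) : Integrable (fR R) := by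
  unfold fR
  exact (f_int.comp_smul (by positivity)).const_mul _

theorem fR_mul_int {R : ℝ} (hR : 0 < R) (a b : Pt) :
    Integrable (fun y => fR R (y - a) * fR R (y - b)) := by
  have h1 : Integrable (fun y => fR R (y - a)) := (fR_int hR).comp_sub_right a
  refine h1.mul_bdd (c := (R ^ 3)⁻¹ * (1 / m0)) ?_ ?_
  · exact ((fR_cont R).comp (continuous_id.sub continuous_const)).aestronglyMeasurable
  · filter_upwards with y
    rw [Real.norm_eq_abs, abs_of_nonneg (fR_nonneg hR _)]
    exact mul_le_mul_of_nonneg_left (f_le _) (by positivity)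

theorem JR_eq {R : ℝ} (hR : 0 < R) (a b : Pt) :
    JR j R (dist a b) = ∫ y, fR R (y - a) * fR R (y - b) := by
  have h1 : ∫ y, fR R (y - a) * fR R (y - b) = ∫ y, fR R y * fR R (y - (b - a)) := by
    rw [← integral_add_right_eq_self (μ := volume) _ a]
    congr 1
    ext y
    congr 2 <;> abel_nf
  have h2 : dist a b / R = ‖R⁻¹ • (b - a)‖ := by
    rw [norm_smul, norm_inv, Real.norm_eq_abs, abs_of_pos hR, ← dist_eq_norm, dist_comm]
    ring
  rw [h1, JR, h2, j_norm]
  have h3 : ∀ y, fR R y * fR R (y - (b - a)) =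
      ((R ^ 3)⁻¹ * (R ^ 3)⁻¹) * (fun w => f w * f (w - R⁻¹ • (b - a))) (R⁻¹ • y) := by
    intro y
    simp only [fR]
    rw [smul_sub]
    ring
  simp_rw [h3]
  rw [integral_const_mul, Measure.integral_comp_smul (μ := volume)
    (fun w => f w * f (w - R⁻¹ • (b - a)))]
  simp only [finrank_euclideanSpace, Fintype.card_fin, inv_pow, inv_inv, smul_eq_mul]
  rw [abs_of_pos (by positivity)]
  field_simp

theorem volume_box (s : Fin 3 → Set ℝ) :
    volume {y : Pt | ∀ a, y a ∈ s a} = ∏ a, volume (s a) := by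
  have h := (EuclideanSpace.volume_preserving_symm_measurableEquiv_toLp (Fin 3)).measure_preimage_equiv
    (Set.pi Set.univ s)
  rw [volume_pi_pi] at h
  rw [← h]
  congr 1
  ext y
  simp [Set.mem_pi]

theorem lower_bound {R : ℝ} (hR : 0 < R) {L : ℝ} (hL : 0 ≤ L) (N : ℕ) (x : Fin N → Pt)
    (hx : ∀ i, x i ∈ cube L) :
    (N : ℝ) ^ 2 / (L + R) ^ 3 ≤ ∑ i, ∑ k, JR j R (dist (x i) (x k)) := by
  set g : Pt → ℝ := fun y => ∑ i, fR R (y - x i) with hg
  have hgint : Integrable g := by
    apply integrable_finsetSum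
    intro i _
    exact (fR_int hR).comp_sub_right _
  have hg1 : ∫ y, g y = N := by
    rw [hg, integral_finsetSum _ (fun i _ => (fR_int hR).comp_sub_right _)]
    rw [Finset.sum_congr rfl (g := fun _ => (1 : ℝ))]
    · simp
    · intro i _
      rw [integral_sub_right_eq_self (fun y => fR R y), integral_fR hR]
  have hg2i : Integrable (fun y => g y ^ 2) := by
    have : (fun y => g y ^ 2) = fun y => ∑ i, ∑ k, fR R (y - x i) * fR R (y - x k) := by
      ext y
      rw [sq, hg, Finset.sum_mul_sum]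
    rw [this]
    apply integrable_finsetSum
    intro i _
    apply integrable_finsetSum
    intro k _
    exact fR_mul_int hR _ _
  have hg2 : ∫ y, g y ^ 2 = ∑ i, ∑ k, JR j R (dist (x i) (x k)) := by
    have : (fun y => g y ^ 2) = fun y => ∑ i, ∑ k, fR R (y - x i) * fR R (y - x k) := by
      ext y
      rw [sq, hg, Finset.sum_mul_sum]
    rw [this, integral_finsetSum _ (fun i _ => integrable_finsetSum _
      (fun k _ => fR_mul_int hR _ _))]
    refine Finset.sum_congr rfl (fun i _ => ?_)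
    rw [integral_finsetSum _ (fun k _ => fR_mul_int hR _ _)]
    refine Finset.sum_congr rfl (fun k _ => ?_)
    rw [JR_eq hR]
  set Λ : Set Pt := {y | ∀ a, y a ∈ Set.Icc (-(R / 2)) (L + R / 2)} with hΛ
  have hvol : volume.real Λ = (L + R) ^ 3 := by
    rw [measureReal_def, hΛ, volume_box (fun _ => Set.Icc (-(R / 2)) (L + R / 2))]
    simp only [Real.volume_Icc, Finset.prod_const, Finset.card_univ, Fintype.card_fin]
    rw [← ENNReal.ofReal_pow (by linarith), ENNReal.toReal_ofReal (pow_nonneg (by linarith) _)]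
    ring
  have hvt : volume Λ ≠ ⊤ := by
    rw [hΛ, volume_box (fun _ => Set.Icc (-(R / 2)) (L + R / 2))]
    simp
  have hout : ∀ y ∉ Λ, g y = 0 := by
    intro y hy
    apply Finset.sum_eq_zero
    intro i _
    apply fR_zero hR
    by_contra hlt
    push Not at hlt
    apply hy
    intro a
    have h1 : |(y - x i) a| ≤ ‖y - x i‖ := by
      have := EuclideanSpace.norm_eq (y - x i)
      rw [this, ← Real.sqrt_sq_eq_abs]
      apply Real.sqrt_le_sqrt
      rw [← sq_abs, ← Real.norm_eq_abs]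
      exact Finset.single_le_sum (f := fun a => ‖(y - x i) a‖ ^ 2) (fun _ _ => by positivity)
        (Finset.mem_univ a)
    have h2 : |y a - x i a| < R / 2 := lt_of_le_of_lt h1 hlt
    rw [abs_lt] at h2
    have h3 := hx i a
    constructor <;> linarith [h3.1, h3.2]
  have hI1 : ∫ y in Λ, g y = N := by
    rw [setIntegral_eq_integral_of_forall_compl_eq_zero hout, hg1]
  have hI2 : ∫ y in Λ, g y ^ 2 = ∫ y, g y ^ 2 :=
    setIntegral_eq_integral_of_forall_compl_eq_zero (fun y hy => by rw [hout y hy]; simp)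
  have hV : 0 < (L + R) ^ 3 := by positivity
  set A : ℝ := N / (L + R) ^ 3 with hA
  have h0 : 0 ≤ ∫ y in Λ, (g y - A) ^ 2 := integral_nonneg (fun y => sq_nonneg _)
  have h1 : ∫ y in Λ, (g y - A) ^ 2 = (∫ y in Λ, g y ^ 2) - 2 * A * (∫ y in Λ, g y) +
      A ^ 2 * volume.real Λ := by
    have e : ∀ y, (g y - A) ^ 2 = (g y ^ 2 - 2 * A * g y) + A ^ 2 := fun y => by ring
    simp_rw [e]
    rw [integral_add, integral_sub, integral_const_mul, setIntegral_const, smul_eq_mul]
    · ring
    · exact hg2i.integrableOn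
    · exact (hgint.const_mul _).integrableOn
    · exact (hg2i.sub (hgint.const_mul _)).integrableOn
    · exact integrableOn_const hvt
  rw [h1, hI1, hI2, hvol] at h0
  rw [← hg2]
  have h2 : (∫ y, g y ^ 2) - 2 * A * N + A ^ 2 * (L + R) ^ 3 =
      (∫ y, g y ^ 2) - (N : ℝ) ^ 2 / (L + R) ^ 3 := by
    rw [hA]; field_simp; ring
  rw [h2] at h0
  linarith

theorem abs_coord_le (z : Pt) (a : Fin 3) : |z a| ≤ ‖z‖ := by
  have := EuclideanSpace.norm_eq z
  rw [this, ← Real.sqrt_sq_eq_abs]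
  apply Real.sqrt_le_sqrt
  rw [← sq_abs, ← Real.norm_eq_abs]
  exact Finset.single_le_sum (f := fun a => ‖z a‖ ^ 2) (fun _ _ => by positivity)
    (Finset.mem_univ a)

/-! ### cells -/

theorem same_comm (t ℓ : ℝ) (x y : Pt) : same t ℓ x y = same t ℓ y x := by
  unfold same
  simp only [eq_comm]

theorem same_nonneg (t ℓ : ℝ) (x y : Pt) : 0 ≤ same t ℓ x y := by
  unfold same
  split_ifs <;> norm_num

theorem same_self (t ℓ : ℝ) (x : Pt) : same t ℓ x x = 1 := by
  unfold same
  simp

theorem cell_eq_iff {t ℓ : ℝ} (hℓ : 0 < ℓ) (x y : Pt) :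
    cell t ℓ x = cell t ℓ y ↔ ∀ a, y a ∈ Set.Ico (t + ℓ * (cell t ℓ x a : ℝ))
      (t + ℓ * (cell t ℓ x a : ℝ) + ℓ) := by
  rw [funext_iff]
  refine forall_congr' (fun a => ?_)
  rw [eq_comm]
  conv_lhs => rw [show cell t ℓ y a = ⌊(y a - t) / ℓ⌋ from rfl]
  rw [Int.floor_eq_iff, le_div_iff₀ hℓ, div_lt_iff₀ hℓ, Set.mem_Ico]
  constructor
  · rintro ⟨h1, h2⟩
    constructor <;> linarith
  · rintro ⟨h1, h2⟩
    constructor <;> linarith

theorem cell_dist {t ℓ : ℝ} (hℓ : 0 < ℓ) {x y : Pt} (h : cell t ℓ x = cell t ℓ y) :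
    ‖x - y‖ ≤ 2 * ℓ := by
  have h1 := (cell_eq_iff hℓ x y).1 h
  have h2 := (cell_eq_iff (t := t) hℓ x x).1 rfl
  rw [EuclideanSpace.norm_eq]
  apply Real.sqrt_le_iff.2
  refine ⟨by positivity, ?_⟩
  calc ∑ a, ‖(x - y) a‖ ^ 2 ≤ ∑ a : Fin 3, ℓ ^ 2 := by
        apply Finset.sum_le_sum
        intro a _
        rw [Real.norm_eq_abs, sq_abs, ← sq_abs]
        apply pow_le_pow_left₀ (abs_nonneg _)
        have h3 := h1 a
        have h4 := h2 a
        rw [Set.mem_Ico] at h3 h4
        show |x a - y a| ≤ ℓ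
        rw [abs_le]
        constructor <;> linarith [h3.1, h3.2, h4.1, h4.2]
    _ ≤ (2 * ℓ) ^ 2 := by
        simp only [Finset.sum_const, Finset.card_univ, Fintype.card_fin, nsmul_eq_mul]
        push_cast
        nlinarith [sq_nonneg ℓ]

def cellSet (t ℓ : ℝ) (x : Pt) : Set Pt := {y | cell t ℓ x = cell t ℓ y}

theorem cellSet_eq {t ℓ : ℝ} (hℓ : 0 < ℓ) (x : Pt) :
    cellSet t ℓ x = {y | ∀ a, y a ∈ Set.Ico (t + ℓ * (cell t ℓ x a : ℝ))
      (t + ℓ * (cell t ℓ x a : ℝ) + ℓ)} := by
  ext y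
  exact cell_eq_iff hℓ x y

theorem cellSet_vol {t ℓ : ℝ} (hℓ : 0 < ℓ) (x : Pt) :
    volume (cellSet t ℓ x) = ENNReal.ofReal (ℓ ^ 3) := by
  rw [cellSet_eq hℓ, volume_box (fun a => Set.Ico (t + ℓ * (cell t ℓ x a : ℝ))
      (t + ℓ * (cell t ℓ x a : ℝ) + ℓ))]
  simp only [Real.volume_Ico, add_sub_cancel_left, Finset.prod_const, Finset.card_univ,
    Fintype.card_fin]
  rw [← ENNReal.ofReal_pow hℓ.le]

theorem cellSet_meas {t ℓ : ℝ} (hℓ : 0 < ℓ) (x : Pt) : MeasurableSet (cellSet t ℓ x) := by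
  rw [cellSet_eq hℓ]
  have : {y : Pt | ∀ a, y a ∈ Set.Ico (t + ℓ * (cell t ℓ x a : ℝ))
      (t + ℓ * (cell t ℓ x a : ℝ) + ℓ)} = ⋂ a : Fin 3, (fun y : Pt => y a) ⁻¹'
      (Set.Ico (t + ℓ * (cell t ℓ x a : ℝ)) (t + ℓ * (cell t ℓ x a : ℝ) + ℓ)) := by
    ext y; simp
  rw [this]
  exact MeasurableSet.iInter (fun a => (by fun_prop : Measurable (fun y : Pt => y a))
      measurableSet_Ico)

theorem same_eq_indicator (t ℓ : ℝ) (x y : Pt) :
    same t ℓ x y = (cellSet t ℓ x).indicator (fun _ => (1 : ℝ)) y := by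
  classical
  unfold same cellSet
  simp [Set.indicator_apply]

/-- enlarged kernel -/
noncomputable def Jt (R ℓ : ℝ) (z : Pt) : ℝ :=
  JR j R ‖z‖ + (2 * ℓ * (1 / m0) * (R ^ 4)⁻¹) *
    (Metric.closedBall (0 : Pt) (3 * R)).indicator (fun _ => (1 : ℝ)) z

theorem JR_nonneg {R : ℝ} (hR : 0 < R) (r : ℝ) : 0 ≤ JR j R r :=
  mul_nonneg (by positivity) (j_nonneg _)

theorem JR_lip {R : ℝ} (hR : 0 < R) (r s : ℝ) :
    |JR j R r - JR j R s| ≤ (1 / m0) * (R ^ 4)⁻¹ * |r - s| := by
  unfold JR
  rw [← mul_sub, abs_mul, abs_of_pos (by positivity)]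
  calc (R ^ 3)⁻¹ * |j (r / R) - j (s / R)| ≤ (R ^ 3)⁻¹ * (1 / m0 * |r / R - s / R|) :=
        mul_le_mul_of_nonneg_left (j_lip _ _) (by positivity)
    _ = (1 / m0) * (R ^ 4)⁻¹ * |r - s| := by
        rw [← sub_div, abs_div, abs_of_pos hR]
        field_simp

theorem JR_supp {R : ℝ} (hR : 0 < R) {r : ℝ} (h : R ≤ r) : JR j R r = 0 := by
  unfold JR
  rw [j_supp _ ((one_le_div hR).2 h), mul_zero]

theorem JR_le_Jt {R ℓ : ℝ} (hR : 0 < R) (hℓ : 0 < ℓ) (hle : ℓ ≤ R) {a b y : Pt}
    (h : ‖b - y‖ ≤ 2 * ℓ) : JR j R (dist a b) ≤ Jt R ℓ (a - y) := by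
  have hm := m0_pos
  unfold Jt
  by_cases h1 : ‖a - y‖ ≤ 3 * R
  · rw [Set.indicator_of_mem (by simpa using h1), mul_one]
    have h2 := JR_lip hR (dist a b) ‖a - y‖
    have h3 : |dist a b - ‖a - y‖| ≤ 2 * ℓ := by
      rw [← dist_eq_norm]
      rw [← dist_eq_norm] at h
      refine le_trans ?_ h
      rw [abs_le]
      constructor
      · have := dist_triangle a b y; linarith
      · have := dist_triangle a y b
        rw [dist_comm y b] at this; linarith
    have h4 : (1 / m0) * (R ^ 4)⁻¹ * |dist a b - ‖a - y‖| ≤ (1 / m0) * (R ^ 4)⁻¹ * (2 * ℓ) :=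
      mul_le_mul_of_nonneg_left h3 (by positivity)
    have h5 := (le_abs_self _).trans (h2.trans h4)
    linarith
  · push Not at h1
    rw [JR_supp hR]
    · have := JR_nonneg hR ‖a - y‖
      apply add_nonneg this
      apply mul_nonneg (by positivity)
      exact Set.indicator_nonneg (fun _ _ => zero_le_one) _
    · rw [← dist_eq_norm] at h h1
      have := dist_triangle a b y
      linarith

theorem JR_norm_int {R : ℝ} (hR : 0 < R) : Integrable (fun z : Pt => JR j R ‖z‖) := by
  have hc : Continuous (fun z : Pt => JR j R ‖z‖) := by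
    unfold JR
    have := j_cont
    fun_prop
  apply hc.integrable_of_hasCompactSupport
  apply HasCompactSupport.of_support_subset_isCompact (isCompact_closedBall (0 : Pt) R)
  intro y hy
  rw [Metric.mem_closedBall, dist_zero_right]
  by_contra h
  exact hy (JR_supp hR (by linarith))

theorem integral_JR {R : ℝ} (hR : 0 < R) : ∫ z : Pt, JR j R ‖z‖ = 1 := by
  have h : ∀ z : Pt, JR j R ‖z‖ = (R ^ 3)⁻¹ * (fun w : Pt => j ‖w‖) (R⁻¹ • z) := by
    intro z
    unfold JR
    simp only
    rw [norm_smul, norm_inv, Real.norm_eq_abs, abs_of_pos hR, div_eq_inv_mul]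
  simp_rw [h]
  rw [integral_const_mul, Measure.integral_comp_smul (μ := volume) (fun w : Pt => j ‖w‖),
    integral_j]
  simp only [finrank_euclideanSpace, Fintype.card_fin, inv_pow, inv_inv, smul_eq_mul, mul_one]
  rw [abs_of_pos (by positivity)]
  field_simp

theorem Jt_int {R ℓ : ℝ} (hR : 0 < R) : Integrable (Jt R ℓ) := by
  unfold Jt
  apply (JR_norm_int hR).add
  apply Integrable.const_mul
  rw [integrable_indicator_iff measurableSet_closedBall]
  exact integrableOn_const measure_closedBall_lt_top.ne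

noncomputable def vol1 : ℝ := volume.real (Metric.ball (0 : Pt) 1)

theorem integral_Jt {R ℓ : ℝ} (hR : 0 < R) :
    ∫ z, Jt R ℓ z = 1 + (54 * (1 / m0) * vol1) * ℓ / R := by
  unfold Jt
  rw [integral_add (JR_norm_int hR), integral_JR hR, integral_const_mul,
    integral_indicator measurableSet_closedBall, setIntegral_const, Measure.addHaar_real_closedBall]
  · simp only [finrank_euclideanSpace, Fintype.card_fin, smul_eq_mul, mul_one]
    rw [vol1]
    field_simp
    ring
  · positivity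
  · apply Integrable.const_mul
    rw [integrable_indicator_iff measurableSet_closedBall]
    exact integrableOn_const measure_closedBall_lt_top.ne

theorem Jt_nonneg {R ℓ : ℝ} (hR : 0 < R) (hℓ : 0 < ℓ) (z : Pt) : 0 ≤ Jt R ℓ z := by
  have := m0_pos
  unfold Jt
  apply add_nonneg (JR_nonneg hR _)
  apply mul_nonneg (by positivity)
  exact Set.indicator_nonneg (fun _ _ => zero_le_one) _

theorem JR_le_integral {R ℓ : ℝ} (hR : 0 < R) (hℓ : 0 < ℓ) (hle : ℓ ≤ R) (t : ℝ) (a b : Pt) :
    JR j R (dist a b) ≤ (ℓ ^ 3)⁻¹ * ∫ y, same t ℓ b y * Jt R ℓ (a - y) := by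
  have h1 : ∫ y, same t ℓ b y * Jt R ℓ (a - y) = ∫ y in cellSet t ℓ b, Jt R ℓ (a - y) := by
    rw [← integral_indicator (cellSet_meas hℓ b)]
    congr 1
    ext y
    rw [same_eq_indicator]
    by_cases hy : y ∈ cellSet t ℓ b <;> simp [hy]
  have h2 : ∫ _y in cellSet t ℓ b, JR j R (dist a b) ≤ ∫ y in cellSet t ℓ b, Jt R ℓ (a - y) := by
    apply setIntegral_mono_on
    · exact integrableOn_const (by rw [cellSet_vol hℓ]; simp)
    · exact ((Jt_int hR).comp_sub_left a).integrableOn
    · exact cellSet_meas hℓ b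
    · intro y hy
      exact JR_le_Jt hR hℓ hle (cell_dist hℓ hy)
  rw [setIntegral_const, measureReal_def, cellSet_vol hℓ, ENNReal.toReal_ofReal (by positivity),
    smul_eq_mul] at h2
  rw [h1]
  rw [← div_eq_inv_mul, le_div_iff₀ (by positivity)]
  linarith

theorem upper_bound {R : ℝ} (hR : 0 < R) {ℓ : ℝ} (hℓ : 0 < ℓ) (hle : ℓ ≤ R) (t : ℝ) (N : ℕ)
    (x : Fin N → Pt) :
    ∑ i, ∑ k, JR j R (dist (x i) (x k)) ≤
      (1 + (54 * (1 / m0) * vol1) * ℓ / R) * (ℓ ^ 3)⁻¹ *
        ∑ i, ∑ k, same t ℓ (x i) (x k) := by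
  set n : Fin N → ℝ := fun k => ∑ m, same t ℓ (x k) (x m) with hn
  have hn1 : ∀ k, 1 ≤ n k := by
    intro k
    rw [← same_self t ℓ (x k)]
    exact Finset.single_le_sum (f := fun m => same t ℓ (x k) (x m))
      (fun m _ => same_nonneg _ _ _ _) (Finset.mem_univ k)
  have hn0 : ∀ k, 0 < n k := fun k => lt_of_lt_of_le one_pos (hn1 k)
  have hs0 : ∀ i, ∀ y, (∑ k, (n k)⁻¹ * (same t ℓ (x k) y)) * Jt R ℓ (x i - y) ≤
      Jt R ℓ (x i - y) := by
    intro i y
    apply mul_le_of_le_one_left (Jt_nonneg hR hℓ _)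
    by_cases hy : ∃ m, cell t ℓ (x m) = cell t ℓ y
    · obtain ⟨m, hm⟩ := hy
      have h1 : ∀ k, (n k)⁻¹ * same t ℓ (x k) y = (n m)⁻¹ * same t ℓ (x m) (x k) := by
        intro k
        by_cases hk : cell t ℓ (x k) = cell t ℓ y
        · have h2 : n k = n m := by
            simp only [hn, same, hk, hm]
          rw [h2]
          simp only [same, hk, hm]
        · simp only [same, hm]
          rw [if_neg hk, if_neg (fun h => hk h.symm)]
          simp
      rw [Finset.sum_congr rfl (fun k _ => h1 k), ← Finset.mul_sum]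
      exact (inv_mul_cancel₀ (hn0 m).ne').le
    · push Not at hy
      have h1 : ∀ k, same t ℓ (x k) y = 0 := by
        intro k
        simp only [same]
        rw [if_neg (hy k)]
      simp [h1]
  have hsame_int : ∀ i k, Integrable (fun y => same t ℓ (x k) y * Jt R ℓ (x i - y)) := by
    intro i k
    have : (fun y => same t ℓ (x k) y * Jt R ℓ (x i - y)) =
        (cellSet t ℓ (x k)).indicator (fun y => Jt R ℓ (x i - y)) := by
      ext y
      rw [same_eq_indicator]
      by_cases hy : y ∈ cellSet t ℓ (x k) <;> simp [hy]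
    rw [this]
    exact ((Jt_int hR).comp_sub_left _).indicator (cellSet_meas hℓ _)
  have key : ∀ i, ∑ k, (n k)⁻¹ * JR j R (dist (x i) (x k)) ≤
      (ℓ ^ 3)⁻¹ * (1 + (54 * (1 / m0) * vol1) * ℓ / R) := by
    intro i
    calc ∑ k, (n k)⁻¹ * JR j R (dist (x i) (x k))
        ≤ ∑ k, (n k)⁻¹ * ((ℓ ^ 3)⁻¹ * ∫ y, same t ℓ (x k) y * Jt R ℓ (x i - y)) := by
          apply Finset.sum_le_sum
          intro k _
          exact mul_le_mul_of_nonneg_left (JR_le_integral hR hℓ hle t _ _)
            (inv_nonneg.2 (hn0 k).le)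
      _ = (ℓ ^ 3)⁻¹ * ∫ y, (∑ k, (n k)⁻¹ * (same t ℓ (x k) y)) * Jt R ℓ (x i - y) := by
          have e : ∀ y, (∑ k, (n k)⁻¹ * (same t ℓ (x k) y)) * Jt R ℓ (x i - y) =
              ∑ k, (n k)⁻¹ * (same t ℓ (x k) y * Jt R ℓ (x i - y)) := by
            intro y
            rw [Finset.sum_mul]
            exact Finset.sum_congr rfl (fun k _ => by ring)
          simp_rw [e]
          rw [integral_finsetSum _ (fun k _ => (hsame_int i k).const_mul _), Finset.mul_sum]
          refine Finset.sum_congr rfl (fun k _ => ?_)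
          rw [integral_const_mul]
          ring
      _ ≤ (ℓ ^ 3)⁻¹ * ∫ y, Jt R ℓ (x i - y) := by
          apply mul_le_mul_of_nonneg_left _ (by positivity)
          apply integral_mono _ ((Jt_int hR).comp_sub_left _) (hs0 i)
          have e : ∀ y, (∑ k, (n k)⁻¹ * (same t ℓ (x k) y)) * Jt R ℓ (x i - y) =
              ∑ k, (n k)⁻¹ * (same t ℓ (x k) y * Jt R ℓ (x i - y)) := by
            intro y
            rw [Finset.sum_mul]
            exact Finset.sum_congr rfl (fun k _ => by ring)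
          simp_rw [e]
          exact integrable_finsetSum _ (fun k _ => (hsame_int i k).const_mul _)
      _ = (ℓ ^ 3)⁻¹ * (1 + (54 * (1 / m0) * vol1) * ℓ / R) := by
          rw [integral_sub_left_eq_self (fun y => Jt R ℓ y), integral_Jt hR]
  have hJ0 : ∀ i k, 0 ≤ JR j R (dist (x i) (x k)) := fun i k => JR_nonneg hR _
  calc ∑ i, ∑ k, JR j R (dist (x i) (x k))
      ≤ ∑ i, ∑ k, JR j R (dist (x i) (x k)) * ((1 / 2) * (n i * (n k)⁻¹ + n k * (n i)⁻¹)) := by
        apply Finset.sum_le_sum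
        intro i _
        apply Finset.sum_le_sum
        intro k _
        apply le_mul_of_one_le_right (hJ0 i k)
        have h1 := hn0 i
        have h2 := hn0 k
        rw [← div_eq_mul_inv, ← div_eq_mul_inv, div_add_div _ _ h2.ne' h1.ne',
          ← mul_div_assoc, one_le_div (by positivity)]
        nlinarith [sq_nonneg (n i - n k)]
    _ = ∑ i, ∑ k, JR j R (dist (x i) (x k)) * (n i * (n k)⁻¹) := by
        have e1 : ∑ i, ∑ k, JR j R (dist (x i) (x k)) * (n k * (n i)⁻¹) =
            ∑ i, ∑ k, JR j R (dist (x i) (x k)) * (n i * (n k)⁻¹) := by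
          rw [Finset.sum_comm]
          refine Finset.sum_congr rfl (fun i _ => Finset.sum_congr rfl (fun k _ => ?_))
          rw [dist_comm]
        have e2 : ∀ i k, JR j R (dist (x i) (x k)) * ((1 / 2) * (n i * (n k)⁻¹ + n k * (n i)⁻¹)) =
            (1 / 2) * (JR j R (dist (x i) (x k)) * (n i * (n k)⁻¹)) +
            (1 / 2) * (JR j R (dist (x i) (x k)) * (n k * (n i)⁻¹)) := by
          intro i k
          ring
        simp_rw [e2, Finset.sum_add_distrib, ← Finset.mul_sum]
        rw [e1]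
        ring
    _ = ∑ i, n i * ∑ k, (n k)⁻¹ * JR j R (dist (x i) (x k)) := by
        refine Finset.sum_congr rfl (fun i _ => ?_)
        rw [Finset.mul_sum]
        exact Finset.sum_congr rfl (fun k _ => by ring)
    _ ≤ ∑ i, n i * ((ℓ ^ 3)⁻¹ * (1 + (54 * (1 / m0) * vol1) * ℓ / R)) := by
        apply Finset.sum_le_sum
        intro i _
        exact mul_le_mul_of_nonneg_left (key i) (hn0 i).le
    _ = (1 + (54 * (1 / m0) * vol1) * ℓ / R) * (ℓ ^ 3)⁻¹ *
        ∑ i, ∑ k, same t ℓ (x i) (x k) := by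
        rw [← Finset.sum_mul]
        ring

end Kernel

open Kernel

theorem exists_kernel : ∃ (j : ℝ → ℝ) (C : ℝ), IsKernel j C := by
  have hm := m0_pos
  have hv : 0 ≤ vol1 := measureReal_nonneg
  have hC1 : 1 / m0 ≤ (1 / m0) * (1 + 54 * vol1) := by
    apply le_mul_of_one_le_right (by positivity)
    linarith
  refine ⟨Kernel.j, (1 / m0) * (1 + 54 * vol1), ?_⟩
  refine
    { Cpos := by positivity
      cont := j_cont
      nonneg := j_nonneg
      supp := j_supp
      zero_pos := j_zero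
      le := fun r => (j_le r).trans hC1
      lip := fun r s => (j_lip r s).trans (mul_le_mul_of_nonneg_right hC1 (abs_nonneg _))
      lower := fun R hR L hL N x hx => lower_bound hR hL N x hx
      upper := ?_ }
  intro R hR ℓ hℓ hle t N x
  refine (upper_bound hR hℓ hle t N x).trans ?_
  apply mul_le_mul_of_nonneg_right
  · apply mul_le_mul_of_nonneg_right _ (by positivity)
    have : 54 * (1 / m0) * vol1 ≤ 1 / m0 * (1 + 54 * vol1) := by
      have : 0 < 1 / m0 := by positivity
      nlinarith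
    have h2 : 54 * (1 / m0) * vol1 * ℓ / R ≤ 1 / m0 * (1 + 54 * vol1) * ℓ / R := by
      gcongr
    linarith
  · exact Finset.sum_nonneg (fun i _ => Finset.sum_nonneg (fun k _ => same_nonneg _ _ _ _))

end Crest.Agent.Kac
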