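import Crest.Agent.Kac.Seq
import Crest.Agent.Kac.Abs3

/-! K15: the concrete parameter sequences (`Par`) and their numerical properties for large `Q`. -/

set_option autoImplicit false
open Set Filter Topology

namespace Crest.Agent.Kac

/-- errors `ε_{k+1} = C3 / q_k^16`. -/
noncomputable def epsSeq (C3 : ℝ) (Q : ℕ) : ℕ → ℝ
  | 0 => 0
  | (k + 1) => C3 / qk Q k ^ 16

/-- gap depths. -/
noncomputable def mSeq (ϵ β1 θ : ℝ) (Q : ℕ) : ℕ → ℝ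
  | 0 => 1
  | (k + 1) => β1 / 2 * (θ * stail Q (k + 1)) * (ϵ / 2 ^ (k + 1)) ^ 2 / 4

noncomputable def mkPar (p ϵ β1 β2 μb ρm C0 θ C3 : ℝ) (Q : ℕ) : Par where
  blo := β1 / 2
  bhi := 2 * β2
  μb := μb
  ρm := ρm
  u := ϵ
  u' := p - ϵ
  v := p + ϵ
  v' := 3 * p / 2
  C0 := C0
  X := ϵ
  τ := fun k => θ * stail Q k
  ε := epsSeq C3 Q
  e := fun k => 2 * C3 / qk Q k ^ 16
  x := fun k => ϵ / 2 ^ k
  xs := fun k => ϵ * (1 - 1 / 2 ^ k)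
  m := mSeq ϵ β1 θ Q

/-- All numerical conditions on the sequences hold once `Q` is large (uniformly in `θ ≥ θlo`). -/
structure SeqOK (p ϵ β1 β2 μb ρm C0 θ C3 η : ℝ) (Q : ℕ) : Prop where
  e0 : (mkPar p ϵ β1 β2 μb ρm C0 θ C3 Q).e 0 ≤ η
  τpos : ∀ k, 0 < (mkPar p ϵ β1 β2 μb ρm C0 θ C3 Q).τ k
  ε_nn : ∀ k, 0 ≤ (mkPar p ϵ β1 β2 μb ρm C0 θ C3 Q).ε k
  e_nn : ∀ k, 0 ≤ (mkPar p ϵ β1 β2 μb ρm C0 θ C3 Q).e k
  estep : ∀ k, (mkPar p ϵ β1 β2 μb ρm C0 θ C3 Q).e (k + 1) +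
    (mkPar p ϵ β1 β2 μb ρm C0 θ C3 Q).ε (k + 1) ≤ (mkPar p ϵ β1 β2 μb ρm C0 θ C3 Q).e k
  m_pos : ∀ k, 0 < (mkPar p ϵ β1 β2 μb ρm C0 θ C3 Q).m k
  m_step : ∀ k, (mkPar p ϵ β1 β2 μb ρm C0 θ C3 Q).m (k + 1) +
    2 * (mkPar p ϵ β1 β2 μb ρm C0 θ C3 Q).ε (k + 1) ≤ (mkPar p ϵ β1 β2 μb ρm C0 θ C3 Q).m k
  m_le : ∀ k, (mkPar p ϵ β1 β2 μb ρm C0 θ C3 Q).m (k + 1) +
    2 * (mkPar p ϵ β1 β2 μb ρm C0 θ C3 Q).ε (k + 1) ≤
      (mkPar p ϵ β1 β2 μb ρm C0 θ C3 Q).blo * (mkPar p ϵ β1 β2 μb ρm C0 θ C3 Q).τ (k + 1) *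
        (mkPar p ϵ β1 β2 μb ρm C0 θ C3 Q).x (k + 1) ^ 2 / 2
  e_m : ∀ k, 8 * (mkPar p ϵ β1 β2 μb ρm C0 θ C3 Q).e k ≤
    (mkPar p ϵ β1 β2 μb ρm C0 θ C3 Q).m (k + 1)
  hη : ∀ K, ∑ k ∈ Finset.range K, 2 * (mkPar p ϵ β1 β2 μb ρm C0 θ C3 Q).ε (k + 1) *
    (1 + 16 * (mkPar p ϵ β1 β2 μb ρm C0 θ C3 Q).C /
      (mkPar p ϵ β1 β2 μb ρm C0 θ C3 Q).m (k + 1)) ≤ η
  τ_lim : Tendsto (mkPar p ϵ β1 β2 μb ρm C0 θ C3 Q).τ atTop (𝓝 0)
  e_lim : Tendsto (mkPar p ϵ β1 β2 μb ρm C0 θ C3 Q).e atTop (𝓝 0)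

lemma two_pow_le_qk' {Q : ℕ} (hQ : 2 ≤ Q) (k : ℕ) : (2 : ℝ) ^ k ≤ qk Q k := by
  have h1 := two_pow_le_qk hQ k
  have h2 : (2 : ℝ) ≤ Q := by exact_mod_cast hQ
  have h3 : (0 : ℝ) < 2 ^ k := by positivity
  nlinarith

/-- Lower bound of the gap depths. -/
lemma mSeq_lower {ϵ β1 θ θlo : ℝ} {Q : ℕ} (hQ : 2 ≤ Q) (hϵ : 0 < ϵ) (hβ1 : 0 < β1)
    (hθlo : 0 < θlo) (hθ : θlo ≤ θ) (k : ℕ) :
    (β1 * θlo * ϵ ^ 2 * (Q : ℝ) ^ 2) / (32 * qk Q k ^ 6) ≤ mSeq ϵ β1 θ Q (k + 1) := by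
  have hq := qk_pos (by omega : 1 ≤ Q) k
  have h1 := ck_le_stail hQ (k + 1)
  rw [ck_succ (by omega)] at h1
  have h2 := two_pow_le_qk' hQ k
  have hQ0 : (0 : ℝ) < Q := by positivity
  have h3 : θlo * ((Q : ℝ) ^ 2 / qk Q k ^ 4) ≤ θ * stail Q (k + 1) :=
    mul_le_mul hθ h1 (by positivity) (by linarith)
  have h4 : ϵ ^ 2 / (4 * qk Q k ^ 2) ≤ (ϵ / 2 ^ (k + 1)) ^ 2 := by
    rw [div_pow]
    apply div_le_div_of_nonneg_left (by positivity) (by positivity)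
    have h5 : ((2 : ℝ) ^ (k + 1)) ^ 2 = 4 * ((2 : ℝ) ^ k) ^ 2 := by ring
    rw [h5]
    have := pow_le_pow_left₀ (by positivity) h2 2
    linarith
  have h6 : θlo * ((Q : ℝ) ^ 2 / qk Q k ^ 4) * (ϵ ^ 2 / (4 * qk Q k ^ 2)) ≤
      θ * stail Q (k + 1) * (ϵ / 2 ^ (k + 1)) ^ 2 :=
    mul_le_mul h3 h4 (by positivity) (by
      have := stail_pos hQ (k + 1)
      have : 0 < θ := by linarith
      positivity)
  show _ ≤ β1 / 2 * (θ * stail Q (k + 1)) * (ϵ / 2 ^ (k + 1)) ^ 2 / 4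
  have h7 := mul_le_mul_of_nonneg_left h6 (by positivity : (0 : ℝ) ≤ β1 / 8)
  refine le_trans (le_of_eq ?_) (h7.trans (le_of_eq ?_))
  · field_simp
    ring
  · ring

/-- Hints: `stail Q (k+1) ≥ ck Q (k+1) = Q²/q_k⁴` (`ck_succ`, `ck_le_stail`), `stail Q 1 ≤ 2/Q²`,
`q_k ≥ Q 2^k/2` so `4^k ≤ q_k²`; for `e_m`: `256 C3 ≤ (β1/2) θlo ϵ² Q^12` suffices; for `hη` every
summand is at most `C4/q_k` with `C4` independent of `Q`, and `Σ 1/q_k ≤ 4/Q`. -/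
theorem seqOK (p ϵ β1 β2 μb ρm C0 C3 θlo η : ℝ) (hϵ : 0 < ϵ) (hβ1 : 0 < β1) (hC0 : 0 ≤ C0)
    (hC3 : 0 < C3) (hθlo : 0 < θlo) (hη : 0 < η) :
    ∃ Q0 : ℕ, ∀ Q : ℕ, Q0 ≤ Q → ∀ θ : ℝ, θlo ≤ θ → θ ≤ 1 →
      SeqOK p ϵ β1 β2 μb ρm C0 θ C3 η Q := by
  set c0 : ℝ := β1 * θlo * ϵ ^ 2 with hc0
  have hc0pos : 0 < c0 := by positivity
  set C4 : ℝ := 2 * C3 + 1024 * (C0 + 2) * C3 / c0 with hC4
  have hC4pos : 0 < C4 := by positivity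
  obtain ⟨Q0, hQ0⟩ := exists_nat_ge (2 + 2 * C3 / η + 2 * C3 + 512 * C3 / c0 + β1 * ϵ ^ 2 +
    4 * C4 / η)
  refine ⟨Q0, fun Q hQQ0 θ hθ1 hθ2 => ?_⟩
  have hQr : 2 + 2 * C3 / η + 2 * C3 + 512 * C3 / c0 + β1 * ϵ ^ 2 + 4 * C4 / η ≤ (Q : ℝ) :=
    hQ0.trans (by exact_mod_cast hQQ0)
  have p1 : 0 < 2 * C3 / η := by positivity
  have p2 : 0 < 512 * C3 / c0 := by positivity
  have p3 : 0 < β1 * ϵ ^ 2 := by positivity
  have p4 : 0 < 4 * C4 / η := by positivity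
  have hQ2r : (2 : ℝ) ≤ Q := by linarith
  have hQ2 : 2 ≤ Q := by exact_mod_cast hQ2r
  have hQ1 : 1 ≤ Q := by omega
  have hQpos : (0 : ℝ) < Q := by linarith
  have hθ0 : 0 < θ := by linarith
  have hq : ∀ k, 0 < qk Q k := qk_pos hQ1
  have hq2 : ∀ k, 2 ≤ qk Q k := fun k => hQ2r.trans (le_qk hQ1 k)
  have hmpos : ∀ k, 0 < mSeq ϵ β1 θ Q (k + 1) := by
    intro k
    show 0 < β1 / 2 * (θ * stail Q (k + 1)) * (ϵ / 2 ^ (k + 1)) ^ 2 / 4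
    have := stail_pos hQ2 (k + 1)
    positivity
  -- `e_m`
  have hem : ∀ k, 16 * C3 / qk Q k ^ 16 ≤ mSeq ϵ β1 θ Q (k + 1) := by
    intro k
    refine le_trans ?_ (mSeq_lower hQ2 hϵ hβ1 hθlo hθ1 k)
    have hqk := hq k
    rw [div_le_div_iff₀ (by positivity) (by positivity)]
    have h1 : 512 * C3 ≤ c0 * (Q : ℝ) ^ 2 := by
      have h2 : 512 * C3 / c0 ≤ Q := by linarith
      rw [div_le_iff₀ hc0pos] at h2
      nlinarith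
    have h3 : qk Q k ^ 6 ≤ qk Q k ^ 16 := pow_le_pow_right₀ (by linarith [hq2 k]) (by norm_num)
    calc 16 * C3 * (32 * qk Q k ^ 6) = 512 * C3 * qk Q k ^ 6 := by ring
      _ ≤ (c0 * (Q : ℝ) ^ 2) * qk Q k ^ 16 :=
          mul_le_mul h1 h3 (by positivity) (by positivity)
      _ = _ := by rw [hc0]
  have hε : ∀ k, 2 * epsSeq C3 Q (k + 1) ≤ mSeq ϵ β1 θ Q (k + 1) / 8 := by
    intro k
    have h1 := hem k
    have h2 : 2 * epsSeq C3 Q (k + 1) = (16 * C3 / qk Q k ^ 16) / 8 := by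
      show 2 * (C3 / qk Q k ^ 16) = _
      ring
    rw [h2]
    linarith
  have he0 : 2 * C3 / qk Q 0 ^ 16 ≤ min η 1 := by
    rw [qk_zero]
    have h1 : (Q : ℝ) ≤ (Q : ℝ) ^ 16 := le_self_pow₀ (by linarith) (by norm_num)
    have h2 : 2 * C3 / (Q : ℝ) ^ 16 ≤ 2 * C3 / Q :=
      div_le_div_of_nonneg_left (by positivity) hQpos h1
    refine h2.trans (le_min ?_ ?_)
    · rw [div_le_iff₀ hQpos]
      have : 2 * C3 / η ≤ Q := by linarith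
      rw [div_le_iff₀ hη] at this
      linarith
    · rw [div_le_iff₀ hQpos]
      linarith
  have hterm : ∀ k, 2 * epsSeq C3 Q (k + 1) *
      (1 + 16 * (C0 + 2 * C3 / qk Q 0 ^ 16 + 1) / mSeq ϵ β1 θ Q (k + 1)) ≤ C4 * (qk Q k)⁻¹ := by
    intro k
    have hqk := hq k
    have h1 := mSeq_lower hQ2 hϵ hβ1 hθlo hθ1 k
    have hlow : 0 < (β1 * θlo * ϵ ^ 2 * (Q : ℝ) ^ 2) / (32 * qk Q k ^ 6) := by positivity
    have h2 : 16 * (C0 + 2 * C3 / qk Q 0 ^ 16 + 1) / mSeq ϵ β1 θ Q (k + 1) ≤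
        16 * (C0 + 2) / ((β1 * θlo * ϵ ^ 2 * (Q : ℝ) ^ 2) / (32 * qk Q k ^ 6)) := by
      have h3 : 2 * C3 / qk Q 0 ^ 16 ≤ 1 := he0.trans (min_le_right _ _)
      have h0 := hq 0
      apply div_le_div₀ (by positivity) (by linarith) hlow h1
    have h4 : 16 * (C0 + 2) / ((β1 * θlo * ϵ ^ 2 * (Q : ℝ) ^ 2) / (32 * qk Q k ^ 6)) ≤
        512 * (C0 + 2) / c0 * qk Q k ^ 6 := by
      rw [← hc0, div_div_eq_mul_div, div_le_iff₀ (by positivity)]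
      have h5 : 512 * (C0 + 2) / c0 * qk Q k ^ 6 * (c0 * (Q : ℝ) ^ 2) =
          512 * (C0 + 2) * qk Q k ^ 6 * (Q : ℝ) ^ 2 := by
        field_simp
      rw [h5]
      have h6 : (1 : ℝ) ≤ (Q : ℝ) ^ 2 := one_le_pow₀ (by linarith)
      have h7 : 0 ≤ 512 * (C0 + 2) * qk Q k ^ 6 := by positivity
      nlinarith
    have h8 : 2 * epsSeq C3 Q (k + 1) = 2 * C3 / qk Q k ^ 16 := by
      show 2 * (C3 / qk Q k ^ 16) = _
      ring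
    rw [h8]
    calc 2 * C3 / qk Q k ^ 16 *
          (1 + 16 * (C0 + 2 * C3 / qk Q 0 ^ 16 + 1) / mSeq ϵ β1 θ Q (k + 1))
        ≤ 2 * C3 / qk Q k ^ 16 * (qk Q k ^ 6 + 512 * (C0 + 2) / c0 * qk Q k ^ 6) := by
          apply mul_le_mul_of_nonneg_left _ (by positivity)
          have : 1 ≤ qk Q k ^ 6 := one_le_pow₀ (by linarith [hq2 k])
          linarith [h2.trans h4]
      _ = C4 * (qk Q k ^ 10)⁻¹ := by
          rw [hC4]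
          field_simp
          ring
      _ ≤ C4 * (qk Q k)⁻¹ := by
          apply mul_le_mul_of_nonneg_left _ hC4pos.le
          apply inv_anti₀ hqk
          exact le_self_pow₀ (by linarith [hq2 k]) (by norm_num)
  refine ⟨?_, ?_, ?_, ?_, ?_, ?_, ?_, ?_, ?_, ?_, ?_, ?_⟩
  · exact he0.trans (min_le_left _ _)
  · intro k
    show 0 < θ * stail Q k
    exact mul_pos hθ0 (stail_pos hQ2 k)
  · intro k
    show 0 ≤ epsSeq C3 Q k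
    cases k with
    | zero => exact le_rfl
    | succ k =>
      show 0 ≤ C3 / qk Q k ^ 16
      have := hq k
      positivity
  · intro k
    show 0 ≤ 2 * C3 / qk Q k ^ 16
    have := hq k
    positivity
  · intro k
    show 2 * C3 / qk Q (k + 1) ^ 16 + C3 / qk Q k ^ 16 ≤ 2 * C3 / qk Q k ^ 16
    have hqk := hq k
    rw [qk_succ]
    have h1 : 2 * C3 / (qk Q k ^ 2) ^ 16 ≤ C3 / qk Q k ^ 16 := by
      rw [div_le_div_iff₀ (by positivity) (by positivity)]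
      have h2 : 2 ≤ qk Q k ^ 16 := (hq2 k).trans (le_self_pow₀ (by linarith [hq2 k]) (by norm_num))
      have h3 : C3 * (qk Q k ^ 2) ^ 16 = C3 * qk Q k ^ 16 * qk Q k ^ 16 := by ring
      rw [h3]
      have h4 : 0 ≤ C3 * qk Q k ^ 16 := by positivity
      nlinarith
    have h5 : 2 * C3 / qk Q k ^ 16 = C3 / qk Q k ^ 16 + C3 / qk Q k ^ 16 := by ring
    linarith
  · intro k
    show 0 < mSeq ϵ β1 θ Q k
    cases k with
    | zero => exact one_pos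
    | succ k => exact hmpos k
  · intro k
    show mSeq ϵ β1 θ Q (k + 1) + 2 * epsSeq C3 Q (k + 1) ≤ mSeq ϵ β1 θ Q k
    have h1 := hε k
    cases k with
    | zero =>
      show mSeq ϵ β1 θ Q (0 + 1) + 2 * epsSeq C3 Q (0 + 1) ≤ 1
      have h2 : mSeq ϵ β1 θ Q (0 + 1) ≤ β1 * ϵ ^ 2 / (16 * (Q : ℝ) ^ 2) := by
        show β1 / 2 * (θ * stail Q (0 + 1)) * (ϵ / 2 ^ (0 + 1)) ^ 2 / 4 ≤ _
        have h3 := stail_one_le hQ2
        have h4 : θ * stail Q (0 + 1) ≤ 1 * (2 / (Q : ℝ) ^ 2) :=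
          mul_le_mul hθ2 h3 (stail_nonneg hQ2 1) (by norm_num)
        calc β1 / 2 * (θ * stail Q (0 + 1)) * (ϵ / 2 ^ (0 + 1)) ^ 2 / 4
            ≤ β1 / 2 * (1 * (2 / (Q : ℝ) ^ 2)) * (ϵ / 2 ^ (0 + 1)) ^ 2 / 4 := by gcongr
          _ = _ := by ring
      have h5 : β1 * ϵ ^ 2 / (16 * (Q : ℝ) ^ 2) ≤ 1 / 16 := by
        rw [div_le_div_iff₀ (by positivity) (by norm_num)]
        have h6 : β1 * ϵ ^ 2 ≤ Q := by linarith
        nlinarith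
      linarith
    | succ k =>
      have h2 : mSeq ϵ β1 θ Q (k + 1 + 1) ≤ mSeq ϵ β1 θ Q (k + 1) / 4 := by
        show β1 / 2 * (θ * stail Q (k + 1 + 1)) * (ϵ / 2 ^ (k + 1 + 1)) ^ 2 / 4 ≤
          (β1 / 2 * (θ * stail Q (k + 1)) * (ϵ / 2 ^ (k + 1)) ^ 2 / 4) / 4
        have h3 : stail Q (k + 1 + 1) ≤ stail Q (k + 1) := stail_antitone hQ2 (by omega)
        calc β1 / 2 * (θ * stail Q (k + 1 + 1)) * (ϵ / 2 ^ (k + 1 + 1)) ^ 2 / 4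
            ≤ β1 / 2 * (θ * stail Q (k + 1)) * (ϵ / 2 ^ (k + 1 + 1)) ^ 2 / 4 := by gcongr
          _ = _ := by
            rw [pow_succ (2 : ℝ) (k + 1)]
            field_simp
            ring
      have h4 := hmpos k
      have h5 := hmpos (k + 1)
      linarith
  · intro k
    show mSeq ϵ β1 θ Q (k + 1) + 2 * epsSeq C3 Q (k + 1) ≤
      β1 / 2 * (θ * stail Q (k + 1)) * (ϵ / 2 ^ (k + 1)) ^ 2 / 2
    have h1 := hε k
    have h2 : β1 / 2 * (θ * stail Q (k + 1)) * (ϵ / 2 ^ (k + 1)) ^ 2 / 2 =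
        2 * mSeq ϵ β1 θ Q (k + 1) := by
      show _ = 2 * (β1 / 2 * (θ * stail Q (k + 1)) * (ϵ / 2 ^ (k + 1)) ^ 2 / 4)
      ring
    rw [h2]
    have := hmpos k
    linarith
  · intro k
    show 8 * (2 * C3 / qk Q k ^ 16) ≤ mSeq ϵ β1 θ Q (k + 1)
    refine le_trans (le_of_eq ?_) (hem k)
    ring
  · intro K
    show ∑ k ∈ Finset.range K, 2 * epsSeq C3 Q (k + 1) *
      (1 + 16 * (C0 + 2 * C3 / qk Q 0 ^ 16 + 1) / mSeq ϵ β1 θ Q (k + 1)) ≤ η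
    have h1 : ∑ k ∈ Finset.range K, 2 * epsSeq C3 Q (k + 1) *
      (1 + 16 * (C0 + 2 * C3 / qk Q 0 ^ 16 + 1) / mSeq ϵ β1 θ Q (k + 1)) ≤
      ∑ k ∈ Finset.range K, C4 * (2 / Q * (1 / 2) ^ k) := by
      apply Finset.sum_le_sum
      intro k _
      refine (hterm k).trans ?_
      apply mul_le_mul_of_nonneg_left _ hC4pos.le
      have h2 := two_pow_le_qk hQ2 k
      have h3 : (2 : ℝ) / Q * (1 / 2) ^ k = ((Q : ℝ) * 2 ^ k / 2)⁻¹ := by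
        rw [one_div, inv_pow]
        field_simp
      rw [h3]
      exact inv_anti₀ (by positivity) h2
    refine h1.trans ?_
    rw [← Finset.mul_sum, ← Finset.mul_sum]
    have h4 : ∑ k ∈ Finset.range K, (1 / 2 : ℝ) ^ k ≤ 2 := by
      have := summable_geometric_two.sum_le_tsum (Finset.range K) (fun i _ => by positivity)
      rwa [tsum_geometric_two] at this
    have h5 : 4 * C4 / η ≤ Q := by linarith
    rw [div_le_iff₀ hη] at h5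
    calc C4 * (2 / (Q : ℝ) * ∑ k ∈ Finset.range K, (1 / 2 : ℝ) ^ k)
        ≤ C4 * (2 / (Q : ℝ) * 2) := by gcongr
      _ = 4 * C4 / Q := by ring
      _ ≤ η := by rw [div_le_iff₀ hQpos]; linarith
  · show Tendsto (fun k => θ * stail Q k) atTop (𝓝 0)
    have := (stail_tendsto hQ2).const_mul θ
    rwa [mul_zero] at this
  · show Tendsto (fun k => 2 * C3 / qk Q k ^ 16) atTop (𝓝 0)
    have h1 : Tendsto (fun k : ℕ => 2 * C3 * (1 / 2 : ℝ) ^ k) atTop (𝓝 (2 * C3 * 0)) :=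
      (tendsto_pow_atTop_nhds_zero_of_lt_one (by norm_num) (by norm_num)).const_mul _
    rw [mul_zero] at h1
    refine squeeze_zero (fun k => ?_) (fun k => ?_) h1
    · have := hq k
      positivity
    · have hqk := hq k
      rw [div_eq_mul_inv]
      apply mul_le_mul_of_nonneg_left _ (by positivity)
      rw [one_div, inv_pow]
      apply inv_anti₀ (by positivity)
      exact (two_pow_le_qk' hQ2 k).trans (le_self_pow₀ (by linarith [hq2 k]) (by norm_num))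

end Crest.Agent.Kac
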