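import Crest.Agent.Kac.Pks
import Crest.Agent.Kac.Base
import Crest.Agent.Kac.ParDef
import Crest.Agent.Kac.BF
import Crest.Agent.Kac.Kernel

/-! K17: putting everything together: the kink for the unscaled potential. -/

set_option autoImplicit false
open Set Filter Topology

namespace Crest.Agent.Kac

/-- supergradient of a concave function on the half line -/
theorem exists_supergrad {g : ℝ → ℝ} (hg : ConcaveOn ℝ (Ici 0) g) {r : ℝ} (hr : 0 < r) :
    ∃ μ : ℝ, ∀ ρ : ℝ, 0 ≤ ρ → g ρ + μ * ρ ≤ g r + μ * r := by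
  have hc : ConvexOn ℝ (Ici 0) (-g) := hg.neg
  have hint : r ∈ interior (Ici (0 : ℝ)) := by rw [interior_Ici]; exact hr
  refine ⟨derivWithin (-g) (Ioi r) r, ?_⟩
  intro y hy
  have hy' : y ∈ Ici (0 : ℝ) := hy
  rcases lt_trichotomy r y with h | h | h
  · have h1 := hc.rightDeriv_le_slope_of_mem_interior hint hy' h
    rw [slope_def_field, le_div_iff₀ (by linarith)] at h1
    simp only [Pi.neg_apply] at h1
    linarith
  · subst h; simp
  · have h1 := hc.slope_le_leftDeriv_of_mem_interior hy' hint h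
    have h2 := hc.leftDeriv_le_rightDeriv_of_mem_interior hint
    have h3 := h1.trans h2
    rw [slope_def_field, div_le_iff₀ (by linarith)] at h3
    simp only [Pi.neg_apply] at h3
    linarith

/-- The chemical potential range. -/
noncomputable def mubar (B β1 K0 : ℝ) : ℝ := 3 * (B * β1 * K0 / 2 + 4) + β1

section

variable {φ0 j : ℝ → ℝ} {K0 κ w C θ : ℝ} {Q : ℕ} {p ϵ B Bw C2 Cκ m0 b0 β1 : ℝ}

/-- The base pressure. -/
noncomputable def P00 (φ0 : ℝ → ℝ) (β ρ : ℝ) : ℝ := Pr (fun r => β * φ0 r) ρ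

theorem supg_core (hs : Setup φ0 j K0 κ w C θ Q)
    (h : BF (P00 φ0) p ϵ K0 B Bw C2 Cκ m0 b0 β1) {β : ℝ} (hβ0 : β1 / 2 < β)
    (hβ : β < 2 * (B * β1)) {r : ℝ} (hr1 : 2 * p / 5 ≤ r) (hr2 : r ≤ 3 * p / 5) :
    ∃ μ : ℝ, |μ| < mubar B β1 K0 ∧ ∀ ρ : ℝ, 0 ≤ ρ →
      Pinf φ0 j θ Q β ρ + μ * ρ ≤ Pinf φ0 j θ Q β r + μ * r := by
  obtain ⟨hB, hϵ, hβ1, hβ1pos⟩ := h.sizes
  have hp := h.p1
  have hβpos : 0 < β := by linarith
  have hr0 : 0 < r := by linarith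
  obtain ⟨μ, hμ⟩ := exists_supergrad (Pinf_concave hs hβpos.le) hr0
  refine ⟨μ, ?_, hμ⟩
  have hK := h.K0_ge
  have hC := hs.ker.Cpos
  have h0 := hμ 0 le_rfl
  rw [Pinf_at_zero hs hβpos.le] at h0
  have hb := hμ b0 (by linarith [h.b0_lo])
  have hsup := Pinf_super hs hβpos.le hr0.le
  have hlow : -(β * b0 / 2) - C2 ≤ Pinf φ0 j θ Q β b0 := by
    have h1 := h.U2 β hβpos.le
    have h2 := Pk_le_Pinf hs 0 hβpos.le (by linarith [h.b0_lo] : 0 ≤ b0)
    rw [Pk_zero] at h2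
    exact h1.trans h2
  have hup : Pinf φ0 j θ Q β r ≤ 1 + β * (K0 / 2 * r) := by
    have : 0 ≤ β * (16 * (1 + C) * r ^ 2) := by positivity
    nlinarith
  have hBβ : 0 < B * β1 := by positivity
  have hup2 : β * (K0 / 2 * r) ≤ B * β1 * K0 * r := by
    have : β * (K0 / 2 * r) ≤ 2 * (B * β1) * (K0 / 2 * r) := by
      have : 0 ≤ K0 / 2 * r := by positivity
      nlinarith
    nlinarith
  have hlow2 : β * b0 / 2 ≤ B * β1 * (2 * p) := by
    have h1 := h.b0_hi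
    have h2 := h.b0_lo
    have : β * b0 ≤ 2 * (B * β1) * (2 * p) := by
      apply mul_le_mul hβ.le h1 (by linarith) (by positivity)
    linarith
  have hBK : 0 < B * β1 * K0 := by positivity
  rw [abs_lt, mubar]
  constructor
  · -- lower bound
    by_contra hcon
    push Not at hcon
    have h1 : μ * r ≤ -(3 * (B * β1 * K0 / 2 + 4) + β1) * r := by nlinarith
    have h2 : 2 / 5 ≤ r := by linarith
    nlinarith
  · by_contra hcon
    push Not at hcon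
    have h2 := h.b0_lo
    have hbr : 138 / 100 * p ≤ b0 - r := by linarith
    have h1 : μ * (b0 - r) ≤ 1 + B * β1 * K0 * r + B * β1 * (2 * p) + C2 := by nlinarith
    have h3 : (3 * (B * β1 * K0 / 2 + 4) + β1) * (138 / 100 * p) ≤ μ * (b0 - r) :=
      mul_le_mul hcon hbr (by positivity) (by linarith)
    have h4 : B * β1 * K0 * r ≤ B * β1 * K0 * (3 * p / 5) := by gcongr
    have h5 : B * β1 * (2 * p) * 100 ≤ B * β1 * K0 * (2 * p) := by
      have : B * β1 * 100 ≤ B * β1 * K0 := by gcongr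
      nlinarith
    have h6 : 0 < B * β1 * K0 * p := by positivity
    have hC2 := h.C2_nn
    have hCκ := h.Cκ_nn
    nlinarith

theorem VV_zero_eq (hp : 0 < p) (hQ : 2 ≤ Q) (hθ : θ * stail Q 0 = 19 / (20 * p)) (τ : ℕ → ℝ)
    (hτ : τ 0 = θ * stail Q 0) (z : ℝ × ℝ) (ρ : ℝ) :
    VV (Pk φ0 j θ Q) τ 0 z ρ = V0 (P00 φ0) p z ρ := by
  unfold VV V0 P00
  rw [Pk_zero, hτ, hθ]

/-- The hypotheses `KacAbs` for the concrete sequences. -/
theorem kacAbs_core (hs : Setup φ0 j K0 κ w C θ Q)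
    (h : BF (P00 φ0) p ϵ K0 B Bw C2 Cκ m0 b0 β1) {ρm ρm0 C3 CT C0 η : ℝ}
    (hθ : θ * stail Q 0 = 19 / (20 * p)) (hρm : ρm0 ≤ ρm) (hρm16 : 16 ≤ ρm)
    (hC3 : CT + 2 * (B * β1) * C * ρm ≤ C3) (hCT : 0 < CT)
    (hC0 : 2 * mubar B β1 K0 * ρm + 10 * (B * β1) * ρm ^ 2 + Cκ + C2 + 1 ≤ C0)
    (hQν : 2 * (B * β1) * (2 / (Q : ℝ) ^ 2) * ρm ≤ 1)
    (hT2 : ∀ (k : ℕ) (β : ℝ), β1 / 2 ≤ β → β ≤ 2 * (B * β1) → ∀ ν : ℝ,
      |ν| ≤ mubar B β1 K0 + 1 → ∀ ρ : ℝ, 0 ≤ ρ → ∃ ρ' : ℝ, 0 ≤ ρ' ∧ ρ' ≤ ρm0 ∧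
          ν * ρ + Pk φ0 j θ Q (k + 1) β ρ ≤
            ν * ρ' + Pk φ0 j θ Q k β ρ' + β * θ * ck Q k * ρ' ^ 2 / 2 + CT / qk Q k ^ 16)
    (hseq : SeqOK p ϵ β1 (B * β1) (mubar B β1 K0) ρm C0 θ C3 η Q) :
    KacAbs (mkPar p ϵ β1 (B * β1) (mubar B β1 K0) ρm C0 θ C3 Q) (Pk φ0 j θ Q) := by
  obtain ⟨hB, hϵ, hβ1, hβ1pos⟩ := h.sizes
  have hp := h.p1
  have hp8 := h.p8
  have hϵpos := h.ϵ_pos
  have hQ2 : 2 ≤ Q := le_trans (by norm_num) hs.Q4
  have hVV : ∀ z ρ, VV (Pk φ0 j θ Q) (mkPar p ϵ β1 (B * β1) (mubar B β1 K0) ρm C0 θ C3 Q).τ 0 z ρ =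
      V0 (P00 φ0) p z ρ := fun z ρ => VV_zero_eq (by linarith) hQ2 hθ _ rfl z ρ
  have hBβ : 0 < B * β1 := by positivity
  have hmub : 0 < mubar B β1 K0 := by
    have := h.K0_ge
    unfold mubar; positivity
  have hm0 : m0 ∈ (mkPar p ϵ β1 (B * β1) (mubar B β1 K0) ρm C0 θ C3 Q).I .M 0 := by
    simp only [Par.I, Par.lo, Par.hi, mkPar, mem_Icc]
    have := h.m0_lo
    have := h.m0_hi
    constructor <;> simp <;> linarith
  have hb0 : b0 ∈ (mkPar p ϵ β1 (B * β1) (mubar B β1 K0) ρm C0 θ C3 Q).I .B 0 := by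
    simp only [Par.I, Par.lo, Par.hi, mkPar, mem_Icc]
    have := h.b0_lo
    have := h.b0_hi
    constructor
    · simp; linarith
    · linarith
  have h00 : (0 : ℝ) ∈ (mkPar p ϵ β1 (B * β1) (mubar B β1 K0) ρm C0 θ C3 Q).I .A 0 := by
    simp only [Par.I, Par.lo, Par.hi, mkPar, mem_Icc]
    constructor
    · exact le_rfl
    · simp; linarith
  have hC := hs.ker.Cpos
  have hτ20 : 0 < 19 / (20 * p) := by positivity
  have hτ201 : 19 / (20 * p) ≤ 1 := by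
    rw [div_le_one (by positivity)]; linarith
  refine
    { blo_pos := ?_, X_pos := hϵpos, u_nn := hϵpos.le, uu' := ?_, u'v := ?_, vv' := ?_,
      v'ρm := ?_, C0_nn := ?_, τpos := hseq.τpos, xpos := ?_, xs0 := ?_, xs_succ := ?_,
      xs_le := ?_, ε_nn := hseq.ε_nn, e_nn := hseq.e_nn, estep := hseq.estep,
      m_pos := hseq.m_pos, m_step := hseq.m_step, m_le := hseq.m_le, e_m := hseq.e_m,
      convP := ?_, T1 := ?_, T2 := ?_, gap0 := ?_, ub0 := ?_, lb0 := ?_ }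
  · simp only [mkPar]; linarith
  · simp only [mkPar]; linarith
  · simp only [mkPar]; linarith
  · simp only [mkPar]; linarith
  · simp only [mkPar]; linarith
  · simp only [mkPar]
    have := h.C2_nn
    have := h.Cκ_nn
    have : 0 ≤ 2 * mubar B β1 K0 * ρm + 10 * (B * β1) * ρm ^ 2 := by positivity
    linarith
  · intro k; simp only [mkPar]; positivity
  · simp [mkPar]
  · intro k
    simp only [mkPar]
    rw [pow_succ]
    field_simp
    ring
  · intro k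
    simp only [mkPar]
    have : 0 ≤ 1 / (2 : ℝ) ^ k := by positivity
    nlinarith
  · -- convexity
    intro k ρ hρ
    apply (Pk_convex hs k hρ.1).subset _ (convex_Ioo _ _)
    intro β hβ
    simp only [mkPar, mem_Ioo] at hβ
    exact mem_Ioi.2 (by linarith [hβ.1])
  · -- T1
    intro k β hβ ρ hρ
    simp only [mkPar, mem_Ioo, mem_Icc] at hβ hρ ⊢
    have hβpos : 0 < β := by linarith [hβ.1]
    have h1 := Pk_T1 hs k hβpos.le hρ.1
    have h2 := stail_succ hQ2 k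
    have h3 : θ * stail Q k - θ * stail Q (k + 1) = θ * ck Q k := by rw [h2]; ring
    rw [h3]
    have hq : (Q : ℝ) ≤ qk Q k := le_qk (by omega) k
    have hq1 : (1 : ℝ) ≤ qk Q k := by
      have : (2 : ℝ) ≤ Q := by exact_mod_cast hQ2
      linarith
    have h4 : β * C * ρ / (2 * Rk Q k ^ 3) ≤ C3 / qk Q k ^ 16 := by
      have e1 : qk Q k ^ 16 ≤ 2 * Rk Q k ^ 3 := by
        have : Rk Q k ^ 3 = qk Q k ^ 192 := by unfold Rk; rw [← pow_mul]
        rw [this]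
        have : qk Q k ^ 16 ≤ qk Q k ^ 192 := pow_le_pow_right₀ hq1 (by norm_num)
        have : 0 < qk Q k ^ 192 := by positivity
        linarith
      have e2 : β * C * ρ ≤ C3 := by
        have : β * C * ρ ≤ 2 * (B * β1) * C * ρm := by
          apply mul_le_mul _ hρ.2 hρ.1 (by positivity)
          exact mul_le_mul_of_nonneg_right hβ.2.le hC.le
        linarith
      have hρ0 := hρ.1
      exact div_le_div₀ (le_trans (by positivity) e2) e2 (by positivity) e1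
    simp only [epsSeq]
    nlinarith
  · -- T2
    rintro k ⟨β, μ⟩ hz ρ hρ
    simp only [Par.Ω, mkPar, mem_prod, mem_Ioo] at hz
    simp only [mkPar, mem_Icc] at hρ
    obtain ⟨⟨hz1, hz2⟩, hz3, hz4⟩ := hz
    have hβpos : 0 < β := by linarith
    have hτk : θ * stail Q (k + 1) ≤ 2 / (Q : ℝ) ^ 2 := by
      have e1 : stail Q (k + 1) ≤ stail Q 1 := stail_antitone hQ2 (by omega)
      have e2 := stail_one_le hQ2
      have e3 := stail_pos hQ2 (k + 1)
      have e4 := hs.θ1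
      have e5 := hs.θ0
      nlinarith
    have hτk0 : 0 ≤ θ * stail Q (k + 1) := mul_nonneg hs.θ0 (stail_pos hQ2 (k + 1)).le
    have hshift : β * (θ * stail Q (k + 1)) * ρ ≤ 1 := by
      have e1 : β * (θ * stail Q (k + 1)) ≤ 2 * (B * β1) * (2 / (Q : ℝ) ^ 2) :=
        mul_le_mul hz2.le hτk hτk0 (by positivity)
      have e2 : β * (θ * stail Q (k + 1)) * ρ ≤ 2 * (B * β1) * (2 / (Q : ℝ) ^ 2) * ρm :=
        mul_le_mul e1 hρ.2 hρ.1 (by positivity)
      linarith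
    have hshift0 : 0 ≤ β * (θ * stail Q (k + 1)) * ρ := mul_nonneg (mul_nonneg hβpos.le hτk0) hρ.1
    obtain ⟨ρ', h1, h2, h3⟩ := hT2 k β hz1.le hz2.le (μ + β * (θ * stail Q (k + 1)) * ρ)
      (by rw [abs_le]; constructor <;> linarith) ρ hρ.1
    refine ⟨ρ', ⟨h1, h2.trans hρm⟩, ?_⟩
    have h4 : CT / qk Q k ^ 16 ≤ C3 / qk Q k ^ 16 := by
      have : 0 < qk Q k := lt_of_lt_of_le (by
        have : (2 : ℝ) ≤ Q := by exact_mod_cast hQ2
        linarith) (le_qk (by omega) k)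
      have : CT ≤ C3 := by
        have : 0 ≤ 2 * (B * β1) * C * ρm := by positivity
        linarith
      gcongr
    have h5 : stail Q k = ck Q k + stail Q (k + 1) := stail_succ hQ2 k
    simp only [VV, mkPar, epsSeq]
    rw [h5]
    nlinarith
  · -- gaps
    rintro z hz ρ hρ
    simp only [Par.Ω, mkPar, mem_prod, mem_Ioo] at hz
    rw [hVV]
    have hm : (mkPar p ϵ β1 (B * β1) (mubar B β1 K0) ρm C0 θ C3 Q).m 0 = 1 := rfl
    rw [hm]
    simp only [mkPar] at hρ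
    rcases hρ with hρ | hρ
    · have h1 := h.gap1 (z := z) hz.1.1 hρ.1 hρ.2
      rcases le_total (V0 (P00 φ0) p z 0) (V0 (P00 φ0) p z m0) with h2 | h2
      · rw [max_eq_right h2] at h1
        exact ⟨.M, m0, hm0, by rw [hVV]; exact h1⟩
      · rw [max_eq_left h2] at h1
        exact ⟨.A, 0, h00, by rw [hVV]; exact h1⟩
    · have h1 := h.gap2 (z := z) hz.1.1 hρ.1 hρ.2
      rcases le_total (V0 (P00 φ0) p z m0) (V0 (P00 φ0) p z b0) with h2 | h2
      · rw [max_eq_right h2] at h1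
        exact ⟨.B, b0, hb0, by rw [hVV]; exact h1⟩
      · rw [max_eq_left h2] at h1
        exact ⟨.M, m0, hm0, by rw [hVV]; exact h1⟩
  · -- upper bound
    rintro ⟨β, μ⟩ hz ρ hρ
    rw [hVV]
    simp only [Par.Ω, mkPar, mem_prod, mem_Ioo] at hz
    simp only [mkPar, mem_Icc] at hρ ⊢
    obtain ⟨⟨hz1, hz2⟩, hz3, hz4⟩ := hz
    have hβpos : 0 < β := by linarith
    have h1 := h.le_one β hβpos.le ρ hρ.1
    have h2 : μ * ρ ≤ mubar B β1 K0 * ρm := by
      have e1 : μ * ρ ≤ mubar B β1 K0 * ρ := mul_le_mul_of_nonneg_right hz4.le hρ.1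
      have e2 : mubar B β1 K0 * ρ ≤ mubar B β1 K0 * ρm := mul_le_mul_of_nonneg_left hρ.2 hmub.le
      linarith
    have h3 : β * (19 / (20 * p)) * ρ ^ 2 / 2 ≤ (B * β1) * ρm ^ 2 := by
      have e1 : β * (19 / (20 * p)) ≤ 2 * (B * β1) * 1 :=
        mul_le_mul hz2.le hτ201 hτ20.le (by positivity)
      have e2 : ρ ^ 2 ≤ ρm ^ 2 := pow_le_pow_left₀ hρ.1 hρ.2 2
      have e3 : β * (19 / (20 * p)) * ρ ^ 2 ≤ 2 * (B * β1) * 1 * ρm ^ 2 :=
        mul_le_mul e1 e2 (by positivity) (by positivity)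
      linarith
    have h4 : 0 ≤ mubar B β1 K0 * ρm := by positivity
    have h5 : 0 ≤ (B * β1) * ρm ^ 2 := by positivity
    have := h.C2_nn
    have := h.Cκ_nn
    simp only [V0]
    linarith
  · -- lower bounds
    rintro Y ⟨β, μ⟩ hz
    simp only [Par.Ω, mkPar, mem_prod, mem_Ioo] at hz
    obtain ⟨⟨hz1, hz2⟩, hz3, hz4⟩ := hz
    have hβpos : 0 < β := by linarith
    have h4 : 0 ≤ mubar B β1 K0 * ρm := by positivity
    have h5 : 0 ≤ (B * β1) * ρm ^ 2 := by positivity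
    have hC2 := h.C2_nn
    have hCκ := h.Cκ_nn
    have hC0' : (mkPar p ϵ β1 (B * β1) (mubar B β1 K0) ρm C0 θ C3 Q).C0 = C0 := rfl
    rw [hC0']
    cases Y
    · refine ⟨0, h00, ?_⟩
      rw [hVV]
      simp only [V0]
      rw [h.zero β hβpos.le]
      simp
      linarith
    · refine ⟨m0, hm0, ?_⟩
      rw [hVV]
      simp only [V0]
      have e1 := h.U1 β hβpos.le
      have e2 := h.m0_lo
      have e3 := h.m0_hi
      have e4 : -(mubar B β1 K0 * ρm) ≤ μ * m0 := by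
        have e5 : -mubar B β1 K0 * m0 ≤ μ * m0 := mul_le_mul_of_nonneg_right hz3.le (by linarith)
        have e6 : mubar B β1 K0 * m0 ≤ mubar B β1 K0 * ρm :=
          mul_le_mul_of_nonneg_left (by linarith) hmub.le
        linarith
      have e7 : 0 ≤ β * (19 / (20 * p)) * m0 ^ 2 / 2 := by positivity
      linarith
    · refine ⟨b0, hb0, ?_⟩
      rw [hVV]
      simp only [V0]
      have e1 := h.U2 β hβpos.le
      have e2 := h.b0_lo
      have e3 := h.b0_hi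
      have e4 : -(mubar B β1 K0 * ρm) ≤ μ * b0 := by
        have e5 : -mubar B β1 K0 * b0 ≤ μ * b0 := mul_le_mul_of_nonneg_right hz3.le (by linarith)
        have e6 : mubar B β1 K0 * b0 ≤ mubar B β1 K0 * ρm :=
          mul_le_mul_of_nonneg_left (by linarith) hmub.le
        linarith
      have e7 : 0 ≤ β * (19 / (20 * p)) * b0 ^ 2 / 2 := by positivity
      have e8 : β * b0 / 2 ≤ B * β1 * ρm ^ 2 := by
        have e9 : β * b0 ≤ 2 * (B * β1) * ρm :=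
          mul_le_mul hz2.le (by linarith) (by linarith) (by positivity)
        have e10 : B * β1 * ρm ≤ B * β1 * ρm ^ 2 := by
          have : ρm ≤ ρm ^ 2 := le_self_pow₀ (by linarith) (by norm_num)
          exact mul_le_mul_of_nonneg_left this hBβ.le
        linarith
      linarith

/-- The hypotheses `BaseHyp` for the concrete sequences. -/
theorem baseHyp_core (hs : Setup φ0 j K0 κ w C θ Q)
    (h : BF (P00 φ0) p ϵ K0 B Bw C2 Cκ m0 b0 β1) {ρm C3 C0 η : ℝ}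
    (hθ : θ * stail Q 0 = 19 / (20 * p)) (hρm16 : 16 ≤ ρm)
    (hη0 : 0 < η) (hη : η ≤ 1 / (16000 * B))
    (hseq : SeqOK p ϵ β1 (B * β1) (mubar B β1 K0) ρm C0 θ C3 η Q)
    (habs : KacAbs (mkPar p ϵ β1 (B * β1) (mubar B β1 K0) ρm C0 θ C3 Q) (Pk φ0 j θ Q)) :
    BaseHyp (mkPar p ϵ β1 (B * β1) (mubar B β1 K0) ρm C0 θ C3 Q) (Pk φ0 j θ Q)
      β1 (B * β1) (B * β1 * K0 / 2 + 4) (-(47 / 100) * β1) 1 (β1 / 4) (1 / (1000 * B)) 1 η := by
  obtain ⟨hB, hϵ, hβ1, hβ1pos⟩ := h.sizes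
  have hp := h.p1
  have hp8 := h.p8
  have hK := h.K0_ge
  have hϵpos := h.ϵ_pos
  have hC2 := h.C2_nn
  have hCκ := h.Cκ_nn
  have hQ2 : 2 ≤ Q := le_trans (by norm_num) hs.Q4
  set pr := mkPar p ϵ β1 (B * β1) (mubar B β1 K0) ρm C0 θ C3 Q with hpr
  have hVV : ∀ z ρ, VV (Pk φ0 j θ Q) pr.τ 0 z ρ =
      V0 (P00 φ0) p z ρ := fun z ρ => VV_zero_eq (by linarith) hQ2 hθ _ rfl z ρ
  have hBβ : 0 < B * β1 := by positivity
  have hBβ1 : β1 ≤ B * β1 := by nlinarith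
  have hBK : 0 < B * β1 * K0 := by positivity
  have hmub : mubar B β1 K0 = 3 * (B * β1 * K0 / 2 + 4) + β1 := rfl
  -- membership of Ω
  have hΩ : ∀ β μ : ℝ, β1 ≤ β → β ≤ B * β1 → -(B * β1 * K0 / 2 + 4) ≤ μ →
      μ ≤ B * β1 * K0 / 2 + 4 → (β, μ) ∈ pr.Ω := by
    intro β μ h1 h2 h3 h4
    simp only [Par.Ω, hpr, mkPar, mem_prod, mem_Ioo]
    refine ⟨⟨by linarith, by linarith⟩, ?_, ?_⟩ <;> rw [hmub] <;> linarith
  have hm0 : m0 ∈ pr.I .M 0 := by
    simp only [Par.I, Par.lo, Par.hi, hpr, mkPar, mem_Icc]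
    have := h.m0_lo
    have := h.m0_hi
    constructor <;> simp <;> linarith
  have hb0 : b0 ∈ pr.I .B 0 := by
    simp only [Par.I, Par.lo, Par.hi, hpr, mkPar, mem_Icc]
    have := h.b0_lo
    have := h.b0_hi
    constructor
    · simp; linarith
    · linarith
  have h00 : (0 : ℝ) ∈ pr.I .A 0 := by
    simp only [Par.I, Par.lo, Par.hi, hpr, mkPar, mem_Icc]
    constructor
    · exact le_rfl
    · simp; linarith
  -- descriptions of the intervals
  have iA : ∀ ρ ∈ pr.I .A 0, 0 ≤ ρ ∧ ρ ≤ ϵ := by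
    intro ρ hρ
    simpa [Par.I, Par.lo, Par.hi, hpr, mkPar, mem_Icc] using hρ
  have iM : ∀ ρ ∈ pr.I .M 0, p - ϵ ≤ ρ ∧ ρ ≤ p + ϵ := by
    intro ρ hρ
    simpa [Par.I, Par.lo, Par.hi, hpr, mkPar, mem_Icc] using hρ
  have iB : ∀ ρ ∈ pr.I .B 0, 3 * p / 2 ≤ ρ ∧ ρ ≤ ρm := by
    intro ρ hρ
    simpa [Par.I, Par.lo, Par.hi, hpr, mkPar, mem_Icc] using hρ
  have hηB : η ≤ 1 / 3200000 := by
    have : 1 / (16000 * B) ≤ 1 / 3200000 := by
      apply one_div_le_one_div_of_le (by norm_num); linarith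
    linarith
  have he0 : pr.e 0 ≤ η := hseq.e0
  have hτ0 : pr.τ 0 = 19 / (20 * p) := hθ
  have hτ20 : 0 < 19 / (20 * p) := by positivity
  have hτv : 19 / (20 * p) * (p + ϵ + ϵ) ≤ 1 := by
    rw [div_mul_eq_mul_div, div_le_one (by positivity)]
    linarith
  refine
    { abs := habs, hβ := hBβ1, hμ' := by positivity, t_pos := by positivity,
      ht1 := ?_, ht2 := ?_, ht3 := ?_, hz1 := ?_, hz2 := ?_, hD := ?_, h1 := ?_, h2 := ?_,
      hL := ?_, hR := ?_, anti := ?_, nd := ?_, hη := hseq.hη, η_pos := hη0,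
      κ₂_pos := by positivity, hκ₁ := ?_, hκ₂ := ?_ }
  · simp only [hpr, mkPar]; linarith
  · simp only [hpr, mkPar]; linarith
  · rw [hτ0]
    simp only [hpr, mkPar]
    rw [hmub]
    have : β1 / 4 * (19 / (20 * p) * (p + ϵ + ϵ)) ≤ β1 / 4 * 1 := by gcongr
    linarith
  · simp only [hpr, mkPar]; linarith
  · simp only [hpr, mkPar]
    have e1 : |-(47 / 100) * β1| = 47 / 100 * β1 := by
      rw [abs_mul, abs_of_pos hβ1pos, abs_neg, abs_of_pos (by norm_num)]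
    rw [hmub, e1]
    linarith
  · linarith
  · -- h1
    intro μ hμ
    have hz : (β1, μ) ∈ pr.Ω := hΩ β1 μ le_rfl hBβ1 hμ.1 hμ.2
    have hM := habs.le_f hz hm0
    rw [hVV] at hM
    rcases h.h1 μ with h1 | h1
    · left
      have : ff pr (Pk φ0 j θ Q) 0 .A (β1, μ) ≤ V0 (P00 φ0) p (β1, μ) m0 - 1 := by
        apply habs.f_le
        intro ρ hρ
        rw [hVV]
        have := h1 ρ (iA ρ hρ).1 (iA ρ hρ).2
        linarith
      linarith
    · right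
      have : ff pr (Pk φ0 j θ Q) 0 .B (β1, μ) ≤ V0 (P00 φ0) p (β1, μ) m0 - 1 := by
        apply habs.f_le
        intro ρ hρ
        rw [hVV]
        have := h1 ρ (iB ρ hρ).1
        linarith
      linarith
  · -- h2
    intro μ hμ
    have hz : (B * β1, μ) ∈ pr.Ω := hΩ (B * β1) μ hBβ1 le_rfl hμ.1 hμ.2
    have hA := habs.le_f hz h00
    have hB' := habs.le_f hz hb0
    rw [hVV] at hA hB'
    rcases h.h2 μ with h1 | h1
    · left
      have : ff pr (Pk φ0 j θ Q) 0 .M (B * β1, μ) ≤ V0 (P00 φ0) p (B * β1, μ) 0 - 1 := by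
        apply habs.f_le
        intro ρ hρ
        rw [hVV]
        have := h1 ρ (iM ρ hρ).1 (iM ρ hρ).2
        linarith
      linarith
    · right
      have : ff pr (Pk φ0 j θ Q) 0 .M (B * β1, μ) ≤ V0 (P00 φ0) p (B * β1, μ) b0 - 1 := by
        apply habs.f_le
        intro ρ hρ
        rw [hVV]
        have := h1 ρ (iM ρ hρ).1 (iM ρ hρ).2
        linarith
      linarith
  · -- hL
    intro β hβ
    have hz : (β, -(B * β1 * K0 / 2 + 4)) ∈ pr.Ω := hΩ _ _ hβ.1 hβ.2 le_rfl (by linarith)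
    have hA := habs.le_f hz h00
    rw [hVV] at hA
    constructor
    · have : ff pr (Pk φ0 j θ Q) 0 .M (β, -(B * β1 * K0 / 2 + 4)) ≤
          V0 (P00 φ0) p (β, -(B * β1 * K0 / 2 + 4)) 0 - 1 := by
        apply habs.f_le
        intro ρ hρ
        rw [hVV]
        have := h.hL hβ.1 hβ.2 (iM ρ hρ).1
        linarith
      linarith
    · have : ff pr (Pk φ0 j θ Q) 0 .B (β, -(B * β1 * K0 / 2 + 4)) ≤
          V0 (P00 φ0) p (β, -(B * β1 * K0 / 2 + 4)) 0 - 1 := by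
        apply habs.f_le
        intro ρ hρ
        rw [hVV]
        have h3 := (iB ρ hρ).1
        have := h.hL hβ.1 hβ.2 (ρ := ρ) (by linarith)
        linarith
      linarith
  · -- hR
    intro β hβ
    have hz : (β, B * β1 * K0 / 2 + 4) ∈ pr.Ω := hΩ _ _ hβ.1 hβ.2 (by linarith) le_rfl
    have hB' := habs.le_f hz hb0
    rw [hVV] at hB'
    constructor
    · have : ff pr (Pk φ0 j θ Q) 0 .M (β, B * β1 * K0 / 2 + 4) ≤
          V0 (P00 φ0) p (β, B * β1 * K0 / 2 + 4) b0 - 1 := by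
        apply habs.f_le
        intro ρ hρ
        rw [hVV]
        have h3 := (iM ρ hρ).1
        have := h.hR hβ.1 hβ.2 (ρ := ρ) (by linarith) (iM ρ hρ).2
        linarith
      linarith
    · have : ff pr (Pk φ0 j θ Q) 0 .A (β, B * β1 * K0 / 2 + 4) ≤
          V0 (P00 φ0) p (β, B * β1 * K0 / 2 + 4) b0 - 1 := by
        apply habs.f_le
        intro ρ hρ
        rw [hVV]
        have h3 := (iA ρ hρ).2
        have := h.hR hβ.1 hβ.2 (ρ := ρ) (iA ρ hρ).1 (by linarith)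
        linarith
      linarith
  · -- antitone
    intro ρ hρ β β' h1 h2 _
    simp only [hpr, mkPar] at h1
    rw [Pk_zero, Pk_zero]
    exact h.anti β β' (by linarith) h2 ρ hρ.1
  · -- nondegeneracy
    rintro ⟨β, μ⟩ ⟨hzβ, hzμ⟩ ρM hρM Y hY
    simp only [mem_Icc] at hzβ hzμ
    rw [hτ0]
    simp only [hpr, mkPar, mem_Icc] at hρM ⊢
    rw [← mkPar, ← hpr]
    have hz : (β, μ) ∈ pr.Ω := hΩ _ _ hzβ.1 hzβ.2 hzμ.1 hzμ.2
    have hM := habs.le_f hz hm0
    rw [hVV] at hM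
    have hnd := h.nd hzβ.1 hzβ.2 hzμ.1 hzμ.2 (ρM := ρM) (by linarith) (by linarith)
    have hY2 : ff pr (Pk φ0 j θ Q) 0 Y (β1, -(47 / 100) * β1) ≤ 2 := by
      apply habs.f_le
      intro ρ hρ
      rw [hVV]
      cases Y
      · exact h.at_μ'' (iA ρ hρ).1 (Or.inl (iA ρ hρ).2)
      · exact absurd rfl hY
      · exact h.at_μ'' (by linarith [(iB ρ hρ).1]) (Or.inr (iB ρ hρ).1)
    have e1 : p + ϵ - (p - ϵ) + ϵ = 3 * ϵ := by ring
    rw [e1]
    linarith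
  · linarith
  · have : 1 / (16000 * B) = 1 / (1000 * B) / 16 := by field_simp; norm_num
    have h2 : 0 < 1 / (1000 * B) := by positivity
    have h3 : 1 ≤ β1 / 4 := by linarith
    have h4 : 1 * (1 / (1000 * B)) ≤ β1 / 4 * (1 / (1000 * B)) :=
      mul_le_mul_of_nonneg_right h3 h2.le
    linarith

end

theorem P00_eq (φ0 : ℝ → ℝ) (β ρ : ℝ) : P00 φ0 β ρ = Pr (fun r => β * φ0 r) ρ := rfl

/-- The kink for the unscaled potential. -/
theorem core_kink : ∃ (j : ℝ → ℝ) (C K0 κ w p : ℝ), IsKernel j C ∧ 1 ≤ K0 ∧ 0 < κ ∧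
    κ ≤ 1 / 10000 ∧ 0 < w ∧ w ≤ 1 / 20000 ∧ 1 ≤ p ∧
    Tendsto (fun L : ℝ => (Crest.ProbabilityR.Continuum.packingNumber L : ℝ) / L ^ 3)
      atTop (𝓝 p) ∧
    ∀ φ0 : ℝ → ℝ, BasePot φ0 K0 κ w → ∀ Qmin : ℕ, ∃ Q : ℕ, Qmin ≤ Q ∧ ∃ θ : ℝ, 0 < θ ∧
      Setup φ0 j K0 κ w C θ Q ∧
      ∃ blo βc bhi ρ1 ρ2 : ℝ, 0 < blo ∧ blo < βc ∧ βc < bhi ∧ 0 < ρ1 ∧ ρ1 < ρ2 ∧
        ∀ r : ℝ, ρ1 ≤ r → r ≤ ρ2 → ∃ e1 e2 : ℝ, e1 < e2 ∧ ∀ β : ℝ, blo < β → β < bhi →
          Pinf φ0 j θ Q βc r + e1 * (β - βc) ≤ Pinf φ0 j θ Q β r ∧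
          Pinf φ0 j θ Q βc r + e2 * (β - βc) ≤ Pinf φ0 j θ Q β r := by
  obtain ⟨j, C, hj⟩ := exists_kernel
  obtain ⟨p, hp1, hp8, hp, -, -⟩ := exists_density
  obtain ⟨K3, Bw, hK3, hBw, hL3⟩ := base_L3 hp1 hp (δ := 1 / 200) (by norm_num)
  obtain ⟨b0, C2, hb0lo, hb0hi, hC2, hU23⟩ := base_U23 hp1 hp
  have hC := hj.Cpos
  set K0 : ℝ := max (max K3 (Kmin C)) 100 with hK0
  have hK0a : K3 ≤ K0 := (le_max_left _ _).trans (le_max_left _ _)
  have hK0b : Kmin C ≤ K0 := (le_max_right _ _).trans (le_max_left _ _)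
  have hK0c : 100 ≤ K0 := le_max_right _ _
  set B : ℝ := 200 * (Bw + 1) with hB
  have hB200 : 200 ≤ B := by rw [hB]; linarith
  set ϵ : ℝ := 1 / (100000 * (K0 * B)) with hϵ
  have hϵpos : 0 < ϵ := by rw [hϵ]; positivity
  have hϵKB : ϵ * (K0 * B) ≤ 1 / 100000 := by
    rw [hϵ]
    have : K0 * B ≠ 0 := by positivity
    field_simp
    rfl
  have hϵ1 : ϵ ≤ 1 := by
    rw [hϵ, div_le_one (by positivity)]
    nlinarith
  set κ : ℝ := ϵ / 100000 with hκ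
  have hκpos : 0 < κ := by rw [hκ]; positivity
  have hκle : κ ≤ 1 / 10000 := by rw [hκ]; linarith
  obtain ⟨m0, hm0lo, hm0hi, hU1⟩ := base_U1 hp1 hp hκpos hκle
  set Cκ : ℝ := 3 * p * Real.log (1 / κ) with hCκ
  have hCκnn : 0 ≤ Cκ := by
    rw [hCκ]
    have : 0 ≤ Real.log (1 / κ) := Real.log_nonneg (by
      rw [le_div_iff₀ hκpos]; linarith)
    positivity
  set β1 : ℝ := max (100 * (Cκ + C2 + 3) / ϵ) (10 / Bw) with hβ1
  have hβ1a : 100 * (Cκ + C2 + 3) ≤ β1 * ϵ := by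
    have : 100 * (Cκ + C2 + 3) / ϵ ≤ β1 := le_max_left _ _
    rwa [div_le_iff₀ hϵpos] at this
  have hβ1b : 10 ≤ Bw * β1 := by
    have : 10 / Bw ≤ β1 := le_max_right _ _
    rw [div_le_iff₀ hBw] at this
    linarith
  have hβ1c : 1 ≤ β1 := by
    by_contra hcon
    push Not at hcon
    have : β1 * ϵ ≤ 1 * 1 := mul_le_mul hcon.le hϵ1 hϵpos.le (by norm_num)
    linarith
  set w : ℝ := Real.exp (-(Bw * β1)) with hw
  have hwpos : 0 < w := Real.exp_pos _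
  have hwle : w ≤ 1 / 20000 := by
    have h1 : w ≤ Real.exp (-10) := Real.exp_le_exp.2 (by linarith)
    have h2 : Real.exp (-10) ≤ 1 / 20000 := by
      rw [Real.exp_neg, ← one_div]
      apply one_div_le_one_div_of_le (by norm_num)
      have h3 : (2.7182818283 : ℝ) < Real.exp 1 := Real.exp_one_gt_d9
      have h4 : Real.exp 10 = Real.exp 1 ^ 10 := by rw [← Real.exp_nat_mul]; norm_num
      rw [h4]
      have h5 : (2.7 : ℝ) ^ 10 ≤ Real.exp 1 ^ 10 := by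
        apply pow_le_pow_left₀ (by norm_num); linarith
      have h6 : (20000 : ℝ) ≤ (2.7 : ℝ) ^ 10 := by norm_num
      linarith
    linarith
  have hlogw : Real.log (1 / w) = Bw * β1 := by
    rw [hw, one_div, ← Real.exp_neg, Real.log_exp]; ring
  refine ⟨j, C, K0, κ, w, p, hj, by linarith, hκpos, hκle, hwpos, hwle, hp1, hp, ?_⟩
  intro φ0 hφ0 Qmin
  -- base facts
  have hBF : BF (P00 φ0) p ϵ K0 B Bw C2 Cκ m0 b0 β1 :=
    { p1 := hp1, p8 := hp8, K0_ge := hK0c, Bw_nn := hBw.le, B_eq := rfl, ϵ_pos := hϵpos,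
      ϵ_le := hϵKB, C2_nn := hC2.le, Cκ_nn := hCκnn, β1_ge := hβ1a,
      m0_lo := by
        have : p * (10 * κ) ≤ ϵ / 1000 := by
          rw [hκ]
          have : p * (10 * (ϵ / 100000)) ≤ 8 * (10 * (ϵ / 100000)) := by gcongr
          linarith
        linarith
      m0_hi := hm0hi, b0_lo := hb0lo, b0_hi := hb0hi,
      zero := fun β hβ => by rw [P00_eq]; exact Pr_zero (R0 := 2) (by norm_num) (adm_base hφ0 hβ)
      le_one := fun β hβ ρ hρ => base_le_one hφ0 hβ hρ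
      linear := fun β hβ ρ hρ => base_linear hφ0 hβ hρ hp
      super := by
        intro β hβ ρ hρ
        have hs : Setup φ0 j K0 κ w C 0 4 := ⟨hφ0, hj, hK0b, le_rfl, by norm_num, le_rfl⟩
        have h1 := Pk_super hs 0 hβ hρ
        rw [Pk_zero] at h1
        rw [P00_eq]
        have : 0 ≤ β * (16 * C * ρ ^ 2) := by positivity
        nlinarith
      L3 := fun ρ hρ => by
        rw [P00_eq]
        exact hL3 φ0 K0 κ w β1 hφ0 hK0a hβ1c le_rfl ρ hρ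
      U1 := fun β hβ => hU1 φ0 K0 w β hφ0 hβ
      U2 := fun β hβ => (hU23 φ0 K0 κ w β hφ0 hβ).1
      U3 := fun β hβ => by
        have := (hU23 φ0 K0 κ w β hφ0 hβ).2
        rwa [hlogw] at this
      anti := fun β β' hβ hββ' ρ hρ => base_antitone hφ0 hβ hββ' hρ }
  obtain ⟨-, hϵ9, hβ1big, hβ1pos⟩ := hBF.sizes
  have hmub : 0 < mubar B β1 K0 := by unfold mubar; positivity
  have hBβ : 0 < B * β1 := by positivity
  -- T2 constants
  obtain ⟨CT, ρm0, hCT, hρm0, hT2⟩ := Pk_T2 (β1 / 2) (2 * (B * β1)) (mubar B β1 K0 + 1) K0 C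
    (by positivity) (by nlinarith) (by positivity) hC (by linarith)
  set ρm : ℝ := max ρm0 16 with hρm
  have hρma : ρm0 ≤ ρm := le_max_left _ _
  have hρmb : 16 ≤ ρm := le_max_right _ _
  set C3 : ℝ := CT + 2 * (B * β1) * C * ρm with hC3
  have hC3pos : 0 < C3 := by rw [hC3]; positivity
  set C0 : ℝ := 2 * mubar B β1 K0 * ρm + 10 * (B * β1) * ρm ^ 2 + Cκ + C2 + 1 with hC0
  have hC0pos : 0 ≤ C0 := by rw [hC0]; positivity
  set η : ℝ := 1 / (16000 * B) with hη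
  have hηpos : 0 < η := by rw [hη]; positivity
  have hτpos : 0 < 19 / (20 * p) := by positivity
  obtain ⟨Q0, hQ0⟩ := seqOK p ϵ β1 (B * β1) (mubar B β1 K0) ρm C0 C3 (19 / (20 * p) / 2) η
    hϵpos hβ1pos hC0pos hC3pos (by positivity) hηpos
  obtain ⟨Qν, hQν⟩ := exists_nat_ge (4 * (B * β1) * ρm)
  set Q : ℕ := max (max Q0 Qmin) (max Qν 4) with hQ
  have hQa : Q0 ≤ Q := (le_max_left _ _).trans (le_max_left _ _)
  have hQb : Qmin ≤ Q := (le_max_right _ _).trans (le_max_left _ _)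
  have hQc : Qν ≤ Q := (le_max_left _ _).trans (le_max_right _ _)
  have hQd : 4 ≤ Q := (le_max_right _ _).trans (le_max_right _ _)
  have hQ2 : 2 ≤ Q := le_trans (by norm_num) hQd
  refine ⟨Q, hQb, ?_⟩
  have hs1 := one_le_stail_zero hQ2
  have hs2 := stail_zero_le hQ2
  have hspos : 0 < stail Q 0 := by linarith
  set θ : ℝ := 19 / (20 * p) / stail Q 0 with hθ
  have hθpos : 0 < θ := by rw [hθ]; positivity
  have hθlo : 19 / (20 * p) / 2 ≤ θ := by
    rw [hθ]; exact div_le_div_of_nonneg_left hτpos.le hspos hs2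
  have hτ1 : 19 / (20 * p) ≤ 1 := by rw [div_le_one (by positivity)]; linarith
  have hθ1 : θ ≤ 1 := by
    rw [hθ, div_le_one hspos]; linarith
  have hθs : θ * stail Q 0 = 19 / (20 * p) := by
    rw [hθ]; field_simp
  have hs : Setup φ0 j K0 κ w C θ Q := ⟨hφ0, hj, hK0b, hθpos.le, hθ1, hQd⟩
  have hseq := hQ0 Q hQa θ hθlo hθ1
  have hQν' : 2 * (B * β1) * (2 / (Q : ℝ) ^ 2) * ρm ≤ 1 := by
    have hQr : 4 * (B * β1) * ρm ≤ (Q : ℝ) := hQν.trans (by exact_mod_cast hQc)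
    have hQ1 : (1 : ℝ) ≤ (Q : ℝ) := by exact_mod_cast (le_trans (by norm_num) hQd)
    have hQsq : (Q : ℝ) ≤ (Q : ℝ) ^ 2 := le_self_pow₀ hQ1 (by norm_num)
    have : 2 * (B * β1) * (2 / (Q : ℝ) ^ 2) * ρm = (4 * (B * β1) * ρm) / (Q : ℝ) ^ 2 := by ring
    rw [this, div_le_one (by positivity)]
    linarith
  have habs := kacAbs_core hs hBF hθs hρma hρmb (le_refl C3) hCT (le_refl C0) hQν'
    (fun k β h1 h2 ν hν ρ hρ => hT2 φ0 j κ w θ Q hs k β h1 h2 ν hν ρ hρ) hseq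
  have hbase := baseHyp_core hs hBF hθs hρmb hηpos le_rfl hseq habs
  refine ⟨θ, hθpos, hs, ?_⟩
  obtain ⟨βc, hβc, hk⟩ := kink_abstract hbase (Pi := Pinf φ0 j θ Q) (ρ1 := 2 * p / 5)
    (ρ2 := 3 * p / 5)
    (by
      intro β hβ ρ hρ
      simp only [mkPar, mem_Ioo] at hβ
      exact Pk_tendsto hs (by linarith [hβ.1]) hρ.1)
    hseq.τ_lim hseq.e_lim
    (by simp only [mkPar]; linarith)
    (by simp only [mkPar]; linarith)
    (by
      intro β hβ r hr1 hr2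
      simp only [mkPar, mem_Ioo] at hβ
      obtain ⟨μ, h1, h2⟩ := supg_core hs hBF hβ.1 hβ.2 hr1 hr2
      exact ⟨μ, h1, fun ρ hρ => h2 ρ hρ.1⟩)
    (by
      intro r hr1 _
      apply (Pinf_convex hs (by linarith : 0 ≤ r)).subset _ (convex_Ioo _ _)
      intro β hβ
      simp only [mkPar, mem_Ioo] at hβ
      exact mem_Ioi.2 (by linarith [hβ.1]))
  refine ⟨β1 / 2, βc, 2 * (B * β1), 2 * p / 5, 3 * p / 5, by positivity, by linarith [hβc.1],
    by linarith [hβc.2], by positivity, by linarith, ?_⟩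
  intro r hr1 hr2
  obtain ⟨e1, e2, h1, h2⟩ := hk r hr1 hr2
  exact ⟨e1, e2, h1, fun β hb1 hb2 => h2 β ⟨hb1, hb2⟩⟩

end Crest.Agent.Kac
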