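import Mathlib
import Crest.Prelude.Def_PairPotential
import Crest.Prelude.Def_UnitPacking

/-!
Shared definitions for row 149 (S0209, S0210).
Everything about classical particles is expressed through a general symmetric pair function
`u : Pt → Pt → ℝ` (the inverse temperature is absorbed in `u`).
-/

set_option autoImplicit false
open MeasureTheory Filter Topology
open scoped ENNReal

namespace Crest.Agent.Kac

abbrev Pt : Type := Crest.ProbabilityR.Continuum.Pt
abbrev cube (L : ℝ) : Set Pt := Crest.ProbabilityR.Continuum.cube L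

/-- Interaction energy of a configuration for the pair function `u` (sum over unordered pairs,
written as half of the sum over ordered pairs of distinct indices). -/
noncomputable def Eu {ι : Type} [Fintype ι] (u : Pt → Pt → ℝ) (x : ι → Pt) : ℝ := by
  classical exact (1 / 2) * ∑ i, ∑ j, if i = j then 0 else u (x i) (x j)

/-- Boltzmann weight. -/
noncomputable def bw {ι : Type} [Fintype ι] (u : Pt → Pt → ℝ) (x : ι → Pt) : ℝ≥0∞ :=
  ENNReal.ofReal (Real.exp (-(Eu u x)))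

/-- The box `Λ^ι`. -/
abbrev box {ι : Type} (Λ : Set Pt) : Set (ι → Pt) := Set.pi Set.univ (fun _ : ι => Λ)

/-- Canonical partition function in the region `Λ` (an extended nonnegative real). -/
noncomputable def Z (u : Pt → Pt → ℝ) (Λ : Set Pt) (n : ℕ) : ℝ≥0∞ :=
  (n.factorial : ℝ≥0∞)⁻¹ * ∫⁻ x in (box Λ : Set (Fin n → Pt)), bw u x

/-- Grand canonical partition function with chemical potential `ν` (β absorbed). -/
noncomputable def Xi (u : Pt → Pt → ℝ) (ν : ℝ) (Λ : Set Pt) : ℝ≥0∞ :=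
  ∑' n : ℕ, ENNReal.ofReal (Real.exp (ν * n)) * Z u Λ n

/-- The radial pair function of `φ`. -/
noncomputable def rad (φ : ℝ → ℝ) : Pt → Pt → ℝ := fun x y => φ (dist x y)

/-- Symmetric and jointly measurable pair functions. -/
structure GoodPair (u : Pt → Pt → ℝ) : Prop where
  symm : ∀ x y, u x y = u y x
  meas : Measurable (Function.uncurry u)

/-- Stability with constant `B`. -/
def Stable (u : Pt → Pt → ℝ) (B : ℝ) : Prop :=
  ∀ (n : ℕ) (x : Fin n → Pt), -B * n ≤ Eu u x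

/-- Admissible radial potentials (β absorbed): measurable, nonpositive beyond distance `R0`,
stable. -/
structure Adm (v : ℝ → ℝ) (R0 : ℝ) : Prop where
  meas : Measurable v
  tail : ∀ r : ℝ, R0 ≤ r → v r ≤ 0
  stab : ∃ B : ℝ, Stable (rad v) B

/-- Real-valued partition function in the cube `[0,L]^3`. -/
noncomputable def ZL (v : ℝ → ℝ) (L : ℝ) (N : ℕ) : ℝ := (Z (rad v) (cube L) N).toReal

/-- Pressure at density `ρ` : the limit of `(1/L^3) log Z_L(⌊ρ L^3⌋)`. -/
noncomputable def Pr (v : ℝ → ℝ) (ρ : ℝ) : ℝ :=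
  limUnder atTop (fun L : ℝ => (1 / L ^ 3) * Real.log (ZL v L ⌊ρ * L ^ 3⌋₊))

/-- Index of the cell of side `ℓ` of the cubic grid shifted by `(t,t,t)` containing `x`. -/
noncomputable def cell (t ℓ : ℝ) (x : Pt) : Fin 3 → ℤ := fun a => ⌊(x a - t) / ℓ⌋

/-- `1` if `x` and `y` are in the same cell, `0` otherwise. -/
noncomputable def same (t ℓ : ℝ) (x y : Pt) : ℝ := by
  classical exact if cell t ℓ x = cell t ℓ y then 1 else 0

/-- Rescaled kernel `R^{-3} j(r/R)`. -/
noncomputable def JR (j : ℝ → ℝ) (R : ℝ) : ℝ → ℝ := fun r => (R ^ 3)⁻¹ * j (r / R)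

/-- The properties of the mean-field kernel that are used. -/
structure IsKernel (j : ℝ → ℝ) (C : ℝ) : Prop where
  Cpos : 0 < C
  cont : Continuous j
  nonneg : ∀ r, 0 ≤ j r
  supp : ∀ r, 1 ≤ r → j r = 0
  zero_pos : 0 < j 0
  le : ∀ r, j r ≤ C
  lip : ∀ r s, |j r - j s| ≤ C * |r - s|
  /-- positive definiteness + normalisation, used as a lower bound -/
  lower : ∀ R : ℝ, 0 < R → ∀ L : ℝ, 0 ≤ L → ∀ (N : ℕ) (x : Fin N → Pt), (∀ i, x i ∈ cube L) →
    (N : ℝ) ^ 2 / (L + R) ^ 3 ≤ ∑ i, ∑ k, JR j R (dist (x i) (x k))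
  /-- mean-field upper bound with cells of side `ℓ ≤ R` -/
  upper : ∀ R : ℝ, 0 < R → ∀ ℓ : ℝ, 0 < ℓ → ℓ ≤ R → ∀ (t : ℝ) (N : ℕ) (x : Fin N → Pt),
    ∑ i, ∑ k, JR j R (dist (x i) (x k)) ≤
      (1 + C * ℓ / R) * (ℓ ^ 3)⁻¹ * ∑ i, ∑ k, same t ℓ (x i) (x k)

/-- Indicator potential of distances `< a`. -/
noncomputable def chi (a : ℝ) : ℝ → ℝ := fun r => if r < a then 1 else 0

/-- The base potentials (finite range, repulsive, plateau of height `1` up to distance `1`, with a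
narrow well at distance `3/10000` and a high core). -/
structure BasePot (φ0 : ℝ → ℝ) (K0 κ w : ℝ) : Prop where
  meas : Measurable φ0
  K0_ge : 1 ≤ K0
  κ_pos : 0 < κ
  κ_le : κ ≤ 1 / 10000
  w_pos : 0 < w
  w_le : w ≤ 1 / 20000
  nonneg : ∀ r, 0 ≤ r → 0 ≤ φ0 r
  core : ∀ r, 0 ≤ r → r ≤ 1 / 10000 → K0 ≤ φ0 r
  ge_one : ∀ r, 0 ≤ r → r < 1 → w ≤ |r - 3 / 10000| → 1 ≤ φ0 r
  ge_well : ∀ r, 0 ≤ r → r < 1 → 9 / 10 ≤ φ0 r
  le_one : ∀ r, 2 / 10000 ≤ r → φ0 r ≤ 1
  well_le : ∀ r, |r - 3 / 10000| ≤ w / 10 → φ0 r ≤ 91 / 100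
  zero : ∀ r, 1 + κ ≤ r → φ0 r = 0

end Crest.Agent.Kac
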