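import Crest.Agent.Kac.Core
import Crest.Agent.Kac.Assembly
import Crest.Agent.Kac.BaseEx

/-! K18: last lemmas for S0209 and S0210. -/

set_option autoImplicit false
open Set Filter Topology MeasureTheory

namespace Crest.Agent.Kac

theorem Eu_scale {N : ℕ} (φ : ℝ → ℝ) {a : ℝ} (ha : 0 < a) (b : ℝ) (x : Fin N → Pt) :
    Eu (rad (fun r => b * φ (r / a))) x = b * Eu (rad φ) (fun i => a⁻¹ • x i) := by
  rw [← Eu_smul]
  apply Eu_congr
  intro i j _
  simp only [rad]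
  congr 2
  rw [dist_smul₀, Real.norm_eq_abs, abs_of_pos (by positivity)]
  field_simp

theorem stable_scale {φ : ℝ → ℝ} {B a b : ℝ} (ha : 0 < a) (hb : 0 < b) (h : Stable (rad φ) B) :
    ∀ (N : ℕ) (x : Fin N → Pt), -(b * B) * N ≤
      Crest.ProbabilityR.Continuum.energy (fun r => b * φ (r / a)) x := by
  intro N x
  rw [energy_eq, Eu_scale φ ha b x]
  have h1 := h N (fun i => a⁻¹ • x i)
  have h2 := mul_le_mul_of_nonneg_left h1 hb.le
  linarith

section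

variable {φ0 j : ℝ → ℝ} {K0 κ w C θ : ℝ} {Q : ℕ}

/-- decay of the rescaled potential. -/
theorem decay_scale (hs : Setup φ0 j K0 κ w C θ Q) {a b : ℝ} (ha : 0 < a) (hb : 0 < b)
    (hbd : ∃ M : ℝ, ∀ r : ℝ, 1 / a ≤ r → r ≤ 2 → |φ0 r| ≤ M) :
    ∃ D : ℝ, ∀ r : ℝ, 1 ≤ r →
      |b * (φ0 (r / a) - θ * Jinf j Q (r / a))| ≤ D * r ^ (-(3 + 1 / 32 : ℝ)) := by
  obtain ⟨M, hM⟩ := hbd
  have hQ2 : 2 ≤ Q := le_trans (by norm_num) hs.Q4
  obtain ⟨M1, hM1⟩ := Jinf_bdd hs.ker hQ2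
  obtain ⟨M2, hM2⟩ := Jinf_decay hs.ker hQ2
  have hM1' : 0 ≤ M1 := (Jinf_nonneg hs.ker hQ2 0).trans (hM1 0)
  have hM2' : 0 ≤ M2 := by
    have h1 := (Jinf_nonneg hs.ker hQ2 1).trans (hM2 1 le_rfl)
    simpa using h1
  set s : ℝ := -(3 + 1 / 32 : ℝ) with hs'
  have h2a : 0 < (2 * a) ^ s := Real.rpow_pos_of_pos (by positivity) _
  have has : 0 < a ^ s := Real.rpow_pos_of_pos ha _
  refine ⟨b * (|M| + M1) / (2 * a) ^ s + b * M2 / a ^ s, ?_⟩
  intro r hr
  have hr0 : 0 < r := by linarith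
  have hra : 0 < r / a := by positivity
  have hrs : 0 < r ^ s := Real.rpow_pos_of_pos hr0 _
  have hθJ : θ * Jinf j Q (r / a) ≤ Jinf j Q (r / a) := by
    have := Jinf_nonneg hs.ker hQ2 (r / a)
    nlinarith [hs.θ1]
  have hθJ0 : 0 ≤ θ * Jinf j Q (r / a) := mul_nonneg hs.θ0 (Jinf_nonneg hs.ker hQ2 _)
  rw [abs_mul, abs_of_pos hb, add_mul]
  rcases le_total r (2 * a) with h | h
  · -- bounded region
    have h1 : |φ0 (r / a) - θ * Jinf j Q (r / a)| ≤ |M| + M1 := by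
      have e1 : |φ0 (r / a)| ≤ |M| := by
        refine (hM (r / a) ?_ ?_).trans (le_abs_self M)
        · gcongr
        · rw [div_le_iff₀ ha]; exact h
      have e2 := hM1 (r / a)
      calc |φ0 (r / a) - θ * Jinf j Q (r / a)| ≤ |φ0 (r / a)| + |θ * Jinf j Q (r / a)| := abs_sub _ _
        _ ≤ |M| + M1 := by
            rw [abs_of_nonneg hθJ0]; linarith
    have h2 : (2 * a) ^ s ≤ r ^ s := by
      apply Real.rpow_le_rpow_of_nonpos hr0 h
      rw [hs']; norm_num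
    have h3 : b * (|M| + M1) ≤ b * (|M| + M1) / (2 * a) ^ s * r ^ s := by
      rw [div_mul_eq_mul_div, le_div_iff₀ h2a]
      have : 0 ≤ b * (|M| + M1) := by positivity
      nlinarith
    have h4 : 0 ≤ b * M2 / a ^ s * r ^ s := by positivity
    have h5 := mul_le_mul_of_nonneg_left h1 hb.le
    linarith
  · -- far region
    have h1 : 1 + κ ≤ r / a := by
      rw [le_div_iff₀ ha]
      nlinarith [hs.base.κ_le]
    have h1' : 1 ≤ r / a := by linarith [hs.base.κ_pos]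
    rw [hs.base.zero _ h1, zero_sub, abs_neg, abs_of_nonneg hθJ0]
    have h2 := hM2 (r / a) h1'
    rw [Real.div_rpow hr0.le ha.le] at h2
    have h3 : 0 ≤ b * (|M| + M1) / (2 * a) ^ s * r ^ s := by positivity
    have h4 : b * (θ * Jinf j Q (r / a)) ≤ b * M2 / a ^ s * r ^ s := by
      have : b * (θ * Jinf j Q (r / a)) ≤ b * (M2 * (r ^ s / a ^ s)) :=
        mul_le_mul_of_nonneg_left (hθJ.trans h2) hb.le
      calc b * (θ * Jinf j Q (r / a)) ≤ b * (M2 * (r ^ s / a ^ s)) := this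
        _ = b * M2 / a ^ s * r ^ s := by ring
    linarith

end

end Crest.Agent.Kac
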