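import Crest.Agent.Kac.Seq
import Crest.Agent.Kac.Super
import Crest.Agent.Kac.Block

/-! K12: pressures of the multi-scale potentials `φ0 - θ Σ_{i<k} c_i J_i` and of the limit. -/

set_option autoImplicit false
open MeasureTheory Filter Topology
open scoped ENNReal

namespace Crest.Agent.Kac

/-- Minimal core height. -/
noncomputable def Kmin (C : ℝ) : ℝ := 64 * (1 + C) * 20002 ^ 3

structure Setup (φ0 j : ℝ → ℝ) (K0 κ w C θ : ℝ) (Q : ℕ) : Prop where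
  base : BasePot φ0 K0 κ w
  ker : IsKernel j C
  K0_ge : Kmin C ≤ K0
  θ0 : 0 ≤ θ
  θ1 : θ ≤ 1
  Q4 : 4 ≤ Q

noncomputable def Pk (φ0 j : ℝ → ℝ) (θ : ℝ) (Q k : ℕ) (β ρ : ℝ) : ℝ :=
  Pr (fun r => β * (φ0 r - θ * Jsum j Q k r)) ρ

noncomputable def Pinf (φ0 j : ℝ → ℝ) (θ : ℝ) (Q : ℕ) (β ρ : ℝ) : ℝ :=
  Pr (fun r => β * (φ0 r - θ * Jinf j Q r)) ρ

variable {φ0 j : ℝ → ℝ} {K0 κ w C θ : ℝ} {Q : ℕ}


lemma sum_same_nonneg_pks (t ℓ : ℝ) {N : ℕ} (x : Fin N → Pt) :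
    0 ≤ ∑ i, ∑ k, same t ℓ (x i) (x k) :=
  Finset.sum_nonneg (fun _ _ => Finset.sum_nonneg (fun _ _ => same_nonneg _ _ _ _))

/-- cell bound for `θ A`. -/
lemma cells_theta (h : Setup φ0 j K0 κ w C θ Q) {A : ℝ → ℝ} {G : ℝ} (hG : 0 ≤ G)
    (hA : ∀ (N : ℕ) (x : Fin N → Pt), ∑ i, ∑ k, A (dist (x i) (x k)) ≤
      G * ∑ i, ∑ k, same 0 (1 / 20000) (x i) (x k)) (N : ℕ) (x : Fin N → Pt) :
    ∑ i, ∑ k, θ * A (dist (x i) (x k)) ≤ G * ∑ i, ∑ k, same 0 (1 / 20000) (x i) (x k) := by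
  simp_rw [← Finset.mul_sum]
  have h1 := hA N x
  have h2 := sum_same_nonneg_pks 0 (1 / 20000) x
  have h3 := mul_le_mul_of_nonneg_left h1 h.θ0
  refine h3.trans ?_
  have h4 : 0 ≤ G * ∑ i, ∑ k, same 0 (1 / 20000) (x i) (x k) := mul_nonneg hG h2
  nlinarith [h.θ1]

lemma C_pos (h : Setup φ0 j K0 κ w C θ Q) : 0 < C := h.ker.Cpos

lemma K0_big (h : Setup φ0 j K0 κ w C θ Q) : 64 * (1 + C) * 20002 ^ 3 ≤ K0 := h.K0_ge

/-- general superstability. -/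
lemma super_gen (h : Setup φ0 j K0 κ w C θ Q) {A : ℝ → ℝ} (hA0 : ∀ r, 0 ≤ A r)
    (hA : ∀ (N : ℕ) (x : Fin N → Pt), ∑ i, ∑ k, A (dist (x i) (x k)) ≤
      (4 * (1 + C) * 20000 ^ 3) * ∑ i, ∑ k, same 0 (1 / 20000) (x i) (x k))
    {L : ℝ} (hL : 1 ≤ L) (N : ℕ)
    (x : Fin N → Pt) (hx : ∀ i, x i ∈ cube L) :
    (16 * (1 + C)) * (N : ℝ) ^ 2 / L ^ 3 - (K0 / 2) * N ≤
      Eu (rad φ0) x - 2 * Eu (rad (fun r => θ * A r)) x := by
  have hC := C_pos h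
  have hK := K0_big h
  have h1 := superstable (A := fun r => θ * A r) (g := 4 * (1 + C) * 20000 ^ 3) h.base
    (by positivity) (fun r _ => mul_nonneg h.θ0 (hA0 r))
    (cells_theta h (by positivity) hA) (by nlinarith) hL N x hx
  refine le_trans ?_ h1
  have h2 : 16 * (1 + C) ≤ (K0 / 2 - 4 * (1 + C) * 20000 ^ 3) / 20002 ^ 3 := by
    rw [le_div_iff₀ (by positivity)]
    nlinarith
  have h3 : (16 * (1 + C)) * (N : ℝ) ^ 2 / L ^ 3 ≤
      ((K0 / 2 - 4 * (1 + C) * 20000 ^ 3) / 20002 ^ 3) * (N : ℝ) ^ 2 / L ^ 3 := by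
    gcongr
  linarith

lemma Eu_nonneg_pks {A : ℝ → ℝ} (hA0 : ∀ r, 0 ≤ r → 0 ≤ A r) {N : ℕ} (x : Fin N → Pt) :
    0 ≤ Eu (rad A) x := by
  have h1 : Eu (rad (fun _ => (0 : ℝ))) x ≤ Eu (rad A) x :=
    Eu_mono x (fun i k _ => hA0 _ dist_nonneg)
  have h2 : Eu (rad (fun _ => (0 : ℝ))) x = 0 := by simp [Eu, rad]
  linarith

lemma Eu_phi (A : ℝ → ℝ) (β : ℝ) {N : ℕ} (x : Fin N → Pt) :
    Eu (rad (fun r => β * (φ0 r - A r))) x = β * (Eu (rad φ0) x - Eu (rad A) x) := by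
  have h4 : rad (fun r => β * (φ0 r - A r)) =
      fun a b => β * (rad φ0 a b + (-1) * rad A a b) := by
    funext a b
    simp only [rad]
    ring
  rw [h4, Eu_smul, Eu_add, Eu_smul]
  ring

lemma adm_gen (h : Setup φ0 j K0 κ w C θ Q) {A : ℝ → ℝ} (hm : Measurable A)
    (hA0 : ∀ r, 0 ≤ A r)
    (hA : ∀ (N : ℕ) (x : Fin N → Pt), ∑ i, ∑ k, A (dist (x i) (x k)) ≤
      (4 * (1 + C) * 20000 ^ 3) * ∑ i, ∑ k, same 0 (1 / 20000) (x i) (x k))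
    {β : ℝ} (hβ : 0 ≤ β) :
    Adm (fun r => β * (φ0 r - θ * A r)) 2 := by
  have hC := C_pos h
  have hK := K0_big h
  refine ⟨(h.base.meas.sub (hm.const_mul θ)).const_mul β, fun r hr => ?_,
    β * (K0 / 2), fun N x => ?_⟩
  · have h1 : φ0 r = 0 := h.base.zero r (by have := h.base.κ_le; linarith)
    rw [h1]
    have h2 := mul_nonneg hβ (mul_nonneg h.θ0 (hA0 r))
    linarith
  · have h1 := stable_of_base (A := fun r => (1 / 2) * (θ * A r)) (g := 4 * (1 + C) * 20000 ^ 3)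
      h.base (by positivity)
      (fun r _ => mul_nonneg (by norm_num) (mul_nonneg h.θ0 (hA0 r))) ?_ (by nlinarith) N x
    · have h2 : rad (fun r => φ0 r - 2 * ((1 / 2) * (θ * A r))) =
          rad (fun r => 1 * (φ0 r - θ * A r)) := by
        funext a b
        simp only [rad]
        ring
      rw [h2, Eu_phi] at h1
      rw [Eu_phi]
      have h3 := mul_le_mul_of_nonneg_left h1 hβ
      linarith
    · intro N x
      have h3 := cells_theta h (by positivity) hA N x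
      have h4 : 0 ≤ ∑ i, ∑ k, θ * A (dist (x i) (x k)) :=
        Finset.sum_nonneg (fun _ _ => Finset.sum_nonneg
          (fun _ _ => mul_nonneg h.θ0 (hA0 _)))
      simp_rw [← Finset.mul_sum] at h3 h4 ⊢
      linarith

lemma two_le_Q (h : Setup φ0 j K0 κ w C θ Q) : 2 ≤ Q := le_trans (by norm_num) h.Q4

lemma Jsum_cells4 (h : Setup φ0 j K0 κ w C θ Q) (k : ℕ) (N : ℕ) (x : Fin N → Pt) :
    ∑ i, ∑ l, Jsum j Q k (dist (x i) (x l))
      ≤ 4 * (1 + C) * 20000 ^ 3 * ∑ i, ∑ l, same 0 (1 / 20000) (x i) (x l) := by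
  have hC := C_pos h
  refine (Jsum_cells h.ker (two_le_Q h) k N x).trans ?_
  apply mul_le_mul_of_nonneg_right _ (sum_same_nonneg_pks _ _ _)
  nlinarith

lemma Jinf_cells4 (h : Setup φ0 j K0 κ w C θ Q) (N : ℕ) (x : Fin N → Pt) :
    ∑ i, ∑ l, Jinf j Q (dist (x i) (x l))
      ≤ 4 * (1 + C) * 20000 ^ 3 * ∑ i, ∑ l, same 0 (1 / 20000) (x i) (x l) := by
  have hC := C_pos h
  refine (Jinf_cells h.ker (two_le_Q h) N x).trans ?_
  apply mul_le_mul_of_nonneg_right _ (sum_same_nonneg_pks _ _ _)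
  nlinarith

/-- superstability, in the form needed for `T2`. -/
theorem super_energy_k (h : Setup φ0 j K0 κ w C θ Q) (k : ℕ) {L : ℝ} (hL : 1 ≤ L) (N : ℕ)
    (x : Fin N → Pt) (hx : ∀ i, x i ∈ cube L) :
    (16 * (1 + C)) * (N : ℝ) ^ 2 / L ^ 3 - (K0 / 2) * N ≤
      Eu (rad φ0) x - 2 * Eu (rad (fun r => θ * Jsum j Q k r)) x :=
  super_gen h (fun r => Jsum_nonneg h.ker (two_le_Q h) k r) (Jsum_cells4 h k) hL N x hx

theorem super_energy_inf (h : Setup φ0 j K0 κ w C θ Q) {L : ℝ} (hL : 1 ≤ L) (N : ℕ)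
    (x : Fin N → Pt) (hx : ∀ i, x i ∈ cube L) :
    (16 * (1 + C)) * (N : ℝ) ^ 2 / L ^ 3 - (K0 / 2) * N ≤
      Eu (rad φ0) x - 2 * Eu (rad (fun r => θ * Jinf j Q r)) x :=
  super_gen h (fun r => Jinf_nonneg h.ker (two_le_Q h) r) (Jinf_cells4 h) hL N x hx

theorem adm_k (h : Setup φ0 j K0 κ w C θ Q) (k : ℕ) {β : ℝ} (hβ : 0 ≤ β) :
    Adm (fun r => β * (φ0 r - θ * Jsum j Q k r)) 2 :=
  adm_gen h (continuous_Jsum h.ker (two_le_Q h) k).measurable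
    (fun r => Jsum_nonneg h.ker (two_le_Q h) k r) (Jsum_cells4 h k) hβ

theorem adm_inf (h : Setup φ0 j K0 κ w C θ Q) {β : ℝ} (hβ : 0 ≤ β) :
    Adm (fun r => β * (φ0 r - θ * Jinf j Q r)) 2 :=
  adm_gen h (continuous_Jinf h.ker (two_le_Q h)).measurable
    (fun r => Jinf_nonneg h.ker (two_le_Q h) r) (Jinf_cells4 h) hβ

theorem Pk_zero (β ρ : ℝ) : Pk φ0 j θ Q 0 β ρ = Pr (fun r => β * φ0 r) ρ := by
  unfold Pk
  congr 1
  funext r
  rw [Jsum_zero, mul_zero, sub_zero]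

theorem Pk_at_zero (h : Setup φ0 j K0 κ w C θ Q) (k : ℕ) {β : ℝ} (hβ : 0 ≤ β) :
    Pk φ0 j θ Q k β 0 = 0 :=
  Pr_zero (by norm_num) (adm_k h k hβ)

theorem Pinf_at_zero (h : Setup φ0 j K0 κ w C θ Q) {β : ℝ} (hβ : 0 ≤ β) :
    Pinf φ0 j θ Q β 0 = 0 :=
  Pr_zero (by norm_num) (adm_inf h hβ)

lemma Pr_mono {v v' : ℝ → ℝ} {R0 : ℝ} (hR0 : 0 < R0) (hv : Adm v R0) (hv' : Adm v' R0)
    (hle : ∀ r, 0 ≤ r → v' r ≤ v r) {ρ : ℝ} (hρ : 0 ≤ ρ) : Pr v ρ ≤ Pr v' ρ := by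
  have h1 := Pr_le_of_energy hR0 hv hv' hρ (fun _ _ => 0) 0 (by simp) ?_
  · simpa using h1
  · intro L _ N x _
    have h2 : Eu (rad v') x ≤ Eu (rad v) x := Eu_mono x (fun i k _ => hle _ dist_nonneg)
    linarith

theorem Pk_mono (h : Setup φ0 j K0 κ w C θ Q) {k k' : ℕ} (hk : k ≤ k') {β ρ : ℝ} (hβ : 0 ≤ β)
    (hρ : 0 ≤ ρ) : Pk φ0 j θ Q k β ρ ≤ Pk φ0 j θ Q k' β ρ := by
  apply Pr_mono (by norm_num) (adm_k h k hβ) (adm_k h k' hβ) _ hρ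
  intro r _
  have h1 : Jsum j Q k r ≤ Jsum j Q k' r := Jsum_mono h.ker (two_le_Q h) r hk
  have h2 := mul_le_mul_of_nonneg_left h1 h.θ0
  exact mul_le_mul_of_nonneg_left (by linarith) hβ

theorem Pk_le_Pinf (h : Setup φ0 j K0 κ w C θ Q) (k : ℕ) {β ρ : ℝ} (hβ : 0 ≤ β)
    (hρ : 0 ≤ ρ) : Pk φ0 j θ Q k β ρ ≤ Pinf φ0 j θ Q β ρ := by
  apply Pr_mono (by norm_num) (adm_k h k hβ) (adm_inf h hβ) _ hρ
  intro r _
  have h1 : Jsum j Q k r ≤ Jinf j Q r := Jsum_le_Jinf h.ker (two_le_Q h) k r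
  have h2 := mul_le_mul_of_nonneg_left h1 h.θ0
  exact mul_le_mul_of_nonneg_left (by linarith) hβ

theorem Pk_concave (h : Setup φ0 j K0 κ w C θ Q) (k : ℕ) {β : ℝ} (hβ : 0 ≤ β) :
    ConcaveOn ℝ (Set.Ici 0) (fun ρ => Pk φ0 j θ Q k β ρ) :=
  Pr_concave (by norm_num) (adm_k h k hβ)

theorem Pinf_concave (h : Setup φ0 j K0 κ w C θ Q) {β : ℝ} (hβ : 0 ≤ β) :
    ConcaveOn ℝ (Set.Ici 0) (fun ρ => Pinf φ0 j θ Q β ρ) :=
  Pr_concave (by norm_num) (adm_inf h hβ)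

lemma Pr_convex_beta {ψ : ℝ → ℝ} (hadm : ∀ β : ℝ, 0 ≤ β → Adm (fun r => β * ψ r) 2) {ρ : ℝ}
    (hρ : 0 ≤ ρ) : ConvexOn ℝ (Set.Ioi 0) (fun β => Pr (fun r => β * ψ r) ρ) := by
  refine ⟨convex_Ioi 0, ?_⟩
  intro β1 hβ1 β2 hβ2 a b ha hb hab
  have h1 := Pr_convex_pot (by norm_num : (0 : ℝ) < 2) (hadm β1 (le_of_lt hβ1))
    (hadm β2 (le_of_lt hβ2)) hρ hb (by linarith)
  have ha' : a = 1 - b := by linarith
  subst ha'
  simp only [smul_eq_mul]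
  have h2 : (fun r => ((1 - b) * β1 + b * β2) * ψ r) =
      fun r => (1 - b) * (β1 * ψ r) + b * (β2 * ψ r) := by
    funext r; ring
  rw [h2]
  exact h1

theorem Pk_convex (h : Setup φ0 j K0 κ w C θ Q) (k : ℕ) {ρ : ℝ} (hρ : 0 ≤ ρ) :
    ConvexOn ℝ (Set.Ioi 0) (fun β => Pk φ0 j θ Q k β ρ) :=
  Pr_convex_beta (fun _ hβ => adm_k h k hβ) hρ

theorem Pinf_convex (h : Setup φ0 j K0 κ w C θ Q) {ρ : ℝ} (hρ : 0 ≤ ρ) :
    ConvexOn ℝ (Set.Ioi 0) (fun β => Pinf φ0 j θ Q β ρ) :=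
  Pr_convex_beta (fun _ hβ => adm_inf h hβ) hρ

lemma qk_pos' (h : Setup φ0 j K0 κ w C θ Q) (k : ℕ) : 4 ≤ qk Q k := by
  have h1 := le_qk (Q := Q) (le_trans (by norm_num) h.Q4) k
  have h2 : (4 : ℝ) ≤ Q := by exact_mod_cast h.Q4
  linarith

lemma Rk_pos' (h : Setup φ0 j K0 κ w C θ Q) (k : ℕ) : 0 < Rk Q k := by
  have := qk_pos' h k
  unfold Rk
  positivity

lemma Jsum_succ_fun (β : ℝ) (k : ℕ) :
    (fun r => β * (φ0 r - θ * Jsum j Q (k + 1) r)) =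
      fun r => β * (φ0 r - θ * Jsum j Q k r) - (β * θ * ck Q k) * JR j (Rk Q k) r := by
  funext r
  rw [Jsum_succ]
  ring

theorem Pk_T1 (h : Setup φ0 j K0 κ w C θ Q) (k : ℕ) {β ρ : ℝ} (hβ : 0 ≤ β) (hρ : 0 ≤ ρ) :
    Pk φ0 j θ Q k β ρ + β * θ * ck Q k * ρ ^ 2 / 2 - β * C * ρ / (2 * Rk Q k ^ 3) ≤
      Pk φ0 j θ Q (k + 1) β ρ := by
  have hck := ck_pos (Q := Q) (le_trans (by norm_num) h.Q4) k
  have hck1 := ck_le_one (Q := Q) (le_trans (by norm_num) h.Q4) k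
  have hR := Rk_pos' h k
  have hadm := adm_k h (k + 1) hβ
  have h0 := h.θ0
  have h1' := h.θ1
  rw [Jsum_succ_fun] at hadm
  have h1 := Pr_add_kernel (c := β * θ * ck Q k) h.ker (by norm_num) hR (by positivity)
    (adm_k h k hβ) hadm hρ
  unfold Pk
  rw [Jsum_succ_fun]
  refine le_trans ?_ h1
  have h2 : (β * θ * ck Q k) * JR j (Rk Q k) 0 * ρ / 2 ≤ β * C * ρ / (2 * Rk Q k ^ 3) := by
    have h3 : JR j (Rk Q k) 0 ≤ C / Rk Q k ^ 3 := by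
      unfold JR
      rw [zero_div, mul_comm, ← div_eq_mul_inv]
      exact div_le_div_of_nonneg_right (h.ker.le 0) (by positivity)
    have h4 : 0 ≤ JR j (Rk Q k) 0 := by
      unfold JR
      exact mul_nonneg (by positivity) (h.ker.nonneg _)
    have h5 : θ * ck Q k ≤ 1 := by nlinarith
    have h6 : 0 ≤ θ * ck Q k := by positivity
    have h7 : (θ * ck Q k) * JR j (Rk Q k) 0 ≤ C / Rk Q k ^ 3 := by nlinarith
    have h8 : 0 ≤ β * ρ := by positivity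
    have h9 := mul_le_mul_of_nonneg_left h7 h8
    have h10 : β * C * ρ / (2 * Rk Q k ^ 3) = (β * ρ * (C / Rk Q k ^ 3)) / 2 := by
      field_simp
    rw [h10]
    nlinarith
  linarith

lemma adm_zero : Adm (fun _ => (0 : ℝ)) 2 :=
  ⟨measurable_const, fun _ _ => le_rfl, 0, fun n x => by simp [Eu, rad]⟩

lemma Pr_zero_pot {ρ : ℝ} (hρ : 0 ≤ ρ) : Pr (fun _ => (0 : ℝ)) ρ ≤ 1 := by
  refine le_of_tendsto (Pr_tendsto (by norm_num : (0 : ℝ) < 2) adm_zero hρ) ?_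
  filter_upwards [eventually_ge_atTop 1] with L hL
  have hL0 : 0 < L := by linarith
  have hs : Stable (rad (fun _ => (0 : ℝ))) 0 := fun n x => by simp [Eu, rad]
  set N := ⌊ρ * L ^ 3⌋₊
  have h1 := ZL_le hs hL0.le N
  have hp := ZL_pos measurable_const hs hL0 N
  rw [zero_mul, Real.exp_zero, mul_one] at h1
  have h2 := Real.pow_div_factorial_le_exp (L ^ 3) (by positivity) N
  have h3 : Real.log (ZL (fun _ => (0 : ℝ)) L N) ≤ L ^ 3 := by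
    rw [← Real.log_exp (L ^ 3)]
    exact Real.log_le_log hp (h1.trans h2)
  rw [one_div, inv_mul_le_iff₀ (by positivity), mul_one]
  exact h3

/-- general superstability bound for the pressure. -/
lemma Pr_super_gen (h : Setup φ0 j K0 κ w C θ Q) {A : ℝ → ℝ} (hm : Measurable A)
    (hA0 : ∀ r, 0 ≤ A r)
    (hA : ∀ (N : ℕ) (x : Fin N → Pt), ∑ i, ∑ k, A (dist (x i) (x k)) ≤
      (4 * (1 + C) * 20000 ^ 3) * ∑ i, ∑ k, same 0 (1 / 20000) (x i) (x k))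
    {β ρ : ℝ} (hβ : 0 ≤ β) (hρ : 0 ≤ ρ) :
    Pr (fun r => β * (φ0 r - θ * A r)) ρ ≤ 1 + β * (K0 / 2 * ρ - 16 * (1 + C) * ρ ^ 2) := by
  have hcube : Tendsto (fun L : ℝ => L ^ 3) atTop atTop := tendsto_pow_atTop (by norm_num)
  have hN : Tendsto (fun L : ℝ => ((⌊ρ * L ^ 3⌋₊ : ℕ) : ℝ) / L ^ 3) atTop (𝓝 ρ) :=
    (tendsto_nat_floor_mul_div_atTop hρ).comp hcube
  have key := Pr_le_of_energy (by norm_num : (0 : ℝ) < 2) (adm_gen h hm hA0 hA hβ) adm_zero hρ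
    (fun L N => β * (K0 / 2 * N - 16 * (1 + C) * (N : ℝ) ^ 2 / L ^ 3))
    (β * (K0 / 2 * ρ - 16 * (1 + C) * ρ ^ 2)) ?_ ?_
  · have := Pr_zero_pot hρ
    linarith
  · have h4 : Tendsto (fun L : ℝ => β * (K0 / 2 * (((⌊ρ * L ^ 3⌋₊ : ℕ) : ℝ) / L ^ 3) -
        16 * (1 + C) * (((⌊ρ * L ^ 3⌋₊ : ℕ) : ℝ) / L ^ 3) ^ 2)) atTop
        (𝓝 (β * (K0 / 2 * ρ - 16 * (1 + C) * ρ ^ 2))) :=
      ((hN.const_mul _).sub ((hN.pow 2).const_mul _)).const_mul _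
    apply h4.congr'
    filter_upwards [eventually_gt_atTop 0] with L hL
    field_simp
  · intro L hL N x hx
    have h5 := super_gen h hA0 hA hL N x hx
    have h6 : Eu (rad (fun _ => (0 : ℝ))) x = 0 := by simp [Eu, rad]
    rw [h6, Eu_phi (A := fun r => θ * A r)]
    have h7 := Eu_nonneg_pks (A := fun r => θ * A r) (fun r _ => mul_nonneg h.θ0 (hA0 r)) x
    have h8 : (16 * (1 + C)) * (N : ℝ) ^ 2 / L ^ 3 - (K0 / 2) * N ≤
      Eu (rad φ0) x - Eu (rad (fun r => θ * A r)) x := by linarith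
    have h9 := mul_le_mul_of_nonneg_left h8 hβ
    linarith

theorem Pk_super (h : Setup φ0 j K0 κ w C θ Q) (k : ℕ) {β ρ : ℝ} (hβ : 0 ≤ β) (hρ : 0 ≤ ρ) :
    Pk φ0 j θ Q k β ρ ≤ 1 + β * (K0 / 2 * ρ - 16 * (1 + C) * ρ ^ 2) :=
  Pr_super_gen h (continuous_Jsum h.ker (two_le_Q h) k).measurable
    (fun r => Jsum_nonneg h.ker (two_le_Q h) k r) (Jsum_cells4 h k) hβ hρ

theorem Pinf_super (h : Setup φ0 j K0 κ w C θ Q) {β ρ : ℝ} (hβ : 0 ≤ β) (hρ : 0 ≤ ρ) :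
    Pinf φ0 j θ Q β ρ ≤ 1 + β * (K0 / 2 * ρ - 16 * (1 + C) * ρ ^ 2) :=
  Pr_super_gen h (continuous_Jinf h.ker (two_le_Q h)).measurable
    (fun r => Jinf_nonneg h.ker (two_le_Q h) r) (Jinf_cells4 h) hβ hρ

/-- Pointwise convergence of the pressures. Write `φ = (1 - 1/κ') φ_k + (1/κ') ψ_k`,
`κ' = s_0/s_k → ∞`, `ψ_k = φ_k - θ κ' Σ_{i ≥ k} c_i J_i` (still superstable with a uniform
constant), and use convexity of the pressure in the potential. -/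
theorem Pk_tendsto (h : Setup φ0 j K0 κ w C θ Q) {β ρ : ℝ} (hβ : 0 ≤ β) (hρ : 0 ≤ ρ) :
    Tendsto (fun k => Pk φ0 j θ Q k β ρ) atTop (𝓝 (Pinf φ0 j θ Q β ρ)) := by
  have hC := C_pos h
  have hQ2 := two_le_Q h
  have hs0 := one_le_stail_zero hQ2
  set M : ℝ := 1 + β * (K0 / 2 * ρ - 16 * (1 + C) * ρ ^ 2) with hM
  set P0 : ℝ := Pk φ0 j θ Q 0 β ρ with hP0
  -- key bound
  have key : ∀ k, Pinf φ0 j θ Q β ρ - stail Q k / stail Q 0 * (M - P0) ≤ Pk φ0 j θ Q k β ρ := by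
    intro k
    have hsk := stail_pos hQ2 k
    have hle : stail Q k ≤ stail Q 0 := stail_antitone hQ2 (Nat.zero_le k)
    set t : ℝ := stail Q k / stail Q 0 with ht
    have hs0' : 0 < stail Q 0 := by linarith
    have ht0 : 0 < t := by positivity
    have ht1 : t ≤ 1 := by rw [ht, div_le_one hs0']; exact hle
    let A : ℝ → ℝ := fun r => Jsum j Q k r + (stail Q 0 / stail Q k) * (Jinf j Q r - Jsum j Q k r)
    have hAm : Measurable A := by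
      have h1 := (continuous_Jsum (j := j) h.ker hQ2 k).measurable
      have h2 := (continuous_Jinf (j := j) h.ker hQ2).measurable
      exact h1.add ((h2.sub h1).const_mul _)
    have hA0 : ∀ r, 0 ≤ A r := by
      intro r
      have h1 := Jsum_nonneg h.ker hQ2 k r
      have h2 := Jsum_le_Jinf h.ker hQ2 k r
      have h3 : 0 ≤ (stail Q 0 / stail Q k) * (Jinf j Q r - Jsum j Q k r) :=
        mul_nonneg (by positivity) (by linarith)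
      show 0 ≤ Jsum j Q k r + (stail Q 0 / stail Q k) * (Jinf j Q r - Jsum j Q k r)
      linarith
    have hAc : ∀ (N : ℕ) (x : Fin N → Pt), ∑ i, ∑ k, A (dist (x i) (x k)) ≤
        (4 * (1 + C) * 20000 ^ 3) * ∑ i, ∑ k, same 0 (1 / 20000) (x i) (x k) := by
      intro N x
      have h1 := Jsum_cells h.ker hQ2 k N x
      have h2 := Jtail_cells h.ker hQ2 k N x
      have h3 : ∑ i, ∑ l, A (dist (x i) (x l)) = ∑ i, ∑ l, Jsum j Q k (dist (x i) (x l)) +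
          ∑ i, ∑ l, (stail Q 0 / stail Q k) * (Jinf j Q (dist (x i) (x l)) -
            Jsum j Q k (dist (x i) (x l))) := by
        simp only [A, Finset.sum_add_distrib]
      rw [h3]
      linarith
    have h1 := Pr_super_gen h hAm hA0 hAc hβ hρ
    have h2 := Pr_convex_pot (by norm_num : (0 : ℝ) < 2) (adm_k h k hβ)
      (adm_gen h hAm hA0 hAc hβ) hρ ht0.le ht1
    have h3 : (fun r => (1 - t) * (β * (φ0 r - θ * Jsum j Q k r)) + t * (β * (φ0 r - θ * A r))) =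
        fun r => β * (φ0 r - θ * Jinf j Q r) := by
      funext r
      have h4 : t * (stail Q 0 / stail Q k) = 1 := by
        rw [ht]
        field_simp
      have h5 : t * A r = t * Jsum j Q k r + (Jinf j Q r - Jsum j Q k r) := by
        show t * (Jsum j Q k r + (stail Q 0 / stail Q k) * (Jinf j Q r - Jsum j Q k r)) = _
        rw [mul_add, ← mul_assoc, h4, one_mul]
      calc (1 - t) * (β * (φ0 r - θ * Jsum j Q k r)) + t * (β * (φ0 r - θ * A r))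
          = β * (φ0 r - θ * Jsum j Q k r) + t * β * θ * Jsum j Q k r - β * θ * (t * A r) := by ring
        _ = _ := by rw [h5]; ring
    rw [h3] at h2
    have h6 : P0 ≤ Pk φ0 j θ Q k β ρ := Pk_mono h (Nat.zero_le k) hβ hρ
    have h7 : Pinf φ0 j θ Q β ρ ≤ (1 - t) * Pk φ0 j θ Q k β ρ + t * M := by
      refine h2.trans ?_
      have h8 := mul_le_mul_of_nonneg_left h1 ht0.le
      rw [← hM] at h8
      exact add_le_add le_rfl h8
    nlinarith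
  have hlim : Tendsto (fun k => Pinf φ0 j θ Q β ρ - stail Q k / stail Q 0 * (M - P0)) atTop
      (𝓝 (Pinf φ0 j θ Q β ρ - 0 / stail Q 0 * (M - P0))) :=
    tendsto_const_nhds.sub (((stail_tendsto hQ2).div_const _).mul_const _)
  rw [zero_div, zero_mul, sub_zero] at hlim
  exact tendsto_of_tendsto_of_tendsto_of_le_of_le hlim tendsto_const_nhds key
    (fun k => Pk_le_Pinf h k hβ hρ)

/-- `T2` along the sequence (apply `T2` with `S = 1`, `B = K0/2`, `D = 16(1+C)`,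
`r = q_k^32`, `n = q_k^16`, `R = R_k = q_k^64`, `A = θ Jsum k`, `c = θ c_k`). -/
theorem Pk_T2 (b1 b2 νb K0 C : ℝ) (hb1 : 0 < b1) (hb : b1 ≤ b2) (hνb : 0 ≤ νb) (hC : 0 < C)
    (hK0 : 0 ≤ K0) :
    ∃ CT ρm : ℝ, 0 < CT ∧ 1 ≤ ρm ∧ ∀ (φ0 j : ℝ → ℝ) (κ w θ : ℝ) (Q : ℕ),
      Setup φ0 j K0 κ w C θ Q → ∀ (k : ℕ) (β : ℝ), b1 ≤ β → β ≤ b2 → ∀ ν : ℝ, |ν| ≤ νb →
        ∀ ρ : ℝ, 0 ≤ ρ → ∃ ρ' : ℝ, 0 ≤ ρ' ∧ ρ' ≤ ρm ∧
          ν * ρ + Pk φ0 j θ Q (k + 1) β ρ ≤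
            ν * ρ' + Pk φ0 j θ Q k β ρ' + β * θ * ck Q k * ρ' ^ 2 / 2 + CT / qk Q k ^ 16 := by
  obtain ⟨C1, ρm, hC1, hρm, hT2⟩ := T2 b1 b2 νb 1 (K0 / 2) (16 * (1 + C)) C hb1 hb hνb
    (by norm_num) (by linarith) (by nlinarith) hC
  refine ⟨3 * C1, ρm, by linarith, hρm, ?_⟩
  intro φ0 j κ w θ Q h k β hβ1 hβ2 ν hν ρ hρ
  have hβ : 0 ≤ β := by linarith
  have hQ2 := two_le_Q h
  have hQ1 : 1 ≤ Q := le_trans (by norm_num) h.Q4
  have hq := qk_pos' h k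
  have hck := ck_pos hQ1 k
  have hck1 := ck_le_one hQ1 k
  have h0 := h.θ0
  have h1' := h.θ1
  obtain ⟨m, hm⟩ := qk_natCast Q k
  have hadm := adm_k h (k + 1) hβ
  have hfun : (fun r => β * (φ0 r - θ * Jsum j Q (k + 1) r)) =
      fun s => β * (φ0 s - θ * Jsum j Q k s - (θ * ck Q k) * JR j (Rk Q k) s) := by
    funext r
    rw [Jsum_succ]
    ring
  rw [hfun] at hadm
  have h16 : (4 : ℝ) ≤ qk Q k ^ 16 := by
    have : qk Q k ^ 1 ≤ qk Q k ^ 16 := pow_le_pow_right₀ (by linarith) (by norm_num)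
    rw [pow_one] at this
    linarith
  obtain ⟨ρ', hρ'0, hρ'm, hmain⟩ := hT2 φ0 (fun s => θ * Jsum j Q k s) j h.base.meas
    ((continuous_Jsum h.ker hQ2 k).measurable.const_mul θ) h.base.nonneg
    (fun r hr => h.base.zero r (by have := h.base.κ_le; linarith))
    (fun r _ => mul_nonneg h.θ0 (Jsum_nonneg h.ker hQ2 k r)) h.ker
    (fun L hL N x hx => super_energy_k h k hL N x hx)
    β hβ1 hβ2 ν hν (θ * ck Q k) (by positivity) (by nlinarith)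
    (qk Q k ^ 32) (m ^ 16) (Rk Q k) (one_le_pow₀ (by linarith))
    (by
      have : (4 : ℝ) ≤ ((m ^ 16 : ℕ) : ℝ) := by push_cast; rw [hm]; exact h16
      exact_mod_cast this)
    (by
      push_cast
      rw [hm, ← pow_add]
      unfold Rk
      exact pow_le_pow_right₀ (by linarith) (by norm_num))
    (fun s hs => by rw [Jsum_supp h.ker hQ2 k s hs, mul_zero])
    (adm_k h k hβ) hadm ρ hρ
  refine ⟨ρ', hρ'0, hρ'm, ?_⟩
  unfold Pk
  rw [hfun]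
  refine hmain.trans ?_
  have e1 : β * (θ * ck Q k) * ρ' ^ 2 / 2 = β * θ * ck Q k * ρ' ^ 2 / 2 := by ring
  rw [e1]
  have hq0 : 0 < qk Q k := by linarith
  have e2 : (1 / ((m ^ 16 : ℕ) : ℝ) + ((m ^ 16 : ℕ) : ℝ) * qk Q k ^ 32 / Rk Q k +
      1 / (((m ^ 16 : ℕ) : ℝ) * qk Q k ^ 32)) ≤ 3 / qk Q k ^ 16 := by
    push_cast
    rw [hm]
    have e3 : qk Q k ^ 16 * qk Q k ^ 32 / Rk Q k = 1 / qk Q k ^ 16 := by
      unfold Rk
      rw [div_eq_div_iff (by positivity) (by positivity)]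
      ring
    rw [e3]
    have e4 : 1 / (qk Q k ^ 16 * qk Q k ^ 32) ≤ 1 / qk Q k ^ 16 := by
      apply one_div_le_one_div_of_le (by positivity)
      have : 1 ≤ qk Q k ^ 32 := one_le_pow₀ (by linarith)
      nlinarith [pow_pos hq0 16]
    have e5 : 3 / qk Q k ^ 16 = 1 / qk Q k ^ 16 + 1 / qk Q k ^ 16 + 1 / qk Q k ^ 16 := by ring
    rw [e5]
    linarith
  have e6 := mul_le_mul_of_nonneg_left e2 hC1.le
  have e7 : C1 * (3 / qk Q k ^ 16) = 3 * C1 / qk Q k ^ 16 := by ring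
  rw [e7] at e6
  linarith

end Crest.Agent.Kac
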