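import Crest.Agent.Kac.Defs
import Crest.Agent.Kac.Basic

/-! K11: the scales `q_k = Q^(2^k)`, the weights `c_k`, and the kernel sums. Index `k` starts at `0`;
"level `k`" uses the kernels `0,…,k-1`. -/

set_option autoImplicit false
open MeasureTheory Filter Topology
open scoped ENNReal

namespace Crest.Agent.Kac

noncomputable def qk (Q k : ℕ) : ℝ := (Q : ℝ) ^ (2 ^ k)
noncomputable def Rk (Q k : ℕ) : ℝ := qk Q k ^ 64
noncomputable def ck (Q k : ℕ) : ℝ := (Q : ℝ) ^ 2 / qk Q k ^ 2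
/-- `s_k = Σ_{i ≥ k} c_i`. -/
noncomputable def stail (Q k : ℕ) : ℝ := ∑' i, ck Q (i + k)
noncomputable def Jsum (j : ℝ → ℝ) (Q k : ℕ) : ℝ → ℝ :=
  fun r => ∑ i ∈ Finset.range k, ck Q i * JR j (Rk Q i) r
noncomputable def Jinf (j : ℝ → ℝ) (Q : ℕ) : ℝ → ℝ :=
  fun r => ∑' i, ck Q i * JR j (Rk Q i) r

theorem qk_succ (Q k : ℕ) : qk Q (k + 1) = qk Q k ^ 2 := by
  unfold qk
  rw [← pow_mul, pow_succ]

theorem qk_zero (Q : ℕ) : qk Q 0 = Q := by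
  simp [qk]

theorem le_qk {Q : ℕ} (hQ : 1 ≤ Q) (k : ℕ) : (Q : ℝ) ≤ qk Q k := by
  have h1 : (1 : ℝ) ≤ Q := by exact_mod_cast hQ
  unfold qk
  exact le_self_pow₀ h1 (by positivity)

theorem one_le_qk {Q : ℕ} (hQ : 1 ≤ Q) (k : ℕ) : 1 ≤ qk Q k :=
  le_trans (by exact_mod_cast hQ) (le_qk hQ k)

theorem qk_pos {Q : ℕ} (hQ : 1 ≤ Q) (k : ℕ) : 0 < qk Q k :=
  lt_of_lt_of_le one_pos (one_le_qk hQ k)

theorem two_mul_qk_le {Q : ℕ} (hQ : 2 ≤ Q) (k : ℕ) : 2 * qk Q k ≤ qk Q (k + 1) := by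
  rw [qk_succ, sq]
  have h1 := le_qk (by omega : 1 ≤ Q) k
  have h2 : (2 : ℝ) ≤ Q := by exact_mod_cast hQ
  exact mul_le_mul_of_nonneg_right (h2.trans h1) (qk_pos (by omega) k).le

/-- geometric growth (crude). -/
theorem two_pow_le_qk {Q : ℕ} (hQ : 2 ≤ Q) (k : ℕ) : (Q : ℝ) * 2 ^ k / 2 ≤ qk Q k := by
  have : (Q : ℝ) * 2 ^ k ≤ qk Q k := by
    induction k with
    | zero => rw [qk_zero]; simp
    | succ k ih =>
      have := two_mul_qk_le hQ k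
      calc (Q : ℝ) * 2 ^ (k + 1) = 2 * (Q * 2 ^ k) := by ring
        _ ≤ 2 * qk Q k := by linarith
        _ ≤ _ := this
  have h2 : 0 ≤ (Q : ℝ) * 2 ^ k := by positivity
  linarith

theorem pow_two_mul_qk_le {Q : ℕ} (hQ : 2 ≤ Q) (i k : ℕ) : 2 ^ i * qk Q k ≤ qk Q (i + k) := by
  induction i with
  | zero => simp
  | succ i ih =>
    have := two_mul_qk_le hQ (i + k)
    rw [show i + 1 + k = i + k + 1 by ring]
    calc (2 : ℝ) ^ (i + 1) * qk Q k = 2 * (2 ^ i * qk Q k) := by ring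
      _ ≤ 2 * qk Q (i + k) := by linarith
      _ ≤ _ := this

theorem qk_natCast (Q k : ℕ) : ∃ n : ℕ, (n : ℝ) = qk Q k :=
  ⟨Q ^ (2 ^ k), by simp [qk]⟩

theorem ck_zero {Q : ℕ} (hQ : 1 ≤ Q) : ck Q 0 = 1 := by
  have : (Q : ℝ) ≠ 0 := by positivity
  rw [ck, qk_zero, div_self (by positivity)]

theorem ck_pos {Q : ℕ} (hQ : 1 ≤ Q) (k : ℕ) : 0 < ck Q k := by
  have h1 : (0 : ℝ) < Q := by positivity
  have h2 := qk_pos hQ k
  unfold ck
  positivity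

theorem ck_le_one {Q : ℕ} (hQ : 1 ≤ Q) (k : ℕ) : ck Q k ≤ 1 := by
  have h2 := qk_pos hQ k
  unfold ck
  rw [div_le_one (by positivity)]
  exact pow_le_pow_left₀ (by positivity) (le_qk hQ k) 2

theorem ck_succ {Q : ℕ} (hQ : 1 ≤ Q) (k : ℕ) : ck Q (k + 1) = (Q : ℝ) ^ 2 / qk Q k ^ 4 := by
  rw [ck, qk_succ, ← pow_mul]

/-- Tail sums of powers of `1/q_k` are dominated by (twice) the first term. -/
theorem tsum_qk_inv_le {Q : ℕ} (hQ : 2 ≤ Q) {m : ℕ} (hm : 1 ≤ m) (k : ℕ) :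
    Summable (fun i => (qk Q (i + k) ^ m)⁻¹) ∧
      ∑' i, (qk Q (i + k) ^ m)⁻¹ ≤ 2 * (qk Q k ^ m)⁻¹ := by
  have hq := qk_pos (by omega : 1 ≤ Q) k
  have h1 : ∀ i, (qk Q (i + k) ^ m)⁻¹ ≤ (1 / 2) ^ i * (qk Q k ^ m)⁻¹ := by
    intro i
    have h2 := pow_two_mul_qk_le hQ i k
    have h3 : 2 ^ i * qk Q k ^ m ≤ qk Q (i + k) ^ m := by
      have h4 : (2 : ℝ) ^ i ≤ (2 ^ i) ^ m := by
        apply le_self_pow₀ _ (by omega)
        exact one_le_pow₀ (by norm_num)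
      calc (2 : ℝ) ^ i * qk Q k ^ m ≤ (2 ^ i) ^ m * qk Q k ^ m :=
            mul_le_mul_of_nonneg_right h4 (by positivity)
        _ = (2 ^ i * qk Q k) ^ m := by rw [mul_pow]
        _ ≤ _ := pow_le_pow_left₀ (by positivity) h2 m
    rw [one_div, inv_pow, ← mul_inv]
    exact inv_anti₀ (by positivity) h3
  have hs : Summable (fun i : ℕ => (1 / 2 : ℝ) ^ i * (qk Q k ^ m)⁻¹) :=
    summable_geometric_two.mul_right _
  have h0 : ∀ i, 0 ≤ (qk Q (i + k) ^ m)⁻¹ := by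
    intro i
    have := qk_pos (by omega : 1 ≤ Q) (i + k)
    positivity
  have hsum := Summable.of_nonneg_of_le h0 h1 hs
  refine ⟨hsum, ?_⟩
  calc ∑' i, (qk Q (i + k) ^ m)⁻¹ ≤ ∑' i : ℕ, (1 / 2 : ℝ) ^ i * (qk Q k ^ m)⁻¹ :=
        hsum.tsum_le_tsum h1 hs
    _ = _ := by rw [tsum_mul_right, tsum_geometric_two]

theorem summable_ck {Q : ℕ} (hQ : 2 ≤ Q) : Summable (ck Q) := by
  have h1 := (tsum_qk_inv_le hQ (m := 2) (by norm_num) 0).1.mul_left ((Q : ℝ) ^ 2)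
  refine h1.congr (fun i => ?_)
  rw [ck, div_eq_mul_inv, add_zero]

theorem summable_ck_add {Q : ℕ} (hQ : 2 ≤ Q) (k : ℕ) : Summable (fun i => ck Q (i + k)) :=
  (summable_nat_add_iff k).mpr (summable_ck hQ)

theorem stail_succ {Q : ℕ} (hQ : 2 ≤ Q) (k : ℕ) : stail Q k = ck Q k + stail Q (k + 1) := by
  unfold stail
  rw [(summable_ck_add hQ k).tsum_eq_zero_add]
  simp only [zero_add]
  congr 1
  apply tsum_congr
  intro i
  congr 1
  ring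

theorem stail_nonneg {Q : ℕ} (hQ : 2 ≤ Q) (k : ℕ) : 0 ≤ stail Q k :=
  tsum_nonneg (fun i => (ck_pos (by omega) _).le)

theorem one_le_stail_zero {Q : ℕ} (hQ : 2 ≤ Q) : 1 ≤ stail Q 0 := by
  rw [stail_succ hQ, ck_zero (by omega)]
  linarith [stail_nonneg hQ (0 + 1)]

theorem stail_one_le {Q : ℕ} (hQ : 2 ≤ Q) : stail Q 1 ≤ 2 / (Q : ℝ) ^ 2 := by
  have h1 := (tsum_qk_inv_le hQ (m := 2) (by norm_num) 1).2
  have hQ0 : (0 : ℝ) < Q := by positivity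
  have h2 : stail Q 1 = (Q : ℝ) ^ 2 * ∑' i, (qk Q (i + 1) ^ 2)⁻¹ := by
    unfold stail ck
    rw [← tsum_mul_left]
    apply tsum_congr
    intro i
    rw [div_eq_mul_inv]
  rw [h2]
  have h3 : qk Q 1 = (Q : ℝ) ^ 2 := by rw [show (1 : ℕ) = 0 + 1 from rfl, qk_succ, qk_zero]
  rw [h3] at h1
  calc (Q : ℝ) ^ 2 * ∑' i, (qk Q (i + 1) ^ 2)⁻¹ ≤ (Q : ℝ) ^ 2 * (2 * (((Q : ℝ) ^ 2) ^ 2)⁻¹) :=
        mul_le_mul_of_nonneg_left h1 (by positivity)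
    _ = 2 / (Q : ℝ) ^ 2 := by field_simp

theorem stail_zero_le {Q : ℕ} (hQ : 2 ≤ Q) : stail Q 0 ≤ 2 := by
  rw [stail_succ hQ, ck_zero (by omega)]
  have h1 := stail_one_le hQ
  have h2 : (2 : ℝ) ≤ Q := by exact_mod_cast hQ
  have h3 : 2 / (Q : ℝ) ^ 2 ≤ 1 := by
    rw [div_le_one (by positivity)]
    nlinarith
  simp only [zero_add]
  linarith

theorem ck_le_stail {Q : ℕ} (hQ : 2 ≤ Q) (k : ℕ) : ck Q k ≤ stail Q k := by
  rw [stail_succ hQ]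
  linarith [stail_nonneg hQ (k + 1)]

theorem stail_pos {Q : ℕ} (hQ : 2 ≤ Q) (k : ℕ) : 0 < stail Q k :=
  lt_of_lt_of_le (ck_pos (by omega) k) (ck_le_stail hQ k)

theorem stail_antitone {Q : ℕ} (hQ : 2 ≤ Q) : Antitone (stail Q) := by
  apply antitone_nat_of_succ_le
  intro k
  rw [stail_succ hQ k]
  linarith [ck_pos (by omega : 1 ≤ Q) k]

theorem stail_tendsto {Q : ℕ} (hQ : 2 ≤ Q) : Tendsto (stail Q) atTop (𝓝 0) := by
  unfold stail
  exact tendsto_sum_nat_add (ck Q)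

theorem Rk_pos {Q : ℕ} (hQ : 1 ≤ Q) (k : ℕ) : 0 < Rk Q k := pow_pos (qk_pos hQ k) 64

theorem one_le_Rk {Q : ℕ} (hQ : 1 ≤ Q) (k : ℕ) : 1 ≤ Rk Q k := one_le_pow₀ (one_le_qk hQ k)

section Kernel

variable {j : ℝ → ℝ} {C : ℝ}

theorem JR_nonneg (hj : IsKernel j C) {R : ℝ} (hR : 0 < R) (r : ℝ) : 0 ≤ JR j R r := by
  unfold JR
  have := hj.nonneg (r / R)
  positivity

theorem JR_le (hj : IsKernel j C) {R : ℝ} (hR : 1 ≤ R) (r : ℝ) : JR j R r ≤ C := by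
  unfold JR
  have h1 := hj.nonneg (r / R)
  have h2 := hj.le (r / R)
  have h3 : (R ^ 3)⁻¹ ≤ 1 := inv_le_one_of_one_le₀ (one_le_pow₀ hR)
  calc (R ^ 3)⁻¹ * j (r / R) ≤ 1 * j (r / R) := mul_le_mul_of_nonneg_right h3 h1
    _ ≤ C := by linarith

theorem term_nonneg (hj : IsKernel j C) {Q : ℕ} (hQ : 2 ≤ Q) (i : ℕ) (r : ℝ) :
    0 ≤ ck Q i * JR j (Rk Q i) r :=
  mul_nonneg (ck_pos (by omega) i).le (JR_nonneg hj (Rk_pos (by omega) i) r)

theorem term_le (hj : IsKernel j C) {Q : ℕ} (hQ : 2 ≤ Q) (i : ℕ) (r : ℝ) :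
    ck Q i * JR j (Rk Q i) r ≤ ck Q i * C :=
  mul_le_mul_of_nonneg_left (JR_le hj (one_le_Rk (by omega) i) r) (ck_pos (by omega) i).le

theorem summable_J (hj : IsKernel j C) {Q : ℕ} (hQ : 2 ≤ Q) (r : ℝ) :
    Summable (fun i => ck Q i * JR j (Rk Q i) r) :=
  Summable.of_nonneg_of_le (fun i => term_nonneg hj hQ i r) (fun i => term_le hj hQ i r)
    ((summable_ck hQ).mul_right C)

theorem Jsum_zero (r : ℝ) (Q : ℕ) : Jsum j Q 0 r = 0 := by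
  simp [Jsum]

theorem Jsum_succ (r : ℝ) (Q k : ℕ) : Jsum j Q (k + 1) r = Jsum j Q k r + ck Q k * JR j (Rk Q k) r := by
  simp [Jsum, Finset.sum_range_succ]

theorem Jsum_nonneg (hj : IsKernel j C) {Q : ℕ} (hQ : 2 ≤ Q) (k : ℕ) (r : ℝ) :
    0 ≤ Jsum j Q k r :=
  Finset.sum_nonneg (fun i _ => term_nonneg hj hQ i r)

theorem Jinf_nonneg (hj : IsKernel j C) {Q : ℕ} (hQ : 2 ≤ Q) (r : ℝ) : 0 ≤ Jinf j Q r :=
  tsum_nonneg (fun i => term_nonneg hj hQ i r)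

theorem Jsum_le_Jinf (hj : IsKernel j C) {Q : ℕ} (hQ : 2 ≤ Q) (k : ℕ) (r : ℝ) :
    Jsum j Q k r ≤ Jinf j Q r :=
  (summable_J hj hQ r).sum_le_tsum _ (fun i _ => term_nonneg hj hQ i r)

theorem Jsum_mono (hj : IsKernel j C) {Q : ℕ} (hQ : 2 ≤ Q) (r : ℝ) :
    Monotone (fun k => Jsum j Q k r) := by
  apply monotone_nat_of_le_succ
  intro k
  rw [Jsum_succ]
  linarith [term_nonneg hj hQ k r]

theorem qk_mono {Q : ℕ} (hQ : 2 ≤ Q) : Monotone (qk Q) := by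
  apply monotone_nat_of_le_succ
  intro k
  linarith [two_mul_qk_le hQ k, qk_pos (by omega : 1 ≤ Q) k]

theorem Rk_eq (Q k : ℕ) : Rk Q k = qk Q (k + 1) ^ 32 := by
  rw [Rk, qk_succ, ← pow_mul]

theorem Jsum_supp (hj : IsKernel j C) {Q : ℕ} (hQ : 2 ≤ Q) (k : ℕ) (r : ℝ)
    (hr : qk Q k ^ 32 ≤ r) : Jsum j Q k r = 0 := by
  unfold Jsum
  apply Finset.sum_eq_zero
  intro i hi
  rw [Finset.mem_range] at hi
  have h1 : Rk Q i ≤ r := by
    rw [Rk_eq]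
    exact (pow_le_pow_left₀ (qk_pos (by omega) _).le (qk_mono hQ (by omega)) 32).trans hr
  have h2 : j (r / Rk Q i) = 0 := by
    apply hj.supp
    rw [le_div_iff₀ (Rk_pos (by omega) i), one_mul]
    exact h1
  simp [JR, h2]

theorem continuous_JR (hj : IsKernel j C) (R : ℝ) : Continuous (JR j R) := by
  unfold JR
  exact continuous_const.mul (hj.cont.comp (continuous_id.div_const R))

theorem continuous_Jsum (hj : IsKernel j C) {Q : ℕ} (hQ : 2 ≤ Q) (k : ℕ) :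
    Continuous (Jsum j Q k) := by
  unfold Jsum
  exact continuous_finsetSum _ (fun i _ => continuous_const.mul (continuous_JR hj _))

theorem continuous_Jinf (hj : IsKernel j C) {Q : ℕ} (hQ : 2 ≤ Q) : Continuous (Jinf j Q) := by
  unfold Jinf
  apply continuous_tsum (fun i => continuous_const.mul (continuous_JR hj _))
    ((summable_ck hQ).mul_right C)
  intro i r
  show ‖ck Q i * JR j (Rk Q i) r‖ ≤ ck Q i * C
  rw [Real.norm_of_nonneg (term_nonneg hj hQ i r)]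
  exact term_le hj hQ i r

theorem Jinf_bdd (hj : IsKernel j C) {Q : ℕ} (hQ : 2 ≤ Q) : ∃ M : ℝ, ∀ r, Jinf j Q r ≤ M :=
  ⟨∑' i, ck Q i * C, fun r => (summable_J hj hQ r).tsum_le_tsum (fun i => term_le hj hQ i r)
    ((summable_ck hQ).mul_right C)⟩

/-- Decay of the full attraction. -/
theorem Jinf_decay (hj : IsKernel j C) {Q : ℕ} (hQ : 2 ≤ Q) :
    ∃ M : ℝ, ∀ r : ℝ, 1 ≤ r → Jinf j Q r ≤ M * r ^ (-(3 + 1 / 32 : ℝ)) := by
  refine ⟨2 * (C * (Q : ℝ) ^ 2), ?_⟩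
  intro r hr
  have hC := hj.Cpos
  have hQ1 : 1 ≤ Q := by omega
  -- first index with `R_i > r`
  have hex : ∃ i, r < Rk Q i := by
    obtain ⟨n, hn⟩ := pow_unbounded_of_one_lt r (by norm_num : (1:ℝ) < 2)
    refine ⟨n, hn.trans_le ?_⟩
    have h1 := pow_two_mul_qk_le hQ n 0
    have h2 := one_le_qk hQ1 0
    have h3 : (2 : ℝ) ^ n ≤ qk Q n := by
      have h4 : (2 : ℝ) ^ n * 1 ≤ 2 ^ n * qk Q 0 := mul_le_mul_of_nonneg_left h2 (by positivity)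
      rw [add_zero] at h1
      linarith
    exact h3.trans (le_self_pow₀ (one_le_qk hQ1 n) (by norm_num))
  classical
  obtain ⟨i0, hi0, hmin⟩ : ∃ i0, r < Rk Q i0 ∧ ∀ i < i0, Rk Q i ≤ r :=
    ⟨Nat.find hex, Nat.find_spec hex, fun i hi => not_lt.mp (Nat.find_min hex hi)⟩
  have hzero : ∀ i < i0, ck Q i * JR j (Rk Q i) r = 0 := by
    intro i hi
    have h2 : j (r / Rk Q i) = 0 := by
      apply hj.supp
      rw [le_div_iff₀ (Rk_pos hQ1 i), one_mul]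
      exact hmin i hi
    simp [JR, h2]
  have h1 : Jinf j Q r = ∑' i, ck Q (i + i0) * JR j (Rk Q (i + i0)) r := by
    unfold Jinf
    rw [← (summable_J hj hQ r).sum_add_tsum_nat_add i0]
    rw [Finset.sum_eq_zero (fun i hi => hzero i (Finset.mem_range.mp hi)), zero_add]
  have hterm : ∀ i, ck Q i * JR j (Rk Q i) r ≤ C * (Q : ℝ) ^ 2 * (qk Q i ^ 194)⁻¹ := by
    intro i
    have hq := qk_pos hQ1 i
    have h2 := hj.le (r / Rk Q i)
    unfold ck JR Rk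
    calc (Q : ℝ) ^ 2 / qk Q i ^ 2 * (((qk Q i ^ 64) ^ 3)⁻¹ * j (r / qk Q i ^ 64))
        ≤ (Q : ℝ) ^ 2 / qk Q i ^ 2 * (((qk Q i ^ 64) ^ 3)⁻¹ * C) := by
          gcongr
          exact h2
      _ = C * (Q : ℝ) ^ 2 * (qk Q i ^ 194)⁻¹ := by
          field_simp
  obtain ⟨hsum, hle⟩ := tsum_qk_inv_le hQ (m := 194) (by norm_num) i0
  have h3 : Jinf j Q r ≤ C * (Q : ℝ) ^ 2 * (2 * (qk Q i0 ^ 194)⁻¹) := by
    rw [h1]
    calc ∑' i, ck Q (i + i0) * JR j (Rk Q (i + i0)) r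
        ≤ ∑' i, C * (Q : ℝ) ^ 2 * (qk Q (i + i0) ^ 194)⁻¹ := by
          apply Summable.tsum_le_tsum (fun i => hterm (i + i0)) _ (hsum.mul_left _)
          exact (summable_nat_add_iff i0).mpr (summable_J hj hQ r)
      _ = C * (Q : ℝ) ^ 2 * ∑' i, (qk Q (i + i0) ^ 194)⁻¹ := tsum_mul_left
      _ ≤ _ := by
          apply mul_le_mul_of_nonneg_left hle
          positivity
  have h4 : (qk Q i0 ^ 194)⁻¹ ≤ r ^ (-(3 + 1 / 32 : ℝ)) := by
    have hq := qk_pos hQ1 i0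
    rw [Real.rpow_neg (by linarith)]
    apply inv_anti₀ (by positivity)
    have h5 : qk Q i0 ^ 194 = (Rk Q i0) ^ (3 + 1 / 32 : ℝ) := by
      unfold Rk
      rw [← Real.rpow_natCast (qk Q i0) 64, ← Real.rpow_mul hq.le, ← Real.rpow_natCast]
      norm_num
    rw [h5]
    exact Real.rpow_le_rpow (by linarith) hi0.le (by norm_num)
  calc Jinf j Q r ≤ C * (Q : ℝ) ^ 2 * (2 * (qk Q i0 ^ 194)⁻¹) := h3
    _ ≤ C * (Q : ℝ) ^ 2 * (2 * r ^ (-(3 + 1 / 32 : ℝ))) := by gcongr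
    _ = _ := by ring

/-- The attraction is strictly positive at moderate distances when `Q` is large. -/
theorem Jinf_pos (hj : IsKernel j C) : ∃ Q0 : ℕ, ∀ Q : ℕ, Q0 ≤ Q → ∃ a : ℝ, 0 < a ∧
    ∀ r : ℝ, 2 ≤ r → r ≤ 3 → a ≤ Jinf j Q r := by
  have hC := hj.Cpos
  have hj0 := hj.zero_pos
  refine ⟨max 2 ⌈6 * C / j 0⌉₊, ?_⟩
  intro Q hQ
  have hQ2 : 2 ≤ Q := (le_max_left _ _).trans hQ
  have hQ1 : 1 ≤ Q := by omega
  have hQ3 : 6 * C / j 0 ≤ Q := by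
    have h1 : ⌈6 * C / j 0⌉₊ ≤ Q := (le_max_right _ _).trans hQ
    exact (Nat.le_ceil _).trans (by exact_mod_cast h1)
  have hR := Rk_pos hQ1 0
  have hRQ : (Q : ℝ) ≤ Rk Q 0 := by
    have h1 := one_le_qk hQ1 0
    calc (Q : ℝ) ≤ qk Q 0 := le_qk hQ1 0
      _ ≤ _ := le_self_pow₀ h1 (by norm_num)
  refine ⟨(Rk Q 0 ^ 3)⁻¹ * (j 0 / 2), by positivity, ?_⟩
  intro r hr2 hr3
  have h1 : ck Q 0 * JR j (Rk Q 0) r ≤ Jinf j Q r :=
    (summable_J hj hQ2 r).le_tsum 0 (fun i _ => term_nonneg hj hQ2 i r)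
  refine le_trans ?_ h1
  rw [ck_zero hQ1, one_mul]
  unfold JR
  apply mul_le_mul_of_nonneg_left _ (by positivity)
  have h2 := (abs_le.mp (hj.lip (r / Rk Q 0) 0)).1
  rw [sub_zero, abs_of_nonneg (by positivity)] at h2
  have h3 : C * (r / Rk Q 0) ≤ j 0 / 2 := by
    rw [div_le_iff₀ hj0] at hQ3
    rw [← mul_div_assoc, div_le_iff₀ hR]
    nlinarith
  linarith

theorem sum_same_nonneg (t ℓ : ℝ) (N : ℕ) (x : Fin N → Pt) :
    0 ≤ ∑ i, ∑ l, same t ℓ (x i) (x l) := by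
  apply Finset.sum_nonneg
  intro i _
  apply Finset.sum_nonneg
  intro l _
  unfold same
  split_ifs <;> norm_num

theorem JR_cells (hj : IsKernel j C) {R : ℝ} (hR : 1 ≤ R) (N : ℕ) (x : Fin N → Pt) :
    ∑ i, ∑ l, JR j R (dist (x i) (x l)) ≤
      (1 + C) * 20000 ^ 3 * ∑ i, ∑ l, same 0 (1 / 20000) (x i) (x l) := by
  have h1 := hj.upper R (by linarith) (1 / 20000) (by norm_num) (by linarith) 0 N x
  refine h1.trans ?_
  apply mul_le_mul_of_nonneg_right _ (sum_same_nonneg _ _ _ _)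
  have h2 : ((1 / 20000 : ℝ) ^ 3)⁻¹ = 20000 ^ 3 := by norm_num
  rw [h2]
  apply mul_le_mul_of_nonneg_right _ (by positivity)
  have hC := hj.Cpos
  have h3 : C * (1 / 20000) / R ≤ C := by
    rw [div_le_iff₀ (by linarith)]
    nlinarith
  linarith

/-- General cell bound for nonnegative combinations of the kernels. -/
theorem tsum_cells (hj : IsKernel j C) {Q : ℕ} (hQ : 2 ≤ Q) (k N : ℕ) (x : Fin N → Pt) :
    ∑ i, ∑ l, (∑' n, ck Q (n + k) * JR j (Rk Q (n + k)) (dist (x i) (x l)))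
      ≤ stail Q k * ((1 + C) * 20000 ^ 3 * ∑ i, ∑ l, same 0 (1 / 20000) (x i) (x l)) := by
  have hs : ∀ r, Summable (fun n => ck Q (n + k) * JR j (Rk Q (n + k)) r) := fun r =>
    (summable_nat_add_iff k).mpr (summable_J hj hQ r)
  have h1 : ∑ i, ∑ l, (∑' n, ck Q (n + k) * JR j (Rk Q (n + k)) (dist (x i) (x l))) =
      ∑' n, ∑ i, ∑ l, ck Q (n + k) * JR j (Rk Q (n + k)) (dist (x i) (x l)) := by
    rw [Summable.tsum_finsetSum (fun i _ => summable_sum (fun l _ => hs _))]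
    apply Finset.sum_congr rfl
    intro i _
    rw [Summable.tsum_finsetSum (fun l _ => hs _)]
  rw [h1]
  have h2 : ∀ n, ∑ i, ∑ l, ck Q (n + k) * JR j (Rk Q (n + k)) (dist (x i) (x l)) ≤
      ck Q (n + k) * ((1 + C) * 20000 ^ 3 * ∑ i, ∑ l, same 0 (1 / 20000) (x i) (x l)) := by
    intro n
    simp only [← Finset.mul_sum]
    exact mul_le_mul_of_nonneg_left (JR_cells hj (one_le_Rk (by omega) _) N x)
      (ck_pos (by omega) _).le
  have hsum : Summable (fun n => ∑ i, ∑ l, ck Q (n + k) * JR j (Rk Q (n + k)) (dist (x i) (x l))) :=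
    summable_sum (fun i _ => summable_sum (fun l _ => hs _))
  calc _ ≤ ∑' n, ck Q (n + k) * ((1 + C) * 20000 ^ 3 *
        ∑ i, ∑ l, same 0 (1 / 20000) (x i) (x l)) :=
        hsum.tsum_le_tsum h2 ((summable_ck_add hQ k).mul_right _)
    _ = _ := by rw [tsum_mul_right]; rfl

theorem Jinf_sub_Jsum (hj : IsKernel j C) {Q : ℕ} (hQ : 2 ≤ Q) (k : ℕ) (r : ℝ) :
    Jinf j Q r - Jsum j Q k r = ∑' n, ck Q (n + k) * JR j (Rk Q (n + k)) r := by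
  unfold Jinf Jsum
  rw [← (summable_J hj hQ r).sum_add_tsum_nat_add k]
  ring

/-- The normalised tail `(s_0/s_k) Σ_{i≥k} c_i J_i` has total weight `s_0 ≤ 2`; together with
`Jsum` total weight `≤ 4`. -/
theorem Jtail_cells (hj : IsKernel j C) {Q : ℕ} (hQ : 2 ≤ Q) (k N : ℕ) (x : Fin N → Pt) :
    ∑ i, ∑ l, (stail Q 0 / stail Q k) * (Jinf j Q (dist (x i) (x l)) - Jsum j Q k (dist (x i) (x l)))
      ≤ 2 * (1 + C) * 20000 ^ 3 * ∑ i, ∑ l, same 0 (1 / 20000) (x i) (x l) := by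
  simp only [Jinf_sub_Jsum hj hQ, ← Finset.mul_sum]
  have h1 := tsum_cells hj hQ k N x
  have hk := stail_pos hQ k
  have h0 := stail_pos hQ 0
  have hC := hj.Cpos
  have hS := sum_same_nonneg 0 (1 / 20000) N x
  calc _ ≤ stail Q 0 / stail Q k *
        (stail Q k * ((1 + C) * 20000 ^ 3 * ∑ i, ∑ l, same 0 (1 / 20000) (x i) (x l))) :=
        mul_le_mul_of_nonneg_left h1 (by positivity)
    _ = stail Q 0 * ((1 + C) * 20000 ^ 3 * ∑ i, ∑ l, same 0 (1 / 20000) (x i) (x l)) := by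
        field_simp
    _ ≤ 2 * ((1 + C) * 20000 ^ 3 * ∑ i, ∑ l, same 0 (1 / 20000) (x i) (x l)) :=
        mul_le_mul_of_nonneg_right (stail_zero_le hQ) (by positivity)
    _ = _ := by ring

theorem Jinf_cells (hj : IsKernel j C) {Q : ℕ} (hQ : 2 ≤ Q) (N : ℕ) (x : Fin N → Pt) :
    ∑ i, ∑ l, Jinf j Q (dist (x i) (x l))
      ≤ 2 * (1 + C) * 20000 ^ 3 * ∑ i, ∑ l, same 0 (1 / 20000) (x i) (x l) := by
  have h1 := tsum_cells hj hQ 0 N x
  have hC := hj.Cpos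
  have hS := sum_same_nonneg 0 (1 / 20000) N x
  simp only [add_zero] at h1
  calc ∑ i, ∑ l, Jinf j Q (dist (x i) (x l)) ≤
        stail Q 0 * ((1 + C) * 20000 ^ 3 * ∑ i, ∑ l, same 0 (1 / 20000) (x i) (x l)) := h1
    _ ≤ 2 * ((1 + C) * 20000 ^ 3 * ∑ i, ∑ l, same 0 (1 / 20000) (x i) (x l)) :=
        mul_le_mul_of_nonneg_right (stail_zero_le hQ) (by positivity)
    _ = _ := by ring

theorem Jsum_cells (hj : IsKernel j C) {Q : ℕ} (hQ : 2 ≤ Q) (k N : ℕ) (x : Fin N → Pt) :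
    ∑ i, ∑ l, Jsum j Q k (dist (x i) (x l))
      ≤ 2 * (1 + C) * 20000 ^ 3 * ∑ i, ∑ l, same 0 (1 / 20000) (x i) (x l) := by
  refine le_trans ?_ (Jinf_cells hj hQ N x)
  apply Finset.sum_le_sum
  intro i _
  apply Finset.sum_le_sum
  intro l _
  exact Jsum_le_Jinf hj hQ k _

end Kernel

end Crest.Agent.Kac
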