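import Crest.Agent.Kac.Defs
import Crest.Agent.Kac.Basic

/-! K1: splitting formula for two disjoint regions and its corollaries. -/

set_option autoImplicit false
open MeasureTheory Filter Topology
open scoped ENNReal

namespace Crest.Agent.Kac

/-- Interaction between two configurations. -/
noncomputable def cross {n m : ℕ} (u : Pt → Pt → ℝ) (x : Fin n → Pt) (y : Fin m → Pt) : ℝ :=
  ∑ i, ∑ j, u (x i) (y j)

theorem Eu_sumElim {n m : ℕ} {u : Pt → Pt → ℝ} (hu : GoodPair u) (x : Fin n → Pt)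
    (y : Fin m → Pt) :
    Eu u (Sum.elim x y) = Eu u x + Eu u y + cross u x y := by
  rw [Eu_eq, Eu_eq, Eu_eq]
  simp only [Fintype.sum_sum_type, Sum.elim_inl, Sum.elim_inr, Sum.inl.injEq, Sum.inr.injEq,
    reduceCtorEq, if_false, Finset.sum_add_distrib]
  have h : ∑ b : Fin m, ∑ a : Fin n, u (y b) (x a) = cross u x y := by
    unfold cross
    rw [Finset.sum_comm]
    exact Finset.sum_congr rfl fun i _ => Finset.sum_congr rfl fun j _ => hu.symm _ _
  rw [h]
  unfold cross
  ring

theorem measurable_cross {n m : ℕ} {u : Pt → Pt → ℝ} (hu : GoodPair u) :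
    Measurable (fun z : (Fin n → Pt) × (Fin m → Pt) => cross u z.1 z.2) := by
  unfold cross
  apply Finset.measurable_sum
  intro i _
  apply Finset.measurable_sum
  intro j _
  have hp : Measurable (fun z : (Fin n → Pt) × (Fin m → Pt) => (z.1 i, z.2 j)) :=
    ((measurable_pi_apply i).comp measurable_fst).prodMk
      ((measurable_pi_apply j).comp measurable_snd)
  exact hu.meas.comp hp

theorem measurable_splitWeight {n m : ℕ} {u : Pt → Pt → ℝ} (hu : GoodPair u) :
    Measurable (fun z : (Fin n → Pt) × (Fin m → Pt) =>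
      ENNReal.ofReal (Real.exp (-(Eu u z.1) - Eu u z.2 - cross u z.1 z.2))) := by
  have h1 : Measurable (fun z : (Fin n → Pt) × (Fin m → Pt) => Eu u z.1) :=
    (measurable_Eu hu).comp measurable_fst
  have h2 : Measurable (fun z : (Fin n → Pt) × (Fin m → Pt) => Eu u z.2) :=
    (measurable_Eu hu).comp measurable_snd
  exact (Real.measurable_exp.comp ((h1.neg.sub h2).sub (measurable_cross hu))).ennreal_ofReal

/-- The part of the configuration space where exactly the particles with index in `S` are in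
`A`, the others being in `B`. -/
def part {N : ℕ} (A B : Set Pt) (S : Finset (Fin N)) : Set (Fin N → Pt) :=
  Set.pi Set.univ (fun i => if i ∈ S then A else B)

theorem box_union_eq {N : ℕ} (A B : Set Pt) :
    (box (A ∪ B) : Set (Fin N → Pt)) = ⋃ S ∈ (Finset.univ : Finset (Fin N)).powerset,
      part A B S := by
  classical
  ext x
  simp only [Set.mem_pi, Set.mem_univ, true_implies, Set.mem_iUnion, part,
    Finset.mem_powerset, Finset.subset_univ, exists_prop, true_and]
  constructor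
  · intro h
    refine ⟨Finset.univ.filter (fun i => x i ∈ A), fun i => ?_⟩
    by_cases hi : x i ∈ A
    · simp [hi]
    · simpa [hi] using h i
  · rintro ⟨S, hS⟩ i
    have := hS i
    by_cases hi : i ∈ S
    · left; simpa [hi] using this
    · right; simpa [hi] using this

theorem part_disjoint {N : ℕ} {A B : Set Pt} (hAB : Disjoint A B) :
    Set.PairwiseDisjoint (↑((Finset.univ : Finset (Fin N)).powerset) : Set (Finset (Fin N)))
      (part A B) := by
  intro S _ T _ hST
  rw [Function.onFun, Set.disjoint_left]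
  intro x hx hx'
  apply hST
  ext i
  have h1 := hx i (Set.mem_univ i)
  have h2 := hx' i (Set.mem_univ i)
  constructor
  · intro hi
    by_contra hi'
    simp only [hi, hi', if_true, if_false] at h1 h2
    exact Set.disjoint_left.mp hAB h1 h2
  · intro hi
    by_contra hi'
    simp only [hi, hi', if_true, if_false] at h1 h2
    exact Set.disjoint_left.mp hAB h2 h1

theorem measurableSet_part {N : ℕ} {A B : Set Pt} (hA : MeasurableSet A) (hB : MeasurableSet B)
    (S : Finset (Fin N)) : MeasurableSet (part A B S) := by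
  apply MeasurableSet.pi Set.countable_univ
  intro i _
  by_cases hi : i ∈ S <;> simp [hi, hA, hB]

/-- The integral over one part. -/
theorem lintegral_part {N n m : ℕ} {u : Pt → Pt → ℝ} (hu : GoodPair u) (A B : Set Pt)
    (S : Finset (Fin N)) (hn : S.card = n) (hm : Sᶜ.card = m) :
    ∫⁻ x in part A B S, bw u x =
      ∫⁻ x in (box A : Set (Fin n → Pt)), ∫⁻ y in (box B : Set (Fin m → Pt)),
          ENNReal.ofReal (Real.exp (-(Eu u x) - Eu u y - cross u x y)) := by
  classical
  let e : Fin n ⊕ Fin m ≃ Fin N := finSumEquivOfFinset hn hm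
  let g1 : (Fin n ⊕ Fin m → Pt) ≃ᵐ (Fin N → Pt) :=
    MeasurableEquiv.piCongrLeft (fun _ : Fin N => Pt) e
  have hg1 : MeasurePreserving g1 volume volume :=
    volume_measurePreserving_piCongrLeft (fun _ : Fin N => Pt) e
  let g2 : ((Fin n → Pt) × (Fin m → Pt)) ≃ᵐ (Fin n ⊕ Fin m → Pt) :=
    (MeasurableEquiv.sumPiEquivProdPi (fun _ : Fin n ⊕ Fin m => Pt)).symm
  have hg2 : MeasurePreserving g2 volume volume :=
    volume_measurePreserving_sumPiEquivProdPi_symm (fun _ : Fin n ⊕ Fin m => Pt)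
  let g : ((Fin n → Pt) × (Fin m → Pt)) ≃ᵐ (Fin N → Pt) := g2.trans g1
  have hg : MeasurePreserving g volume volume := hg1.comp hg2
  have hge : ∀ z i, (g z) (e i) = Sum.elim z.1 z.2 i := by
    intro z i
    have h1 : (g z) (e i) = (g2 z) i := by
      show (MeasurableEquiv.piCongrLeft (fun _ : Fin N => Pt) e) (g2 z) (e i) = _
      rw [MeasurableEquiv.coe_piCongrLeft]
      exact Equiv.piCongrLeft_apply_apply (fun _ : Fin N => Pt) e (g2 z) i
    rw [h1]
    rcases i with i | i <;> rfl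
  have hpre : g ⁻¹' (part A B S) = (box A : Set (Fin n → Pt)) ×ˢ (box B : Set (Fin m → Pt)) := by
    ext z
    simp only [Set.mem_preimage, part, Set.mem_pi, Set.mem_univ, true_implies, Set.mem_prod]
    rw [← e.forall_congr_right]
    simp only [hge, Sum.forall, Sum.elim_inl, Sum.elim_inr]
    have hinl : ∀ i, e (Sum.inl i) ∈ S := by
      intro i
      simp [e]
    have hinr : ∀ i, e (Sum.inr i) ∉ S := by
      intro i
      have : e (Sum.inr i) ∈ Sᶜ := by
        simp only [e, finSumEquivOfFinset_inr]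
        exact Finset.orderEmbOfFin_mem _ _ _
      simpa using this
    simp [hinl, hinr]
  rw [← hg.setLIntegral_comp_preimage_emb g.measurableEmbedding, hpre]
  have hbw : ∀ z, bw u (g z) = ENNReal.ofReal (Real.exp (-(Eu u z.1) - Eu u z.2 - cross u z.1 z.2)) := by
    intro z
    have h1 : Eu u (g z) = Eu u (Sum.elim z.1 z.2) := by
      rw [← Eu_comp_equiv e]
      apply congrArg
      funext i
      exact hge z i
    unfold bw
    rw [h1, Eu_sumElim hu]
    congr 2
    ring
  simp only [hbw]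
  rw [Measure.volume_eq_prod, setLIntegral_prod]
  exact (measurable_splitWeight hu).aemeasurable

theorem Z_union {u : Pt → Pt → ℝ} (hu : GoodPair u) {A B : Set Pt} (hA : MeasurableSet A)
    (hB : MeasurableSet B) (hAB : Disjoint A B) (N : ℕ) :
    Z u (A ∪ B) N = ∑ p ∈ Finset.HasAntidiagonal.antidiagonal N,
      ((p.1.factorial : ℝ≥0∞)⁻¹ * (p.2.factorial : ℝ≥0∞)⁻¹) *
        ∫⁻ x in (box A : Set (Fin p.1 → Pt)), ∫⁻ y in (box B : Set (Fin p.2 → Pt)),
          ENNReal.ofReal (Real.exp (-(Eu u x) - Eu u y - cross u x y)) := by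
  classical
  unfold Z
  rw [box_union_eq, lintegral_biUnion_finset (part_disjoint hAB)
    (fun S _ => measurableSet_part hA hB S)]
  let F : ℕ → ℝ≥0∞ := fun k =>
    ∫⁻ x in (box A : Set (Fin k → Pt)), ∫⁻ y in (box B : Set (Fin (N - k) → Pt)),
          ENNReal.ofReal (Real.exp (-(Eu u x) - Eu u y - cross u x y))
  have h1 : ∀ S ∈ (Finset.univ : Finset (Fin N)).powerset,
      ∫⁻ x in part A B S, bw u x = F S.card := by
    intro S _
    apply lintegral_part hu A B S rfl
    rw [Finset.card_compl, Fintype.card_fin]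
  rw [Finset.sum_congr rfl h1, Finset.sum_powerset_apply_card, Finset.card_univ, Fintype.card_fin,
    Finset.mul_sum, Finset.Nat.sum_antidiagonal_eq_sum_range_succ_mk]
  apply Finset.sum_congr rfl
  intro k hk
  have hk' : k ≤ N := by
    rw [Finset.mem_range] at hk; omega
  rw [nsmul_eq_mul, ← mul_assoc]
  congr 1
  have h2 : (N.factorial : ℝ≥0∞) = (N.choose k : ℝ≥0∞) * (k.factorial : ℝ≥0∞) * ((N - k).factorial : ℝ≥0∞) := by
    exact_mod_cast (Nat.choose_mul_factorial_mul_factorial hk').symm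
  have hk0 : (k.factorial : ℝ≥0∞) ≠ 0 := by exact_mod_cast (Nat.factorial_pos k).ne'
  have hnk0 : ((N - k).factorial : ℝ≥0∞) ≠ 0 := by exact_mod_cast (Nat.factorial_pos _).ne'
  have hc0 : (N.choose k : ℝ≥0∞) ≠ 0 := by exact_mod_cast (Nat.choose_pos hk').ne'
  have hkt : (k.factorial : ℝ≥0∞) ≠ ∞ := ENNReal.natCast_ne_top _
  have hnkt : ((N - k).factorial : ℝ≥0∞) ≠ ∞ := ENNReal.natCast_ne_top _
  have hct : (N.choose k : ℝ≥0∞) ≠ ∞ := ENNReal.natCast_ne_top _
  rw [h2, ENNReal.mul_inv (Or.inr hnkt) (Or.inr hnk0), ENNReal.mul_inv (Or.inr hkt) (Or.inr hk0)]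
  rw [mul_comm, ← mul_assoc, ← mul_assoc, ENNReal.mul_inv_cancel hc0 hct, one_mul]

theorem Z_mul_Z {u : Pt → Pt → ℝ} (hu : GoodPair u) (A B : Set Pt) (n m : ℕ) :
    Z u A n * Z u B m = ((n.factorial : ℝ≥0∞)⁻¹ * (m.factorial : ℝ≥0∞)⁻¹) *
        ∫⁻ x in (box A : Set (Fin n → Pt)), ∫⁻ y in (box B : Set (Fin m → Pt)),
          bw u x * bw u y := by
  unfold Z
  rw [mul_mul_mul_comm]
  congr 1
  rw [← lintegral_mul_const _ (measurable_bw hu)]
  apply lintegral_congr
  intro x
  rw [lintegral_const_mul _ (measurable_bw hu)]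

theorem Z_union_ge {u : Pt → Pt → ℝ} (hu : GoodPair u) {A B : Set Pt} (hA : MeasurableSet A)
    (hB : MeasurableSet B) (hAB : Disjoint A B)
    (hc : ∀ x ∈ A, ∀ y ∈ B, u x y ≤ 0) (n m : ℕ) :
    Z u A n * Z u B m ≤ Z u (A ∪ B) (n + m) := by
  rw [Z_union hu hA hB hAB, Z_mul_Z hu]
  have hmem : (n, m) ∈ Finset.HasAntidiagonal.antidiagonal (n + m) := by simp
  refine le_trans ?_ (Finset.single_le_sum (f := fun p : ℕ × ℕ =>
    ((p.1.factorial : ℝ≥0∞)⁻¹ * (p.2.factorial : ℝ≥0∞)⁻¹) *
        ∫⁻ x in (box A : Set (Fin p.1 → Pt)), ∫⁻ y in (box B : Set (Fin p.2 → Pt)),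
          ENNReal.ofReal (Real.exp (-(Eu u x) - Eu u y - cross u x y)))
    (fun _ _ => zero_le) hmem)
  dsimp only
  apply mul_le_mul_right
  apply setLIntegral_mono' (measurableSet_box hA)
  intro x hx
  apply setLIntegral_mono' (measurableSet_box hB)
  intro y hy
  unfold bw
  rw [← ENNReal.ofReal_mul (Real.exp_pos _).le, ← Real.exp_add]
  apply ENNReal.ofReal_le_ofReal
  apply Real.exp_le_exp.mpr
  have : cross u x y ≤ 0 := by
    unfold cross
    apply Finset.sum_nonpos
    intro i _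
    apply Finset.sum_nonpos
    intro j _
    exact hc _ (hx i (Set.mem_univ i)) _ (hy j (Set.mem_univ j))
  linarith

theorem Z_union_eq {u : Pt → Pt → ℝ} (hu : GoodPair u) {A B : Set Pt} (hA : MeasurableSet A)
    (hB : MeasurableSet B) (hAB : Disjoint A B)
    (hc : ∀ x ∈ A, ∀ y ∈ B, u x y = 0) (N : ℕ) :
    Z u (A ∪ B) N = ∑ p ∈ Finset.HasAntidiagonal.antidiagonal N, Z u A p.1 * Z u B p.2 := by
  rw [Z_union hu hA hB hAB]
  apply Finset.sum_congr rfl
  intro p _
  rw [Z_mul_Z hu]
  congr 1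
  apply setLIntegral_congr_fun (measurableSet_box hA)
  intro x hx
  apply setLIntegral_congr_fun (measurableSet_box hB)
  intro y hy
  dsimp only
  unfold bw
  rw [← ENNReal.ofReal_mul (Real.exp_pos _).le, ← Real.exp_add]
  congr 2
  have : cross u x y = 0 := by
    unfold cross
    apply Finset.sum_eq_zero
    intro i _
    apply Finset.sum_eq_zero
    intro j _
    exact hc _ (hx i (Set.mem_univ i)) _ (hy j (Set.mem_univ j))
  linarith

/-- Supermultiplicativity over a finite family of regions with nonpositive cross interaction. -/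
theorem Z_biUnion_ge {u : Pt → Pt → ℝ} (hu : GoodPair u) {ι : Type} (s : Finset ι)
    (Λ : ι → Set Pt) (hΛ : ∀ i ∈ s, MeasurableSet (Λ i))
    (hd : ∀ i ∈ s, ∀ j ∈ s, i ≠ j → Disjoint (Λ i) (Λ j))
    (hc : ∀ i ∈ s, ∀ j ∈ s, i ≠ j → ∀ x ∈ Λ i, ∀ y ∈ Λ j, u x y ≤ 0) (n : ι → ℕ) :
    ∏ i ∈ s, Z u (Λ i) (n i) ≤ Z u (⋃ i ∈ s, Λ i) (∑ i ∈ s, n i) := by
  classical
  induction s using Finset.induction_on with
  | empty => simp [Z_zero]
  | insert a s ha ih =>
    rw [Finset.prod_insert ha, Finset.sum_insert ha, Finset.set_biUnion_insert]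
    have ih' := ih (fun i hi => hΛ i (Finset.mem_insert_of_mem hi))
      (fun i hi j hj => hd i (Finset.mem_insert_of_mem hi) j (Finset.mem_insert_of_mem hj))
      (fun i hi j hj => hc i (Finset.mem_insert_of_mem hi) j (Finset.mem_insert_of_mem hj))
    have hne : ∀ i ∈ s, a ≠ i := fun i hi h => ha (h ▸ hi)
    refine le_trans (mul_le_mul_right ih' _) ?_
    apply Z_union_ge hu (hΛ a (Finset.mem_insert_self a s))
    · exact Finset.measurableSet_biUnion s (fun i hi => hΛ i (Finset.mem_insert_of_mem hi))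
    · rw [Set.disjoint_iUnion₂_right]
      intro i hi
      exact hd a (Finset.mem_insert_self a s) i (Finset.mem_insert_of_mem hi) (hne i hi)
    · intro x hx y hy
      obtain ⟨i, hi, hy⟩ := Set.mem_iUnion₂.mp hy
      exact hc a (Finset.mem_insert_self a s) i (Finset.mem_insert_of_mem hi) (hne i hi) x hx y hy

theorem tsum_mul_tsum_antidiagonal (f g : ℕ → ℝ≥0∞) :
    (∑' n, f n) * (∑' n, g n) = ∑' n, ∑ p ∈ Finset.HasAntidiagonal.antidiagonal n, f p.1 * g p.2 := by
  have h1 : (∑' n, f n) * (∑' n, g n) = ∑' p : ℕ × ℕ, f p.1 * g p.2 := by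
    rw [ENNReal.tsum_prod', ← ENNReal.tsum_mul_right]
    apply tsum_congr
    intro a
    exact ENNReal.tsum_mul_left.symm
  rw [h1, ← (Finset.HasAntidiagonal.sigmaAntidiagonalEquivProd (A := ℕ)).tsum_eq, ENNReal.tsum_sigma']
  apply tsum_congr
  intro n
  rw [tsum_fintype]
  exact Finset.sum_coe_sort (Finset.HasAntidiagonal.antidiagonal n) (fun p : ℕ × ℕ => f p.1 * g p.2)

theorem Xi_union_eq {u : Pt → Pt → ℝ} (hu : GoodPair u) (ν : ℝ) {A B : Set Pt}
    (hA : MeasurableSet A) (hB : MeasurableSet B) (hAB : Disjoint A B)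
    (hc : ∀ x ∈ A, ∀ y ∈ B, u x y = 0) :
    Xi u ν (A ∪ B) = Xi u ν A * Xi u ν B := by
  unfold Xi
  rw [tsum_mul_tsum_antidiagonal]
  apply tsum_congr
  intro n
  rw [Z_union_eq hu hA hB hAB hc, Finset.mul_sum]
  apply Finset.sum_congr rfl
  intro p hp
  have hp' : p.1 + p.2 = n := by simpa using hp
  rw [mul_mul_mul_comm, ← ENNReal.ofReal_mul (Real.exp_pos _).le, ← Real.exp_add, ← hp']
  congr 3
  push_cast
  ring

theorem Xi_empty (u : Pt → Pt → ℝ) (ν : ℝ) : Xi u ν ∅ = 1 := by
  unfold Xi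
  rw [tsum_eq_single 0]
  · simp [Z_zero]
  · intro n hn
    have : Z u ∅ n = 0 := by
      unfold Z
      have : (box ∅ : Set (Fin n → Pt)) = ∅ := by
        apply Set.univ_pi_eq_empty (i := ⟨0, Nat.pos_of_ne_zero hn⟩) rfl
      rw [this]
      simp
    rw [this, mul_zero]

/-- Factorisation of the grand canonical partition function over noninteracting regions. -/
theorem Xi_biUnion_eq {u : Pt → Pt → ℝ} (hu : GoodPair u) (ν : ℝ) {ι : Type} (s : Finset ι)
    (Λ : ι → Set Pt) (hΛ : ∀ i ∈ s, MeasurableSet (Λ i))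
    (hd : ∀ i ∈ s, ∀ j ∈ s, i ≠ j → Disjoint (Λ i) (Λ j))
    (hc : ∀ i ∈ s, ∀ j ∈ s, i ≠ j → ∀ x ∈ Λ i, ∀ y ∈ Λ j, u x y = 0) :
    Xi u ν (⋃ i ∈ s, Λ i) = ∏ i ∈ s, Xi u ν (Λ i) := by
  classical
  induction s using Finset.induction_on with
  | empty => simp [Xi_empty]
  | insert a s ha ih =>
    rw [Finset.prod_insert ha, Finset.set_biUnion_insert]
    have ih' := ih (fun i hi => hΛ i (Finset.mem_insert_of_mem hi))
      (fun i hi j hj => hd i (Finset.mem_insert_of_mem hi) j (Finset.mem_insert_of_mem hj))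
      (fun i hi j hj => hc i (Finset.mem_insert_of_mem hi) j (Finset.mem_insert_of_mem hj))
    have hne : ∀ i ∈ s, a ≠ i := fun i hi h => ha (h ▸ hi)
    rw [← ih']
    apply Xi_union_eq hu ν (hΛ a (Finset.mem_insert_self a s))
    · exact Finset.measurableSet_biUnion s (fun i hi => hΛ i (Finset.mem_insert_of_mem hi))
    · rw [Set.disjoint_iUnion₂_right]
      intro i hi
      exact hd a (Finset.mem_insert_self a s) i (Finset.mem_insert_of_mem hi) (hne i hi)
    · intro x hx y hy
      obtain ⟨i, hi, hy⟩ := Set.mem_iUnion₂.mp hy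
      exact hc a (Finset.mem_insert_self a s) i (Finset.mem_insert_of_mem hi) (hne i hi) x hx y hy

end Crest.Agent.Kac
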