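import Crest.Agent.Kac.Split
import Crest.Agent.Kac.Basic

/-! K3: the thermodynamic limit. -/

set_option autoImplicit false
open MeasureTheory Filter Topology
open scoped ENNReal

namespace Crest.Agent.Kac

/-- piecewise linear interpolation of a sequence -/
noncomputable def interp (f : ℕ → ℝ) (x : ℝ) : ℝ :=
  f ⌊x⌋₊ + (x - ⌊x⌋₊) * (f (⌊x⌋₊ + 1) - f ⌊x⌋₊)

lemma interp_nat (f : ℕ → ℝ) (n : ℕ) : interp f n = f n := by simp [interp]

/-- a formula for `interp` that is visibly continuous -/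
noncomputable def interpK (f : ℕ → ℝ) (K : ℕ) (x : ℝ) : ℝ :=
  f 0 + ∑ n ∈ Finset.range K, (f (n + 1) - f n) * max 0 (min 1 (x - n))

lemma continuous_interpK (f : ℕ → ℝ) (K : ℕ) : Continuous (interpK f K) := by
  unfold interpK; fun_prop

lemma interpK_of_le (f : ℕ → ℝ) {x : ℝ} (hx : 0 ≤ x) {K : ℕ} (hK : K ≤ ⌊x⌋₊) :
    interpK f K x = f K := by
  induction K with
  | zero => simp [interpK]
  | succ K ih =>
    have h1 := ih (by omega)
    unfold interpK at h1 ⊢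
    rw [Finset.sum_range_succ, ← add_assoc, h1]
    have h2 : ((K + 1 : ℕ) : ℝ) ≤ x := (Nat.le_floor_iff hx).1 hK
    push_cast at h2
    rw [min_eq_left (by linarith), max_eq_right zero_le_one]
    ring

lemma interp_eq_interpK (f : ℕ → ℝ) {x : ℝ} (hx : 0 ≤ x) {K : ℕ} (hK : ⌊x⌋₊ < K) :
    interp f x = interpK f K x := by
  induction K, hK using Nat.le_induction with
  | base =>
    have h1 := interpK_of_le f hx le_rfl
    unfold interpK at h1 ⊢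
    rw [Finset.sum_range_succ, ← add_assoc, h1]
    have h2 := Nat.floor_le hx
    have h3 := Nat.lt_floor_add_one x
    rw [min_eq_right (by linarith), max_eq_right (by linarith)]
    unfold interp; ring
  | succ K hK ih =>
    rw [ih]
    unfold interpK
    rw [Finset.sum_range_succ]
    have h3 := Nat.lt_floor_add_one x
    have h4 : ((⌊x⌋₊ + 1 : ℕ) : ℝ) ≤ K := by exact_mod_cast hK
    push_cast at h4
    have h5 : min 1 (x - K) ≤ 0 := (min_le_right _ _).trans (by linarith)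
    rw [max_eq_left h5]
    ring

lemma continuousOn_interp (f : ℕ → ℝ) : ContinuousOn (interp f) (Set.Ici 0) := by
  intro x0 hx0
  have hx0' : (0:ℝ) ≤ x0 := hx0
  have h1 : ContinuousWithinAt (interpK f (⌊x0⌋₊ + 2)) (Set.Ici 0) x0 :=
    (continuous_interpK f _).continuousWithinAt
  have hev : ∀ᶠ x in 𝓝[Set.Ici 0] x0, x < x0 + 1 :=
    mem_nhdsWithin_of_mem_nhds (Iio_mem_nhds (by linarith))
  have hfl : ∀ x : ℝ, 0 ≤ x → x < x0 + 1 → ⌊x⌋₊ < ⌊x0⌋₊ + 2 := by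
    intro x _ hx
    have h4 : ⌊x⌋₊ ≤ ⌊x0 + 1⌋₊ := Nat.floor_mono hx.le
    rw [Nat.floor_add_one hx0'] at h4
    omega
  refine h1.congr_of_eventuallyEq ?_ ?_
  · filter_upwards [hev, self_mem_nhdsWithin] with x hx hx2
    exact interp_eq_interpK f hx2 (hfl x hx2 hx)
  · exact interp_eq_interpK f hx0' (hfl x0 hx0' (by linarith))

lemma tendsto_interp (f : ℕ → ℝ) {α : Type} {l : Filter α} {u : α → ℝ} {x0 : ℝ}
    (hu : Tendsto u l (𝓝 x0)) (hu0 : ∀ a, 0 ≤ u a) (hx0 : 0 ≤ x0) :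
    Tendsto (fun a => interp f (u a)) l (𝓝 (interp f x0)) := by
  have h1 : Tendsto (interp f) (𝓝[Set.Ici 0] x0) (𝓝 (interp f x0)) :=
    continuousOn_interp f x0 hx0
  refine h1.comp ?_
  rw [tendsto_nhdsWithin_iff]
  exact ⟨hu, Eventually.of_forall hu0⟩

lemma exists_dist {ι : Type} [DecidableEq ι] (s : Finset ι) (hs : 0 < s.card) (N : ℕ)
    (f : ℕ → ℝ) : ∃ n : ι → ℕ, ∑ i ∈ s, n i = N ∧
      ∑ i ∈ s, f (n i) = s.card * interp f ((N:ℝ) / s.card) := by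
  set M := s.card with hM
  have hr : N % M ≤ s.card := (Nat.mod_lt _ hs).le
  obtain ⟨s', hs's, hs'c⟩ := Finset.exists_subset_card_eq hr
  have hsub : (s.filter (fun i => i ∈ s')) = s' := by
    ext i; simp only [Finset.mem_filter]; exact ⟨fun h => h.2, fun h => ⟨hs's h, h⟩⟩
  have hcard2 : (s.filter (fun i => i ∉ s')).card = M - N % M := by
    have := Finset.card_filter_add_card_filter_not (s := s) (fun i => i ∈ s')
    rw [hsub, hs'c] at this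
    omega
  have hdm := Nat.div_add_mod N M
  refine ⟨fun i => if i ∈ s' then N / M + 1 else N / M, ?_, ?_⟩
  · rw [Finset.sum_ite, hsub]
    simp only [Finset.sum_const, smul_eq_mul]
    rw [hs'c, hcard2]
    have h5 : N % M ≤ M := hr
    have : N % M * (N / M + 1) + (M - N % M) * (N / M) = M * (N / M) + N % M := by
      have h6 : (M - N % M) * (N / M) + N % M * (N / M) = M * (N / M) := by
        rw [← add_mul, Nat.sub_add_cancel h5]
      calc N % M * (N / M + 1) + (M - N % M) * (N / M)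
          = ((M - N % M) * (N / M) + N % M * (N / M)) + N % M := by ring
        _ = _ := by rw [h6]
    rw [this, hdm]
  · have hfl : ⌊(N:ℝ) / M⌋₊ = N / M := Nat.floor_div_eq_div N M
    have hMpos : (0:ℝ) < M := by exact_mod_cast hs
    have hcast : (N:ℝ) = M * ((N / M : ℕ) : ℝ) + ((N % M : ℕ) : ℝ) := by
      exact_mod_cast hdm.symm
    have e1 : ∑ i ∈ s, f (if i ∈ s' then N / M + 1 else N / M) =
        ∑ i ∈ s, (if i ∈ s' then f (N / M + 1) else f (N / M)) := by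
      apply Finset.sum_congr rfl
      intro i _
      split_ifs <;> rfl
    rw [e1, Finset.sum_ite, hsub]
    simp only [Finset.sum_const, nsmul_eq_mul]
    rw [hs'c, hcard2, Nat.cast_sub hr]
    unfold interp
    rw [hfl]
    have e2 : (N:ℝ) / M - ((N / M : ℕ) : ℝ) = ((N % M : ℕ) : ℝ) / M := by
      rw [eq_div_iff hMpos.ne', sub_mul, div_mul_cancel₀ _ hMpos.ne']
      linarith
    rw [e2]
    field_simp
    ring

/-- The density interpolation. -/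
noncomputable def Pl (a : ℝ → ℕ → ℝ) (R0 ℓ ρ : ℝ) : ℝ :=
  interp (a ℓ) (ρ * (ℓ + R0) ^ 3) / (ℓ + R0) ^ 3

lemma key_lemma (a : ℝ → ℕ → ℝ) (R0 : ℝ) (hR0 : 0 ≤ R0)
    (hsup : ∀ ℓ : ℝ, 0 < ℓ → ∀ m : ℕ, ∀ L : ℝ, (m : ℝ) * (ℓ + R0) ≤ L → 0 < L →
      ∀ n : Fin m × Fin m × Fin m → ℕ, ∑ i, a ℓ (n i) ≤ a L (∑ i, n i))
    {ℓ : ℝ} (hℓ : 0 < ℓ) {t : ℝ} (ht0 : 0 < t) (ht1 : t < 1) {ρ1 ρ2 : ℝ} (h1 : 0 ≤ ρ1)
    (h2 : 0 ≤ ρ2) (N : ℝ → ℕ)
    (hN : Tendsto (fun L : ℝ => (N L : ℝ) / L ^ 3) atTop (𝓝 (t * ρ1 + (1 - t) * ρ2)))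
    {c : ℝ} (hc : c < t * Pl a R0 ℓ ρ1 + (1 - t) * Pl a R0 ℓ ρ2) :
    ∀ᶠ L : ℝ in atTop, c < a L (N L) / L ^ 3 := by
  set lp := ℓ + R0 with hlp
  have hlp0 : 0 < lp := by positivity
  set ρ := t * ρ1 + (1 - t) * ρ2 with hρ
  have h1t : 0 < 1 - t := by linarith
  let m : ℝ → ℕ := fun L => ⌊L / lp⌋₊
  let M : ℝ → ℕ := fun L => (m L) ^ 3
  let k : ℝ → ℕ := fun L => ⌊t * (M L)⌋₊
  let N1 : ℝ → ℕ := fun L => min (N L) ⌊ρ1 * lp ^ 3 * (k L)⌋₊
  -- asymptotics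
  have hm : Tendsto (fun L : ℝ => (m L : ℝ) / L) atTop (𝓝 (1 / lp)) := by
    have h3 : Tendsto (fun x : ℝ => (⌊(1 / lp) * x⌋₊ : ℝ) / x) atTop (𝓝 (1 / lp)) :=
      tendsto_nat_floor_mul_div_atTop (by positivity)
    refine h3.congr (fun L => ?_)
    simp only [m]
    rw [one_div_mul_eq_div]
  have hM : Tendsto (fun L : ℝ => (M L : ℝ) / L ^ 3) atTop (𝓝 ((1 / lp) ^ 3)) := by
    refine (hm.pow 3).congr (fun L => ?_)
    simp only [M]; push_cast; rw [div_pow]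
  have hMtop : Tendsto (fun L : ℝ => (M L : ℝ)) atTop atTop := by
    have h4 : Tendsto (fun L : ℝ => L ^ 3) atTop atTop := tendsto_pow_atTop (by norm_num)
    have h5 : Tendsto (fun L : ℝ => (M L : ℝ) / L ^ 3 * L ^ 3) atTop atTop :=
      Tendsto.pos_mul_atTop (C := (1 / lp) ^ 3) (by positivity) hM h4
    refine h5.congr' ?_
    filter_upwards [eventually_gt_atTop 0] with L hL
    field_simp
  have hkM : Tendsto (fun L : ℝ => (k L : ℝ) / M L) atTop (𝓝 t) := by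
    have h3 : Tendsto (fun x : ℝ => (⌊t * x⌋₊ : ℝ) / x) atTop (𝓝 t) :=
      tendsto_nat_floor_mul_div_atTop ht0.le
    exact h3.comp hMtop
  have hktop : Tendsto (fun L : ℝ => (k L : ℝ)) atTop atTop := by
    have h5 : Tendsto (fun L : ℝ => (k L : ℝ) / M L * M L) atTop atTop :=
      Tendsto.pos_mul_atTop ht0 hkM hMtop
    refine h5.congr' ?_
    filter_upwards [hMtop.eventually_gt_atTop 0] with L hL
    field_simp
  have hk : Tendsto (fun L : ℝ => (k L : ℝ) / L ^ 3) atTop (𝓝 (t * (1 / lp) ^ 3)) := by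
    refine (hkM.mul hM).congr' ?_
    filter_upwards [hMtop.eventually_gt_atTop 0] with L hL
    field_simp
  have hNk : Tendsto (fun L : ℝ => (N L : ℝ) / k L) atTop (𝓝 (ρ / (t * (1 / lp) ^ 3))) := by
    refine (hN.div hk (by positivity)).congr' ?_
    filter_upwards [eventually_gt_atTop 0, hktop.eventually_gt_atTop 0] with L hL hL2
    simp only [Pi.div_apply]
    field_simp
  have hN1k : Tendsto (fun L : ℝ => (N1 L : ℝ) / k L) atTop (𝓝 (ρ1 * lp ^ 3)) := by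
    have h3 : Tendsto (fun x : ℝ => (⌊ρ1 * lp ^ 3 * x⌋₊ : ℝ) / x) atTop (𝓝 (ρ1 * lp ^ 3)) :=
      tendsto_nat_floor_mul_div_atTop (by positivity)
    have h4 := hNk.min (h3.comp hktop)
    have h5 : min (ρ / (t * (1 / lp) ^ 3)) (ρ1 * lp ^ 3) = ρ1 * lp ^ 3 := by
      apply min_eq_right
      rw [le_div_iff₀ (by positivity)]
      have e1 : ρ1 * lp ^ 3 * (t * (1 / lp) ^ 3) = t * ρ1 := by field_simp
      rw [e1, hρ]
      have := mul_nonneg h1t.le h2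
      linarith
    rw [h5] at h4
    refine h4.congr' ?_
    filter_upwards [hktop.eventually_gt_atTop 0] with L hL
    simp only [N1, Function.comp]
    push_cast
    rw [min_div_div_right hL.le]
  have hN1 : Tendsto (fun L : ℝ => (N1 L : ℝ) / L ^ 3) atTop (𝓝 (t * ρ1)) := by
    have h4 := hN1k.mul hk
    have e1 : ρ1 * lp ^ 3 * (t * (1 / lp) ^ 3) = t * ρ1 := by field_simp
    rw [e1] at h4
    refine h4.congr' ?_
    filter_upwards [eventually_gt_atTop 0, hktop.eventually_gt_atTop 0] with L hL hL2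
    field_simp
  have hMk : Tendsto (fun L : ℝ => ((M L : ℝ) - k L) / L ^ 3) atTop
      (𝓝 ((1 - t) * (1 / lp) ^ 3)) := by
    have h4 := hM.sub hk
    have e1 : (1 / lp) ^ 3 - t * (1 / lp) ^ 3 = (1 - t) * (1 / lp) ^ 3 := by ring
    rw [e1] at h4
    refine h4.congr (fun L => ?_)
    rw [sub_div]
  have hN2 : Tendsto (fun L : ℝ => ((N L : ℝ) - N1 L) / ((M L : ℝ) - k L)) atTop
      (𝓝 (ρ2 * lp ^ 3)) := by
    have h4 : Tendsto (fun L : ℝ => ((N L : ℝ) - N1 L) / L ^ 3) atTop (𝓝 ((1 - t) * ρ2)) := by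
      have h4 := hN.sub hN1
      have e1 : ρ - t * ρ1 = (1 - t) * ρ2 := by rw [hρ]; ring
      rw [e1] at h4
      refine h4.congr (fun L => ?_)
      rw [sub_div]
    have h5 := h4.div hMk (by positivity)
    have e1 : (1 - t) * ρ2 / ((1 - t) * (1 / lp) ^ 3) = ρ2 * lp ^ 3 := by
      field_simp
    rw [e1] at h5
    refine h5.congr' ?_
    filter_upwards [eventually_gt_atTop 0] with L hL
    have : L ^ 3 ≠ 0 := by positivity
    exact div_div_div_cancel_right₀ this _ _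
  have hkle : ∀ L, k L ≤ M L := by
    intro L
    apply Nat.floor_le_of_le
    have : (0:ℝ) ≤ M L := Nat.cast_nonneg _
    nlinarith
  have hN1le : ∀ L, N1 L ≤ N L := fun L => min_le_left _ _
  -- the lower bound function
  have hF : Tendsto (fun L : ℝ => (k L : ℝ) / L ^ 3 * interp (a ℓ) ((N1 L : ℝ) / k L) +
      ((M L : ℝ) - k L) / L ^ 3 * interp (a ℓ) (((N L : ℝ) - N1 L) / ((M L : ℝ) - k L))) atTop
      (𝓝 (t * (1 / lp) ^ 3 * interp (a ℓ) (ρ1 * lp ^ 3) +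
        (1 - t) * (1 / lp) ^ 3 * interp (a ℓ) (ρ2 * lp ^ 3))) := by
    refine (hk.mul (tendsto_interp _ hN1k (fun L => by positivity) (by positivity))).add
      (hMk.mul (tendsto_interp _ hN2 (fun L => ?_) (by positivity)))
    have e1 : (0:ℝ) ≤ (N L : ℝ) - N1 L := sub_nonneg.2 (by exact_mod_cast hN1le L)
    have e2 : (0:ℝ) ≤ (M L : ℝ) - k L := sub_nonneg.2 (by exact_mod_cast hkle L)
    positivity
  have hlim : t * (1 / lp) ^ 3 * interp (a ℓ) (ρ1 * lp ^ 3) +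
        (1 - t) * (1 / lp) ^ 3 * interp (a ℓ) (ρ2 * lp ^ 3) =
        t * Pl a R0 ℓ ρ1 + (1 - t) * Pl a R0 ℓ ρ2 := by
    unfold Pl
    rw [← hlp]
    field_simp
  rw [hlim] at hF
  have hMkpos : ∀ᶠ L : ℝ in atTop, k L < M L := by
    have h6 : ∀ᶠ L : ℝ in atTop, (k L : ℝ) / M L < 1 := hkM.eventually_lt_const ht1
    filter_upwards [h6, hMtop.eventually_gt_atTop 0] with L hL1 hL2
    rw [div_lt_one hL2] at hL1
    exact_mod_cast hL1
  filter_upwards [hF.eventually_const_lt hc, eventually_gt_atTop 0,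
    hktop.eventually_gt_atTop 0, hMkpos] with L hL hL0 hLk hLM
  refine hL.trans_le ?_
  -- distribute
  have hcardU : (Finset.univ : Finset (Fin (m L) × Fin (m L) × Fin (m L))).card = M L := by
    simp only [M, Finset.card_univ, Fintype.card_prod, Fintype.card_fin]; ring
  obtain ⟨s, -, hs⟩ := Finset.exists_subset_card_eq
    (s := (Finset.univ : Finset (Fin (m L) × Fin (m L) × Fin (m L)))) (n := k L)
    (by rw [hcardU]; exact hkle L)
  have hsc : sᶜ.card = M L - k L := by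
    rw [Finset.card_compl, hs, ← Finset.card_univ, hcardU]
  have hkpos : 0 < k L := by exact_mod_cast hLk
  obtain ⟨n1, hn1, hn1'⟩ := exists_dist s (by rw [hs]; exact hkpos) (N1 L) (a ℓ)
  obtain ⟨n2, hn2, hn2'⟩ := exists_dist sᶜ (by rw [hsc]; omega) (N L - N1 L) (a ℓ)
  rw [hs] at hn1'
  rw [hsc, Nat.cast_sub (hkle L), Nat.cast_sub (hN1le L)] at hn2'
  have hfit : (m L : ℝ) * (ℓ + R0) ≤ L := by
    rw [← hlp]
    have := Nat.floor_le (show 0 ≤ L / lp by positivity)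
    calc (m L : ℝ) * lp ≤ (L / lp) * lp := by
          simp only [m]; gcongr
      _ = L := by field_simp
  have hs1 := hsup ℓ hℓ (m L) L hfit hL0 (fun i => if i ∈ s then n1 i else n2 i)
  have e1 : ∑ i, (if i ∈ s then n1 i else n2 i) = N L := by
    rw [← Finset.sum_add_sum_compl s]
    have e2 : ∑ i ∈ s, (if i ∈ s then n1 i else n2 i) = ∑ i ∈ s, n1 i :=
      Finset.sum_congr rfl fun i hi => if_pos hi
    have e3 : ∑ i ∈ sᶜ, (if i ∈ s then n1 i else n2 i) = ∑ i ∈ sᶜ, n2 i :=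
      Finset.sum_congr rfl fun i hi => if_neg (Finset.mem_compl.1 hi)
    rw [e2, e3, hn1, hn2]
    have := hN1le L
    omega
  have e4 : ∑ i, a ℓ (if i ∈ s then n1 i else n2 i) =
      (k L : ℝ) * interp (a ℓ) ((N1 L : ℝ) / k L) +
      ((M L : ℝ) - k L) * interp (a ℓ) (((N L : ℝ) - N1 L) / ((M L : ℝ) - k L)) := by
    rw [← Finset.sum_add_sum_compl s]
    have e2 : ∑ i ∈ s, a ℓ (if i ∈ s then n1 i else n2 i) = ∑ i ∈ s, a ℓ (n1 i) :=
      Finset.sum_congr rfl fun i hi => by rw [if_pos hi]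
    have e3 : ∑ i ∈ sᶜ, a ℓ (if i ∈ s then n1 i else n2 i) = ∑ i ∈ sᶜ, a ℓ (n2 i) :=
      Finset.sum_congr rfl fun i hi => by rw [if_neg (Finset.mem_compl.1 hi)]
    rw [e2, e3, hn1', hn2']
  rw [e1, e4] at hs1
  have hL3 : 0 < L ^ 3 := by positivity
  rw [le_div_iff₀ hL3]
  refine le_trans (le_of_eq ?_) hs1
  field_simp

/-- Abstract thermodynamic limit from supermultiplicativity with corridors of width `R0`. -/
theorem thermo_abstract (Zf : ℝ → ℕ → ℝ) (R0 : ℝ) (hR0 : 0 ≤ R0)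
    (hpos : ∀ L : ℝ, 0 < L → ∀ N, 0 < Zf L N) (h0 : ∀ L : ℝ, 0 < L → Zf L 0 = 1)
    (hub : ∃ B : ℝ, ∀ L : ℝ, 0 < L → ∀ N : ℕ,
      Zf L N ≤ (L ^ 3) ^ N / N.factorial * Real.exp (B * N))
    (hsup : ∀ ℓ : ℝ, 0 < ℓ → ∀ m : ℕ, ∀ L : ℝ, (m : ℝ) * (ℓ + R0) ≤ L → 0 < L →
      ∀ n : Fin m × Fin m × Fin m → ℕ, ∏ i, Zf ℓ (n i) ≤ Zf L (∑ i, n i)) :
    ∃ P : ℝ → ℝ, P 0 = 0 ∧ ConcaveOn ℝ (Set.Ici 0) P ∧
      (∀ ρ : ℝ, 0 ≤ ρ → Tendsto (fun L : ℝ => (1 / L ^ 3) * Real.log (Zf L ⌊ρ * L ^ 3⌋₊))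
        atTop (𝓝 (P ρ))) ∧
      (∀ ℓ : ℝ, 0 < ℓ → ∀ n : ℕ, Real.log (Zf ℓ n) ≤ (ℓ + R0) ^ 3 * P (n / (ℓ + R0) ^ 3)) := by
  set a : ℝ → ℕ → ℝ := fun L N => Real.log (Zf L N) with ha
  have hsup' : ∀ ℓ : ℝ, 0 < ℓ → ∀ m : ℕ, ∀ L : ℝ, (m : ℝ) * (ℓ + R0) ≤ L → 0 < L →
      ∀ n : Fin m × Fin m × Fin m → ℕ, ∑ i, a ℓ (n i) ≤ a L (∑ i, n i) := by
    intro ℓ hℓ m L hL hL0 n
    simp only [ha]
    rw [← Real.log_prod (fun i _ => (hpos ℓ hℓ (n i)).ne')]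
    exact Real.log_le_log (Finset.prod_pos fun i _ => hpos ℓ hℓ (n i)) (hsup ℓ hℓ m L hL hL0 n)
  obtain ⟨B, hB⟩ := hub
  -- upper bound for a
  have hub' : ∀ L : ℝ, 0 < L → ∀ N : ℕ, a L N ≤ L ^ 3 + |B| * N := by
    intro L hL N
    have h1 : Zf L N ≤ Real.exp (L ^ 3 + |B| * N) := by
      refine (hB L hL N).trans ?_
      rw [Real.exp_add]
      have h2 := Real.pow_div_factorial_le_exp (x := L ^ 3) (by positivity) N
      have h3 : Real.exp (B * N) ≤ Real.exp (|B| * N) := by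
        apply Real.exp_le_exp.2
        exact mul_le_mul_of_nonneg_right (le_abs_self B) (Nat.cast_nonneg _)
      exact mul_le_mul h2 h3 (Real.exp_pos _).le (Real.exp_pos _).le
    have := Real.log_le_log (hpos L hL N) h1
    rwa [Real.log_exp] at this
  have hPlub : ∀ ρ : ℝ, 0 ≤ ρ → ∀ ℓ : ℝ, 0 < ℓ → Pl a R0 ℓ ρ ≤ 1 + |B| * ρ := by
    intro ρ hρ ℓ hℓ
    unfold Pl
    have hlp : 0 < (ℓ + R0) ^ 3 := by positivity
    rw [div_le_iff₀ hlp]
    set x := ρ * (ℓ + R0) ^ 3 with hx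
    have hx0 : 0 ≤ x := by positivity
    have h3 : interp (a ℓ) x ≤ ℓ ^ 3 + |B| * x := by
      unfold interp
      have f1 := Nat.floor_le hx0
      have f2 := Nat.lt_floor_add_one x
      have u1 := hub' ℓ hℓ ⌊x⌋₊
      have u2 := hub' ℓ hℓ (⌊x⌋₊ + 1)
      push_cast at u2
      set s := x - ⌊x⌋₊ with hs
      have hs0 : 0 ≤ s := by linarith
      have hs1 : 0 ≤ 1 - s := by linarith
      have e1 := mul_le_mul_of_nonneg_left u1 hs1
      have e2 := mul_le_mul_of_nonneg_left u2 hs0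
      have e3 : x = s + ⌊x⌋₊ := by rw [hs]; ring
      have e4 : ℓ ^ 3 + |B| * x = (1 - s) * (ℓ ^ 3 + |B| * ⌊x⌋₊) +
          s * (ℓ ^ 3 + |B| * (⌊x⌋₊ + 1)) := by
        nth_rw 1 [e3]; ring
      rw [e4]
      linarith
    refine h3.trans ?_
    have h4 : ℓ ^ 3 ≤ (ℓ + R0) ^ 3 := by gcongr; linarith
    rw [hx]
    nlinarith
  -- definition of P
  set P : ℝ → ℝ := fun ρ => ⨆ ℓ : {ℓ : ℝ // 0 < ℓ}, Pl a R0 ℓ ρ with hP
  have hne : Nonempty {ℓ : ℝ // 0 < ℓ} := ⟨⟨1, one_pos⟩⟩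
  have hbdd : ∀ ρ : ℝ, 0 ≤ ρ → BddAbove (Set.range fun ℓ : {ℓ : ℝ // 0 < ℓ} => Pl a R0 ℓ ρ) :=
    fun ρ hρ => ⟨1 + |B| * ρ, by rintro _ ⟨ℓ, rfl⟩; exact hPlub ρ hρ ℓ ℓ.2⟩
  have hPle : ∀ ρ : ℝ, 0 ≤ ρ → ∀ ℓ : ℝ, 0 < ℓ → Pl a R0 ℓ ρ ≤ P ρ := fun ρ hρ ℓ hℓ =>
    le_ciSup (hbdd ρ hρ) ⟨ℓ, hℓ⟩
  -- floors
  have hcube : Tendsto (fun L : ℝ => L ^ 3) atTop atTop := tendsto_pow_atTop (by norm_num)
  have hfloor : ∀ ρ : ℝ, 0 ≤ ρ →
      Tendsto (fun L : ℝ => (⌊ρ * L ^ 3⌋₊ : ℝ) / L ^ 3) atTop (𝓝 ρ) := fun ρ hρ =>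
    (tendsto_nat_floor_mul_div_atTop (R := ℝ) hρ).comp hcube
  -- Pl ℓ ρ is the limit
  have hratio : Tendsto (fun L : ℝ => ((L + R0) / L) ^ 3) atTop (𝓝 1) := by
    have h1 : Tendsto (fun L : ℝ => 1 + R0 / L) atTop (𝓝 (1 + 0)) :=
      tendsto_const_nhds.add (tendsto_const_nhds.div_atTop tendsto_id)
    rw [add_zero] at h1
    have h2 := h1.pow 3
    rw [one_pow] at h2
    refine h2.congr' ?_
    filter_upwards [eventually_gt_atTop 0] with L hL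
    congr 1
    field_simp
  have hfloor1 : ∀ ρ : ℝ, 0 ≤ ρ →
      Tendsto (fun L : ℝ => (⌊ρ * (L + R0) ^ 3⌋₊ : ℝ) / L ^ 3) atTop (𝓝 ρ) := by
    intro ρ hρ
    have hc2 : Tendsto (fun L : ℝ => (L + R0) ^ 3) atTop atTop :=
      hcube.comp (tendsto_atTop_add_const_right _ _ tendsto_id)
    have h1 := ((tendsto_nat_floor_mul_div_atTop (R := ℝ) hρ).comp hc2).mul hratio
    rw [mul_one] at h1
    refine h1.congr' ?_
    filter_upwards [eventually_gt_atTop 0] with L hL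
    have : 0 < L + R0 := by linarith
    simp only [Function.comp]
    field_simp
  have hfloor2 : ∀ ρ : ℝ, 0 ≤ ρ →
      Tendsto (fun L : ℝ => ((⌊ρ * (L + R0) ^ 3⌋₊ + 1 : ℕ) : ℝ) / L ^ 3) atTop (𝓝 ρ) := by
    intro ρ hρ
    have h1 : Tendsto (fun L : ℝ => 1 / L ^ 3) atTop (𝓝 0) :=
      tendsto_const_nhds.div_atTop hcube
    have h2 := (hfloor1 ρ hρ).add h1
    rw [add_zero] at h2
    refine h2.congr (fun L => ?_)
    push_cast; ring
  have hlow : ∀ ρ1 ρ2 t : ℝ, 0 ≤ ρ1 → 0 ≤ ρ2 → 0 < t → t < 1 → ∀ ℓ : ℝ, 0 < ℓ → ∀ c : ℝ,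
      c < t * Pl a R0 ℓ ρ1 + (1 - t) * Pl a R0 ℓ ρ2 →
      ∀ᶠ L : ℝ in atTop, c * (L / (L + R0)) ^ 3 ≤ Pl a R0 L (t * ρ1 + (1 - t) * ρ2) := by
    intro ρ1 ρ2 t h1 h2 ht0 ht1 ℓ hℓ c hc
    have h1t : 0 < 1 - t := by linarith
    set ρ := t * ρ1 + (1 - t) * ρ2 with hρ
    have hρ0 : 0 ≤ ρ := by positivity
    have k1 := key_lemma a R0 hR0 hsup' hℓ ht0 ht1 h1 h2 (fun L => ⌊ρ * (L + R0) ^ 3⌋₊)
      (hfloor1 ρ hρ0) hc
    have k2 := key_lemma a R0 hR0 hsup' hℓ ht0 ht1 h1 h2 (fun L => ⌊ρ * (L + R0) ^ 3⌋₊ + 1)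
      (hfloor2 ρ hρ0) hc
    filter_upwards [k1, k2, eventually_gt_atTop 0] with L hL1 hL2 hL0
    have hL3 : 0 < L ^ 3 := by positivity
    have hLR : 0 < (L + R0) ^ 3 := by positivity
    rw [lt_div_iff₀ hL3] at hL1 hL2
    unfold Pl
    rw [le_div_iff₀ hLR, div_pow]
    have e0 : c * (L ^ 3 / (L + R0) ^ 3) * (L + R0) ^ 3 = c * L ^ 3 := by
      field_simp
    rw [e0]
    unfold interp
    set x := ρ * (L + R0) ^ 3 with hx
    have hx0 : 0 ≤ x := by positivity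
    have f1 := Nat.floor_le hx0
    have f2 := Nat.lt_floor_add_one x
    set s := x - ⌊x⌋₊ with hs
    have hs0 : 0 ≤ s := by linarith
    have hs1 : 0 ≤ 1 - s := by linarith
    have e1 := mul_le_mul_of_nonneg_left hL1.le hs1
    have e2 := mul_le_mul_of_nonneg_left hL2.le hs0
    linarith
  have hratio' : Tendsto (fun L : ℝ => (L / (L + R0)) ^ 3) atTop (𝓝 1) := by
    have h1 := hratio.inv₀ one_ne_zero
    rw [inv_one] at h1
    refine h1.congr (fun L => ?_)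
    rw [← inv_pow, inv_div]
  have hlim : ∀ ρ : ℝ, 0 ≤ ρ → Tendsto (fun L : ℝ => Pl a R0 L ρ) atTop (𝓝 (P ρ)) := by
    intro ρ hρ
    rw [tendsto_order]
    constructor
    · intro c hc
      obtain ⟨c', hc1, hc2⟩ := exists_between hc
      obtain ⟨⟨ℓ, hℓ⟩, hℓ2⟩ := exists_lt_of_lt_ciSup hc2
      have k := hlow ρ ρ (1/2) hρ hρ (by norm_num) (by norm_num) ℓ hℓ c' (by
        simp only at hℓ2
        linarith)
      have e1 : (1 / 2 : ℝ) * ρ + (1 - 1 / 2) * ρ = ρ := by ring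
      rw [e1] at k
      have h3 : Tendsto (fun L : ℝ => c' * (L / (L + R0)) ^ 3) atTop (𝓝 (c' * 1)) :=
        hratio'.const_mul c'
      rw [mul_one] at h3
      filter_upwards [k, h3.eventually_const_lt hc1] with L hL1 hL2
      linarith
    · intro c hc
      filter_upwards [eventually_gt_atTop 0] with L hL
      exact (hPle ρ hρ L hL).trans_lt hc
  have hPconc : ConcaveOn ℝ (Set.Ici 0) P := by
    refine ⟨convex_Ici 0, ?_⟩
    intro ρ1 h1 ρ2 h2 t u ht hu htu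
    have h1' : (0:ℝ) ≤ ρ1 := h1
    have h2' : (0:ℝ) ≤ ρ2 := h2
    have hu' : u = 1 - t := by linarith
    subst hu'
    simp only [smul_eq_mul]
    rcases ht.eq_or_lt with h | ht0
    · subst h; simp
    rcases hu.eq_or_lt with h | hu0
    · have : t = 1 := by linarith
      subst this; simp
    have ht1 : t < 1 := by linarith
    have hρ0 : 0 ≤ t * ρ1 + (1 - t) * ρ2 := by positivity
    -- for each ℓ the lower bound
    have hall : ∀ ℓ : ℝ, 0 < ℓ → t * Pl a R0 ℓ ρ1 + (1 - t) * Pl a R0 ℓ ρ2 ≤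
        P (t * ρ1 + (1 - t) * ρ2) := by
      intro ℓ hℓ
      apply le_of_forall_lt
      intro c hc
      obtain ⟨c', hc1, hc2⟩ := exists_between hc
      have k := hlow ρ1 ρ2 t h1' h2' ht0 ht1 ℓ hℓ c' hc2
      have h3 : Tendsto (fun L : ℝ => c' * (L / (L + R0)) ^ 3) atTop (𝓝 (c' * 1)) :=
        hratio'.const_mul c'
      rw [mul_one] at h3
      exact hc1.trans_le (le_of_tendsto_of_tendsto h3 (hlim _ hρ0) k)
    have hl := ((hlim ρ1 h1').const_mul t).add ((hlim ρ2 h2').const_mul (1 - t))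
    refine le_of_tendsto hl ?_
    filter_upwards [eventually_gt_atTop 0] with L hL
    exact hall L hL
  have hP0 : P 0 = 0 := by
    have : ∀ ℓ : {ℓ : ℝ // 0 < ℓ}, Pl a R0 ℓ 0 = 0 := by
      intro ℓ
      unfold Pl
      rw [zero_mul]
      have h1 : interp (a ℓ) 0 = a ℓ 0 := by
        have := interp_nat (a ℓ) 0
        simpa using this
      rw [h1]
      simp only [ha]
      rw [h0 ℓ ℓ.2]
      simp
    simp only [hP, this]
    exact ciSup_const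
  have hlast : ∀ ℓ : ℝ, 0 < ℓ → ∀ n : ℕ,
      Real.log (Zf ℓ n) ≤ (ℓ + R0) ^ 3 * P (n / (ℓ + R0) ^ 3) := by
    intro ℓ hℓ n
    have hlp : 0 < (ℓ + R0) ^ 3 := by positivity
    have h1 := hPle ((n:ℝ) / (ℓ + R0) ^ 3) (by positivity) ℓ hℓ
    unfold Pl at h1
    rw [div_mul_cancel₀ _ hlp.ne', interp_nat, div_le_iff₀ hlp] at h1
    linarith
  refine ⟨P, hP0, hPconc, ?_, hlast⟩
  intro ρ hρ
  rcases hρ.eq_or_lt with h | hρpos
  · subst h
    rw [hP0]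
    refine (tendsto_const_nhds (x := (0:ℝ))).congr' ?_
    filter_upwards [eventually_gt_atTop 0] with L hL
    rw [zero_mul, Nat.floor_zero, h0 L hL]; simp
  -- continuity of P at ρ
  have hcontP : ContinuousAt P ρ := by
    have h1 : ContinuousOn P (interior (Set.Ici (0:ℝ))) :=
      (hPconc.subset interior_subset (convex_Ici 0).interior).continuousOn isOpen_interior
    rw [interior_Ici] at h1
    exact h1.continuousAt (Ioi_mem_nhds hρpos)
  rw [tendsto_order]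
  constructor
  · intro c hc
    obtain ⟨⟨ℓ, hℓ⟩, hℓ2⟩ := exists_lt_of_lt_ciSup hc
    have e1 : (1 / 2 : ℝ) * ρ + (1 - 1 / 2) * ρ = ρ := by ring
    have k := key_lemma a R0 hR0 hsup' hℓ (t := 1/2) (by norm_num) (by norm_num) hρ hρ
      (fun L => ⌊ρ * L ^ 3⌋₊) (by rw [e1]; exact hfloor ρ hρ) (c := c) (by
        simp only at hℓ2
        linarith)
    filter_upwards [k] with L hL
    rw [one_div_mul_eq_div]
    exact hL
  · intro c hc
    -- upper bound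
    have hσ : Tendsto (fun L : ℝ => (⌊ρ * L ^ 3⌋₊ : ℝ) / (L + R0) ^ 3) atTop (𝓝 ρ) := by
      have h1 := (hfloor ρ hρ).mul hratio'
      rw [mul_one] at h1
      refine h1.congr' ?_
      filter_upwards [eventually_gt_atTop 0] with L hL
      have : 0 < L + R0 := by linarith
      field_simp
    have h2 : Tendsto (fun L : ℝ => ((L + R0) / L) ^ 3 *
        P ((⌊ρ * L ^ 3⌋₊ : ℝ) / (L + R0) ^ 3)) atTop (𝓝 (1 * P ρ)) :=
      hratio.mul (hcontP.tendsto.comp hσ)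
    rw [one_mul] at h2
    filter_upwards [h2.eventually_lt_const hc, eventually_gt_atTop 0] with L hL hL0
    refine lt_of_le_of_lt ?_ hL
    have h3 := hlast L hL0 ⌊ρ * L ^ 3⌋₊
    rw [one_div_mul_eq_div, div_le_iff₀ (by positivity)]
    refine h3.trans (le_of_eq ?_)
    field_simp

lemma dist_ge_of_coord (x y : Pt) (k : Fin 3) {r : ℝ} (h : r ≤ |x k - y k|) : r ≤ dist x y := by
  refine h.trans ?_
  rw [dist_eq_norm]
  have := PiLp.norm_apply_le (x - y) k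
  simpa [Real.norm_eq_abs] using this

/-- coordinates of the index -/
def idx3 {m : ℕ} (i : Fin m × Fin m × Fin m) : Fin 3 → ℕ :=
  ![(i.1 : ℕ), (i.2.1 : ℕ), (i.2.2 : ℕ)]

lemma idx3_inj {m : ℕ} {i j : Fin m × Fin m × Fin m} (h : i ≠ j) : ∃ k, idx3 i k ≠ idx3 j k := by
  by_contra hcon
  push Not at hcon
  apply h
  have h0 := hcon 0
  have h1 := hcon 1
  have h2 := hcon 2
  simp only [idx3, Matrix.cons_val_zero, Matrix.cons_val_one, Matrix.cons_val] at h0 h1 h2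
  ext <;> assumption

lemma idx3_lt {m : ℕ} (i : Fin m × Fin m × Fin m) (k : Fin 3) : idx3 i k < m := by
  fin_cases k
  · simp [idx3]
  · simp [idx3]
  · simp [idx3]

/-- Supermultiplicativity of `ZL` for an admissible potential. -/
theorem ZL_supermul {v : ℝ → ℝ} {R0 : ℝ} (hR0 : 0 < R0) (hv : Adm v R0) {ℓ : ℝ} (hℓ : 0 < ℓ)
    (m : ℕ) (L : ℝ) (hL : (m : ℝ) * (ℓ + R0) ≤ L) (hL0 : 0 < L)
    (n : Fin m × Fin m × Fin m → ℕ) : ∏ i, ZL v ℓ (n i) ≤ ZL v L (∑ i, n i) := by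
  obtain ⟨B, hB⟩ := hv.stab
  have hu := goodPair_rad hv.meas
  let tr : Fin m × Fin m × Fin m → Pt := fun i =>
    WithLp.toLp 2 (fun k => (idx3 i k : ℝ) * (ℓ + R0))
  let Λ : Fin m × Fin m × Fin m → Set Pt := fun i => (fun x => tr i + x) '' cube ℓ
  have htr : ∀ i k, (tr i) k = (idx3 i k : ℝ) * (ℓ + R0) := fun i k => rfl
  have hmeas : ∀ i, MeasurableSet (Λ i) := fun i =>
    (Homeomorph.addLeft (tr i)).measurableEmbedding.measurableSet_image.2 (measurableSet_cube ℓ)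
  have hfar : ∀ i j, i ≠ j → ∀ x ∈ Λ i, ∀ y ∈ Λ j, R0 ≤ dist x y := by
    rintro i j hij _ ⟨x, hx, rfl⟩ _ ⟨y, hy, rfl⟩
    obtain ⟨k, hk⟩ := idx3_inj hij
    apply dist_ge_of_coord _ _ k
    have e1 : (tr i + x) k - (tr j + y) k =
        ((idx3 i k : ℝ) - idx3 j k) * (ℓ + R0) + (x k - y k) := by
      simp only [PiLp.add_apply, htr]; ring
    rw [e1]
    have hxk := hx k
    have hyk := hy k
    have hpos : 0 < ℓ + R0 := by positivity
    rcases lt_or_gt_of_ne hk with hlt | hgt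
    · have h1 : ((idx3 i k : ℝ)) + 1 ≤ idx3 j k := by exact_mod_cast hlt
      rw [abs_of_neg (by nlinarith)]
      nlinarith
    · have h1 : ((idx3 j k : ℝ)) + 1 ≤ idx3 i k := by exact_mod_cast hgt
      rw [abs_of_pos (by nlinarith)]
      nlinarith
  have hsub : (⋃ i ∈ (Finset.univ : Finset (Fin m × Fin m × Fin m)), Λ i) ⊆ cube L := by
    intro z hz
    simp only [Finset.mem_univ, Set.iUnion_true, Set.mem_iUnion] at hz
    obtain ⟨i, x, hx, rfl⟩ := hz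
    intro k
    have hxk := hx k
    have e1 : (tr i + x) k = (idx3 i k : ℝ) * (ℓ + R0) + x k := by
      simp only [PiLp.add_apply, htr]
    have h1 : ((idx3 i k : ℝ)) + 1 ≤ m := by exact_mod_cast idx3_lt i k
    have h0 : (0:ℝ) ≤ idx3 i k := Nat.cast_nonneg _
    simp only at *
    rw [e1]
    constructor
    · have := hxk.1
      positivity
    · have := hxk.2
      nlinarith
  have key := Z_biUnion_ge hu (Finset.univ : Finset (Fin m × Fin m × Fin m)) Λ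
    (fun i _ => hmeas i)
    (fun i _ j _ hij => by
      rw [Set.disjoint_left]
      intro x hxi hxj
      have := hfar i j hij x hxi x hxj
      rw [dist_self] at this
      linarith)
    (fun i _ j _ hij x hx y hy => hv.tail _ (hfar i j hij x hx y hy)) n
  have key2 := key.trans (Z_mono_set hsub _)
  have hfin : Z (rad v) (cube L) (∑ i, n i) ≠ ⊤ :=
    (Z_lt_top hB (measurableSet_cube L) (by rw [volume_cube hL0.le]; exact ENNReal.ofReal_lt_top)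
      _).ne
  have key3 := ENNReal.toReal_mono hfin key2
  rw [ENNReal.toReal_prod] at key3
  refine le_trans (le_of_eq ?_) key3
  apply Finset.prod_congr rfl
  intro i _
  unfold ZL
  simp only [Λ]
  rw [Z_translate]

theorem Pr_spec {v : ℝ → ℝ} {R0 : ℝ} (hR0 : 0 < R0) (hv : Adm v R0) :
    ∃ P : ℝ → ℝ, P 0 = 0 ∧ ConcaveOn ℝ (Set.Ici 0) P ∧
      (∀ ρ : ℝ, 0 ≤ ρ → Tendsto (fun L : ℝ => (1 / L ^ 3) * Real.log (ZL v L ⌊ρ * L ^ 3⌋₊))
        atTop (𝓝 (P ρ))) ∧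
      (∀ ℓ : ℝ, 0 < ℓ → ∀ n : ℕ,
        Real.log (ZL v ℓ n) ≤ (ℓ + R0) ^ 3 * P (n / (ℓ + R0) ^ 3)) := by
  obtain ⟨B, hB⟩ := hv.stab
  exact thermo_abstract (ZL v) R0 hR0.le (fun L hL N => ZL_pos hv.meas hB hL N)
    (fun L hL => by unfold ZL; rw [Z_zero]; simp)
    ⟨B, fun L hL N => ZL_le hB hL.le N⟩
    (fun ℓ hℓ m L hL hL0 n => ZL_supermul hR0 hv hℓ m L hL hL0 n)

theorem Pr_spec' {v : ℝ → ℝ} {R0 : ℝ} (hR0 : 0 < R0) (hv : Adm v R0) :
    Pr v 0 = 0 ∧ ConcaveOn ℝ (Set.Ici 0) (Pr v) ∧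
      (∀ ρ : ℝ, 0 ≤ ρ → Tendsto (fun L : ℝ => (1 / L ^ 3) * Real.log (ZL v L ⌊ρ * L ^ 3⌋₊))
        atTop (𝓝 (Pr v ρ))) ∧
      (∀ ℓ : ℝ, 0 < ℓ → ∀ n : ℕ,
        Real.log (ZL v ℓ n) ≤ (ℓ + R0) ^ 3 * Pr v (n / (ℓ + R0) ^ 3)) := by
  obtain ⟨P, h1, h2, h3, h4⟩ := Pr_spec hR0 hv
  have hP : ∀ ρ : ℝ, 0 ≤ ρ → Pr v ρ = P ρ := fun ρ hρ => (h3 ρ hρ).limUnder_eq
  refine ⟨by rw [hP 0 le_rfl, h1], h2.congr (fun ρ hρ => (hP ρ hρ).symm), ?_, ?_⟩
  · intro ρ hρ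
    rw [hP ρ hρ]; exact h3 ρ hρ
  · intro ℓ hℓ n
    rw [hP _ (by positivity)]; exact h4 ℓ hℓ n

theorem Pr_tendsto {v : ℝ → ℝ} {R0 : ℝ} (hR0 : 0 < R0) (hv : Adm v R0) {ρ : ℝ} (hρ : 0 ≤ ρ) :
    Tendsto (fun L : ℝ => (1 / L ^ 3) * Real.log (ZL v L ⌊ρ * L ^ 3⌋₊)) atTop (𝓝 (Pr v ρ)) :=
  (Pr_spec' hR0 hv).2.2.1 ρ hρ

theorem Pr_zero {v : ℝ → ℝ} {R0 : ℝ} (hR0 : 0 < R0) (hv : Adm v R0) : Pr v 0 = 0 :=
  (Pr_spec' hR0 hv).1

theorem Pr_concave {v : ℝ → ℝ} {R0 : ℝ} (hR0 : 0 < R0) (hv : Adm v R0) :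
    ConcaveOn ℝ (Set.Ici 0) (Pr v) :=
  (Pr_spec' hR0 hv).2.1

theorem log_ZL_le {v : ℝ → ℝ} {R0 : ℝ} (hR0 : 0 < R0) (hv : Adm v R0) {ℓ : ℝ} (hℓ : 0 < ℓ)
    (n : ℕ) : Real.log (ZL v ℓ n) ≤ (ℓ + R0) ^ 3 * Pr v (n / (ℓ + R0) ^ 3) :=
  (Pr_spec' hR0 hv).2.2.2 ℓ hℓ n

/-- Comparison: if `-E_v ≤ -E_v' + c(L,N)` on the cube and `c(L,⌊ρL³⌋)/L³ → c∞` then
`Pr v ρ ≤ Pr v' ρ + c∞`. -/
theorem Pr_le_of_energy {v v' : ℝ → ℝ} {R0 : ℝ} (hR0 : 0 < R0) (hv : Adm v R0) (hv' : Adm v' R0)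
    {ρ : ℝ} (hρ : 0 ≤ ρ) (c : ℝ → ℕ → ℝ) (cinf : ℝ)
    (hc : Tendsto (fun L : ℝ => (1 / L ^ 3) * c L ⌊ρ * L ^ 3⌋₊) atTop (𝓝 cinf))
    (h : ∀ L : ℝ, 1 ≤ L → ∀ N : ℕ, ∀ x : Fin N → Pt, (∀ i, x i ∈ cube L) →
      -(Eu (rad v) x) ≤ -(Eu (rad v') x) + c L N) :
    Pr v ρ ≤ Pr v' ρ + cinf := by
  obtain ⟨B, hB⟩ := hv.stab
  obtain ⟨B', hB'⟩ := hv'.stab
  refine le_of_tendsto_of_tendsto (Pr_tendsto hR0 hv hρ) ((Pr_tendsto hR0 hv' hρ).add hc) ?_
  filter_upwards [eventually_ge_atTop 1] with L hL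
  have hL0 : 0 < L := by linarith
  rw [← mul_add]
  refine mul_le_mul_of_nonneg_left ?_ (by positivity)
  set N := ⌊ρ * L ^ 3⌋₊
  have h1 := Z_le_of_energy (measurableSet_cube L) (n := N) (c := c L N) (h L hL N)
  have hfin' : Z (rad v') (cube L) N ≠ ⊤ :=
    (Z_lt_top hB' (measurableSet_cube L) (by rw [volume_cube hL0.le]; exact ENNReal.ofReal_lt_top)
      _).ne
  have h2 := ENNReal.toReal_mono (ENNReal.mul_ne_top ENNReal.ofReal_ne_top hfin') h1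
  rw [ENNReal.toReal_mul, ENNReal.toReal_ofReal (Real.exp_pos _).le] at h2
  have hp := ZL_pos hv.meas hB hL0 N
  have hp' := ZL_pos hv'.meas hB' hL0 N
  have h3 : Real.log (ZL v L N) ≤ Real.log (Real.exp (c L N) * ZL v' L N) :=
    Real.log_le_log hp h2
  rw [Real.log_mul (Real.exp_pos _).ne' hp'.ne', Real.log_exp] at h3
  linarith

theorem Adm_combo {v v' : ℝ → ℝ} {R0 : ℝ} (hv : Adm v R0) (hv' : Adm v' R0) {s t : ℝ}
    (hs : 0 ≤ s) (ht : 0 ≤ t) : Adm (fun r => s * v r + t * v' r) R0 := by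
  obtain ⟨B, hB⟩ := hv.stab
  obtain ⟨B', hB'⟩ := hv'.stab
  refine ⟨(hv.meas.const_mul s).add (hv'.meas.const_mul t), fun r hr => ?_,
    s * B + t * B', fun n x => ?_⟩
  · have h1 := mul_nonneg hs (neg_nonneg.2 (hv.tail r hr))
    have h2 := mul_nonneg ht (neg_nonneg.2 (hv'.tail r hr))
    linarith
  · have e1 : Eu (rad fun r => s * v r + t * v' r) x =
        s * Eu (rad v) x + t * Eu (rad v') x := by
      have e2 : (rad fun r => s * v r + t * v' r) =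
          fun a b => (s * rad v a b) + (t * rad v' a b) := rfl
      rw [e2, Eu_add, Eu_smul, Eu_smul]
    rw [e1]
    have h1 := mul_le_mul_of_nonneg_left (hB n x) hs
    have h2 := mul_le_mul_of_nonneg_left (hB' n x) ht
    linarith

/-- Convexity of the pressure in the potential. -/
theorem Pr_convex_pot {v v' : ℝ → ℝ} {R0 : ℝ} (hR0 : 0 < R0) (hv : Adm v R0) (hv' : Adm v' R0)
    {ρ : ℝ} (hρ : 0 ≤ ρ) {t : ℝ} (h0 : 0 ≤ t) (h1 : t ≤ 1) :
    Pr (fun r => (1 - t) * v r + t * v' r) ρ ≤ (1 - t) * Pr v ρ + t * Pr v' ρ := by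
  rcases h0.eq_or_lt with h | ht0
  · subst h; simp
  rcases h1.eq_or_lt with h | ht1
  · subst h; simp
  obtain ⟨B, hB⟩ := hv.stab
  obtain ⟨B', hB'⟩ := hv'.stab
  have hadm := Adm_combo hv hv' (s := 1 - t) (t := t) (by linarith) h0
  obtain ⟨B'', hB''⟩ := hadm.stab
  refine le_of_tendsto_of_tendsto (Pr_tendsto hR0 hadm hρ)
    (((Pr_tendsto hR0 hv hρ).const_mul (1 - t)).add ((Pr_tendsto hR0 hv' hρ).const_mul t)) ?_
  filter_upwards [eventually_ge_atTop 1] with L hL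
  have hL0 : 0 < L := by linarith
  set N := ⌊ρ * L ^ 3⌋₊
  have h2 := Z_holder (goodPair_rad hv.meas) (goodPair_rad hv'.meas) (cube L) N ht0 ht1
  have hvol : volume (cube L) < ⊤ := by rw [volume_cube hL0.le]; exact ENNReal.ofReal_lt_top
  have hfin : Z (rad v) (cube L) N ≠ ⊤ := (Z_lt_top hB (measurableSet_cube L) hvol _).ne
  have hfin' : Z (rad v') (cube L) N ≠ ⊤ := (Z_lt_top hB' (measurableSet_cube L) hvol _).ne
  have h3 := ENNReal.toReal_mono (ENNReal.mul_ne_top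
    (ENNReal.rpow_ne_top_of_nonneg (by linarith) hfin)
    (ENNReal.rpow_ne_top_of_nonneg ht0.le hfin')) h2
  rw [ENNReal.toReal_mul, ← ENNReal.toReal_rpow, ← ENNReal.toReal_rpow] at h3
  have hp := ZL_pos hv.meas hB hL0 N
  have hp' := ZL_pos hv'.meas hB' hL0 N
  have hp'' := ZL_pos hadm.meas hB'' hL0 N
  have h4 : Real.log (ZL (fun r => (1 - t) * v r + t * v' r) L N) ≤
      Real.log (ZL v L N ^ (1 - t) * ZL v' L N ^ t) := Real.log_le_log hp'' h3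
  rw [Real.log_mul (Real.rpow_pos_of_pos hp _).ne' (Real.rpow_pos_of_pos hp' _).ne',
    Real.log_rpow hp, Real.log_rpow hp'] at h4
  have h5 : (0:ℝ) ≤ 1 / L ^ 3 := by positivity
  have h6 := mul_le_mul_of_nonneg_left h4 h5
  linarith

end Crest.Agent.Kac
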